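import Crest.Agent.Lib.PolyTime.Bridge
import Crest.Prelude.Def_WordRAM

/-!
# Row 290: a polynomial-time interpreter for word-RAM programs

Plan. A program is coded as its list of instructions `(opcode, x, y, z)` (all unary; the program is fixed, so
unary literals are fine) together with `numRegs`. A coded configuration is
`(pc : ℕ, halted : Bool, regs : List ℤ, writes : List (ℤ × ℤ))`: registers in binary, memory as the input
bits overlaid by an association list (most recent first). The word length `wl` is unary, `2 ^ wl` is a binary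
integer (`PT.int_pow`). Bitwise `and/or/xor` on binary numbers: through `Nat.bits` lists (`natAbs_bits`,
`int_valMSB`, `Nat.testBit`), or `∑ i < wl, 2^i * op (a / 2^i % 2) (b / 2^i % 2)` for words `a, b < 2 ^ wl`;
shifts by `toNat_min`. Invariants: all registers and memory words are `< 2 ^ wl`, `pc` is bounded by
`T +` the largest literal, at most one write per step; this bounds the size of the state for `PT.iterate`
(to avoid invariants for junk codes reduce every written value `% 2 ^ wl` in the coded step; then show the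
reduction is the identity along real runs). The random stream is `0`. The output is `[1]` iff register `0`
is `1` and the memory at the address in register `1` is `1`.
-/

set_option autoImplicit false

namespace Crest.Agent.R290

open Crest.Agent.Lib.PolyTime Crest.WordRAM

/-- Codes of programs. -/
abbrev RP : Type := ℕ × List (ℕ × ℕ × ℕ × ℕ)

namespace RamSim

open Bin

theorem iterate_growth {α σ : Type} [Enc α] [Enc σ] {step : α → σ → σ}
    (hs : PT fun p : α × σ => step p.1 p.2) {n : α → ℕ} {s₀ : α → σ} (hn : PT n) (h₀ : PT s₀)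
    {G : α → ℕ} (hG : PB G) (hsz : ∀ a s, size (step a s) ≤ size s + G a) :
    PT fun a => (step a)^[n a] (s₀ a) := by
  refine PT.iterate hs hn h₀ (B := fun a => size (s₀ a) + n a * G a)
    ((PB.size h₀).add ((PB.of_PT hn).mul hG)) fun a i hi => ?_
  have : ∀ i, size ((step a)^[i] (s₀ a)) ≤ size (s₀ a) + i * G a := by
    intro i
    induction i with
    | zero => simp
    | succ i ih =>
      rw [Function.iterate_succ_apply']
      have := hsz a ((step a)^[i] (s₀ a))
      rw [Nat.succ_mul]; omega
  exact (this i).trans (Nat.add_le_add_left (Nat.mul_le_mul_right _ hi) _)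

/-- A unary number in binary. -/
def ofU (n : ℕ) : Bin := ⟨n⟩
/-- A power of two. -/
def pw (n : ℕ) : Bin := ⟨2 ^ n⟩
/-- Capped conversion to unary. -/
def toU (b : Bin) (n : ℕ) : ℕ := min b.val n
/-- Equality test. -/
def beq (a b : Bin) : Bool := decide (a.val = b.val)
/-- Bitwise operation. -/
def bw (φ : Bool → Bool → Bool) (a b : Bin) : Bin := ⟨Nat.bitwise φ a.val b.val⟩

section PTs

variable {α : Type} [Enc α]

@[fun_prop] theorem pt_ofU {n : α → ℕ} (hn : PT n) : PT fun a => ofU (n a) :=
  (PT.absB (PT.natCast hn)).of_eq fun a => by simp [absB, ofU]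

@[fun_prop] theorem pt_pw {n : α → ℕ} (hn : PT n) : PT fun a => pw (n a) :=
  (PT.absB (PT.int_pow (PT.const (2 : ℤ)) hn)).of_eq fun a => by simp [absB, pw, Int.natAbs_pow]

@[fun_prop] theorem pt_toU {b : α → Bin} {n : α → ℕ} (hb : PT b) (hn : PT n) :
    PT fun a => toU (b a) (n a) :=
  (PT.toNat_min (PT.ofSA (PT.const false) hb) hn).of_eq fun a => by simp [ofSA, toU]

@[fun_prop] theorem pt_beq {f g : α → Bin} (hf : PT f) (hg : PT g) :
    PT fun a => beq (f a) (g a) :=
  ((PT.bin_lt hf hg).not.and (PT.bin_lt hg hf).not).of_eq fun a => by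
    simp only [beq, Bin.lt]
    rcases lt_trichotomy (f a).val (g a).val with h | h | h
    · simp [h, h.ne]
    · simp [h]
    · simp [h, h.ne']

theorem testBit_valMSB (l : List Bool) (i : ℕ) :
    (valMSB l.reverse).testBit i = l.getD i false := by
  induction l generalizing i with
  | nil => simp [valMSB]
  | cons d l ih =>
    rw [List.reverse_cons, valMSB_append_single]
    have e : 2 * valMSB l.reverse + d.toNat = Nat.bit d (valMSB l.reverse) := by
      rw [Nat.bit_val]
    rw [e]
    cases i with
    | zero => simp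
    | succ i => rw [Nat.testBit_bit_succ, ih]; simp

theorem getD_bits (n i : ℕ) : n.bits.getD i false = n.testBit i := by
  rw [← testBit_valMSB, valMSB_bits_reverse]

theorem pt_bw (φ : Bool → Bool → Bool) (h0 : φ false false = false) {f g : α → Bin} (hf : PT f)
    (hg : PT g) : PT fun a => bw φ (f a) (g a) := by
  have hφ : PT fun p : Bool × Bool => φ p.1 p.2 :=
    (show PT fun p : Bool × Bool => bif p.1 then (bif p.2 then φ true true else φ true false)
      else (bif p.2 then φ false true else φ false false) by fun_prop).of_eq fun p => by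
      rcases p with ⟨_ | _, _ | _⟩ <;> rfl
  have h1 : PT fun p : α × ℕ => φ ((f p.1).bits.getD p.2 false) ((g p.1).bits.getD p.2 false) :=
    hφ.comp (g := fun p : α × ℕ => ((f p.1).bits.getD p.2 false, (g p.1).bits.getD p.2 false))
      (by fun_prop)
  have h2 : PT fun a => ((List.range ((f a).bits.length + (g a).bits.length)).map fun i =>
      φ ((f a).bits.getD i false) ((g a).bits.getD i false)) :=
    PT.map (f := fun a i => φ ((f a).bits.getD i false) ((g a).bits.getD i false)) h1 (by fun_prop)
  refine (PT.bin_ofMSB (PT.const ⟨0⟩) h2.reverse).of_eq fun a => ?_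
  have : (ofMSB ⟨0⟩ ((List.range ((f a).bits.length + (g a).bits.length)).map fun i =>
      φ ((f a).bits.getD i false) ((g a).bits.getD i false)).reverse).val =
      Nat.bitwise φ (f a).val (g a).val := by
    rw [ofMSB_val]
    simp only [Nat.zero_mul, Nat.zero_add]
    apply Nat.eq_of_testBit_eq
    intro i
    rw [testBit_valMSB, Nat.testBit_bitwise h0, ← getD_bits, ← getD_bits]
    by_cases hi : i < (f a).bits.length + (g a).bits.length
    · rw [List.getD_eq_getElem _ _ (by simpa using hi)]
      simp [Bin.bits]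
    · rw [List.getD_eq_default _ _ (by simpa using hi),
        List.getD_eq_default _ _ (by simp only [Bin.bits] at hi; omega),
        List.getD_eq_default _ _ (by simp only [Bin.bits] at hi; omega), h0]
  exact congrArg Bin.mk this

end PTs

/-- The value written by an instruction (before reduction). -/
def valB (w op y : ℕ) (a b m : Bin) : Bin :=
  if op = 0 then ofU y else if op = 1 then a else if op = 2 then a.add b
  else if op = 3 then a.sub b else if op = 4 then a.mul b else if op = 5 then a.div b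
  else if op = 6 then a.mod b else if op = 7 then bw and a b else if op = 8 then bw or a b
  else if op = 9 then bw bne a b
  else if op = 10 then (if toU b w < w then a.mul (pw (toU b w)) else ⟨0⟩)
  else if op = 11 then (if toU b w < w then a.div (pw (toU b w)) else ⟨0⟩)
  else if op = 12 then m else ⟨0⟩

@[fun_prop] theorem pt_valB {α : Type} [Enc α] {w op y : α → ℕ} {a b m : α → Bin} (hw : PT w)
    (hop : PT op) (hy : PT y) (ha : PT a) (hb : PT b) (hm : PT m) :
    PT fun t => valB (w t) (op t) (y t) (a t) (b t) (m t) := by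
  have h1 := pt_bw and rfl ha hb
  have h2 := pt_bw or rfl ha hb
  have h3 := pt_bw bne rfl ha hb
  unfold valB
  fun_prop

/-- Memory lookup. -/
def look (w : ℕ) (x : List Bool) (ws : List (Bin × Bin)) (a : Bin) : Bin :=
  ((ws.filter fun p => beq p.1 a).headD
    (a, (bif x.getD (toU a x.length) false then (⟨1⟩ : Bin) else ⟨0⟩).mod (pw w))).2

@[fun_prop] theorem pt_look {α : Type} [Enc α] {w : α → ℕ} {x : α → List Bool}
    {ws : α → List (Bin × Bin)} {a : α → Bin} (hw : PT w) (hx : PT x) (hws : PT ws) (ha : PT a) :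
    PT fun t => look (w t) (x t) (ws t) (a t) := by
  unfold look
  fun_prop

/-- Register update. -/
def setR (r w : ℕ) (R : List Bin) (d : ℕ) (v : Bin) : List Bin :=
  (List.range r).map fun j => (if j = d then v else R.getD j ⟨0⟩).mod (pw w)

@[fun_prop] theorem pt_setR {α : Type} [Enc α] {r w d : α → ℕ} {R : α → List Bin} {v : α → Bin}
    (hr : PT r) (hw : PT w) (hR : PT R) (hd : PT d) (hv : PT v) :
    PT fun t => setR (r t) (w t) (R t) (d t) (v t) := by
  unfold setR
  fun_prop

/-- Is the jump taken? -/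
def jmp (op : ℕ) (a b : Bin) : Bool :=
  decide (op = 15) || (decide (op = 16) && a.isZero) || (decide (op = 17) && beq a b) ||
    (decide (op = 18) && a.lt b)

@[fun_prop] theorem pt_jmp {α : Type} [Enc α] {op : α → ℕ} {a b : α → Bin} (hop : PT op)
    (ha : PT a) (hb : PT b) : PT fun t => jmp (op t) (a t) (b t) := by
  unfold jmp
  fun_prop

/-- Coded configurations. -/
abbrev St : Type := ℕ × Bool × List Bin × List (Bin × Bin)

/-- Execution of a coded instruction. -/
def exec (r w : ℕ) (x : List Bool) (i : ℕ × ℕ × ℕ × ℕ) (s : St) : St :=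
  (if i.1 = 19 then s.1 else
      bif jmp i.1 (s.2.2.1.getD i.2.1 ⟨0⟩) (s.2.2.1.getD i.2.2.1 ⟨0⟩) then i.2.2.2 else s.1 + 1,
    decide (i.1 = 19),
    if i.1 ≤ 13 then setR r w s.2.2.1 i.2.1 (valB w i.1 i.2.2.1 (s.2.2.1.getD i.2.2.1 ⟨0⟩)
      (s.2.2.1.getD i.2.2.2 ⟨0⟩) (look w x s.2.2.2 (s.2.2.1.getD i.2.2.1 ⟨0⟩))) else s.2.2.1,
    if i.1 = 14 then ((s.2.2.1.getD i.2.2.1 ⟨0⟩).mod (pw w), (s.2.2.1.getD i.2.1 ⟨0⟩).mod (pw w)) ::
      s.2.2.2 else s.2.2.2)

@[fun_prop] theorem pt_exec {α : Type} [Enc α] {r w : α → ℕ} {x : α → List Bool}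
    {i : α → ℕ × ℕ × ℕ × ℕ} {s : α → St} (hr : PT r) (hw : PT w) (hx : PT x) (hi : PT i)
    (hs : PT s) : PT fun t => exec (r t) (w t) (x t) (i t) (s t) := by
  unfold exec
  fun_prop

/-- One coded step. -/
def stepC (c : RP) (w : ℕ) (x : List Bool) (s : St) : St :=
  bif s.2.1 then s else exec c.1 w x (c.2.getD s.1 (19, 0, 0, 0)) s

/-- The coded initial configuration. -/
def initC (r w : ℕ) (x : List Bool) : St := (0, false, setR r w [] 0 (ofU x.length), [])

/-- Reading the answer. -/
def outC (w : ℕ) (x : List Bool) (s : St) : Bool :=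
  beq (s.2.2.1.getD 0 ⟨0⟩) ⟨1⟩ && beq (look w x s.2.2.2 (s.2.2.1.getD 1 ⟨0⟩)) ⟨1⟩

theorem size_mod_pw (a : Bin) (w : ℕ) : size (a.mod (pw w)) ≤ w := by
  rw [size_bin, Nat.size_le]
  exact Nat.mod_lt _ (by simp [pw])

theorem size_setR (r w : ℕ) (R : List Bin) (d : ℕ) (v : Bin) :
    size (setR r w R d v) ≤ r * (2 * w + 1) := by
  have := size_list_le (l := setR r w R d v) (m := w) (by
    intro a ha
    obtain ⟨j, -, rfl⟩ := List.mem_map.1 ha
    exact size_mod_pw _ _)
  simpa [setR] using this

theorem size_exec (r w : ℕ) (x : List Bool) (i : ℕ × ℕ × ℕ × ℕ) (s : St) :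
    size (exec r w x i s) ≤ size s + (2 * (i.2.2.2 + 1) + 2 * (r * (2 * w + 1)) + (6 * w + 3)) := by
  obtain ⟨pc, h, R, ws⟩ := s
  simp only [exec, size_prod, size_nat, size_bool]
  have h1 : (if i.1 = 19 then pc else
      bif jmp i.1 (R.getD i.2.1 ⟨0⟩) (R.getD i.2.2.1 ⟨0⟩) then i.2.2.2 else pc + 1) ≤
      pc + (i.2.2.2 + 1) := by
    split_ifs
    · omega
    · cases jmp i.1 (R.getD i.2.1 ⟨0⟩) (R.getD i.2.2.1 ⟨0⟩) <;> simp
      omega
  have h2 : size (if i.1 ≤ 13 then setR r w R i.2.1 (valB w i.1 i.2.2.1 (R.getD i.2.2.1 ⟨0⟩)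
      (R.getD i.2.2.2 ⟨0⟩) (look w x ws (R.getD i.2.2.1 ⟨0⟩))) else R) ≤
      size R + r * (2 * w + 1) := by
    split_ifs
    · exact (size_setR _ _ _ _ _).trans (Nat.le_add_left _ _)
    · omega
  have h3 : size (if i.1 = 14 then ((R.getD i.2.2.1 ⟨0⟩).mod (pw w), (R.getD i.2.1 ⟨0⟩).mod (pw w)) ::
      ws else ws) ≤ size ws + (6 * w + 3) := by
    split_ifs
    · rw [size_cons, size_prod]
      have := size_mod_pw (R.getD i.2.2.1 ⟨0⟩) w
      have := size_mod_pw (R.getD i.2.1 ⟨0⟩) w
      omega
    · omega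
  omega

theorem getD_le_size (l : List (ℕ × ℕ × ℕ × ℕ)) (k : ℕ) :
    (l.getD k (19, 0, 0, 0)).2.2.2 ≤ size l := by
  by_cases hk : k < l.length
  · rw [List.getD_eq_getElem _ _ hk]
    have := size_le_of_mem (List.getElem_mem hk)
    rw [size_prod', size_prod', size_prod', size_nat, size_nat, size_nat, size_nat] at this
    omega
  · rw [List.getD_eq_default _ _ (by omega)]
    simp

theorem pt_run : PT fun a : (RP × ℕ) × List Bool × ℕ =>
    (stepC a.1.1 a.1.2 a.2.1)^[a.2.2] (initC a.1.1.1 a.1.2 a.2.1) := by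
  refine iterate_growth (step := fun a : (RP × ℕ) × List Bool × ℕ => stepC a.1.1 a.1.2 a.2.1)
    ?_ (by fun_prop) ?_ (G := fun a => 2 * (size a.1.1.2 + 1) + 2 * (a.1.1.1 * (2 * a.1.2 + 1)) +
      (6 * a.1.2 + 3)) ?_ ?_
  · unfold stepC; fun_prop
  · unfold initC; fun_prop
  · exact PB.of_PT (by fun_prop)
  · intro a s
    unfold stepC
    cases s.2.1
    · refine (size_exec _ _ _ _ _).trans ?_
      have := getD_le_size a.1.1.2 s.1
      omega
    · simp

/-- Codes of instructions. -/
def code {r : ℕ} : Instr r → ℕ × ℕ × ℕ × ℕ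
  | .const d v => (0, d, v, 0)
  | .copy d s => (1, d, s, 0)
  | .add d a b => (2, d, a, b)
  | .sub d a b => (3, d, a, b)
  | .mul d a b => (4, d, a, b)
  | .quot d a b => (5, d, a, b)
  | .rem d a b => (6, d, a, b)
  | .and d a b => (7, d, a, b)
  | .or d a b => (8, d, a, b)
  | .xor d a b => (9, d, a, b)
  | .shl d a b => (10, d, a, b)
  | .shr d a b => (11, d, a, b)
  | .load d a => (12, d, a, 0)
  | .rand d => (13, d, 0, 0)
  | .store s a => (14, s, a, 0)
  | .jump l => (15, 0, 0, l)
  | .jumpIfZero a l => (16, a, 0, l)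
  | .jumpIfEq a b l => (17, a, b, l)
  | .jumpIfLt a b l => (18, a, b, l)
  | .halt => (19, 0, 0, 0)

/-- The simulation relation. -/
structure Rel {r : ℕ} (w : ℕ) (x : List Bool) (c : Cfg r) (s : St) : Prop where
  pc : s.1 = c.pc
  halted : s.2.1 = c.halted
  regs : ∀ k, (s.2.2.1.getD k ⟨0⟩).val = c.reg k
  mem : ∀ a : Bin, (look w x s.2.2.2 a).val = c.mem a.val
  rlt : ∀ j, c.regs j < 2 ^ w
  mlt : ∀ a, c.mem a < 2 ^ w

theorem getD_setR (r w : ℕ) (R : List Bin) (d : ℕ) (v : Bin) (k : ℕ) :
    ((setR r w R d v).getD k ⟨0⟩).val =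
      if k < r then (if k = d then v.val else (R.getD k ⟨0⟩).val) % 2 ^ w else 0 := by
  by_cases hk : k < r
  · rw [List.getD_eq_getElem _ _ (by simpa [setR] using hk), if_pos hk]
    simp only [setR, List.getElem_map, List.getElem_range, Bin.mod, pw]
    split_ifs <;> rfl
  · rw [List.getD_eq_default _ _ (by simpa [setR] using hk), if_neg hk]

theorem Rel.regs' {r w : ℕ} {x : List Bool} {c : Cfg r} {s : St} (h : Rel w x c s) (j : Fin r) :
    (s.2.2.1.getD j ⟨0⟩).val = c.regs j := by
  rw [h.regs]; simp [Cfg.reg]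

theorem Rel.write0 {r w : ℕ} {x : List Bool} {c : Cfg r} {s : St} (h : Rel w x c s)
    (d : Fin r) (v : ℕ) (V : Bin) (hv : V.val % 2 ^ w = v) (n : ℕ) :
    Rel w x ⟨c.pc + 1, false, writeReg c.regs d v, c.mem, n⟩
      (s.1 + 1, false, setR r w s.2.2.1 d V, s.2.2.2) where
  pc := by simp [h.pc]
  halted := rfl
  regs k := by
    simp only [getD_setR, Cfg.reg, writeReg]
    by_cases hk : k < r
    · simp only [hk, if_true, dif_pos, Fin.ext_iff]
      split_ifs with h1
      · exact hv
      · rw [h.regs]
        simp only [Cfg.reg, hk, dif_pos]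
        exact Nat.mod_eq_of_lt (h.rlt _)
    · simp [hk]
  mem := h.mem
  rlt j := by
    simp only [writeReg]
    split_ifs
    · rw [← hv]; exact Nat.mod_lt _ (by positivity)
    · exact h.rlt j
  mlt := h.mlt

theorem Rel.write {r w : ℕ} {x : List Bool} {c : Cfg r} {s : St} (h : Rel w x c s)
    (op : ℕ) (d : Fin r) (y z : ℕ) (hop : op ≤ 13) (v n : ℕ)
    (hv : (valB w op y (s.2.2.1.getD y ⟨0⟩) (s.2.2.1.getD z ⟨0⟩)
      (look w x s.2.2.2 (s.2.2.1.getD y ⟨0⟩))).val % 2 ^ w = v) :
    Rel w x ⟨c.pc + 1, false, writeReg c.regs d v, c.mem, n⟩ (exec r w x (op, d, y, z) s) := by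
  have h1 : op ≠ 19 := by omega
  have h2 : op ≠ 14 := by omega
  have h3 : op ≠ 15 := by omega
  have h4 : op ≠ 16 := by omega
  have h5 : op ≠ 17 := by omega
  have h6 : op ≠ 18 := by omega
  have := h.write0 d v _ hv n
  simpa only [exec, jmp, h1, h2, h3, h4, h5, h6, hop, if_true, if_false, decide_false,
    Bool.false_and, Bool.or_false, Bool.cond_false] using this

theorem Rel.jump {r w : ℕ} {x : List Bool} {c : Cfg r} {s : St} (h : Rel w x c s) (l : ℕ) :
    Rel w x ⟨l, false, c.regs, c.mem, c.drawn⟩ (l, false, s.2.2.1, s.2.2.2) :=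
  ⟨rfl, rfl, h.regs, h.mem, h.rlt, h.mlt⟩

theorem Rel.halt {r w : ℕ} {x : List Bool} {c : Cfg r} {s : St} (h : Rel w x c s) :
    Rel w x { c with halted := true } (s.1, true, s.2.2.1, s.2.2.2) :=
  ⟨h.pc, rfl, h.regs, h.mem, h.rlt, h.mlt⟩

theorem Rel.store {r w : ℕ} {x : List Bool} {c : Cfg r} {s : St} (h : Rel w x c s)
    (d a : Fin r) :
    Rel w x ⟨c.pc + 1, false, c.regs, writeMem c.mem (c.regs a) (c.regs d), c.drawn⟩
      (s.1 + 1, false, s.2.2.1,
        ((s.2.2.1.getD a ⟨0⟩).mod (pw w), (s.2.2.1.getD d ⟨0⟩).mod (pw w)) :: s.2.2.2) where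
  pc := by simp [h.pc]
  halted := rfl
  regs := h.regs
  mem b := by
    have e1 : ((s.2.2.1.getD a ⟨0⟩).mod (pw w)).val = c.regs a := by
      simp only [Bin.mod, pw, h.regs']; exact Nat.mod_eq_of_lt (h.rlt _)
    have e2 : ((s.2.2.1.getD d ⟨0⟩).mod (pw w)).val = c.regs d := by
      simp only [Bin.mod, pw, h.regs']; exact Nat.mod_eq_of_lt (h.rlt _)
    have hm := h.mem b
    simp only [look, writeMem] at hm ⊢
    by_cases hb : b.val = c.regs a
    · rw [List.filter_cons_of_pos (by simp only [beq, e1]; simpa using hb.symm), if_pos hb]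
      exact e2
    · rw [List.filter_cons_of_neg (by simp only [beq, e1]; simpa using Ne.symm hb), if_neg hb]
      exact hm
  rlt := h.rlt
  mlt b := by
    simp only [writeMem]
    split_ifs
    · exact h.rlt _
    · exact h.mlt _

theorem Rel.step {P : Program} {w : ℕ} {x : List Bool} {c : Cfg P.numRegs} {s : St}
    (h : Rel w x c s) :
    Rel w x (WordRAM.step P w (fun _ => 0) c) (stepC (P.numRegs, P.code.map code) w x s) := by
  unfold WordRAM.step stepC
  rw [h.halted]
  cases hc : c.halted
  swap
  · simpa using h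
  simp only [Bool.false_eq_true, if_false, Bool.cond_false]
  have e : (P.code.map code).getD s.1 (19, 0, 0, 0) =
      ((P.code[c.pc]?).map code).getD (19, 0, 0, 0) := by
    rw [h.pc, List.getD_eq_getElem?_getD, List.getElem?_map]
  rw [e]
  have hm : ∀ j, c.regs j % 2 ^ w = c.regs j := fun j => Nat.mod_eq_of_lt (h.rlt j)
  have hle : ∀ j v, v ≤ c.regs j → v % 2 ^ w = v := fun j v hv =>
    Nat.mod_eq_of_lt (hv.trans_lt (h.rlt j))
  rcases P.code[c.pc]? with _ | i
  · simpa [exec, jmp] using h.halt
  cases i with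
  | const d v =>
    refine h.write 0 d v 0 (by norm_num) _ _ ?_
    simp [valB, ofU]
  | copy d a =>
    refine h.write 1 d a 0 (by norm_num) _ _ ?_
    simp [-List.getD_eq_getElem?_getD, valB, h.regs', hm]
  | add d a b =>
    refine h.write 2 d a b (by norm_num) _ _ ?_
    simp [-List.getD_eq_getElem?_getD, valB, h.regs', Bin.add]
  | sub d a b =>
    refine h.write 3 d a b (by norm_num) _ _ ?_
    simp [-List.getD_eq_getElem?_getD, valB, h.regs', Bin.sub]
    exact hle a _ (Nat.sub_le _ _)
  | mul d a b =>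
    refine h.write 4 d a b (by norm_num) _ _ ?_
    simp [-List.getD_eq_getElem?_getD, valB, h.regs', Bin.mul]
  | quot d a b =>
    refine h.write 5 d a b (by norm_num) _ _ ?_
    simp [-List.getD_eq_getElem?_getD, valB, h.regs', Bin.div]
    exact hle a _ (Nat.div_le_self _ _)
  | rem d a b =>
    refine h.write 6 d a b (by norm_num) _ _ ?_
    simp [-List.getD_eq_getElem?_getD, valB, h.regs', Bin.mod]
    exact hle a _ (Nat.mod_le _ _)
  | and d a b =>
    refine h.write 7 d a b (by norm_num) _ _ ?_
    simp [-List.getD_eq_getElem?_getD, valB, h.regs', bw]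
    exact hle a _ Nat.and_le_left
  | or d a b =>
    refine h.write 8 d a b (by norm_num) _ _ ?_
    simp [-List.getD_eq_getElem?_getD, valB, h.regs', bw]
    exact Nat.mod_eq_of_lt (Nat.or_lt_two_pow (h.rlt a) (h.rlt b))
  | xor d a b =>
    refine h.write 9 d a b (by norm_num) _ _ ?_
    simp [-List.getD_eq_getElem?_getD, valB, h.regs', bw]
    exact Nat.mod_eq_of_lt (Nat.xor_lt_two_pow (h.rlt a) (h.rlt b))
  | shl d a b =>
    refine h.write 10 d a b (by norm_num) _ _ ?_
    by_cases hb : c.regs b < w
    · simp [-List.getD_eq_getElem?_getD, valB, h.regs', toU, hb, hb.le, Bin.mul, pw,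
        Nat.shiftLeft_eq]
    · simp [-List.getD_eq_getElem?_getD, valB, h.regs', toU, hb]
  | shr d a b =>
    refine h.write 11 d a b (by norm_num) _ _ ?_
    by_cases hb : c.regs b < w
    · simp [-List.getD_eq_getElem?_getD, valB, h.regs', toU, hb, hb.le, Bin.div, pw,
        Nat.shiftRight_eq_div_pow]
      exact hle a _ (Nat.div_le_self _ _)
    · simp [-List.getD_eq_getElem?_getD, valB, h.regs', toU, hb]
  | load d a =>
    refine h.write 12 d a 0 (by norm_num) _ _ ?_
    simp [-List.getD_eq_getElem?_getD, valB, h.regs', h.mem]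
    exact Nat.mod_eq_of_lt (h.mlt _)
  | store d a => simpa [exec, jmp, code] using h.store d a
  | jump l => simpa [exec, jmp, code] using h.jump l
  | jumpIfZero a l =>
    have := h.jump (if c.regs a = 0 then l else c.pc + 1)
    simp only [Option.map_some, Option.getD_some, code, exec, jmp, Bin.isZero, h.regs', h.pc]
    by_cases hb : c.regs a = 0 <;> simpa [hb] using this
  | jumpIfEq a b l =>
    have := h.jump (if c.regs a = c.regs b then l else c.pc + 1)
    simp only [Option.map_some, Option.getD_some, code, exec, jmp, beq, h.regs', h.pc]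
    by_cases hb : c.regs a = c.regs b <;> simpa [hb] using this
  | jumpIfLt a b l =>
    have := h.jump (if c.regs a < c.regs b then l else c.pc + 1)
    simp only [Option.map_some, Option.getD_some, code, exec, jmp, Bin.lt, h.regs', h.pc]
    by_cases hb : c.regs a < c.regs b <;> simpa [hb] using this
  | rand d =>
    refine h.write 13 d 0 0 (by norm_num) _ _ ?_
    simp [valB]
  | halt => simpa [exec, jmp, code] using h.halt

theorem rel_init (P : Program) (w : ℕ) (x : List Bool) :
    Rel w x (init P w (x.map fun b => if b then 1 else 0)) (initC P.numRegs w x) where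
  pc := rfl
  halted := rfl
  regs k := by
    simp only [initC, getD_setR, Cfg.reg, init, List.length_map, ofU]
    by_cases hk : k < P.numRegs
    · simp only [hk, if_true, dif_pos]
      split_ifs <;> simp
    · simp [hk]
  mem a := by
    simp only [initC, look, List.filter_nil, List.headD_nil, init, Bin.mod, pw, toU]
    congr 1
    by_cases ha : a.val < x.length
    · rw [min_eq_left ha.le, List.getD_eq_getElem _ _ ha]
      simp only [List.getElem?_map, List.getElem?_eq_getElem ha, Option.map_some, Option.getD_some]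
      cases x[a.val] <;> rfl
    · rw [min_eq_right (by omega), List.getD_eq_default _ _ le_rfl,
        List.getElem?_eq_none (by simpa using ha)]
      rfl
  rlt j := by
    simp only [init]
    split_ifs
    · exact Nat.mod_lt _ (by positivity)
    · positivity
  mlt a := Nat.mod_lt _ (by positivity)

theorem rel_run (P : Program) (w : ℕ) (x : List Bool) (T : ℕ) :
    Rel w x (run P w (fun _ => 0) (x.map fun b => if b then 1 else 0) T)
      ((stepC (P.numRegs, P.code.map code) w x)^[T] (initC P.numRegs w x)) := by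
  unfold run
  induction T with
  | zero => exact rel_init P w x
  | succ T ih =>
    rw [Function.iterate_succ_apply', Function.iterate_succ_apply']
    exact ih.step

theorem Rel.out {r w : ℕ} {x : List Bool} {c : Cfg r} {s : St} (h : Rel w x c s) :
    outC w x s = true ↔ c.output = [1] := by
  simp only [outC, beq, h.regs, h.mem, Bool.and_eq_true, decide_eq_true_eq, Cfg.output]
  constructor
  · rintro ⟨h1, h2⟩
    simp [h1, h2]
  · intro h1
    have h2 : c.reg 0 = 1 := by simpa using congrArg List.length h1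
    simpa [h2] using h1

end RamSim

theorem exists_simRAM : ∃ U : (RP × ℕ) × List Bool × ℕ → Bool, PT U ∧ ∀ P : Program, ∃ c : RP,
    ∀ (wl : ℕ) (x : List Bool) (T : ℕ), U ((c, wl), x, T) = true ↔
      (run P wl (fun _ => 0) (x.map fun b => if b then 1 else 0) T).output = [1] := by
  refine ⟨fun a => RamSim.outC a.1.2 a.2.1
    ((RamSim.stepC a.1.1 a.1.2 a.2.1)^[a.2.2] (RamSim.initC a.1.1.1 a.1.2 a.2.1)), ?_,
    fun P => ⟨(P.numRegs, P.code.map RamSim.code), fun wl x T => (RamSim.rel_run P wl x T).out⟩⟩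
  have h := RamSim.pt_run
  unfold RamSim.outC
  fun_prop

end Crest.Agent.R290
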