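import Crest.Agent.R290.GameB
import Crest.Agent.Lib.PolyTime.Bridge
import Crest.Agent.R290.Ram

/-!
# Row 290: deciding the pebble game by brute force, in time polynomial in a pad `≥ 2 ^ (n * n + n)`

Plan. Positions are numbers `p < 2 ^ (n * n)` (bit `v * n + w` says `(v, w) ∈ p`; unary numbers below the
pad, `testBit p i = decide (p / 2 ^ i % 2 = 1)` with `2 ^ i` obtained as `min pad` of an iterated doubling, or
represent positions as `List Bool` masks from the list of all masks). A family is a `List Bool` indexed by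
positions. Start with all partial isomorphisms; one round keeps `p` iff `p` is kept, all `q ⊆ p` are kept, and
`card p < K →` some permutation `f` (a list of length `n` with entries `< n`, injective; there are
`n ^ n ≤ 2 ^ (n * n)` such lists) has all `insert (v, f v) p` kept. The rounds are decreasing, so after
`2 ^ (n * n)` rounds the family is a fixed point; a fixed point containing `∅` is an `IsBP` family and every
`IsBP` family survives all rounds. It is convenient to prove correctness for an abstract operator on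
`Finset (Fin n × Fin n) → Prop` first.
-/

set_option autoImplicit false

namespace Crest.Agent.R290

open Crest.Agent.Lib.PolyTime

/-- The matrix read off a row-major bit list. -/
def mat (n : ℕ) (g : List Bool) : Fin n → Fin n → Bool := fun i j => g.getD (i * n + j) false

namespace BPA

open Finset

/-- All pairs below `n`. -/
def prs (n : ℕ) : List (ℕ × ℕ) := (List.range n).flatMap fun v => (List.range n).map fun w => (v, w)
/-- Membership of a pair in a coded position. -/
def bt (n p : ℕ) (a : ℕ × ℕ) : Bool := p.testBit (a.1 * n + a.2)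
/-- Adding a pair to a coded position. -/
def ins (pad n p : ℕ) (a : ℕ × ℕ) : ℕ := min (p ||| 2 ^ (a.1 * n + a.2)) pad
/-- Inclusion of coded positions. -/
def subm (n q p : ℕ) : Bool := (prs n).all fun a => !bt n q a || bt n p a
/-- Size of a coded position. -/
def cnt (n p : ℕ) : ℕ := ((prs n).filter fun a => bt n p a).length
/-- Partial bijections. -/
def pbij (n p : ℕ) : Bool := (prs n).all fun a => (prs n).all fun b =>
  !(bt n p a && bt n p b) || decide (decide (a.1 = b.1) = decide (a.2 = b.2))
/-- Adjacency is preserved. -/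
def padj (n : ℕ) (g h : List Bool) (p : ℕ) : Bool := (prs n).all fun a => (prs n).all fun b =>
  !(bt n p a && bt n p b) || decide (g.getD (a.1 * n + b.1) false = h.getD (a.2 * n + b.2) false)
/-- Graphs of permutations. -/
def isPerm (n c : ℕ) : Bool :=
  pbij n c && (List.range n).all fun v => (List.range n).any fun w => bt n c (v, w)
/-- The test of one round. -/
def keep (pad : ℕ) (K : ℤ) (n M : ℕ) (F : List Bool) (p : ℕ) : Bool :=
  F.getD p false && ((List.range M).all fun q => !subm n q p || F.getD q false) &&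
    (!decide ((cnt n p : ℤ) < K) || (List.range M).any fun c => isPerm n c &&
      (prs n).all fun a => !bt n c a || F.getD (ins pad n p a) false)
/-- One round. -/
def round (pad : ℕ) (K : ℤ) (n M : ℕ) (F : List Bool) : List Bool :=
  (List.range M).map (keep pad K n M F)
/-- The first family. -/
def start (n M : ℕ) (g h : List Bool) : List Bool :=
  (List.range M).map fun p => pbij n p && padj n g h p
/-- The number of positions, capped. -/
def cap (pad n : ℕ) : ℕ := min (2 ^ (n * n)) pad

section PTs

variable {α : Type} [Enc α]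

@[fun_prop] theorem pt_prs {n : α → ℕ} (hn : PT n) : PT fun t => prs (n t) := by
  unfold prs; fun_prop

@[fun_prop] theorem pt_bt {n p : α → ℕ} {a : α → ℕ × ℕ} (hn : PT n) (hp : PT p) (ha : PT a) :
    PT fun t => bt (n t) (p t) (a t) :=
  (show PT fun t => (RamSim.ofU (p t)).bits.getD ((a t).1 * n t + (a t).2) false by
    fun_prop).of_eq fun t => RamSim.getD_bits _ _

@[fun_prop] theorem pt_ins {pad n p : α → ℕ} {a : α → ℕ × ℕ} (hpad : PT pad) (hn : PT n)
    (hp : PT p) (ha : PT a) : PT fun t => ins (pad t) (n t) (p t) (a t) :=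
  RamSim.pt_toU (RamSim.pt_bw or rfl (RamSim.pt_ofU hp)
    (RamSim.pt_pw (n := fun t => (a t).1 * n t + (a t).2) (by fun_prop))) hpad

@[fun_prop] theorem pt_cap {pad n : α → ℕ} (hpad : PT pad) (hn : PT n) :
    PT fun t => cap (pad t) (n t) :=
  RamSim.pt_toU (RamSim.pt_pw (n := fun t => n t * n t) (by fun_prop)) hpad

@[fun_prop] theorem pt_subm {n q p : α → ℕ} (hn : PT n) (hq : PT q) (hp : PT p) :
    PT fun t => subm (n t) (q t) (p t) := by
  unfold subm; fun_prop

@[fun_prop] theorem pt_cnt {n p : α → ℕ} (hn : PT n) (hp : PT p) :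
    PT fun t => cnt (n t) (p t) := by
  unfold cnt; fun_prop

@[fun_prop] theorem pt_pbij {n p : α → ℕ} (hn : PT n) (hp : PT p) :
    PT fun t => pbij (n t) (p t) := by
  unfold pbij; fun_prop

@[fun_prop] theorem pt_padj {n p : α → ℕ} {g h : α → List Bool} (hn : PT n) (hg : PT g)
    (hh : PT h) (hp : PT p) : PT fun t => padj (n t) (g t) (h t) (p t) := by
  unfold padj; fun_prop

@[fun_prop] theorem pt_isPerm {n p : α → ℕ} (hn : PT n) (hp : PT p) :
    PT fun t => isPerm (n t) (p t) := by
  unfold isPerm; fun_prop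

@[fun_prop] theorem pt_keep {pad n M p : α → ℕ} {K : α → ℤ} {F : α → List Bool} (hpad : PT pad)
    (hK : PT K) (hn : PT n) (hM : PT M) (hF : PT F) (hp : PT p) :
    PT fun t => keep (pad t) (K t) (n t) (M t) (F t) (p t) := by
  unfold keep; fun_prop

@[fun_prop] theorem pt_round {pad n M : α → ℕ} {K : α → ℤ} {F : α → List Bool} (hpad : PT pad)
    (hK : PT K) (hn : PT n) (hM : PT M) (hF : PT F) :
    PT fun t => round (pad t) (K t) (n t) (M t) (F t) := by
  unfold round; fun_prop

@[fun_prop] theorem pt_start {n M : α → ℕ} {g h : α → List Bool} (hn : PT n) (hM : PT M)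
    (hg : PT g) (hh : PT h) : PT fun t => start (n t) (M t) (g t) (h t) := by
  unfold start; fun_prop

end PTs

theorem pt_run : PT fun a : ℕ × ℤ × ℕ × List Bool × List Bool =>
    (round a.1 a.2.1 a.2.2.1 (cap a.1 a.2.2.1))^[cap a.1 a.2.2.1]
      (start a.2.2.1 (cap a.1 a.2.2.1) a.2.2.2.1 a.2.2.2.2) := by
  refine PT.iterate
    (step := fun a : ℕ × ℤ × ℕ × List Bool × List Bool => round a.1 a.2.1 a.2.2.1 (cap a.1 a.2.2.1))
    (by fun_prop) (by fun_prop) (by fun_prop) (B := fun a => 3 * cap a.1 a.2.2.1)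
    (PB.of_PT (by fun_prop)) fun a i _ => ?_
  cases i with
  | zero => simp [size_list_bool, start]
  | succ i => rw [Function.iterate_succ_apply']; simp [size_list_bool, round]

/-! Correctness -/

theorem mem_prs {n : ℕ} {a : ℕ × ℕ} : a ∈ prs n ↔ a.1 < n ∧ a.2 < n := by
  obtain ⟨v, w⟩ := a
  simp [prs]

theorem nodup_prs (n : ℕ) : (prs n).Nodup :=
  List.Nodup.product List.nodup_range List.nodup_range

theorem all_prs {n : ℕ} {φ : ℕ × ℕ → Bool} :
    (prs n).all φ = true ↔ ∀ a : Fin n × Fin n, φ (a.1, a.2) = true := by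
  rw [List.all_eq_true]
  constructor
  · intro h a
    exact h _ (mem_prs.2 ⟨a.1.2, a.2.2⟩)
  · intro h a ha
    exact h (⟨a.1, (mem_prs.1 ha).1⟩, ⟨a.2, (mem_prs.1 ha).2⟩)

/-- The position with a given code. -/
def dec (n p : ℕ) : Finset (Fin n × Fin n) := univ.filter fun a => bt n p (a.1, a.2) = true

theorem mem_dec {n p : ℕ} {a : Fin n × Fin n} : a ∈ dec n p ↔ bt n p (a.1, a.2) = true := by
  simp [dec]

theorem dec_zero (n : ℕ) : dec n 0 = ∅ := by
  ext a; simp [mem_dec, bt]

theorem idx_lt {n : ℕ} (a : Fin n × Fin n) : (a.1 : ℕ) * n + a.2 < n * n := by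
  have h1 := a.1.2
  have h2 := a.2.2
  nlinarith

theorem idx_inj {n : ℕ} {a b : Fin n × Fin n} (h : (a.1 : ℕ) * n + a.2 = b.1 * n + b.2) : a = b := by
  have hn : 0 < n := a.1.pos
  have h1 := congrArg (· / n) h
  have h2 := congrArg (· % n) h
  simp only [Nat.mul_add_mod_self_right, Nat.mod_eq_of_lt a.2.2, Nat.mod_eq_of_lt b.2.2] at h2
  have h3 : (a.1 : ℕ) * n = b.1 * n := by omega
  exact Prod.ext (Fin.ext (Nat.eq_of_mul_eq_mul_right hn h3)) (Fin.ext h2)

theorem dec_or {n p : ℕ} (a : Fin n × Fin n) :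
    dec n (p ||| 2 ^ ((a.1 : ℕ) * n + a.2)) = insert a (dec n p) := by
  ext b
  simp only [mem_dec, mem_insert, bt, Nat.testBit_or, Nat.testBit_two_pow, Bool.or_eq_true,
    decide_eq_true_eq]
  constructor
  · rintro (h | h)
    · exact Or.inr h
    · exact Or.inl (idx_inj h).symm
  · rintro (rfl | h)
    · exact Or.inr rfl
    · exact Or.inl h

theorem or_lt {n p : ℕ} (hp : p < 2 ^ (n * n)) (a : Fin n × Fin n) :
    p ||| 2 ^ ((a.1 : ℕ) * n + a.2) < 2 ^ (n * n) :=
  Nat.or_lt_two_pow hp (Nat.pow_lt_pow_right (by norm_num) (idx_lt a))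

theorem exists_dec {n : ℕ} (P : Finset (Fin n × Fin n)) : ∃ p < 2 ^ (n * n), dec n p = P := by
  induction P using Finset.induction_on with
  | empty => exact ⟨0, by positivity, dec_zero n⟩
  | insert a P _ ih =>
    obtain ⟨p, hp, rfl⟩ := ih
    exact ⟨_, or_lt hp a, dec_or a⟩

theorem subm_iff {n q p : ℕ} : subm n q p = true ↔ dec n q ⊆ dec n p := by
  simp only [subm, all_prs, subset_iff, mem_dec, Bool.or_eq_true, Bool.not_eq_true']
  refine forall_congr' fun a => ?_
  cases bt n q (a.1, a.2) <;> simp

theorem cnt_eq (n p : ℕ) : cnt n p = (dec n p).card := by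
  rw [cnt, ← List.toFinset_card_of_nodup ((nodup_prs n).filter _)]
  symm
  refine card_bij (fun a _ => ((a.1 : ℕ), (a.2 : ℕ))) ?_ ?_ ?_
  · intro a ha
    simp only [List.mem_toFinset, List.mem_filter, mem_prs]
    exact ⟨⟨a.1.2, a.2.2⟩, mem_dec.1 ha⟩
  · intro a _ b _ h
    simp only [Prod.mk.injEq] at h
    exact Prod.ext (Fin.ext h.1) (Fin.ext h.2)
  · intro b hb
    simp only [List.mem_toFinset, List.mem_filter, mem_prs] at hb
    exact ⟨(⟨b.1, hb.1.1⟩, ⟨b.2, hb.1.2⟩), mem_dec.2 hb.2, rfl⟩

theorem pbij_iff {n p : ℕ} :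
    pbij n p = true ↔ ∀ a ∈ dec n p, ∀ b ∈ dec n p, (a.1 = b.1 ↔ a.2 = b.2) := by
  simp only [pbij, all_prs, mem_dec, Bool.or_eq_true, Bool.not_eq_true', decide_eq_true_eq,
    decide_eq_decide, Fin.val_inj]
  refine forall_congr' fun a => ?_
  cases bt n p (a.1, a.2)
  · simp
  · simp only [Bool.true_and, forall_const]
    refine forall_congr' fun b => ?_
    cases bt n p (b.1, b.2) <;> simp

theorem padj_iff {n p : ℕ} {g h : List Bool} :
    padj n g h p = true ↔ ∀ a ∈ dec n p, ∀ b ∈ dec n p, mat n g a.1 b.1 = mat n h a.2 b.2 := by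
  simp only [padj, all_prs, mem_dec, Bool.or_eq_true, Bool.not_eq_true', decide_eq_true_eq, mat]
  refine forall_congr' fun a => ?_
  cases bt n p (a.1, a.2)
  · simp
  · simp only [Bool.true_and, forall_const]
    refine forall_congr' fun b => ?_
    cases bt n p (b.1, b.2) <;> simp

theorem isPerm_iff {n c : ℕ} : isPerm n c = true ↔
    (∀ a ∈ dec n c, ∀ b ∈ dec n c, (a.1 = b.1 ↔ a.2 = b.2)) ∧ ∀ v, ∃ w, (v, w) ∈ dec n c := by
  simp only [isPerm, Bool.and_eq_true, pbij_iff, List.all_eq_true, List.any_eq_true,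
    List.mem_range]
  refine and_congr_right fun _ => ⟨fun h v => ?_, fun h v hv => ?_⟩
  · obtain ⟨w, hw, h1⟩ := h v v.2
    exact ⟨⟨w, hw⟩, mem_dec.2 h1⟩
  · obtain ⟨w, hw⟩ := h ⟨v, hv⟩
    exact ⟨w, w.2, mem_dec.1 hw⟩

theorem keep_iff {pad K n : ℕ} (hpad : 2 ^ (n * n) ≤ pad) {F : List Bool} {p : ℕ}
    (hp : p < 2 ^ (n * n)) :
    keep pad K n (2 ^ (n * n)) F p = true ↔ F.getD p false = true ∧
      (∀ q < 2 ^ (n * n), dec n q ⊆ dec n p → F.getD q false = true) ∧
      ((dec n p).card < K → ∃ f : Fin n ≃ Fin n, ∀ v : Fin n,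
        F.getD (p ||| 2 ^ ((v : ℕ) * n + f v)) false = true) := by
  have hins : ∀ a : Fin n × Fin n, ins pad n p (a.1, a.2) = p ||| 2 ^ ((a.1 : ℕ) * n + a.2) :=
    fun a => min_eq_left ((or_lt hp a).le.trans hpad)
  simp only [keep, Bool.and_eq_true, and_assoc]
  refine and_congr_right fun _ => and_congr ?_ ?_
  · simp only [List.all_eq_true, List.mem_range, ← subm_iff]
    refine forall_congr' fun q => forall_congr' fun _ => ?_
    cases subm n q p <;> simp
  · rw [cnt_eq]
    by_cases hK : (dec n p).card < K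
    swap
    · simp [hK]
    simp only [Nat.cast_lt, hK, decide_true, Bool.not_true, Bool.false_or, List.any_eq_true,
      List.mem_range, Bool.and_eq_true, isPerm_iff, all_prs, hins, forall_const]
    constructor
    · rintro ⟨c, -, ⟨h1, h2⟩, h3⟩
      choose f hf using h2
      have hinj : Function.Injective f := fun v v' e => (h1 _ (hf v) _ (hf v')).2 e
      refine ⟨Equiv.ofBijective f (Finite.injective_iff_bijective.1 hinj), fun v => ?_⟩
      have := h3 (v, f v)
      rw [mem_dec.1 (hf v)] at this
      simpa using this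
    · rintro ⟨f, hf⟩
      obtain ⟨c, hc, e⟩ := exists_dec (univ.image fun v : Fin n => (v, f v))
      refine ⟨c, hc, ⟨?_, fun v => ⟨f v, by simp [e]⟩⟩, fun a => ?_⟩
      · rw [e]
        simp only [mem_image, mem_univ, true_and]
        rintro _ ⟨v, rfl⟩ _ ⟨w, rfl⟩
        simp
      · cases ha : bt n c (a.1, a.2)
        · rfl
        · have := mem_dec.2 ha
          rw [e] at this
          simp only [mem_image, mem_univ, true_and] at this
          obtain ⟨v, rfl⟩ := this
          simpa using hf v

theorem getD_map_range (M : ℕ) (φ : ℕ → Bool) (p : ℕ) :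
    ((List.range M).map φ).getD p false = true ↔ p < M ∧ φ p = true := by
  by_cases hp : p < M
  · rw [List.getD_eq_getElem _ _ (by simpa using hp)]; simp [hp]
  · rw [List.getD_eq_default _ _ (by simpa using hp)]; simp [hp]

theorem stab {M : ℕ} (S : ℕ → Finset ℕ) (hsub : ∀ t, S (t + 1) ⊆ S t)
    (hst : ∀ t, S (t + 1) = S t → S (t + 2) = S (t + 1)) (hM : (S 0).card ≤ M) :
    S (M + 1) = S M := by
  have key : ∀ t, S (t + 1) = S t ∨ (S (t + 1)).card + t + 1 ≤ M := by
    intro t
    induction t with
    | zero =>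
      by_cases h : S 1 = S 0
      · exact Or.inl h
      · have := card_lt_card (ssubset_of_subset_of_ne (hsub 0) h)
        right; simp only [zero_add] at this ⊢; omega
    | succ t ih =>
      rcases ih with h | h
      · exact Or.inl (hst t h)
      · by_cases h' : S (t + 1 + 1) = S (t + 1)
        · exact Or.inl h'
        · have := card_lt_card (ssubset_of_subset_of_ne (hsub (t + 1)) h')
          right; omega
  rcases key M with h | h
  · exact h
  · omega

theorem correct {pad K n : ℕ} (hpad : 2 ^ (n * n) ≤ pad) (g h : List Bool) :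
    ((round pad K n (2 ^ (n * n)))^[2 ^ (n * n)] (start n (2 ^ (n * n)) g h)).getD 0 false = true ↔
      BP K (mat n g) (mat n h) := by
  set M := 2 ^ (n * n) with hM
  let fam : ℕ → List Bool := fun t => (round pad K n M)^[t] (start n M g h)
  have hsucc : ∀ t, fam (t + 1) = round pad K n M (fam t) := fun t =>
    Function.iterate_succ_apply' _ _ _
  have hlen : ∀ t, (fam t).length = M := by
    intro t
    cases t with
    | zero => simp [fam, start]
    | succ t => rw [hsucc]; simp [round]
  have hstep : ∀ t p, (fam (t + 1)).getD p false = true ↔ p < M ∧ keep pad K n M (fam t) p = true := by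
    intro t p
    rw [hsucc, round, getD_map_range]
  have hdec : ∀ t p, (fam (t + 1)).getD p false = true → (fam t).getD p false = true := by
    intro t p hp
    rw [hstep] at hp
    exact ((keep_iff hpad hp.1).1 hp.2).1
  have h0 : ∀ t p, (fam t).getD p false = true → (fam 0).getD p false = true := by
    intro t
    induction t with
    | zero => exact fun _ hp => hp
    | succ t ih => exact fun p hp => ih p (hdec t p hp)
  have hz : ∀ p, (fam 0).getD p false = true ↔ p < M ∧ (pbij n p && padj n g h p) = true :=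
    fun p => getD_map_range _ _ _
  change (fam M).getD 0 false = true ↔ _
  constructor
  · intro hz0
    let S : ℕ → Finset ℕ := fun t => (range M).filter fun p => (fam t).getD p false = true
    have hfix : S (M + 1) = S M := by
      refine stab S (fun t p hp => ?_) (fun t ht => ?_) ?_
      · simp only [S, mem_filter] at hp ⊢
        exact ⟨hp.1, hdec t p hp.2⟩
      · have e : fam (t + 1) = fam t := by
          refine List.ext_getElem (by rw [hlen, hlen]) fun p h1 h2 => ?_
          have hp : p < M := by rwa [hlen] at h1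
          have := Finset.ext_iff.1 ht p
          simp only [S, mem_filter, mem_range, hp, true_and] at this
          rw [List.getD_eq_getElem _ _ h1, List.getD_eq_getElem _ _ h2] at this
          exact Bool.eq_iff_iff.2 this
        have e2 : fam (t + 2) = fam (t + 1) := by rw [hsucc (t + 1), e, ← hsucc, e]
        simp only [S, e2]
      · exact (card_filter_le _ _).trans (by simp)
    have hk : ∀ p < M, (fam M).getD p false = true → keep pad K n M (fam M) p = true := by
      intro p hp h1
      have := (Finset.ext_iff.1 hfix p).2 (by simp only [S, mem_filter, mem_range]; exact ⟨hp, h1⟩)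
      simp only [S, mem_filter] at this
      exact ((hstep M p).1 this.2).2
    refine ⟨fun P => ∃ p < M, dec n p = P ∧ (fam M).getD p false = true,
      ⟨0, by positivity, dec_zero n, hz0⟩, ?_, ?_, ?_, ?_⟩
    · rintro _ Q ⟨p, hp, rfl, h1⟩ hQ
      obtain ⟨q, hq, rfl⟩ := exists_dec Q
      exact ⟨q, hq, rfl, ((keep_iff hpad hp).1 (hk p hp h1)).2.1 q hq hQ⟩
    · rintro _ a b ⟨p, hp, rfl, h1⟩ ha hb
      have := ((hz p).1 (h0 M p h1)).2
      rw [Bool.and_eq_true] at this
      exact pbij_iff.1 this.1 a ha b hb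
    · rintro _ a b ⟨p, hp, rfl, h1⟩ ha hb
      have := ((hz p).1 (h0 M p h1)).2
      rw [Bool.and_eq_true] at this
      exact padj_iff.1 this.2 a ha b hb
    · rintro _ ⟨p, hp, rfl, h1⟩ hK
      obtain ⟨f, hf⟩ := ((keep_iff hpad hp).1 (hk p hp h1)).2.2 hK
      exact ⟨f, fun v => ⟨_, or_lt hp (v, f v), dec_or (v, f v), hf v⟩⟩
  · rintro ⟨F, hF⟩
    have key : ∀ t, ∀ p < M, F (dec n p) → (fam t).getD p false = true := by
      intro t
      induction t with
      | zero =>
        intro p hp h1
        rw [hz, Bool.and_eq_true, pbij_iff, padj_iff]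
        exact ⟨hp, fun a ha b hb => hF.eq h1 ha hb, fun a ha b hb => hF.adj h1 ha hb⟩
      | succ t ih =>
        intro p hp h1
        rw [hstep, keep_iff hpad hp]
        refine ⟨hp, ih p hp h1, fun q hq hs => ih q hq (hF.sub h1 hs), fun hK => ?_⟩
        obtain ⟨f, hf⟩ := hF.ext h1 hK
        exact ⟨f, fun v => ih _ (or_lt hp (v, f v)) (by rw [dec_or (v, f v)]; exact hf v)⟩
    exact key M 0 (by positivity) (by rw [dec_zero]; exact hF.empty)

end BPA

theorem exists_bpAlg : ∃ A : ℕ × ℤ × ℕ × List Bool × List Bool → Bool, PT A ∧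
    ∀ (pad K n : ℕ) (g h : List Bool), 2 ^ (n * n + n) ≤ pad →
      (A (pad, (K : ℤ), n, g, h) = true ↔ BP K (mat n g) (mat n h)) := by
  refine ⟨fun a => ((BPA.round a.1 a.2.1 a.2.2.1 (BPA.cap a.1 a.2.2.1))^[BPA.cap a.1 a.2.2.1]
      (BPA.start a.2.2.1 (BPA.cap a.1 a.2.2.1) a.2.2.2.1 a.2.2.2.2)).getD 0 false,
    PT.getD BPA.pt_run (PT.const 0) (PT.const false), fun pad K n g h hpad => ?_⟩
  have h1 : 2 ^ (n * n) ≤ pad := (Nat.pow_le_pow_right (by norm_num) (Nat.le_add_right _ _)).trans hpad
  have h2 : BPA.cap pad n = 2 ^ (n * n) := min_eq_left h1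
  simp only [h2]
  exact BPA.correct h1 g h

end Crest.Agent.R290
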