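import Crest.Agent.R290.CSys

/-!
# Row 290: the coded lift is a lift; general facts on lifts
-/

set_option autoImplicit false
set_option linter.unusedSectionVars false

namespace Crest.Agent.R290

open Finset Crest.Agent.Lib.PolyTime Crest.WLRefine

section General

variable {τ ν C : Type} [DecidableEq τ] [DecidableEq ν] [DecidableEq C] {B : Base τ ν C}
  {β : τ → ZMod 2}

theorem Lift.isSimple {n : ℕ} {G : Fin n → Fin n → Bool} (L : Lift B β G)
    (hs : ∀ c c', B.adj c c' = B.adj c' c) (hi : ∀ c, B.adj c c = false) : IsSimple G := by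
  refine ⟨fun v w => ?_, fun v => ?_⟩
  · rw [Bool.eq_iff_iff, L.adj, L.adj, hs, inter_comm]
    exact and_congr_right fun _ => forall₂_congr fun _ _ => eq_comm
  · cases h : G v v
    · rfl
    · have := ((L.adj v v).1 h).1
      rw [hi] at this
      cases this

/-- The vertices of class `c` with prescribed values on `T ⊆ S c`: at most `2 ^ (S c \ T).card`
(inject into `(S c \ T) → ZMod 2`). -/
theorem Lift.card_le {V : Type} [Fintype V] [DecidableEq V] {G : V → V → Bool} (L : Lift B β G)
    (c : C) (T : Finset ν) (a : ν → ZMod 2) :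
    (univ.filter fun v => L.cls v = c ∧ ∀ y ∈ T ∩ B.S c, L.val v y = a y).card ≤
      2 ^ (B.S c \ T).card := by
  have h : (univ : Finset (↥(B.S c \ T) → ZMod 2)).card = 2 ^ (B.S c \ T).card := by
    rw [card_univ, Fintype.card_fun, ZMod.card, Fintype.card_coe]
  rw [← h]
  refine card_le_card_of_injOn (fun v y => L.val v y) (fun _ _ => mem_coe.2 (mem_univ _)) ?_
  intro v hv w hw hvw
  obtain ⟨h1, h2⟩ := (mem_filter.1 (mem_coe.1 hv)).2
  obtain ⟨h3, h4⟩ := (mem_filter.1 (mem_coe.1 hw)).2
  refine L.inj v w (h1.trans h3.symm) fun y hy => ?_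
  rw [h1] at hy
  by_cases hT : y ∈ T
  · rw [h2 y (mem_inter.2 ⟨hT, hy⟩), h4 y (mem_inter.2 ⟨hT, hy⟩)]
  · exact congrFun hvw ⟨y, mem_sdiff.2 ⟨hy, hT⟩⟩

/-- The number of assignments on a nonempty finite set with a given parity. -/
theorem card_parity {ι : Type} [Fintype ι] [DecidableEq ι] [Nonempty ι] (b : ZMod 2) :
    (univ.filter fun a : ι → ZMod 2 => ∑ y, a y = b).card = 2 ^ (Fintype.card ι - 1) := by
  obtain ⟨y₀⟩ := ‹Nonempty ι›
  have h1 : ∀ b b' : ZMod 2, (univ.filter fun a : ι → ZMod 2 => ∑ y, a y = b).card ≤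
      (univ.filter fun a : ι → ZMod 2 => ∑ y, a y = b').card := fun b b' => by
    refine card_le_card_of_injOn (fun a => a + Pi.single y₀ (b' - b)) (fun a ha => ?_)
      fun a _ a' _ h => add_right_cancel h
    have := (mem_filter.1 (mem_coe.1 ha)).2
    refine mem_coe.2 (mem_filter.2 ⟨mem_univ _, ?_⟩)
    simp only [Pi.add_apply, sum_add_distrib, this, sum_pi_single', mem_univ, if_true]
    ring
  have h2 := card_eq_sum_card_fiberwise (s := (univ : Finset (ι → ZMod 2)))
    (t := (univ : Finset (ZMod 2))) (f := fun a => ∑ y, a y) fun _ _ => mem_coe.2 (mem_univ _)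
  rw [sum_congr rfl fun b' _ => le_antisymm (h1 b' b) (h1 b b'), sum_const, card_univ, card_univ,
    Fintype.card_fun, ZMod.card, smul_eq_mul] at h2
  have h3 : Fintype.card ι = Fintype.card ι - 1 + 1 :=
    (Nat.sub_add_cancel (Fintype.card_pos_iff.2 ⟨y₀⟩)).symm
  rw [h3, pow_succ] at h2
  omega

/-- Exact class sizes. -/
theorem Lift.card_cls {V : Type} [Fintype V] [DecidableEq V] {G : V → V → Bool} (L : Lift B β G)
    {c : C} (hc : c ∈ B.Cl) (hne : B.con c ≠ none → (B.S c).Nonempty) :
    (univ.filter fun v => L.cls v = c).card =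
      if B.con c = none then 2 ^ (B.S c).card else 2 ^ ((B.S c).card - 1) := by
  have h : (univ.filter fun v => L.cls v = c).card =
      (univ.filter fun a : ↥(B.S c) → ZMod 2 => ∀ u, B.con c = some u → ∑ y, a y = β u).card := by
    refine card_bij (fun v _ y => L.val v y) (fun v hv => ?_) (fun v hv w hw hvw => ?_)
      fun a ha => ?_
    · have h1 := (mem_filter.1 hv).2
      subst h1
      refine mem_filter.2 ⟨mem_univ _, fun u hu => ?_⟩
      rw [← L.par v u hu]
      exact sum_coe_sort _ _
    · have h1 := (mem_filter.1 hv).2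
      have h2 := (mem_filter.1 hw).2
      refine L.inj v w (h1.trans h2.symm) fun y hy => ?_
      rw [h1] at hy
      exact congrFun hvw ⟨y, hy⟩
    · obtain ⟨v, h1, h2⟩ := L.surj c hc (fun y => if h : y ∈ B.S c then a ⟨y, h⟩ else 0)
        fun u hu => by
          rw [← (mem_filter.1 ha).2 u hu, ← sum_coe_sort]
          exact sum_congr rfl fun y _ => dif_pos y.2
      refine ⟨v, mem_filter.2 ⟨mem_univ _, h1⟩, funext fun y => ?_⟩
      rw [h2 y y.2, dif_pos y.2]
  rw [h]
  cases hu : B.con c with
  | none =>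
    rw [if_pos rfl, filter_true_of_mem fun _ _ _ h => by cases h]
    rw [card_univ, Fintype.card_fun, ZMod.card, Fintype.card_coe]
  | some u =>
    have hne' := hne (by rw [hu]; simp)
    haveI : Nonempty ↥(B.S c) := hne'.to_subtype
    rw [if_neg (by simp), ← Fintype.card_coe (B.S c), ← card_parity (β u)]
    congr 1
    refine filter_congr fun a _ => ⟨fun h => h u rfl, fun h u' hu' => ?_⟩
    cases hu'
    exact h

end General

theorem mem_bitLists {d : ℕ} {l : List Bool} : l ∈ bitLists d ↔ l.length = d := by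
  induction d generalizing l with
  | zero => simp [bitLists]
  | succ d ih =>
    simp only [bitLists, List.mem_flatMap, ih]
    constructor
    · rintro ⟨l', rfl, h⟩
      simp only [List.mem_cons, List.not_mem_nil, or_false] at h
      rcases h with rfl | rfl <;> rfl
    · intro h
      match l, h with
      | b :: l', h => exact ⟨l', by simpa using h, by cases b <;> simp⟩

theorem nodup_bitLists (d : ℕ) : (bitLists d).Nodup := by
  induction d with
  | zero => simp [bitLists]
  | succ d ih =>
    refine List.nodup_flatMap.2 ⟨fun l _ => by simp, ih.imp fun {l l'} h => ?_⟩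
    simp [Function.onFun, h.symm]

theorem mem_allB {l : List Bool} : l ∈ allB ↔ l.length ≤ 9 := by
  simp only [allB, List.mem_flatMap, List.mem_range, mem_bitLists]
  exact ⟨fun ⟨_, h, e⟩ => by omega, fun h => ⟨_, by omega, rfl⟩⟩

theorem nodup_allB : allB.Nodup := by
  refine List.nodup_flatMap.2 ⟨fun d _ => nodup_bitLists d, List.nodup_range.imp fun {d d'} h => ?_⟩
  intro l h1 h2
  exact h ((mem_bitLists.1 h1).symm.trans (mem_bitLists.1 h2))

theorem look_getElem {S : List ℕ} (hS : S.Nodup) (a : List Bool) {i : ℕ} (hi : i < S.length) :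
    look S a S[i] = a.getD i false := by
  rw [Bool.eq_iff_iff]
  simp only [look, List.any_eq_true, List.mem_range, Bool.and_eq_true, decide_eq_true_eq]
  constructor
  · rintro ⟨j, hj, h1, h2⟩
    rw [List.getD_eq_getElem _ _ hj, hS.getElem_inj_iff] at h1
    exact h1 ▸ h2
  · exact fun h => ⟨i, hi, List.getD_eq_getElem _ _ hi, h⟩

theorem map_look {S : List ℕ} (hS : S.Nodup) {a : List Bool} (ha : a.length = S.length) :
    S.map (look S a) = a := by
  refine List.ext_getElem (by simp [ha]) fun i h1 h2 => ?_
  rw [List.getElem_map, look_getElem hS, List.getD_eq_getElem _ _ h2]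

theorem look_map {S : List ℕ} (hS : S.Nodup) (f : ℕ → Bool) {y : ℕ} (hy : y ∈ S) :
    look S (S.map f) y = f y := by
  obtain ⟨i, hi, rfl⟩ := List.getElem_of_mem hy
  rw [look_getElem hS, List.getD_eq_getElem _ _ (by simpa using hi), List.getElem_map]

theorem sum_map_bit (a : List Bool) :
    (a.map fun b => if b then (1 : ZMod 2) else 0).sum = ((a.filter fun b => b).length : ZMod 2) := by
  induction a with
  | nil => simp
  | cons b a ih => cases b <;> simp [ih, add_comm]

theorem sum_look {S : List ℕ} (hS : S.Nodup) {a : List Bool} (ha : a.length = S.length) :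
    ∑ y ∈ S.toFinset, (if look S a y then (1 : ZMod 2) else 0) =
      ((a.filter fun b => b).length : ZMod 2) := by
  rw [List.sum_toFinset _ hS, ← sum_map_bit]
  conv_rhs => rw [← map_look hS ha, List.map_map]
  rfl

theorem par_iff (n : ℕ) (b : Bool) :
    n % 2 = b.toNat ↔ (n : ZMod 2) = if b then 1 else 0 := by
  rw [← ZMod.natCast_mod n 2]
  rcases Nat.mod_two_eq_zero_or_one n with h | h <;> rw [h] <;> cases b <;> decide

theorem bit_inj {b b' : Bool} :
    ((if b then 1 else 0 : ZMod 2) = if b' then 1 else 0) ↔ b = b' := by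
  cases b <;> cases b' <;> decide

namespace CBase

variable {N : Type} [DecidableEq N] {B : CBase N}

omit [DecidableEq N] in
theorem mem_verts (hB : B.OK) {par : ℕ → Bool} {x : N × List Bool} :
    x ∈ B.verts par ↔ x.1 ∈ B.names ∧ x.2.length = (B.S x.1).length ∧
      (B.con x.1 = 0 ∨ (x.2.filter fun b => b).length % 2 = (par (B.con x.1 - 1)).toNat) := by
  simp only [verts, List.mem_flatMap, List.mem_map, List.mem_filter, mem_allB, Bool.and_eq_true,
    Bool.or_eq_true, decide_eq_true_eq]
  constructor
  · rintro ⟨c, hc, a, ⟨-, h⟩, rfl⟩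
    exact ⟨hc, h⟩
  · rintro ⟨hc, h⟩
    exact ⟨x.1, hc, x.2, ⟨h.1 ▸ (hB.2 _ hc).2.1, h⟩, rfl⟩

omit [DecidableEq N] in
theorem nodup_verts (hB : B.OK) (par : ℕ → Bool) : (B.verts par).Nodup := by
  refine List.nodup_flatMap.2 ⟨fun c _ => (nodup_allB.filter _).map fun a a' h => (Prod.mk.inj h).2,
    hB.1.imp fun {c c'} h => ?_⟩
  intro x h1 h2
  obtain ⟨a, -, rfl⟩ := List.mem_map.1 h1
  obtain ⟨a', -, h3⟩ := List.mem_map.1 h2
  exact h (Prod.mk.inj h3).1.symm

theorem base_con {c : N} {u : ℕ} : B.base.con c = some u ↔ B.con c ≠ 0 ∧ B.con c - 1 = u := by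
  simp only [base]
  split_ifs with h <;> simp [h]

/-- Sketch: `G i j = vadj verts[i] verts[j]`, `cls i = verts[i].1`,
`val i y = if look (S cls) verts[i].2 y then 1 else 0`. `verts` has no duplicates (`bitLists d` is the
duplicate-free list of all lists of length `d`); for `S c` without duplicates `look S a S[i] = a[i]`. -/
theorem exists_lift (hB : B.OK) (par : ℕ → Bool) {n : ℕ} (hn : (B.verts par).length = n) :
    ∃ G : Fin n → Fin n → Bool, adjMatrixCode G = B.code par ∧
      Nonempty (Lift B.base (fun u => if par u then 1 else 0) G) := by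
  subst hn
  have hm : ∀ i : Fin (B.verts par).length, _ := fun i =>
    (mem_verts hB).1 (List.get_mem (B.verts par) i)
  refine ⟨fun i j => B.vadj ((B.verts par).get i) ((B.verts par).get j), ?_, ⟨⟨
    fun i => ((B.verts par).get i).1,
    fun i y => if look (B.S ((B.verts par).get i).1) ((B.verts par).get i).2 y then 1 else 0,
    fun i => List.mem_toFinset.2 (hm i).1, fun i u hu => ?_, fun i j h1 h2 => ?_,
    fun c hc a ha => ?_, fun i j => ?_⟩⟩⟩
  · unfold adjMatrixCode code
    congr 1
    generalize B.verts par = l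
    conv_rhs => rw [← List.map_get_finRange l, List.flatMap_map]
    simp only [List.map_map]
    rfl
  · obtain ⟨h1, rfl⟩ := base_con.1 hu
    exact (sum_look (hB.2 _ (hm i).1).1 (hm i).2.1).trans
      ((par_iff _ _).1 ((hm i).2.2.resolve_left h1))
  · refine (nodup_verts hB par).get_inj_iff.1 (Prod.ext h1 ?_)
    rw [← map_look (hB.2 _ (hm i).1).1 (hm i).2.1, ← map_look (hB.2 _ (hm j).1).1 (hm j).2.1,
      ← h1]
    refine List.map_congr_left fun y hy => ?_
    have := bit_inj.1 (h2 y (List.mem_toFinset.2 hy))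
    rw [← h1] at this
    exact this
  · have hc' : c ∈ B.names := List.mem_toFinset.1 hc
    have hS := (hB.2 c hc').1
    have hl : ∀ y ∈ (B.S c).toFinset, (if look (B.S c) ((B.S c).map fun y => decide (a y = 1)) y
        then (1 : ZMod 2) else 0) = a y := fun y hy => by
      rw [look_map hS _ (List.mem_toFinset.1 hy)]
      generalize a y = z
      revert z
      decide
    have hx : (c, (B.S c).map fun y => decide (a y = 1)) ∈ B.verts par := by
      refine (mem_verts hB).2 ⟨hc', List.length_map _, ?_⟩
      by_cases h0 : B.con c = 0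
      · exact Or.inl h0
      · refine Or.inr ((par_iff _ _).2 ?_)
        rw [← sum_look hS (List.length_map _), sum_congr rfl hl]
        exact ha _ (base_con.2 ⟨h0, rfl⟩)
    obtain ⟨i, hi⟩ := List.get_of_mem hx
    refine ⟨i, by rw [hi], fun y hy => ?_⟩
    simp only [hi]
    exact hl y hy
  · simp only [vadj, base, Bool.and_eq_true, List.all_eq_true, Bool.or_eq_true, Bool.not_eq_true',
      decide_eq_true_eq, mem_inter, List.mem_toFinset, bit_inj, List.any_eq_false]
    refine and_congr_right fun _ => ⟨fun h y hy => ?_, fun h y hy => ?_⟩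
    · exact (h y hy.1).resolve_left fun h' => h' y hy.2 rfl
    · by_cases hy' : y ∈ B.S ((B.verts par).get j).1
      · exact Or.inr (h y ⟨hy, hy'⟩)
      · exact Or.inl fun y' h1 h2 => hy' (h2 ▸ h1)

/-- The number of vertices does not depend on the parities (`exists_lift`, `Lift.exists_shift` or
`Lift.card_cls`). -/
theorem length_verts (hB : B.OK) (par par' : ℕ → Bool) :
    (B.verts par).length = (B.verts par').length := by
  obtain ⟨G, -, ⟨L⟩⟩ := exists_lift hB par rfl
  obtain ⟨H, -, ⟨L'⟩⟩ := exists_lift hB par' rfl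
  obtain ⟨f, -⟩ := L.exists_shift L'
    (fun c => Pi.single ((B.S c).headD 0) ((if par (B.con c - 1) then 1 else 0) +
      if par' (B.con c - 1) then 1 else 0)) fun c hc u hu => by
      obtain ⟨h1, rfl⟩ := base_con.1 hu
      have h2 := (hB.2 c (List.mem_toFinset.1 hc)).2.2 h1
      rw [sum_pi_single', if_pos]
      refine List.mem_toFinset.2 ?_
      match h : B.S c, h2 with
      | y :: l, _ => simp
  simpa using Fintype.card_congr f

omit [DecidableEq N] in
theorem pt_verts [Enc N] {α : Type} [Enc α] {B : α → CBase N} {par : α → ℕ → Bool}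
    (h₁ : PT fun a => (B a).names) (h₂ : PT fun p : α × N => (B p.1).S p.2)
    (h₃ : PT fun p : α × N => (B p.1).con p.2) (h₅ : PT fun p : α × ℕ => par p.1 p.2) :
    PT fun a => (B a).verts (par a) := by
  have key : ∀ {names : α → List N} {S : α × N → List ℕ} {con : α × N → ℕ} {pr : α × ℕ → Bool},
      PT names → PT S → PT con → PT pr → PT fun a => (names a).flatMap fun c =>
        (allB.filter fun l => decide (l.length = (S (a, c)).length) && (decide (con (a, c) = 0) ||
          decide ((l.filter fun b => b).length % 2 = (pr (a, con (a, c) - 1)).toNat))).map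
          fun l => (c, l) := by
    intro names S con pr h₁ h₂ h₃ h₄
    fun_prop
  exact key h₁ h₂ h₃ h₅

omit [DecidableEq N] in
theorem pt_code [Enc N] {α : Type} [Enc α] {B : α → CBase N} {par : α → ℕ → Bool}
    (h₁ : PT fun a => (B a).names) (h₂ : PT fun p : α × N => (B p.1).S p.2)
    (h₃ : PT fun p : α × N => (B p.1).con p.2)
    (h₄ : PT fun p : α × N × N => (B p.1).adj p.2.1 p.2.2) (h₅ : PT fun p : α × ℕ => par p.1 p.2) :
    PT fun a => (B a).code (par a) := by
  have h := pt_verts h₁ h₂ h₃ h₅
  have key : ∀ {vs : α → List (N × List Bool)} {S : α × N → List ℕ} {ad : α × N × N → Bool},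
      PT vs → PT S → PT ad → PT fun a => (vs a).flatMap fun x => (vs a).map fun y =>
        ad (a, x.1, y.1) && (S (a, x.1)).all fun v => !((S (a, y.1)).any fun v' => decide (v' = v)) ||
          decide (look (S (a, x.1)) x.2 v = look (S (a, y.1)) y.2 v) := by
    intro vs S ad h₁ h₂ h₃
    unfold look
    fun_prop
  exact PT.append (PT.natCode (PT.length h)) (key h h₂ h₄)

end CBase

end Crest.Agent.R290
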