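import Crest.Agent.R290.Lift
import Crest.Agent.Lib.PolyTime.Bridge

/-!
# Row 290: list-coded systems and list-coded lifts (definitions)
-/

set_option autoImplicit false

namespace Crest.Agent.R290

open Finset Crest.Agent.Lib.PolyTime Crest.WLRefine

/-- A coded system: every tile is its list of variables and its parity bit. -/
abbrev CSys : Type := List (List ℕ × Bool)

namespace CSys

variable (L : CSys)

/-- The variables of tile `u`. -/
def vs (u : ℕ) : List ℕ := (L.getD u ([], false)).1

/-- The parity bit of tile `u`, switched on by `b`. -/
def par (b : Bool) (u : ℕ) : Bool := b && (L.getD u ([], false)).2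

/-- The abstract system. -/
def sys : Sys ℕ ℕ := ⟨range L.length, fun u => (L.vs u).toFinset⟩

/-- The right-hand side (`0` for `b = false`). -/
def β (b : Bool) (u : ℕ) : ZMod 2 := if L.par b u then 1 else 0

/-- A strict upper bound for the variables. -/
def V : ℕ := (L.flatMap fun e => e.1).sum + 1

/-- `[y]` if the variable `y` occurs in some tile, `[]` otherwise. -/
def sv (y : ℕ) : List ℕ :=
  bif (List.range L.length).any fun u => (L.vs u).any fun y' => decide (y' = y) then [y] else []

/-- Tiles have between one and nine distinct variables. -/
def WF : Prop := ∀ u < L.length, (L.vs u).Nodup ∧ L.vs u ≠ [] ∧ (L.vs u).length ≤ 9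

theorem β_false : L.β false = 0 := by
  funext u; simp [β, par]

theorem lt_V {u y : ℕ} (hy : y ∈ L.vs u) : y < L.V := by
  unfold vs at hy
  unfold V
  have : y ∈ L.flatMap fun e => e.1 := by
    rcases lt_or_ge u L.length with h | h
    · rw [List.getD_eq_getElem _ _ h] at hy
      exact List.mem_flatMap.2 ⟨_, List.getElem_mem h, hy⟩
    · rw [List.getD_eq_default _ _ h] at hy
      simp at hy
  exact Nat.lt_succ_of_le (List.le_sum_of_mem this)

theorem sv_of_mem {u y : ℕ} (hu : u < L.length) (hy : y ∈ L.vs u) : L.sv y = [y] := by
  have : ((List.range L.length).any fun u => (L.vs u).any fun y' => decide (y' = y)) = true := by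
    simp only [List.any_eq_true, List.mem_range, decide_eq_true_eq]
    exact ⟨u, hu, y, hy, rfl⟩
  simp only [sv, this, cond_true]

theorem sv_cases (y : ℕ) : L.sv y = [] ∨ (L.sv y = [y] ∧ ∃ u < L.length, y ∈ L.vs u) := by
  cases h : (List.range L.length).any fun u => (L.vs u).any fun y' => decide (y' = y)
  · left; simp only [sv, h, cond_false]
  · right
    simp only [List.any_eq_true, List.mem_range, decide_eq_true_eq] at h
    obtain ⟨u, hu, y', hy, rfl⟩ := h
    exact ⟨L.sv_of_mem hu hy, u, hu, hy⟩

section PT

variable {α : Type} [Enc α] {L : α → CSys}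

@[fun_prop] theorem pt_vs {u : α → ℕ} (hL : PT L) (hu : PT u) : PT fun a => (L a).vs (u a) := by
  unfold vs; fun_prop
@[fun_prop] theorem pt_par {b : α → Bool} {u : α → ℕ} (hL : PT L) (hb : PT b) (hu : PT u) :
    PT fun a => (L a).par (b a) (u a) := by
  unfold par; fun_prop
@[fun_prop] theorem pt_sv {y : α → ℕ} (hL : PT L) (hy : PT y) : PT fun a => (L a).sv (y a) := by
  unfold sv; fun_prop
@[fun_prop] theorem pt_V (hL : PT L) : PT fun a => (L a).V := by
  unfold V; fun_prop

end PT

end CSys

@[fun_prop] theorem pt_natPair {α : Type} [Enc α] {f g : α → ℕ} (hf : PT f) (hg : PT g) :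
    PT fun a => Nat.pair (f a) (g a) := by
  unfold Nat.pair; fun_prop

/-- A coded base: a list of class names, their variables, their constraint (`0`: none, `u + 1`: tile `u`)
and the adjacency. -/
structure CBase (N : Type) where
  /-- the classes -/
  names : List N
  /-- the variables of a class -/
  S : N → List ℕ
  /-- the constraint of a class -/
  con : N → ℕ
  /-- adjacency of classes -/
  adj : N → N → Bool

/-- All bit lists of a given length. -/
def bitLists : ℕ → List (List Bool)
  | 0 => [[]]
  | d + 1 => (bitLists d).flatMap fun l => [false :: l, true :: l]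

/-- All bit lists of length at most nine. -/
def allB : List (List Bool) := (List.range 10).flatMap bitLists

/-- The bit that the list `a`, aligned with the variable list `S`, gives to `y`. -/
def look (S : List ℕ) (a : List Bool) (y : ℕ) : Bool :=
  (List.range S.length).any fun i => decide (S.getD i 0 = y) && a.getD i false

namespace CBase

variable {N : Type} (B : CBase N)

/-- The abstract base. -/
def base [DecidableEq N] : Base ℕ ℕ N where
  Cl := B.names.toFinset
  S c := (B.S c).toFinset
  con c := if B.con c = 0 then none else some (B.con c - 1)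
  adj := B.adj

/-- Names are distinct, classes have at most nine distinct variables, constrained classes at least one. -/
def OK : Prop :=
  B.names.Nodup ∧ ∀ c ∈ B.names, (B.S c).Nodup ∧ (B.S c).length ≤ 9 ∧ (B.con c ≠ 0 → B.S c ≠ [])

/-- The vertices of the lift for the parities `par`. -/
def verts (par : ℕ → Bool) : List (N × List Bool) :=
  B.names.flatMap fun c => (allB.filter fun a => decide (a.length = (B.S c).length) &&
    (decide (B.con c = 0) ||
      decide ((a.filter fun b => b).length % 2 = (par (B.con c - 1)).toNat))).map fun a => (c, a)

/-- Adjacency of vertices of the lift. -/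
def vadj (x y : N × List Bool) : Bool :=
  B.adj x.1 y.1 && (B.S x.1).all fun v => !((B.S y.1).any fun v' => decide (v' = v)) ||
    decide (look (B.S x.1) x.2 v = look (B.S y.1) y.2 v)

/-- The code of the lift. -/
def code (par : ℕ → Bool) : List Bool :=
  Crest.Enc.natCode (B.verts par).length ++
    (B.verts par).flatMap fun x => (B.verts par).map fun y => B.vadj x y

end CBase

end Crest.Agent.R290
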