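import Crest.Agent.R290.GadSolv
import Crest.Agent.R290.CSys

/-!
# Row 290: the coded parity system of a tabulated rule system
-/

set_option autoImplicit false

namespace Crest.Agent.R290

open Crest.Agent.Lib.PolyTime

namespace Cd

/-- Tables: rows, symbols, rules, output hub, hubs, projections, valid labels. -/
abbrev Tab : Type :=
  ℕ × ℕ × ℕ × ℕ × List (List ℕ) × List (List (List (List ℕ))) × List (List (List (List Bool)))

/-- Tuples describing main tiles: tag, rule, port, column, row, two symbols. -/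
abbrev Tup : Type := ℕ × ℕ × ℕ × ℕ × ℕ × ℕ × ℕ

def hb (t : Tab) (ρ p : ℕ) : ℕ := (t.2.2.2.2.1.getD ρ []).getD p 0
def pj (t : Tab) (ρ p i r : ℕ) : ℕ := (((t.2.2.2.2.2.1.getD ρ []).getD p []).getD i []).getD r 0
def vl (t : Tab) (ρ i r r' : ℕ) : Bool :=
  (((t.2.2.2.2.2.2.getD ρ []).getD i []).getD r []).getD r' false

def c4 (tag a b c d : ℕ) : ℕ := Nat.pair tag (Nat.pair (Nat.pair a b) (Nat.pair c d))
def c6 (tag a b c d e f : ℕ) : ℕ :=
  Nat.pair tag (Nat.pair (Nat.pair a b) (Nat.pair (Nat.pair c d) (Nat.pair e f)))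
def cT (u : Tup) : ℕ := c6 u.1 u.2.1 u.2.2.1 u.2.2.2.1 u.2.2.2.2.1 u.2.2.2.2.2.1 u.2.2.2.2.2.2

/-- variables of a wire tile -/
def wv (t : Tab) (ρ p x i r r' : ℕ) : List ℕ :=
  [c6 1 ρ p (x + 1) i r r', c6 2 ρ p x i r 0, c6 2 ρ p x ((i + 1) % t.1) r' 0] ++
    (if x = 0 then (if hb t ρ p = 0 then [] else [c4 0 (hb t ρ p - 1) i r r'])
      else [c6 1 ρ p x i r r'])

/-- variables of a join tile -/
def jv (t : Tab) (ρ i r r' : ℕ) : List ℕ :=
  (List.range 9).map fun p => c6 1 ρ p (t.1 + 2) i (pj t ρ p i r) (pj t ρ p ((i + 1) % t.1) r')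

def mvars (t : Tab) (u : Tup) : List ℕ :=
  if u.1 = 0 then wv t u.2.1 u.2.2.1 u.2.2.2.1 u.2.2.2.2.1 u.2.2.2.2.2.1 u.2.2.2.2.2.2
  else jv t u.2.1 u.2.2.2.2.1 u.2.2.2.2.2.1 u.2.2.2.2.2.2

/-- the valid tiles with a given rule, row and label -/
def mt1 (t : Tab) (ρ i r r' : ℕ) : List Tup :=
  ((List.range 9).flatMap fun p => bif !decide (hb t ρ p = 0) || vl t ρ i r r' then
    (List.range (t.1 + 2)).map fun x => (0, ρ, p, x, i, r, r') else []) ++
  (bif vl t ρ i r r' then [(1, ρ, 0, 0, i, r, r')] else [])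

def mt2 (t : Tab) (ρ i : ℕ) : List Tup :=
  (List.range t.2.1).flatMap fun r => (List.range t.2.1).flatMap fun r' => mt1 t ρ i r r'

def mtiles (t : Tab) : List Tup :=
  (List.range t.2.2.1).flatMap fun ρ => (List.range t.1).flatMap fun i => mt2 t ρ i

def gad1 (t : Tab) (u : Tup) : List (ℕ × List ℕ) :=
  if u.1 = 0 ∧ u.2.1 = 0 ∧ u.2.2.1 = 0 then [] else
    (List.range (mvars t u).length).map fun j => (Nat.pair (cT u) j + 1, [(mvars t u).getD j 0])

def gads (t : Tab) : List (ℕ × List ℕ) := (0, []) :: (mtiles t).flatMap fun u => gad1 t u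

def gwv (t : Tab) (γ A x i : ℕ) : List ℕ :=
  [c4 3 γ A (x + 1) i, c4 4 γ A x i, c4 4 γ A x ((i + 1) % t.1),
    if x = 0 then c4 0 t.2.2.2.1 i 0 0 else c4 3 γ A x i]

def gjv (t : Tab) (g : ℕ × List ℕ) (i : ℕ) : List ℕ :=
  [c4 3 g.1 0 (2 * t.1 + 4) i, c4 3 g.1 1 (2 * t.1 + 4) i] ++ (if i = 0 then g.2 else [])

def gtiles (t : Tab) (g : ℕ × List ℕ) : CSys :=
  (List.range t.1).flatMap fun i => (gjv t g i, decide (g.1 = 0 ∧ i = 0)) ::
    (List.range 2).flatMap fun A => (List.range (2 * t.1 + 4)).map fun x => (gwv t g.1 A x i, false)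

def csys (t : Tab) : CSys :=
  ((mtiles t).map fun u => (mvars t u, false)) ++ (gads t).flatMap fun g => gtiles t g

section PT

variable {α : Type} [Enc α] {t : α → Tab} {u : α → Tup} {g : α → ℕ × List ℕ}
  {a b c d e f h : α → ℕ}

@[fun_prop] theorem pt_hb (ht : PT t) (ha : PT a) (hb' : PT b) :
    PT fun z => hb (t z) (a z) (b z) := by
  unfold hb; fun_prop
@[fun_prop] theorem pt_pj (ht : PT t) (ha : PT a) (hb' : PT b) (hc : PT c) (hd : PT d) :
    PT fun z => pj (t z) (a z) (b z) (c z) (d z) := by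
  unfold pj; fun_prop
@[fun_prop] theorem pt_vl (ht : PT t) (ha : PT a) (hb' : PT b) (hc : PT c) (hd : PT d) :
    PT fun z => vl (t z) (a z) (b z) (c z) (d z) := by
  unfold vl; fun_prop
@[fun_prop] theorem pt_c4 (hh : PT h) (ha : PT a) (hb' : PT b) (hc : PT c) (hd : PT d) :
    PT fun z => c4 (h z) (a z) (b z) (c z) (d z) := by
  unfold c4; fun_prop
@[fun_prop] theorem pt_c6 (hh : PT h) (ha : PT a) (hb' : PT b) (hc : PT c) (hd : PT d) (he : PT e)
    (hf : PT f) : PT fun z => c6 (h z) (a z) (b z) (c z) (d z) (e z) (f z) := by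
  unfold c6; fun_prop
@[fun_prop] theorem pt_cT (hu : PT u) : PT fun z => cT (u z) := by
  unfold cT; fun_prop
@[fun_prop] theorem pt_wv (ht : PT t) (ha : PT a) (hb' : PT b) (hc : PT c) (hd : PT d) (he : PT e)
    (hf : PT f) : PT fun z => wv (t z) (a z) (b z) (c z) (d z) (e z) (f z) := by
  unfold wv; fun_prop
@[fun_prop] theorem pt_jv (ht : PT t) (ha : PT a) (hb' : PT b) (hc : PT c) (hd : PT d) :
    PT fun z => jv (t z) (a z) (b z) (c z) (d z) := by
  unfold jv; fun_prop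
@[fun_prop] theorem pt_mvars (ht : PT t) (hu : PT u) : PT fun z => mvars (t z) (u z) := by
  unfold mvars; fun_prop
@[fun_prop] theorem pt_mt1 (ht : PT t) (ha : PT a) (hb' : PT b) (hc : PT c) (hd : PT d) :
    PT fun z => mt1 (t z) (a z) (b z) (c z) (d z) := by
  unfold mt1; fun_prop
@[fun_prop] theorem pt_mt2 (ht : PT t) (ha : PT a) (hb' : PT b) :
    PT fun z => mt2 (t z) (a z) (b z) := by
  unfold mt2; fun_prop
@[fun_prop] theorem pt_mtiles (ht : PT t) : PT fun z => mtiles (t z) := by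
  unfold mtiles; fun_prop
@[fun_prop] theorem pt_gad1 (ht : PT t) (hu : PT u) : PT fun z => gad1 (t z) (u z) := by
  unfold gad1; fun_prop
@[fun_prop] theorem pt_gads (ht : PT t) : PT fun z => gads (t z) := by
  unfold gads; fun_prop
@[fun_prop] theorem pt_gwv (ht : PT t) (ha : PT a) (hb' : PT b) (hc : PT c) (hd : PT d) :
    PT fun z => gwv (t z) (a z) (b z) (c z) (d z) := by
  unfold gwv; fun_prop
@[fun_prop] theorem pt_gjv (ht : PT t) (hg : PT g) (ha : PT a) :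
    PT fun z => gjv (t z) (g z) (a z) := by
  unfold gjv; fun_prop
@[fun_prop] theorem pt_gtiles (ht : PT t) (hg : PT g) : PT fun z => gtiles (t z) (g z) := by
  unfold gtiles; fun_prop
theorem pt_csys (ht : PT t) : PT fun z => csys (t z) := by
  unfold csys; fun_prop

end PT

theorem c6_inj {a b c d e f g a' b' c' d' e' f' g' : ℕ} :
    c6 a b c d e f g = c6 a' b' c' d' e' f' g' ↔
      a = a' ∧ b = b' ∧ c = c' ∧ d = d' ∧ e = e' ∧ f = f' ∧ g = g' := by
  simp only [c6, Nat.pair_eq_pair]; tauto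

section Typed

variable {k nR nJ : ℕ}

/-- the tuple of a main tile -/
def tup : MT k (Fin nR) (Fin nJ) → Tup
  | .wt ρ p x i r r' => (0, ρ, p, x, i, r, r')
  | .jt ρ i s s' => (1, ρ, 0, 0, i, s, s')

/-- the code of a gadget -/
def cG : GI k (Fin nR) (Fin nJ) → ℕ
  | none => 0
  | some (u, j) => Nat.pair (cT (tup u)) j + 1

/-- the code of a main variable -/
def eM : MV k (Fin nR) (Fin nJ) ℕ → ℕ
  | .hub g i r r' => c4 0 g i r r'
  | .hor ρ p x i r r' => c6 1 ρ p x i r r'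
  | .car ρ p x i r => c6 2 ρ p x i r 0

/-- the code of a variable -/
def eX : XV k (Fin nR) (Fin nJ) ℕ → ℕ
  | .inl y => eM y
  | .inr (.gh γ A x i) => c4 3 (cG γ) A.toNat x i
  | .inr (.gc γ A x i) => c4 4 (cG γ) A.toNat x i

theorem cT_tup_inj {u v : MT k (Fin nR) (Fin nJ)} (h : cT (tup u) = cT (tup v)) : u = v := by
  cases u <;> cases v <;> simp only [cT, tup, c6_inj, Fin.val_inj] at h <;> simp_all

theorem cG_inj {γ γ' : GI k (Fin nR) (Fin nJ)} (h : cG γ = cG γ') : γ = γ' := by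
  rcases γ with _ | ⟨u, j⟩ <;> rcases γ' with _ | ⟨v, j'⟩ <;> simp only [cG] at h
  · rfl
  · omega
  · omega
  · rw [Nat.add_right_cancel_iff, Nat.pair_eq_pair] at h
    rw [cT_tup_inj h.1, Fin.val_inj.1 h.2]

theorem toNat_inj {A B : Bool} (h : A.toNat = B.toNat) : A = B := by
  cases A <;> cases B <;> simp_all

theorem eX_inj : Function.Injective (eX (k := k) (nR := nR) (nJ := nJ)) := by
  rintro ((_ | _ | _) | (_ | _)) ((_ | _ | _) | (_ | _)) h <;>
    simp only [eX, eM, c4, c6, Nat.pair_eq_pair, Fin.val_inj] at h <;>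
    first
    | exact absurd h.1 (by decide)
    | (obtain ⟨-, ⟨rfl, rfl⟩, ⟨rfl, rfl⟩, rfl, rfl⟩ := h; rfl)
    | (obtain ⟨-, ⟨rfl, rfl⟩, ⟨rfl, rfl⟩, rfl, -⟩ := h; rfl)
    | (obtain ⟨-, ⟨rfl, rfl⟩, rfl, rfl⟩ := h; rfl)
    | (obtain ⟨-, ⟨h1, h2⟩, rfl, rfl⟩ := h; rw [cG_inj h1, toNat_inj h2])

/-- The table describes the rule system. -/
structure Spec (t : Tab) (S : RS k (Fin nR) (Fin nJ) ℕ) (go : ℕ) : Prop where
  hk : t.1 = k
  hR : t.2.1 = nR
  hJ : t.2.2.1 = nJ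
  hgo : t.2.2.2.1 = go
  hub : ∀ ρ p, S.hub ρ p = if hb t ρ p = 0 then none else some (hb t ρ p - 1)
  π : ∀ ρ p i r, (S.π ρ p i r : ℕ) = pj t ρ p i r
  val : ∀ ρ i r r', S.val ρ i r r' = vl t ρ i r r'

variable [NeZero k] {t : Tab} {S : RS k (Fin nR) (Fin nJ) ℕ} {go : ℕ}

theorem val_succ (i : Fin k) : ((i + 1 : Fin k) : ℕ) = (i + 1) % k := by
  rw [Fin.val_add, Fin.val_one', Nat.add_mod_mod]

theorem Spec.mvars_tup (h : Spec t S go) (u : MT k (Fin nR) (Fin nJ)) :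
    mvars t (tup u) = (S.varsL u).map eM := by
  cases u with
  | wt ρ p x i r r' =>
    simp only [mvars, tup, if_true, wv, RS.varsL, List.map_append, List.map_cons, List.map_nil, eM,
      val_succ, h.hk, h.hub]
    congr 1
    split_ifs <;> rfl
  | jt ρ i s s' =>
    simp only [mvars, tup, one_ne_zero, if_false, jv, RS.varsL, List.map_ofFn, h.hk]
    refine List.ext_getElem (by simp) fun n h1 h2 => ?_
    simp only [List.getElem_map, List.getElem_range, List.getElem_ofFn, Function.comp, eM, h.π,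
      val_succ]

theorem Spec.mem_mtiles (h : Spec t S go) (z : Tup) :
    z ∈ mtiles t ↔ ∃ u, S.valid u = true ∧ z = tup u := by
  simp only [mtiles, mt2, mt1, List.mem_flatMap, List.mem_range, List.mem_append, h.hk, h.hR, h.hJ]
  constructor
  · rintro ⟨ρ, hρ, i, hi, r, hr, r', hr', ⟨p, hp, hz⟩ | hz⟩
    · cases hc : (!decide (hb t ρ p = 0) || vl t ρ i r r')
      · rw [hc] at hz; simp at hz
      · rw [hc, cond_true, List.mem_map] at hz
        obtain ⟨x, hx, rfl⟩ := hz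
        refine ⟨.wt ⟨ρ, hρ⟩ ⟨p, hp⟩ ⟨x, List.mem_range.1 hx⟩ ⟨i, hi⟩ ⟨r, hr⟩ ⟨r', hr'⟩, ?_, rfl⟩
        simp only [RS.valid, h.hub, h.val]
        rw [← hc]
        split_ifs with h0 <;> simp [h0]
    · cases hc : vl t ρ i r r'
      · rw [hc] at hz; simp at hz
      · rw [hc, cond_true, List.mem_singleton] at hz
        exact ⟨.jt ⟨ρ, hρ⟩ ⟨i, hi⟩ ⟨r, hr⟩ ⟨r', hr'⟩, by simp only [RS.valid, h.val, hc], hz⟩
  · rintro ⟨u, hu, rfl⟩
    cases u with
    | wt ρ p x i r r' =>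
      refine ⟨ρ, ρ.2, i, i.2, r, r.2, r', r'.2, Or.inl ⟨p, p.2, ?_⟩⟩
      have hc : (!decide (hb t ρ p = 0) || vl t ρ i r r') = true := by
        simp only [RS.valid, h.hub, h.val] at hu
        rw [← hu]
        split_ifs with h0 <;> simp [h0]
      rw [hc, cond_true, List.mem_map]
      exact ⟨x, List.mem_range.2 x.2, rfl⟩
    | jt ρ i s s' =>
      refine ⟨ρ, ρ.2, i, i.2, s, s.2, s', s'.2, Or.inr ?_⟩
      simp only [RS.valid, h.val] at hu
      rw [hu, cond_true, List.mem_singleton]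
      rfl

theorem length_varsL (u : MT k (Fin nR) (Fin nJ)) :
    0 < (S.varsL u).length ∧ (S.varsL u).length ≤ 9 := by
  cases u with
  | wt ρ p x i r r' =>
    simp only [RS.varsL]
    split_ifs
    · cases S.hub ρ p <;> simp
    · simp
  | jt ρ i s s' => simp [RS.varsL]

theorem onOut_iff (h0 : 0 < nJ) (u : MT k (Fin nR) (Fin nJ)) :
    RS.onOut (⟨0, h0⟩ : Fin nJ) u = true ↔ (tup u).1 = 0 ∧ (tup u).2.1 = 0 ∧ (tup u).2.2.1 = 0 := by
  cases u with
  | wt ρ p x i r r' =>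
    simp only [RS.onOut, tup, decide_eq_true_eq, true_and]
    exact and_congr Fin.ext_iff Fin.ext_iff
  | jt ρ i s s' => simp [RS.onOut, tup]

theorem Spec.mem_gads (h : Spec t S go) (h0 : 0 < nJ) (z : ℕ × List ℕ) :
    z ∈ gads t ↔ ∃ γ, S.gvalid ⟨0, h0⟩ γ = true ∧ z = (cG γ, (S.gvar γ).map eM) := by
  have key : ∀ (u : MT k (Fin nR) (Fin nJ)) (j : Fin 9), (j : ℕ) < (S.varsL u).length →
      (S.gvar (some (u, j))).map eM = [(mvars t (tup u)).getD j 0] := by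
    intro u j hj
    rw [h.mvars_tup, List.getD_eq_getElem _ _ (by simpa using hj)]
    simp [RS.gvar, List.getElem?_eq_getElem hj]
  simp only [gads, List.mem_cons, List.mem_flatMap, h.mem_mtiles]
  constructor
  · rintro (rfl | ⟨_, ⟨u, hu, rfl⟩, hz⟩)
    · exact ⟨none, rfl, rfl⟩
    · unfold gad1 at hz
      split_ifs at hz with ho
      · simp at hz
      · obtain ⟨j, hj, rfl⟩ := List.mem_map.1 hz
        rw [List.mem_range, h.mvars_tup, List.length_map] at hj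
        refine ⟨some (u, ⟨j, hj.trans_le (length_varsL u).2⟩), ?_, ?_⟩
        · rw [← onOut_iff h0] at ho
          simp [RS.gvalid, hu, ho, hj]
        · rw [key _ _ hj]; rfl
  · rintro ⟨_ | ⟨u, j⟩, hγ, rfl⟩
    · exact Or.inl rfl
    · simp only [RS.gvalid, Bool.and_eq_true, Bool.not_eq_true', decide_eq_true_eq] at hγ
      refine Or.inr ⟨_, ⟨u, hγ.1.1, rfl⟩, ?_⟩
      unfold gad1
      rw [if_neg (by rw [← onOut_iff h0, hγ.1.2]; simp), List.mem_map]
      refine ⟨j, ?_, ?_⟩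
      · rw [List.mem_range, h.mvars_tup, List.length_map]; exact hγ.2
      · rw [key _ _ hγ.2]; rfl

variable [NeZero nR]

/-- the coded tile of a tile -/
def cX (S : RS k (Fin nR) (Fin nJ) ℕ) (go : ℕ) (u : XT k (Fin nR) (Fin nJ)) : List ℕ × Bool :=
  ((S.xvarsL go 0 u).map eX, RS.sinkB u)

theorem Spec.cX_gw (h : Spec t S go) (γ : GI k (Fin nR) (Fin nJ)) (A : Bool) (x : Fin (2 * k + 4))
    (i : Fin k) : cX S go (.inr (.gw γ A x i)) = (gwv t (cG γ) A.toNat x i, false) := by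
  simp only [cX, RS.xvarsL, RS.sinkB, gwv, List.map_cons, List.map_nil, eX, val_succ, h.hk, h.hgo]
  split_ifs <;> simp [eX, eM]

theorem Spec.cX_gj (h : Spec t S go) (γ : GI k (Fin nR) (Fin nJ)) (i : Fin k) :
    cX S go (.inr (.gj γ i))
      = (gjv t (cG γ, (S.gvar γ).map eM) i, decide (cG γ = 0 ∧ (i : ℕ) = 0)) := by
  have h1 : (i : ℕ) = 0 ↔ i = 0 := Fin.val_eq_zero_iff
  refine Prod.ext ?_ ?_
  · simp only [cX, RS.xvarsL, gjv, List.map_append, List.map_cons, List.map_nil, eX, h.hk, h1]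
    split_ifs
    · rw [List.map_map]; rfl
    · rfl
  · rcases γ with _ | ⟨u, j⟩ <;> simp [cX, RS.sinkB, cG]

theorem Spec.mem_gtiles (h : Spec t S go) (γ : GI k (Fin nR) (Fin nJ)) (z : List ℕ × Bool) :
    z ∈ gtiles t (cG γ, (S.gvar γ).map eM) ↔ ∃ w : GT k (Fin nR) (Fin nJ),
      w.idx = γ ∧ z = cX S go (.inr w) := by
  simp only [gtiles, List.mem_flatMap, List.mem_range, List.mem_cons, List.mem_map, h.hk]
  constructor
  · rintro ⟨i, hi, rfl | ⟨A, hA, x, hx, rfl⟩⟩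
    · exact ⟨.gj γ ⟨i, hi⟩, rfl, (h.cX_gj γ ⟨i, hi⟩).symm⟩
    · refine ⟨.gw γ (decide (A = 1)) ⟨x, hx⟩ ⟨i, hi⟩, rfl, ?_⟩
      rw [h.cX_gw]
      interval_cases A <;> rfl
  · rintro ⟨w, rfl, rfl⟩
    cases w with
    | gw γ A x i =>
      exact ⟨i, i.2, Or.inr ⟨A.toNat, by cases A <;> simp, x, x.2, (h.cX_gw γ A x i).symm⟩⟩
    | gj γ i => exact ⟨i, i.2, Or.inl (h.cX_gj γ i)⟩

theorem Spec.mem_csys (h : Spec t S go) (h0 : 0 < nJ) (z : List ℕ × Bool) :
    z ∈ csys t ↔ ∃ u, S.xvalid ⟨0, h0⟩ u = true ∧ z = cX S go u := by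
  have key : ∀ u : MT k (Fin nR) (Fin nJ), cX S go (.inl u) = (mvars t (tup u), false) := by
    intro u
    rw [h.mvars_tup]
    simp only [cX, RS.xvarsL, RS.sinkB, List.map_map]
    rfl
  simp only [csys, List.mem_append, List.mem_map, List.mem_flatMap, h.mem_mtiles, h.mem_gads h0]
  constructor
  · rintro (⟨_, ⟨u, hu, rfl⟩, rfl⟩ | ⟨_, ⟨γ, hγ, rfl⟩, hz⟩)
    · exact ⟨.inl u, hu, (key u).symm⟩
    · obtain ⟨w, rfl, rfl⟩ := (h.mem_gtiles γ z).1 hz
      exact ⟨.inr w, hγ, rfl⟩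
  · rintro ⟨u | w, hu, rfl⟩
    · exact Or.inl ⟨_, ⟨u, hu, rfl⟩, (key u).symm⟩
    · exact Or.inr ⟨_, ⟨w.idx, hu, rfl⟩, (h.mem_gtiles _ _).2 ⟨w, rfl, rfl⟩⟩

theorem length_xvarsL (u : XT k (Fin nR) (Fin nJ)) :
    0 < (S.xvarsL go 0 u).length ∧ (S.xvarsL go 0 u).length ≤ 9 := by
  rcases u with u | ⟨γ, A, x, i⟩ | ⟨γ, i⟩
  · simpa [RS.xvarsL] using length_varsL u
  · simp [RS.xvarsL]
  · simp only [RS.xvarsL]
    split_ifs
    · rcases γ with _ | ⟨u, j⟩
      · simp [RS.gvar]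
      · cases h : (S.varsL u)[(j : ℕ)]? <;> simp [RS.gvar, h]
    · simp

end Typed

end Cd

end Crest.Agent.R290
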