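import Crest.Agent.R290.GadCons

/-!
# Row 290: if the output hub has a true address, `(k+1)`-consistency implies solvability
-/

set_option autoImplicit false

namespace Crest.Agent.R290

open Finset

namespace RS

variable {k : ℕ} [NeZero k] {R J G : Type} [Fintype R] [DecidableEq R] [Fintype J] [DecidableEq J]
  [DecidableEq G] {S : RS k R J G} {ρo : J} {go : G} {r0 : R}

/-- Partial sums. -/
def gsPre {n : ℕ} (f : Fin n → ZMod 2) (x : ℕ) : ZMod 2 := ∑ j ∈ univ.filter fun j : Fin n => (j : ℕ) < x, f j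

theorem gsPre_zero {n : ℕ} (f : Fin n → ZMod 2) : gsPre f 0 = 0 := by simp [gsPre]

theorem gsPre_succ {n : ℕ} (f : Fin n → ZMod 2) (x : Fin n) : gsPre f (x + 1) = gsPre f x + f x := by
  have : (univ.filter fun j : Fin n => (j : ℕ) < x + 1) = insert x (univ.filter fun j : Fin n => (j : ℕ) < x) := by
    ext j
    simp only [mem_filter, mem_univ, true_and, mem_insert, Fin.ext_iff]
    omega
  rw [gsPre, this, sum_insert (by simp), add_comm, gsPre]

theorem gsPre_top {n : ℕ} (f : Fin n → ZMod 2) : gsPre f n = ∑ j, f j := by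
  rw [gsPre, filter_true_of_mem fun j _ => j.2]

theorem gs_exists_carry (d : Fin k → ZMod 2) (hd : ∑ i, d i = 0) :
    ∃ c : Fin k → ZMod 2, ∀ i, c i + c (i + 1) = d i := by
  refine ⟨fun i => gsPre d i, fun i => ?_⟩
  have h1 := gsPre_succ d i
  have h2 : ((i + 1 : Fin k) : ℕ) = (i + 1) % k := by rw [Fin.val_add, Fin.val_one', Nat.add_mod_mod]
  beta_reduce
  rw [h2]
  rcases (Nat.succ_le_of_lt i.2).eq_or_lt with h | h
  · rw [Nat.succ_eq_add_one] at h
    rw [h, gsPre_top, hd] at h1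
    rw [h, Nat.mod_self, gsPre_zero]
    grind
  · rw [Nat.mod_eq_of_lt h, h1]
    grind

theorem gs_sum_shift (f : Fin k → ZMod 2) : ∑ i, f (i + 1) = ∑ i, f i := Equiv.sum_comp (Equiv.addRight 1) f

omit [NeZero k] in
theorem gs_der_move {τ ν : Type} [DecidableEq τ] [DecidableEq ν] {X : Sys τ ν} {β : τ → ZMod 2}
    {W : Finset τ → (ν → ZMod 2) → Prop} (hW : X.IsCons (k + 1) β W) (t : Fin k → τ) {y y' : Fin k → ν}
    (ht : ∀ i, t i ∈ X.T) (hy : ∀ i, y i ∈ X.vars (t i)) (hy' : ∀ i, y' i ∈ X.vars (t i))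
    (hs : ∀ α : ν → ZMod 2, ∑ i, ∑ z ∈ X.vars (t i), α z = ∑ i, α (y i) + ∑ i, α (y' i)) {c : ZMod 2}
    (hc : X.Der W y c) : X.Der W y' (c + ∑ i, β (t i)) := by
  refine hW.der_of_cover (by simp) t (fun i => ⟨ht i, hy' i⟩) fun α hα => ?_
  have h1 := hc t (fun i => ⟨ht i, hy i⟩) α hα
  have h2 : ∑ i, ∑ z ∈ X.vars (t i), α z = ∑ i, β (t i) :=
    sum_congr rfl fun i _ => hW.par hα (mem_image_of_mem _ (mem_univ i))
  have h3 := hs α
  grind

theorem gs_mem_T {u : XT k R J} : u ∈ (S.xsys ρo go r0).T ↔ S.xvalid ρo u = true := by simp [xsys]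

theorem gs_mem_vars {u : XT k R J} {y : XV k R J G} :
    y ∈ (S.xsys ρo go r0).vars u ↔ y ∈ S.xvarsL go r0 u := List.mem_toFinset

theorem gs_sum (hk : 2 ≤ k) (u : XT k R J) (α : XV k R J G → ZMod 2) :
    ∑ y ∈ (S.xsys ρo go r0).vars u, α y = ((S.xvarsL go r0 u).map α).sum :=
  List.sum_toFinset _ (S.xvarsL_nodup go r0 hk u)

/-- The variables to the left of a column of a gadget wire. -/
def gsL (go : G) (r0 : R) (γ : GI k R J) (A : Bool) (x : ℕ) (i : Fin k) : XV k R J G :=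
  if x = 0 then .inl (.hub go i r0 r0) else .inr (.gh γ A x i)

theorem gs_sum_gw (hk : 2 ≤ k) (γ : GI k R J) (A : Bool) (x : Fin (2 * k + 4)) (i : Fin k)
    (α : XV k R J G → ZMod 2) : ∑ y ∈ (S.xsys ρo go r0).vars (.inr (.gw γ A x i)), α y =
      α (.inr (.gh γ A (x + 1) i)) + (α (.inr (.gc γ A x i)) + α (.inr (.gc γ A x (i + 1)))) +
        α (gsL go r0 γ A x i) := by
  simp [gs_sum hk, xvarsL, gsL, add_assoc]

theorem gs_ring_gw (hk : 2 ≤ k) (γ : GI k R J) (A : Bool) (x : Fin (2 * k + 4)) (α : XV k R J G → ZMod 2) :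
    ∑ i, ∑ y ∈ (S.xsys ρo go r0).vars (.inr (.gw γ A x i)), α y =
      ∑ i, α (gsL go r0 γ A x i) + ∑ i, α (gsL go r0 γ A (x + 1) i) := by
  simp only [gs_sum_gw hk, sum_add_distrib, gs_sum_shift fun i => α (.inr (.gc γ A x i)),
    CharTwo.add_self_eq_zero, add_zero]
  rw [add_comm]
  rfl

theorem gs_sum_gj (hk : 2 ≤ k) (γ : GI k R J) (i : Fin k) (α : XV k R J G → ZMod 2) :
    ∑ y ∈ (S.xsys ρo go r0).vars (.inr (.gj γ i)), α y =
      α (.inr (.gh γ false (2 * k + 4) i)) + α (.inr (.gh γ true (2 * k + 4) i)) +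
        if i = 0 then ((S.gvar γ).map fun y => α (.inl y)).sum else 0 := by
  by_cases hi : i = 0 <;> simp [gs_sum hk, xvarsL, hi, add_assoc, Function.comp_def]

theorem gs_ring_gj (hk : 2 ≤ k) (γ : GI k R J) (α : XV k R J G → ZMod 2) :
    ∑ i, ∑ y ∈ (S.xsys ρo go r0).vars (.inr (.gj γ i)), α y =
      ∑ i, α (gsL go r0 γ false (2 * k + 4) i) + ∑ i, α (gsL go r0 γ true (2 * k + 4) i) +
        ((S.gvar γ).map fun y => α (.inl y)).sum := by
  simp only [gs_sum_gj hk, sum_add_distrib, sum_ite_eq', mem_univ, if_true]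
  rfl

theorem gs_sum_inl (hk : 2 ≤ k) (u : MT k R J) (α : XV k R J G → ZMod 2) :
    ∑ y ∈ (S.xsys ρo go r0).vars (.inl u), α y = ((S.varsL u).map fun y => α (.inl y)).sum := by
  simp [gs_sum hk, xvarsL, Function.comp_def]

theorem gs_ring_wt (hk : 2 ≤ k) (ρ : J) (p : Fin 9) (x : Fin (k + 2)) (a : Fin k → R)
    (α : XV k R J G → ZMod 2) :
    ∑ i, ∑ y ∈ (S.xsys ρo go r0).vars (.inl (.wt ρ p x i (a i) (a (i + 1)))), α y =
      ∑ i, ((if (x : ℕ) = 0 then ((S.hub ρ p).map fun g => MV.hub g i (a i) (a (i + 1))).toList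
        else [.hor ρ p x i (a i) (a (i + 1))]).map fun y => α (.inl y)).sum +
      ∑ i, α (.inl (.hor ρ p (x + 1) i (a i) (a (i + 1)))) := by
  simp only [gs_sum_inl hk, varsL, List.map_append, List.sum_append, List.map_cons, List.map_nil, List.sum_cons,
    List.sum_nil, sum_add_distrib, gs_sum_shift fun i => α (.inl (.car ρ p x i (a i))), add_zero,
    CharTwo.add_self_eq_zero]
  rw [add_comm]

/-- The indicator of all tiles of the sink gadget is closed (`hub go i r0 r0` occurs in both wires) and has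
odd right-hand side; `Solvable.ev_eq_zero`. (Or sum the constraints directly: per column, per wire.) -/
theorem xsys_not_solvable (hk : 2 ≤ k) : ¬ (S.xsys ρo go r0).Solvable sink := by
  rintro ⟨α, hα⟩
  have h1 : ∀ A (x : ℕ), x ≤ 2 * k + 4 → ∑ i, α (gsL go r0 none A x i) = ∑ i, α (.inl (.hub go i r0 r0)) := by
    intro A x
    induction x with
    | zero => exact fun _ => rfl
    | succ x ih =>
      intro hx
      have h2 := gs_ring_gw (S := S) (ρo := ρo) (go := go) (r0 := r0) hk none A ⟨x, hx⟩ α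
      rw [sum_eq_zero fun i _ => hα _ (gs_mem_T.2 rfl), ih (by omega)] at h2
      grind
  have h2 := gs_ring_gj (S := S) (ρo := ρo) (go := go) (r0 := r0) hk none α
  rw [sum_congr rfl fun i _ => hα _ (gs_mem_T.2 rfl), h1 _ _ le_rfl, h1 _ _ le_rfl, CharTwo.add_self_eq_zero] at h2
  simp [sink, sinkB, gvar] at h2

section Wire

variable {β : XT k R J → ZMod 2} {W : Finset (XT k R J) → (XV k R J G → ZMod 2) → Prop} {ρ : J} {p : Fin 9}
  {a : Fin k → R}

/-- The cut of a main wire to the left of the column `x`. -/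
def gsCut (G : Type) (ρ : J) (p : Fin 9) (a : Fin k → R) (x : ℕ) (i : Fin k) : XV k R J G :=
  .inl (.hor ρ p x i (a i) (a (i + 1)))

theorem gs_wire (hk : 2 ≤ k) (hW : (S.xsys ρo go r0).IsCons (k + 1) β W)
    (hv : ∀ i, ((S.hub ρ p).isSome || S.val ρ i (a i) (a (i + 1))) = true) (x : ℕ) (hx : x ≤ k + 1) :
    (∃ c, (S.xsys ρo go r0).Der W (gsCut G ρ p a 1) c) ↔
      ∃ c, (S.xsys ρo go r0).Der W (gsCut G ρ p a (x + 1)) c := by
  induction x with
  | zero => rfl
  | succ x ih =>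
    rw [ih (by omega)]
    have h1 : ∀ i, gsCut G ρ p a (x + 1) i ∈
        (S.xsys ρo go r0).vars (.inl (.wt ρ p ⟨x + 1, by omega⟩ i (a i) (a (i + 1)))) := fun i => by
      simp [gs_mem_vars, xvarsL, varsL, gsCut]
    have h2 : ∀ i, gsCut G ρ p a (x + 1 + 1) i ∈
        (S.xsys ρo go r0).vars (.inl (.wt ρ p ⟨x + 1, by omega⟩ i (a i) (a (i + 1)))) := fun i => by
      simp [gs_mem_vars, xvarsL, varsL, gsCut]
    have h3 : ∀ α : XV k R J G → ZMod 2,
        ∑ i, ∑ y ∈ (S.xsys ρo go r0).vars (.inl (.wt ρ p ⟨x + 1, by omega⟩ i (a i) (a (i + 1)))), α y =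
          ∑ i, α (gsCut G ρ p a (x + 1) i) + ∑ i, α (gsCut G ρ p a (x + 1 + 1) i) := fun α => by
      simp [gs_ring_wt hk, gsCut]
    have h0 : ∀ i, Sum.inl (MT.wt ρ p ⟨x + 1, by omega⟩ i (a i) (a (i + 1))) ∈ (S.xsys ρo go r0).T :=
      fun i => gs_mem_T.2 (hv i)
    exact ⟨fun ⟨_, h⟩ => ⟨_, gs_der_move hW _ h0 h1 h2 h3 h⟩,
      fun ⟨_, h⟩ => ⟨_, gs_der_move hW _ h0 h2 h1 (fun α => (h3 α).trans (add_comm _ _)) h⟩⟩

theorem gs_hub (hk : 2 ≤ k) (hW : (S.xsys ρo go r0).IsCons (k + 1) β W) {g : G} (hg : S.hub ρ p = some g) :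
    (∃ c, (S.xsys ρo go r0).Der W (fun i => Sum.inl (MV.hub g i (a i) (a (i + 1)))) c) ↔
      ∃ c, (S.xsys ρo go r0).Der W (gsCut G ρ p a (k + 2)) c := by
  have hv : ∀ i, ((S.hub ρ p).isSome || S.val ρ i (a i) (a (i + 1))) = true := fun i => by simp [hg]
  rw [← gs_wire hk hW hv (k + 1) le_rfl]
  have h1 : ∀ i, Sum.inl (MV.hub g i (a i) (a (i + 1))) ∈
      (S.xsys ρo go r0).vars (.inl (.wt ρ p 0 i (a i) (a (i + 1)))) := fun i => by
    simp [gs_mem_vars, xvarsL, varsL, hg]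
  have h2 : ∀ i, gsCut G ρ p a 1 i ∈ (S.xsys ρo go r0).vars (.inl (.wt ρ p 0 i (a i) (a (i + 1)))) := fun i => by
    simp [gs_mem_vars, xvarsL, varsL, gsCut]
  have h3 : ∀ α : XV k R J G → ZMod 2,
      ∑ i, ∑ y ∈ (S.xsys ρo go r0).vars (.inl (.wt ρ p 0 i (a i) (a (i + 1)))), α y =
        ∑ i, α (Sum.inl (MV.hub g i (a i) (a (i + 1)))) + ∑ i, α (gsCut G ρ p a 1 i) := fun α => by
    simp [gs_ring_wt hk, gsCut, hg]
  have h0 : ∀ i, Sum.inl (MT.wt ρ p 0 i (a i) (a (i + 1))) ∈ (S.xsys ρo go r0).T := fun i => gs_mem_T.2 (hv i)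
  exact ⟨fun ⟨_, h⟩ => ⟨_, gs_der_move hW _ h0 h1 h2 h3 h⟩,
    fun ⟨_, h⟩ => ⟨_, gs_der_move hW _ h0 h2 h1 (fun α => (h3 α).trans (add_comm _ _)) h⟩⟩

theorem gs_cap (hk : 2 ≤ k) (hW : (S.xsys ρo go r0).IsCons (k + 1) β W) (hg : S.hub ρ p = none)
    (ha : S.Inst ρ a) : ∃ c, (S.xsys ρo go r0).Der W (gsCut G ρ p a (k + 2)) c := by
  have hv : ∀ i, ((S.hub ρ p).isSome || S.val ρ i (a i) (a (i + 1))) = true := fun i => by simp [ha i]
  rw [← gs_wire hk hW hv (k + 1) le_rfl]
  refine ⟨∑ i, β (.inl (.wt ρ p 0 i (a i) (a (i + 1)))), hW.der_of_cover (by simp)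
    (fun i => .inl (.wt ρ p 0 i (a i) (a (i + 1)))) (fun i => ⟨gs_mem_T.2 (hv i), ?_⟩) fun α hα => ?_⟩
  · simp [gs_mem_vars, xvarsL, varsL, gsCut]
  · rw [← sum_congr rfl fun i _ => hW.par hα (mem_image_of_mem _ (mem_univ i)), gs_ring_wt hk]
    simp [gsCut, hg]

end Wire

/-- True addresses have derived values. Sketch: induction on `Tr`. *Ring*: for `α` allowed on the `k` tiles
`wt ρ p x i (a i) (a (i+1))` the sum of their constraints says (carries cancel, `Equiv.sum_comp (addRight 1)`)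
`∑ i, α (left variable) + ∑ i, α (hor (x+1)) = ∑ i, β (tile)`, where the left variables are absent for a capped
column `0`. With `der_of_cover` (these tiles cover both cuts) derived values move along a wire in both directions.
For an instance `c` of `ρ`, all ports `p ≠ 0` have derived end cuts `hor ρ p (k+2) i ..` at `adr ρ p c` (capped:
`WF.trW_cap`, the tiles are valid; else induction hypothesis); the ring of join tiles `jt ρ i (c i) (c (i+1))`
covers the end cuts of all nine ports and its constraints sum to a relation between them; so the end cut of port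
`0` is derived; move it back to the hub. -/
theorem der_of_tr (hS : S.WF) (hk : 2 ≤ k) {β : XT k R J → ZMod 2}
    {W : Finset (XT k R J) → (XV k R J G → ZMod 2) → Prop}
    (hW : (S.xsys ρo go r0).IsCons (k + 1) β W) {g : G} {a : Fin k → R} (h : S.Tr g a) :
    ∃ c, (S.xsys ρo go r0).Der W (fun i => Sum.inl (MV.hub g i (a i) (a (i + 1)))) c := by
  induction h with
  | rule ρ c g hc hg _ ih =>
  have h1 : ∀ p, p ≠ 0 → ∃ e, (S.xsys ρo go r0).Der W (gsCut G ρ p (S.adr ρ p c) (k + 2)) e := fun p hp => by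
    cases hp' : S.hub ρ p with
    | none => exact gs_cap hk hW hp' ((hS.trW_cap hc hp').2.2 hp')
    | some g' => exact (gs_hub hk hW hp').1 (ih p g' hp hp')
  choose! e he using h1
  have ht : ∀ p i, Sum.inl (MT.jt ρ i (c i) (c (i + 1))) ∈ (S.xsys ρo go r0).T ∧
      gsCut G ρ p (S.adr ρ p c) (k + 2) i ∈ (S.xsys ρo go r0).vars (.inl (.jt ρ i (c i) (c (i + 1)))) :=
    fun p i => ⟨gs_mem_T.2 (hc i), gs_mem_vars.2 (List.mem_map_of_mem (List.mem_ofFn.2 ⟨p, rfl⟩))⟩
  refine (gs_hub hk hW hg).2 ⟨∑ i, β (.inl (.jt ρ i (c i) (c (i + 1)))) + ∑ p ∈ univ.erase 0, e p,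
    hW.der_of_cover (by simp) _ (ht 0) fun α hα => ?_⟩
  have h2 : ∑ i, β (.inl (.jt ρ i (c i) (c (i + 1)))) =
      ∑ p, ∑ i, α (gsCut G ρ p (S.adr ρ p c) (k + 2) i) := by
    rw [sum_comm]
    refine sum_congr rfl fun i _ => ?_
    rw [← hW.par hα (mem_image_of_mem _ (mem_univ i)), gs_sum_inl hk, varsL, List.map_ofFn, List.sum_ofFn]
    rfl
  rw [h2, ← add_sum_erase _ _ (mem_univ (0 : Fin 9)),
    sum_congr rfl fun p hp => he p (ne_of_mem_erase hp) _ (ht p) α hα, add_assoc, CharTwo.add_self_eq_zero,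
    add_zero]

/-- The sum of the right-hand side over a gadget. -/
def gsTot (β : XT k R J → ZMod 2) (γ : GI k R J) : ZMod 2 :=
  ∑ i, (β (.inr (.gj γ i)) + (∑ x, β (.inr (.gw γ false x i)) + ∑ x, β (.inr (.gw γ true x i))))

theorem gs_gadget (hk : 2 ≤ k) {β : XT k R J → ZMod 2} {W : Finset (XT k R J) → (XV k R J G → ZMod 2) → Prop}
    (hW : (S.xsys ρo go r0).IsCons (k + 1) β W) {h : ZMod 2}
    (hh : (S.xsys ρo go r0).Der W (fun i => Sum.inl (MV.hub go i r0 r0)) h) {γ : GI k R J}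
    (hγ : S.gvalid ρo γ = true) {P : Finset (XT k R J)} (hP : P ⊆ (S.xsys ρo go r0).T) (hc : P.card ≤ 1)
    {α : XV k R J G → ZMod 2} (hα : W P α) :
    ∃ α' : XV k R J G → ZMod 2, (∀ y ∈ (S.xsys ρo go r0).Y P, α' y = α y) ∧
      ((S.gvar γ).map fun y => α' (.inl y)).sum = gsTot β γ := by
  have h1 : ∀ A (x : ℕ), x ≤ 2 * k + 4 → (S.xsys ρo go r0).Der W (gsL go r0 γ A x)
      (h + gsPre (fun x => ∑ i, β (.inr (.gw γ A x i))) x) := by
    intro A x
    induction x with
    | zero => exact fun _ => by rw [gsPre_zero, add_zero]; exact hh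
    | succ x ih =>
      intro hx
      rw [gsPre_succ _ ⟨x, hx⟩, ← add_assoc]
      exact gs_der_move hW (fun i => .inr (.gw γ A ⟨x, hx⟩ i)) (fun i => gs_mem_T.2 hγ)
        (fun i => by simp [gs_mem_vars, xvarsL, gsL]) (fun i => by simp [gs_mem_vars, xvarsL, gsL])
        (gs_ring_gw hk γ A ⟨x, hx⟩) (ih (by omega))
  obtain ⟨α', h2, h3⟩ := hW.extend' hα (univ.image fun i => .inr (.gj γ i))
    (union_subset (image_subset_iff.2 fun i _ => gs_mem_T.2 hγ) hP)
    ((card_union_le _ _).trans (add_le_add (card_image_le.trans (by simp)) hc))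
  have h4 := hW.sub h3 subset_union_left
  have h5 := fun A => h1 A _ le_rfl (fun i => .inr (.gj γ i))
    (fun i => ⟨gs_mem_T.2 hγ, by cases A <;> simp [gs_mem_vars, xvarsL, gsL]⟩) α' h4
  have h6 := gs_ring_gj (S := S) (ρo := ρo) (go := go) (r0 := r0) hk γ α'
  rw [sum_congr rfl fun i _ => hW.par h4 (mem_image_of_mem _ (mem_univ i)), h5, h5, gsPre_top, gsPre_top,
    sum_comm, sum_comm (f := fun x i => β (.inr (.gw γ true x i)))] at h6
  refine ⟨α', h2, ?_⟩
  simp only [gsTot, sum_add_distrib]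
  grind

omit [Fintype R] [DecidableEq R] [Fintype J] [DecidableEq G] in
theorem gs_exists_gadget {u : MT k R J} (hu : S.valid u = true) (ho : onOut ρo u = false) {y : MV k R J G}
    (hy : y ∈ S.varsL u) : ∃ γ, S.gvalid ρo γ = true ∧ S.gvar γ = [y] := by
  obtain ⟨j, hj, rfl⟩ := List.getElem_of_mem hy
  have hl : (S.varsL u).length ≤ 9 := by
    cases u with
    | wt ρ p x i r r' =>
      simp only [varsL]
      split_ifs
      · cases S.hub ρ p <;> simp
      · simp
    | jt ρ i s s' => simp [varsL]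
  exact ⟨some (u, ⟨j, by omega⟩), by simp [gvalid, hu, ho, hj], by simp [gvar, hj]⟩

omit [Fintype R] [DecidableEq R] [Fintype J] [DecidableEq G] in
theorem gs_gadget_cases {γ : GI k R J} (hγ : S.gvalid ρo γ = true) : γ = none ∨
    ∃ u y, S.valid u = true ∧ onOut ρo u = false ∧ y ∈ S.varsL u ∧ S.gvar γ = [y] := by
  rcases γ with _ | ⟨u, j⟩
  · exact Or.inl rfl
  · simp only [gvalid, Bool.and_eq_true, Bool.not_eq_true', decide_eq_true_eq] at hγ
    exact Or.inr ⟨u, _, hγ.1.1, hγ.1.2, List.getElem_mem hγ.2, by simp [gvar, hγ.2]⟩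

/-- Solving the output wire. -/
def gsOut (ρo : J) (go : G) (o : ℕ → Fin k → R → R → ZMod 2) (a₀ : MV k R J G → ZMod 2) : MV k R J G → ZMod 2
  | .hub g i r r' => if g = go then o 0 i r r' else a₀ (.hub g i r r')
  | .hor ρ p x i r r' => if ρ = ρo ∧ p = 0 then o x i r r' else a₀ (.hor ρ p x i r r')
  | .car ρ p x i r => if ρ = ρo ∧ p = 0 then 0 else a₀ (.car ρ p x i r)

/-- Solving the gadgets. -/
def gsAll (β : XT k R J → ZMod 2) (a₁ : MV k R J G → ZMod 2) (h : Fin k → ZMod 2)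
    (c d : GI k R J → Fin k → ZMod 2) : XV k R J G → ZMod 2
  | .inl y => a₁ y
  | .inr (.gh γ A x i) => h i + gsPre (fun x => β (.inr (.gw γ A x i))) x + if A = false then d γ i else 0
  | .inr (.gc γ A x i) => if A = false ∧ x = 0 then c γ i else 0

theorem gs_solve (hk : 2 ≤ k) (hO : S.Out ρo go r0) {β : XT k R J → ZMod 2} {a₀ : MV k R J G → ZMod 2}
    (h1 : ∀ u, S.valid u = true → onOut ρo u = false → ((S.varsL u).map a₀).sum = β (.inl u))
    (h2 : ∀ γ, S.gvalid ρo γ = true → ((S.gvar γ).map a₀).sum = gsTot β γ) :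
    (S.xsys ρo go r0).Solvable β := by
  set o : ℕ → Fin k → R → R → ZMod 2 := fun x i r r' => a₀ (.hor ρo 0 (k + 2) i r r') +
    ∑ x, β (.inl (.wt ρo 0 x i r r')) + gsPre (fun x => β (.inl (.wt ρo 0 x i r r'))) x with ho
  have ha : ∀ u, onOut ρo u = false → ∀ y ∈ S.varsL u, gsOut ρo go o a₀ y = a₀ y := by
    intro u hu y hy
    cases u with
    | wt ρ p x i r r' =>
      have hn : ¬ (ρ = ρo ∧ p = 0) := by simpa [onOut] using hu
      simp only [varsL, List.mem_append, List.mem_cons, List.not_mem_nil, or_false] at hy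
      rcases hy with (rfl | rfl | rfl) | hy
      · exact if_neg hn
      · exact if_neg hn
      · exact if_neg hn
      · split_ifs at hy
        · simp only [Option.mem_toList, Option.map_eq_some_iff] at hy
          obtain ⟨g, hg, rfl⟩ := hy
          exact if_neg fun h : g = go => hn (hO.only ρ p (h ▸ hg))
        · rw [List.mem_singleton.1 hy]
          exact if_neg hn
    | jt ρ i s s' =>
      obtain ⟨p, rfl⟩ := List.mem_ofFn.1 hy
      simp only [gsOut]
      split_ifs with h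
      · obtain ⟨rfl, rfl⟩ := h
        simp only [ho, gsPre_top, add_assoc, CharTwo.add_self_eq_zero, add_zero]
      · rfl
  set d : GI k R J → Fin k → ZMod 2 := fun γ i =>
    β (.inr (.gj γ i)) + (∑ x, β (.inr (.gw γ false x i)) + ∑ x, β (.inr (.gw γ true x i))) +
      if i = 0 then ((S.gvar γ).map (gsOut ρo go o a₀)).sum else 0 with hd
  have hc : ∀ γ, S.gvalid ρo γ = true → ∃ c : Fin k → ZMod 2, ∀ i, c i + c (i + 1) = d γ i := fun γ hγ => by
    refine gs_exists_carry _ ?_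
    have h3 : (S.gvar γ).map (gsOut ρo go o a₀) = (S.gvar γ).map a₀ := by
      rcases gs_gadget_cases hγ with rfl | ⟨u, y, -, hu, hy, e⟩
      · rfl
      · rw [e, List.map_singleton, List.map_singleton, ha u hu y hy]
    rw [sum_add_distrib, sum_ite_eq', if_pos (mem_univ _), h3, h2 γ hγ]
    exact CharTwo.add_self_eq_zero _
  choose! c hc using hc
  refine ⟨gsAll β (gsOut ρo go o a₀) (fun i => o 0 i r0 r0) c d, fun u hu => ?_⟩
  rw [gs_mem_T] at hu
  rcases u with u | ⟨γ, A, x, i⟩ | ⟨γ, i⟩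
  · rw [gs_sum_inl hk]
    simp only [gsAll]
    cases hu' : onOut ρo u with
    | false => rw [← h1 u hu hu', List.map_congr_left (ha u hu')]
    | true =>
      cases u with
      | jt ρ i s s' => simp [onOut] at hu'
      | wt ρ p x i r r' =>
        obtain ⟨rfl, rfl⟩ : ρ = ρo ∧ p = 0 := by simpa [onOut] using hu'
        have h3 : o (x + 1) i r r' + o x i r r' = β (.inl (.wt ρ 0 x i r r')) := by
          simp only [ho, gsPre_succ]
          grind
        rw [← h3]
        by_cases hx : (x : ℕ) = 0 <;> simp [varsL, gsOut, hx, hO.hub]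
  · have h3 := hc γ hu i
    rw [gs_sum_gw hk]
    by_cases hx : (x : ℕ) = 0
    · have h4 := gsPre_succ (fun x => β (.inr (.gw γ A x i))) x
      rw [hx, gsPre_zero] at h4
      cases A <;> simp only [gsAll, gsL, gsOut, hx, h4, if_true, and_self, Bool.true_eq_false, false_and,
        if_false] <;> grind
    · simp only [gsAll, gsL, hx, gsPre_succ, and_false, if_false]
      grind
  · rw [gs_sum_gj hk]
    simp only [gsAll, gsPre_top, if_true, Bool.true_eq_false, if_false, hd]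
    grind

/-- Sketch. A true address at `go` is constantly `r0` (`Out`), so the cut `hub go i r0 r0` has a derived value
`h`. Moving along the gadget wires, for a valid gadget `γ` and `α` allowed on the ring `gj γ i`:
`∑ y ∈ gvar γ, α (inl y) = tot γ :=` the sum of `β` over all tiles of `γ` (the two copies of `h` cancel). Hence
`tot none = 0`, and for `γ = some (u, j)` with variable `y`: for every valid tile `t ∋ inl y` and `α` allowed on
`{t}`, `α (inl y) = tot γ` (extend to `insert t ring`, `k + 1` tiles). So there is `α* : MV → ZMod 2` with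
`tot γ = α* y` for valid `γ`, and `β (inl u) = ∑ y ∈ vars u, α* y` for valid main `u` off the output wire. Use
`solvable_of_ker`: let `F` be closed. `F` is a constant `ψ γ` on all tiles of a valid gadget `γ` (variables `gh`,
`gc`). The variable `hub go i r r'` lies only in `wt ρo 0 0 i r r'` and, for `r = r' = r0`, in the `gw γ A 0 i`, whose
values cancel in pairs; so `F` vanishes on column `0` of the output wire, hence on the whole wire (variables
`hor ρo 0 x`, `1 ≤ x ≤ k + 1`, which lie in no valid gadget tile). Then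
`ev β F = ∑ u off the wire, F u * ∑ y ∈ vars u, α* y + ∑ γ, ψ γ * tot γ = ∑ y, α* y * bd F (inl y) = 0`,
the sum over the variables `y` of valid main tiles off the output wire (none of them is a `hub go` variable). -/
theorem xsys_solvable (hS : S.WF) (hk : 2 ≤ k) (hO : S.Out ρo go r0) {a : Fin k → R} (h : S.Tr go a)
    {β : XT k R J → ZMod 2} (hβ : (S.xsys ρo go r0).Cons (k + 1) β) :
    (S.xsys ρo go r0).Solvable β := by
  obtain ⟨W, hW⟩ := hβ
  obtain rfl : a = fun _ => r0 := by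
    cases h with
    | rule ρ c _ _ hg _ =>
      obtain ⟨rfl, -⟩ := hO.only ρ 0 hg
      exact funext fun i => hO.proj i _
  obtain ⟨h0, hh⟩ := der_of_tr hS hk hW h
  obtain ⟨α₀, hα₀⟩ := hW.nonempty
  have h1 : ∀ u, S.valid u = true → ∃ α, W {.inl u} α ∧ ∀ y ∈ S.varsL u, ∀ γ, S.gvalid ρo γ = true →
      S.gvar γ = [y] → α (.inl y) = gsTot β γ := fun u hu => by
    have hT : ({.inl u} : Finset (XT k R J)) ⊆ (S.xsys ρo go r0).T := singleton_subset_iff.2 (gs_mem_T.2 hu)
    obtain ⟨α, -, hα⟩ := hW.extend hα₀ (empty_subset _) hT (by simp)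
    refine ⟨α, hα, fun y hy γ hγ e => ?_⟩
    obtain ⟨α', h2, h3⟩ := gs_gadget hk hW hh hγ hT (by simp) hα
    rw [← h3, e, ← h2 _ (Sys.mem_Y.2 ⟨_, mem_singleton_self _, gs_mem_vars.2 (List.mem_map_of_mem hy)⟩)]
    simp
  have h2 : ∀ y, ∃ c, ∀ γ, S.gvalid ρo γ = true → S.gvar γ = [y] → c = gsTot β γ := fun y => by
    by_cases hy : ∃ γ, S.gvalid ρo γ = true ∧ S.gvar γ = [y]
    · obtain ⟨γ, hγ, e⟩ := hy
      rcases gs_gadget_cases hγ with rfl | ⟨u, y', hu, -, hy', e'⟩
      · simp [gvar] at e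
      · obtain rfl : y' = y := by simpa [e'] using e
        obtain ⟨α, -, hα⟩ := h1 u hu
        exact ⟨_, hα y' hy'⟩
    · exact ⟨0, fun γ hγ e => absurd ⟨γ, hγ, e⟩ hy⟩
  choose a₀ ha₀ using h2
  refine gs_solve hk hO (a₀ := a₀) (fun u hu ho => ?_) fun γ hγ => ?_
  · obtain ⟨α, hα, h3⟩ := h1 u hu
    rw [← hW.par hα (mem_singleton_self _), gs_sum_inl hk]
    refine congrArg List.sum (List.map_congr_left fun y hy => ?_)
    obtain ⟨γ, hγ, e⟩ := gs_exists_gadget hu ho hy
    rw [ha₀ y γ hγ e, h3 y hy γ hγ e]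
  · rcases gs_gadget_cases hγ with rfl | ⟨u, y, -, -, -, e⟩
    · obtain ⟨α, -, h3⟩ := gs_gadget hk hW hh hγ (empty_subset _) (by simp) hα₀
      exact h3
    · rw [e, ← ha₀ y γ hγ e]
      simp

end RS

end Crest.Agent.R290
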