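import Crest.Agent.R290.GadCons
import Crest.Agent.R290.GadSolv
import Crest.Agent.R290.CSys
import Crest.Agent.R290.CodeA

/-!
# Row 290: coded rule systems and their coded parity systems
-/

set_option autoImplicit false

namespace Crest.Agent.R290

open Finset Crest.Agent.Lib.PolyTime

/-- A rule system given by a list of rule descriptors and functions on numbers. Rule `0` is the output
rule, `go` the output hub, `0` the constant output symbol. -/
structure CRS (D : Type) where
  /-- number of rows -/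
  k : ℕ
  /-- number of symbols -/
  nR : ℕ
  /-- the rules -/
  rules : List D
  /-- hub of a port: `0` capped, `g + 1` the hub `g` -/
  hub : D → ℕ → ℕ
  /-- projections: descriptor, port, row, symbol -/
  π : D → ℕ → ℕ → ℕ → ℕ
  /-- valid labels: descriptor, row, two symbols -/
  val : D → ℕ → ℕ → ℕ → Bool
  /-- the output hub -/
  go : ℕ

namespace CRS

variable {D : Type} (C : CRS D)

/-- The typed rule system. -/
def rs [NeZero C.nR] : RS C.k (Fin C.nR) (Fin C.rules.length) ℕ where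
  hub ρ p := if C.hub C.rules[ρ] p = 0 then none else some (C.hub C.rules[ρ] p - 1)
  π ρ p i r := Fin.ofNat C.nR (C.π C.rules[ρ] p i r)
  val ρ i r r' := C.val C.rules[ρ] i r r'

end CRS

/-- `L` lists the tiles of `X` (possibly with repetitions) after an injective renaming of the variables. -/
def CSys.Match {τ ν : Type} (L : CSys) (X : Sys τ ν) (b : τ → Bool) : Prop :=
  ∃ e : ν → ℕ, Function.Injective e ∧
    (∀ j < L.length, ∃ u ∈ X.T, (L.vs j).toFinset = (X.vars u).image e ∧ L.par true j = b u) ∧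
    ∀ u ∈ X.T, ∃ j < L.length, (L.vs j).toFinset = (X.vars u).image e ∧ L.par true j = b u

section Match

variable {τ ν : Type} [DecidableEq τ] [DecidableEq ν] {L : CSys} {X : Sys τ ν} {b : τ → Bool} {K : ℕ}

theorem CSys.Match.exists_pres (h : L.Match X b) : ∃ (e : ν → ℕ) (Z : Sys (ℕ × τ) ℕ),
    Sys.Presents Z L.sys Prod.fst id ∧ Sys.Presents Z X Prod.snd e ∧
      ∀ w ∈ Z.T, (L.β true ∘ Prod.fst) w = ((fun u => if b u then 1 else 0) ∘ Prod.snd) w := by
  obtain ⟨e, he, h1, h2⟩ := h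
  refine ⟨e, ⟨(range L.length ×ˢ X.T).filter fun w =>
    (L.vs w.1).toFinset = (X.vars w.2).image e ∧ L.par true w.1 = b w.2,
    fun w => (L.vs w.1).toFinset⟩, ⟨?_, ?_, Function.injective_id, ?_⟩, ⟨?_, ?_, he, ?_⟩, ?_⟩
  · intro w hw
    exact (mem_product.1 (mem_filter.1 hw).1).1
  · intro j hj
    obtain ⟨u, hu, hu'⟩ := h1 j (mem_range.1 hj)
    exact ⟨(j, u), mem_filter.2 ⟨mem_product.2 ⟨hj, hu⟩, hu'⟩, rfl⟩
  · intro w _
    rw [image_id]; rfl
  · intro w hw
    exact (mem_product.1 (mem_filter.1 hw).1).2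
  · intro u hu
    obtain ⟨j, hj, hj'⟩ := h2 u hu
    exact ⟨(j, u), mem_filter.2 ⟨mem_product.2 ⟨mem_range.2 hj, hu⟩, hj'⟩, rfl⟩
  · intro w hw
    exact (mem_filter.1 hw).2.1
  · intro w hw
    simp only [Function.comp_apply, CSys.β, (mem_filter.1 hw).2.2]

/-- Sketch for the three transfers: the system on `ℕ × τ` with the tiles `(j, u)`, `j < length`, `u ∈ T`, having
the same (renamed) variables (and, for the first two, the same bit), `vars (j, u) = L.sys.vars j`, `Presents` both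
`L.sys` (by `fst`, `id`) and `X` (by `snd`, `e`). -/
theorem CSys.Match.cons_iff (h : L.Match X b) :
    L.sys.Cons K (L.β true) ↔ X.Cons K fun u => if b u then 1 else 0 := by
  obtain ⟨e, Z, h1, h2, h3⟩ := h.exists_pres
  rw [← h1.cons_iff, ← h2.cons_iff]
  exact ⟨fun h => h.congr h3, fun h => h.congr fun u hu => (h3 u hu).symm⟩

theorem CSys.Match.solvable_iff (h : L.Match X b) :
    L.sys.Solvable (L.β true) ↔ X.Solvable fun u => if b u then 1 else 0 := by
  obtain ⟨e, Z, h1, h2, h3⟩ := h.exists_pres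
  rw [← h1.solvable_iff, ← h2.solvable_iff]
  exact ⟨fun h => h.congr h3, fun h => h.congr fun u hu => (h3 u hu).symm⟩

theorem CSys.Match.all (h : L.Match X b) (hK : 2 ≤ K) (hX : ∀ β, X.Cons K β → X.Solvable β)
    (β : ℕ → ZMod 2) (hβ : L.sys.Cons K β) : L.sys.Solvable β := by
  obtain ⟨e, Z, h1, h2, -⟩ := h.exists_pres
  have h3 := h1.cons_iff.2 hβ
  obtain ⟨γ, hγ⟩ := h2.factor hK h3
  have h4 : X.Cons K γ := h2.cons_iff.1 (h3.congr hγ)
  exact h1.solvable_iff.1 ((h2.solvable_iff.2 (hX γ h4)).congr fun u hu => (hγ u hu).symm)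

end Match

namespace CRS

/-- The table of a coded rule system. -/
def tab {D : Type} (d₀ : D) (C : CRS D) : Cd.Tab :=
  (C.k, C.nR, C.rules.length, C.go,
    C.rules.map fun d => (List.range 9).map fun p => C.hub d p,
    C.rules.map fun d => (List.range 9).map fun p => (List.range C.k).map fun i =>
      (List.range C.nR).map fun r => C.π d p i r % C.nR,
    (C.rules ++ [d₀]).map fun d => (List.range C.k).map fun i => (List.range C.nR).map fun r =>
      (List.range C.nR).map fun r' => C.val d i r r')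

theorem pt_tab {α D : Type} [Enc α] [Enc D] (d₀ : D) (C : α → CRS D)
    (h₁ : PT fun a => (C a).k) (h₂ : PT fun a => (C a).nR) (h₃ : PT fun a => (C a).rules)
    (h₄ : PT fun p : α × D × ℕ => (C p.1).hub p.2.1 p.2.2)
    (h₅ : PT fun p : α × D × ℕ × ℕ × ℕ => (C p.1).π p.2.1 p.2.2.1 p.2.2.2.1 p.2.2.2.2)
    (h₆ : PT fun p : α × D × ℕ × ℕ × ℕ => (C p.1).val p.2.1 p.2.2.1 p.2.2.2.1 p.2.2.2.2)
    (h₇ : PT fun a => (C a).go) : PT fun a => (C a).tab d₀ := by
  have key : ∀ (k nR go : α → ℕ) (rules : α → List D) (hub : α → D → ℕ → ℕ)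
      (π : α → D → ℕ → ℕ → ℕ → ℕ) (val : α → D → ℕ → ℕ → ℕ → Bool), PT k → PT nR → PT rules →
      (PT fun p : α × D × ℕ => hub p.1 p.2.1 p.2.2) →
      (PT fun p : α × D × ℕ × ℕ × ℕ => π p.1 p.2.1 p.2.2.1 p.2.2.2.1 p.2.2.2.2) →
      (PT fun p : α × D × ℕ × ℕ × ℕ => val p.1 p.2.1 p.2.2.1 p.2.2.2.1 p.2.2.2.2) → PT go →
      PT fun a => tab d₀ ⟨k a, nR a, rules a, hub a, π a, val a, go a⟩ := by
    intro k nR go rules hub π val h₁ h₂ h₃ h₄ h₅ h₆ h₇
    simp only [tab]
    fun_prop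
  exact key (fun a => (C a).k) (fun a => (C a).nR) (fun a => (C a).go) (fun a => (C a).rules)
    (fun a => (C a).hub) (fun a => (C a).π) (fun a => (C a).val) h₁ h₂ h₃ h₄ h₅ h₆ h₇

theorem getD_map_range {β : Type} (f : ℕ → β) {n : ℕ} (i : Fin n) (d : β) :
    ((List.range n).map f).getD i d = f i := by
  rw [List.getD_eq_getElem _ _ (by simp)]; simp

theorem getD_map_rules {D β : Type} (l : List D) (f : D → β) (i : Fin l.length) (d : β) :
    (l.map f).getD i d = f l[i] := by
  rw [List.getD_eq_getElem _ _ (by simp)]; simp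

theorem getD_map_rules' {D β : Type} (l : List D) (d₀ : D) (f : D → β) (i : Fin l.length) (d : β) :
    ((l ++ [d₀]).map f).getD i d = f l[i] := by
  rw [List.getD_eq_getElem _ _ (by simp)]; simp

theorem spec_tab {D : Type} (d₀ : D) (C : CRS D) [NeZero C.nR] :
    Cd.Spec (C.tab d₀) C.rs C.go := by
  refine ⟨rfl, rfl, rfl, rfl, fun ρ p => ?_, fun ρ p i r => ?_, fun ρ i r r' => ?_⟩
  · simp only [Cd.hb, tab, rs]
    rw [getD_map_rules, getD_map_range]
  · simp only [Cd.pj, tab, rs, Fin.val_ofNat]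
    rw [getD_map_rules, getD_map_range, getD_map_range, getD_map_range]
  · simp only [Cd.vl, tab, getD_map_rules', getD_map_range, rs]

end CRS

/-- The coded system of a coded rule system. Sketch: number the variables by nested `Nat.pair`s
(`pt_natPair`, `Nat.pair_eq_pair`): `hub g i r r'`, `hor ρ p x i r r'`, `car ρ p x i r`, `gh γ A x i`, `gc γ A x i` with
distinct tags, `γ = none ↦ 0`, `γ = some (u, j) ↦ 1 + pair (code u) j`. Describe main tiles by tuples of numbers
`(tag, ρ, p, x, i, r, r')`, list the valid ones by nested `List.range`/`flatMap`/`filter` (the descriptor of rule `ρ` is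
`rules.getD ρ d₀`; pair the index with the descriptor by `(range n).map fun ρ => (ρ, rules.getD ρ d₀)`), give their variable
codes by a function mirroring `RS.varsL` (with `(i + 1) % k` and `π … % nR`), list the valid gadgets as pairs (code of `γ`,
list of its main variable) and their tiles mirroring `RS.xvarsL`. Show: the variable list of the tuple of a typed
tile `u` is `(xvarsL u).map e`; every listed tuple comes from a valid typed tile and conversely. `WF` follows from
`xvarsL_nodup` and the lengths (`3`, `4`, `9`, `2`, `3`). -/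
theorem exists_csys_of_crs {α D : Type} [Enc α] [Enc D] (d₀ : D) (C : α → CRS D)
    (h₁ : PT fun a => (C a).k) (h₂ : PT fun a => (C a).nR) (h₃ : PT fun a => (C a).rules)
    (h₄ : PT fun p : α × D × ℕ => (C p.1).hub p.2.1 p.2.2)
    (h₅ : PT fun p : α × D × ℕ × ℕ × ℕ => (C p.1).π p.2.1 p.2.2.1 p.2.2.2.1 p.2.2.2.2)
    (h₆ : PT fun p : α × D × ℕ × ℕ × ℕ => (C p.1).val p.2.1 p.2.2.1 p.2.2.2.1 p.2.2.2.2)
    (h₇ : PT fun a => (C a).go) :
    ∃ Cs : α → CSys, PT Cs ∧ ∀ (a : α) [NeZero (C a).k] [NeZero (C a).nR] (h0 : 0 < (C a).rules.length),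
      2 ≤ (C a).k → (Cs a).WF ∧
        (Cs a).Match ((C a).rs.xsys ⟨0, h0⟩ (C a).go 0) RS.sinkB := by
  refine ⟨fun a => Cd.csys ((C a).tab d₀), Cd.pt_csys (CRS.pt_tab d₀ C h₁ h₂ h₃ h₄ h₅ h₆ h₇),
    fun a _ _ h0 hk => ?_⟩
  have hS := (C a).spec_tab d₀
  have hm := hS.mem_csys h0
  beta_reduce
  generalize Cd.csys ((C a).tab d₀) = L at hm
  have h1 : ∀ j < L.length, ∃ u, (C a).rs.xvalid ⟨0, h0⟩ u = true ∧
      L.getD j ([], false) = Cd.cX (C a).rs (C a).go u := fun j hj => by
    rw [List.getD_eq_getElem _ _ hj]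
    exact (hm _).1 (List.getElem_mem hj)
  have h2 : ∀ u j, L.getD j ([], false) = Cd.cX (C a).rs (C a).go u →
      (L.vs j).toFinset = (((C a).rs.xsys ⟨0, h0⟩ (C a).go 0).vars u).image Cd.eX ∧
        L.par true j = RS.sinkB u := fun u j h => by
    unfold CSys.vs CSys.par
    rw [h]
    refine ⟨?_, by simp [Cd.cX]⟩
    ext y
    simp [Cd.cX, RS.xsys]
  refine ⟨fun j hj => ?_, Cd.eX, Cd.eX_inj, fun j hj => ?_, fun u hu => ?_⟩
  · obtain ⟨u, -, hu⟩ := h1 j hj
    have h3 := Cd.length_xvarsL (S := (C a).rs) (go := (C a).go) u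
    unfold CSys.vs
    rw [hu]
    refine ⟨((C a).rs.xvarsL_nodup _ _ hk u).map Cd.eX_inj, ?_, by simpa [Cd.cX] using h3.2⟩
    rw [← List.length_pos_iff]
    simpa [Cd.cX] using h3.1
  · obtain ⟨u, hu, hu'⟩ := h1 j hj
    exact ⟨u, by simpa [RS.xsys] using hu, h2 u j hu'⟩
  · obtain ⟨j, hj, hj'⟩ := List.getElem_of_mem ((hm _).2 ⟨u, by simpa [RS.xsys] using hu, rfl⟩)
    exact ⟨j, hj, h2 u j (by rw [List.getD_eq_getElem _ _ hj, hj'])⟩

end Crest.Agent.R290
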