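import Crest.Agent.R290.CoreCons

/-!
# Row 290: the easy closure properties of the core certificate, and restriction of the hub invariant
-/

set_option autoImplicit false
set_option linter.unusedSectionVars false

namespace Crest.Agent.R290

open Finset

namespace RS

variable {k : ℕ} [NeZero k] {R J G : Type} [Fintype R] [DecidableEq R] [Fintype J] [DecidableEq J]
  [DecidableEq G] {S : RS k R J G} {P P' : Finset (MT k R J)} {F F' : MT k R J → ZMod 2}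

theorem ca_D_of_fx (h : S.Cl P F) (h0 : ∀ ρ p x, Unp P ρ p x → fx F ρ p x = 0) : S.D P F := by
  refine ⟨h, fun g X hX hf => absurd ?_ hf, fun ρ X hX => ⟨0, fun p hp => absurd (h0 _ _ _ (hX p)) hp⟩⟩
  refine sum_eq_zero fun ρ _ => sum_eq_zero fun p _ => ?_
  split_ifs with hg
  · exact h0 _ _ _ (hX ρ p hg)
  · rfl

theorem ca_fx_add (ρ : J) (p : Fin 9) (x : Fin (k + 2)) :
    fx (F + F') ρ p x = fx F ρ p x + fx F' ρ p x := by
  simp only [fx, fl, Pi.add_apply, sum_add_distrib]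

theorem ca_pinJ_mono (hP : P ⊆ P') {ρ : J} {p : Fin 9} {x : Fin (k + 2)} {a : Fin k → R}
    (h : S.PinJ P ρ p x a) : S.PinJ P' ρ p x a := fun i =>
  (h i).imp (fun ⟨y, h1, h2⟩ => ⟨y, h1, hP h2⟩) fun ⟨s, s', h1, h2⟩ => ⟨s, s', hP h1, h2⟩

theorem ca_good (hS : S.WF) (hk : 2 ≤ k) (hc : P.card ≤ k + 1) {ρ : J} {X : Fin 9 → Fin (k + 2)}
    {ε ε' : ZMod 2} (h : S.Good P F ρ X ε) (h' : S.Good P F' ρ X ε') {p : Fin 9}
    (h1 : fx F ρ p (X p) ≠ ε) (h2 : fx F' ρ p (X p) = ε') :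
    (∃ a, S.TrW ρ p a ∧ S.PinJ P ρ p (X p) a) ∨
    ∃ c, S.Inst ρ c ∧ ¬ S.TrW ρ p (S.adr ρ p c) ∧ ∀ p', ¬ S.TrW ρ p' (S.adr ρ p' c) →
      S.PinJ P ρ p' (X p') (S.adr ρ p' c) ∧ fx F ρ p' (X p') + fx F' ρ p' (X p') ≠ ε + ε' := by
  refine (h p h1).imp id fun ⟨c, hc1, hc2, hc3⟩ => ⟨c, hc1, hc2, fun p' hp' => ⟨(hc3 p' hp').1, ?_⟩⟩
  have : fx F' ρ p' (X p') = ε' := by
    by_contra hne
    rcases h' p' hne with ⟨a, ha1, ha2⟩ | ⟨c', hc1', hc2', hc3'⟩
    · exact hp' (PinJ.unique hk hc ha2 (hc3 p' hp').1 ▸ ha1)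
    · obtain rfl := hS.inj ρ p' c' c hc1' hc1 (PinJ.unique hk hc (hc3' p' hc2').1 (hc3 p' hp').1)
      exact (hc3' p hc2).2 h2
  rw [this]
  exact fun e => (hc3 p' hp').2 (add_right_cancel e)

theorem D_zero : S.D P 0 :=
  ca_D_of_fx ⟨fun _ _ => rfl, fun y _ => by simp [Sys.bd]⟩ fun ρ p x _ => by simp [fx, fl]

/-- `Pi.single u 1` has flux `0` through every unpebbled column; take `ε = 0`. -/
theorem D_single (hT : P ⊆ S.sys.T) {u : MT k R J} (hu : u ∈ P) : S.D P (Pi.single u 1) := by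
  refine ca_D_of_fx ⟨fun v hv => Pi.single_eq_of_ne (fun e : v = u => hv (e ▸ hT hu)) _, fun y hy => ?_⟩
    fun ρ p x hx => sum_eq_zero fun r _ => sum_eq_zero fun r' _ =>
      Pi.single_eq_of_ne (fun e => hx _ _ _ (e ▸ hu)) _
  rw [Sys.bd_single (hT hu), if_neg fun h => hy (Sys.mem_Y.2 ⟨u, hu, h⟩)]

theorem D_mono (hP : P ⊆ P') (h : S.D P F) : S.D P' F := by
  refine ⟨⟨h.1.1, fun y hy => h.1.2 y fun h1 => hy (Sys.Y_mono hP h1)⟩, fun g X hX hf => ?_,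
    fun ρ X hX => ?_⟩
  · obtain ⟨a, h1, h2⟩ := h.2.1 g X (fun ρ p hg i r r' hm => hX ρ p hg i r r' (hP hm)) hf
    exact ⟨a, h1, fun i => let ⟨ρ, p, x, h3, h4, h5⟩ := h2 i; ⟨ρ, p, x, h3, h4, hP h5⟩⟩
  · obtain ⟨ε, hε⟩ := h.2.2 ρ X fun p i r r' hm => hX p i r r' (hP hm)
    exact ⟨ε, fun p hp => (hε p hp).imp (fun ⟨a, h1, h2⟩ => ⟨a, h1, ca_pinJ_mono hP h2⟩)
      fun ⟨c, h1, h2, h3⟩ => ⟨c, h1, h2, fun p' hp' => ⟨ca_pinJ_mono hP (h3 p' hp').1, (h3 p' hp').2⟩⟩⟩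

/-- Sketch for `Good`: `ε = ε₁ + ε₂`. If `fx (F + F') p ≠ ε`, exactly one summand deviates, say
`fx F p ≠ ε₁`, `fx F' p = ε₂`. If `p` is pinned at a true address, done. Otherwise take the instance `c`
for `F`. If some false port `p'` of `c` has `fx F' p' ≠ ε₂`, then `p'` is pinned at a true address or at
`adr p' c'` for an instance `c'` as in `Good F'`; by `PinJ.unique` the first contradicts falsity and the
second gives `c' = c` (`WF.inj`), hence `fx F' p ≠ ε₂`, a contradiction. So `c` works for the sum. -/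
theorem D_add (hS : S.WF) (hk : 2 ≤ k) (hc : P.card ≤ k + 1) (h : S.D P F) (h' : S.D P F') :
    S.D P (F + F') := by
  refine ⟨⟨fun u hu => by rw [Pi.add_apply, h.1.1 u hu, h'.1.1 u hu, add_zero],
    fun y hy => by rw [Sys.bd_add, h.1.2 y hy, h'.1.2 y hy, add_zero]⟩, fun g X hX hf => ?_,
    fun ρ X hX => ?_⟩
  · have e : S.hubFlux (F + F') X g = S.hubFlux F X g + S.hubFlux F' X g := by
      simp only [hubFlux, ← sum_add_distrib, ca_fx_add]
      refine sum_congr rfl fun ρ _ => sum_congr rfl fun p _ => ?_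
      split_ifs <;> simp
    by_cases h0 : S.hubFlux F X g = 0
    · rw [e, h0, zero_add] at hf
      exact h'.2.1 g X hX hf
    · exact h.2.1 g X hX h0
  · obtain ⟨ε, hε⟩ := h.2.2 ρ X hX
    obtain ⟨ε', hε'⟩ := h'.2.2 ρ X hX
    refine ⟨ε + ε', fun p hp => ?_⟩
    simp only [ca_fx_add] at hp ⊢
    rcases (by decide : ∀ a b c d : ZMod 2, a + b ≠ c + d → (a ≠ c ∧ b = d) ∨ (b ≠ d ∧ a = c))
      _ _ _ _ hp with ⟨h1, h2⟩ | ⟨h1, h2⟩
    · exact ca_good hS hk hc hε hε' h1 h2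
    · simpa only [add_comm] using ca_good hS hk hc hε' hε h1 h2

/-- Restriction of the hub invariant. Let `P' = insert u P`, `j = u.row`, `X` unpebbled for `P` with odd
flux. `Cl.hub_adr` gives `a` pinned by `P`, which is exactly one pebble per row; it suffices to show
`Tr g a`. *Key*: if `a'` is pinned by `P'` (in the sense of `PinH P' X' g a'` for any `X'`, or `PinJ P' ρ p x a'`
when all of `P` lies on the wire `(ρ, p)`), then in rows `≠ j` the pinning pebble is the one of `P`, so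
`a' = a` by `adr_unique`. Cases:
* `u` is in no selected column: use `InvH P'` with `X`.
* `u` is in the selected column `x₀ = X ρ₀ p₀` of the wire `w₀ = (ρ₀, p₀)` at `g`, not the last column: the
  column `x₀ + 1` is unpebbled for `P'` and has the same flux (`Cl.between`); use `InvH P'` with the
  updated selection.
* `x₀` is the last column: take `x₁` unpebbled for `P'` (`exists_unp`), `x₁ < x₀`. If the fluxes at `x₁`,
  `x₀` agree use `InvH P'` with `x₁`. Otherwise all of `P` lies on `w₀` (`Cl.between_adr`). Use `InvJ P'` at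
  `ρ₀` with `x₁` on `p₀` and any column on the other ports (no pebble of `P'` is on them, none is a join
  tile). By `Cl.fx_eq_join` (for `P`) the other ports and column `x₀` of `p₀` have the same flux `m`, and
  `x₁` has flux `≠ m`. If `ε ≠ m`, another port would be pinned: impossible. If `ε = m`, the second
  alternative of `Good` is impossible by `WF.two_false`, so `p₀` is pinned at a true address `a' = a`. -/
theorem invH_res (hS : S.WF) (hk : 2 ≤ k) {u : MT k R J} (hc : P.card ≤ k)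
    (h : S.D (insert u P) F) (hF : S.Cl P F) : S.InvH P F := by
  intro g X hX hf
  obtain ⟨a, ha, hall⟩ := hF.hub_adr hk hc hX hf
  refine ⟨a, ?_, ha⟩
  have key : ∀ a' : Fin k → R,
      (∀ i, ∃ ρ p x, MT.wt ρ p x i (a' i) (a' (i + 1)) ∈ insert u P) → a' = a := by
    intro a' h'
    refine adr_unique hk u.row fun i hi => ?_
    obtain ⟨ρ, p, x, hm⟩ := h' i
    rcases mem_insert.1 hm with rfl | hm
    · exact absurd rfl hi
    · obtain ⟨_, _, _, -, -, e⟩ := hall _ hm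
      simp only [MT.row, MT.wt.injEq] at e
      exact e.2.2.2.2
  have keyH : ∀ X' : J → Fin 9 → Fin (k + 2),
      (∀ ρ p, S.hub ρ p = some g → Unp (insert u P) ρ p (X' ρ p)) → S.hubFlux F X' g ≠ 0 →
      S.Tr g a := fun X' h1 h2 => by
    obtain ⟨a', h3, h4⟩ := h.2.1 g X' h1 h2
    exact key a' (fun i => let ⟨ρ, p, x, _, _, h5⟩ := h4 i; ⟨ρ, p, x, h5⟩) ▸ h3
  by_cases hu : ∀ ρ p, S.hub ρ p = some g → Unp (insert u P) ρ p (X ρ p)
  · exact keyH X hu hf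
  simp only [Unp, not_forall, not_not] at hu
  obtain ⟨ρ₀, p₀, hg, i₀, r₀, r₀', hm⟩ := hu
  obtain rfl := (mem_insert.1 hm).resolve_right (hX ρ₀ p₀ hg _ _ _)
  obtain ⟨x₁, hx₁⟩ := exists_unp ((card_insert_le (MT.wt ρ₀ p₀ (X ρ₀ p₀) i₀ r₀ r₀') P).trans
    (Nat.succ_le_succ hc)) ρ₀ p₀
  have hx₁' : Unp P ρ₀ p₀ x₁ := fun i r r' hm => hx₁ i r r' (mem_insert_of_mem hm)
  by_cases hfx : fx F ρ₀ p₀ x₁ = fx F ρ₀ p₀ (X ρ₀ p₀)
  · refine keyH (fun ρ p => if ρ = ρ₀ ∧ p = p₀ then x₁ else X ρ p) (fun ρ p hρ => ?_) ?_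
    · split_ifs with h1
      · rw [h1.1, h1.2]; exact hx₁
      · intro i r r' hm
        rcases mem_insert.1 hm with e | hm
        · simp only [MT.wt.injEq] at e
          exact h1 ⟨e.1, e.2.1⟩
        · exact hX ρ p hρ _ _ _ hm
    · refine fun e => hf (Eq.trans (sum_congr rfl fun ρ _ => sum_congr rfl fun p _ => ?_) e)
      by_cases h1 : ρ = ρ₀ ∧ p = p₀
      · simp only [h1.1, h1.2, and_self, if_true, hfx]
      · simp only [h1, if_false]
  have hlt : ∀ x i r r', MT.wt ρ₀ p₀ x i r r' ∈ P → x < X ρ₀ p₀ := fun x i r r' hm => by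
    obtain ⟨_, _, _, -, h1, e⟩ := hall _ hm
    simp only [MT.wt.injEq] at e
    obtain ⟨rfl, rfl, rfl, -⟩ := e
    exact h1
  rcases le_total (X ρ₀ p₀) x₁ with hle | hle
  · obtain ⟨y, r, r', h1, -, h2⟩ := hF.between hk hle (hX _ _ hg) hx₁' (Ne.symm hfx) 0
    exact absurd (hlt _ _ _ _ h2) h1.not_gt
  obtain ⟨b, y, -, -, hb⟩ := hF.between_adr hk hc hle hx₁' (hX _ _ hg) hfx
  have onw : ∀ v ∈ insert (MT.wt ρ₀ p₀ (X ρ₀ p₀) i₀ r₀ r₀') P,
      ∃ x i r r', v = MT.wt ρ₀ p₀ x i r r' := fun v hv => by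
    rcases mem_insert.1 hv with e | hv
    · exact ⟨_, _, _, _, e⟩
    · exact ⟨_, _, _, _, hb v hv⟩
  have now : ∀ p, p ≠ p₀ → ∀ x i r r',
      MT.wt ρ₀ p x i r r' ∉ insert (MT.wt ρ₀ p₀ (X ρ₀ p₀) i₀ r₀ r₀') P := fun p hp x i r r' hm => by
    obtain ⟨_, _, _, _, e⟩ := onw _ hm
    simp only [MT.wt.injEq] at e
    exact hp e.2.1
  have noj : ∀ i s s', MT.jt ρ₀ i s s' ∉ insert (MT.wt ρ₀ p₀ (X ρ₀ p₀) i₀ r₀ r₀') P :=
    fun i s s' hm => by
      obtain ⟨_, _, _, _, e⟩ := onw _ hm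
      cases e
  have nop : ∀ p, p ≠ p₀ → ∀ x i r r',
      ¬ S.PinR (insert (MT.wt ρ₀ p₀ (X ρ₀ p₀) i₀ r₀ r₀') P) ρ₀ p x i r r' := by
    rintro p hp x i r r' (⟨y, -, hm⟩ | ⟨s, s', hm, -⟩)
    · exact now p hp _ _ _ _ hm
    · exact noj _ _ _ hm
  have hm₀ := hF.fx_eq_join hk (hX _ _ hg) (i := 0) (by
    rintro r r' (⟨y, h1, hm⟩ | ⟨s, s', hm, -⟩)
    · exact absurd (hlt _ _ _ _ hm) h1.not_gt
    · exact noj _ _ _ (mem_insert_of_mem hm))
  obtain ⟨ε, hε⟩ := h.2.2 ρ₀ (fun p => if p = p₀ then x₁ else 0) fun p => by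
    split_ifs with h1
    · rw [h1]; exact hx₁
    · exact now p h1 _
  by_cases he : ε = fx F ρ₀ p₀ (X ρ₀ p₀)
  · rcases hε p₀ (by beta_reduce; rw [if_pos rfl, he]; exact hfx) with ⟨a', h1, h2⟩ | ⟨c, h1, h2, h3⟩
    · refine key a' (fun i => ?_) ▸ h1.1 g hg
      rcases h2 i with ⟨y, -, hm⟩ | ⟨s, s', hm, -⟩
      · exact ⟨_, _, _, hm⟩
      · exact absurd hm (noj _ _ _)
    · obtain ⟨p', h4, h5⟩ := hS.two_false h1 h2
      exact absurd ((h3 p' h5).1 0) (nop p' h4 _ _ _ _)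
  · obtain ⟨p, hp⟩ := exists_ne p₀
    have hm₁ := hF.fx_eq_join hk (ρ := ρ₀) (p := p) (x := 0)
      (fun i r r' hm => now p hp _ _ _ _ (mem_insert_of_mem hm)) (i := 0) (by
        rintro r r' (⟨y, -, hm⟩ | ⟨s, s', hm, -⟩)
        · exact now p hp _ _ _ _ (mem_insert_of_mem hm)
        · exact noj _ _ _ (mem_insert_of_mem hm))
    rcases hε p (by beta_reduce; rw [if_neg hp, hm₁, ← hm₀]; exact Ne.symm he) with ⟨a', -, h2⟩ | ⟨c, -, h2, h3⟩
    · exact absurd (h2 0) (nop p hp _ _ _ _)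
    · exact absurd ((h3 p h2).1 0) (nop p hp _ _ _ _)

end RS

end Crest.Agent.R290
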