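import Crest.Agent.R290.CoreDefs

/-!
# Row 290: conservation laws and counting lemmas for the core system
-/

set_option autoImplicit false

namespace Crest.Agent.R290

open Finset

section Rows

variable {k : ℕ} [NeZero k] {R : Type}

theorem fin_succ_ne (hk : 2 ≤ k) (i : Fin k) : i + 1 ≠ i := by
  intro h
  have h1 : (1 : Fin k) = 0 := add_eq_left.1 h
  have h2 := congrArg Fin.val h1
  rw [Fin.val_one', Nat.mod_eq_of_lt (by omega), Fin.val_zero] at h2
  omega

/-- A function invariant under the cyclic shift is constant. -/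
theorem fin_cyc {β : Type} (h : Fin k → β) (hh : ∀ i, h (i + 1) = h i) (i j : Fin k) : h i = h j := by
  have key : ∀ (n : ℕ) (hn : n < k), h ⟨n, hn⟩ = h 0 := by
    intro n
    induction n with
    | zero => intro hn; rfl
    | succ n ih =>
      intro hn
      rw [← ih (by omega), ← hh ⟨n, by omega⟩]
      congr 1
      apply Fin.ext
      rw [Fin.val_add, Fin.val_one', Nat.add_mod_mod, Nat.mod_eq_of_lt hn]
  exact (key i.1 i.2).trans (key j.1 j.2).symm

/-- (U) Addresses whose labels agree off one row are equal: position `j` is covered by row `j - 1`,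
position `j + 1` by row `j + 1`. -/
theorem adr_unique (hk : 2 ≤ k) {a b : Fin k → R} (j : Fin k)
    (h : ∀ i, i ≠ j → a i = b i ∧ a (i + 1) = b (i + 1)) : a = b := by
  funext i
  by_cases hi : i = j
  · subst hi
    have h1 : i - 1 ≠ i := fun h' => fin_succ_ne hk i (sub_eq_iff_eq_add.1 h').symm
    simpa using (h _ h1).2
  · exact (h i hi).1

/-- A consistent family of label densities concentrated on one label per row, with odd total in each row,
is a path. -/
theorem path_of_supp [Fintype R] [DecidableEq R] (Φ : Fin k → R → R → ZMod 2) (l l' : Fin k → R)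
    (hm : ∀ i r, ∑ r', Φ (i + 1) r r' = ∑ r'', Φ i r'' r)
    (hs : ∀ i r r', ¬ (r = l i ∧ r' = l' i) → Φ i r r' = 0)
    (ht : ∀ i, ∑ r, ∑ r', Φ i r r' = 1) (i : Fin k) : l' i = l (i + 1) := by
  have h1 : Φ i (l i) (l' i) = 1 := by
    rw [← ht i, sum_eq_single (l i), sum_eq_single (l' i)]
    · exact fun r' _ h => hs _ _ _ fun h' => h h'.2
    · simp
    · exact fun r _ h => sum_eq_zero fun r' _ => hs _ _ _ fun h' => h h'.1
    · simp
  by_contra hne
  have h2 := hm i (l' i)
  rw [sum_eq_zero fun r' _ => hs _ _ _ fun h' => hne h'.1, sum_eq_single (l i), h1] at h2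
  · exact absurd h2 (by decide)
  · exact fun r _ h => hs _ _ _ fun h' => h h'.1
  · simp

end Rows

namespace RS

variable {k : ℕ} [NeZero k] {R J G : Type} [Fintype R] [DecidableEq R] [Fintype J] [DecidableEq J]
  [DecidableEq G] {S : RS k R J G} {P : Finset (MT k R J)} {F : MT k R J → ZMod 2}

/-! ### Which tiles contain a variable -/

theorem mem_T {u : MT k R J} : u ∈ S.sys.T ↔ S.valid u = true := by simp [sys]

theorem varsL_nodup (hk : 2 ≤ k) (u : MT k R J) : (S.varsL u).Nodup := by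
  cases u with
  | wt ρ p x i r r' =>
    have h1 := (fin_succ_ne hk i).symm
    simp only [varsL]
    split_ifs
    · cases S.hub ρ p <;> simp [h1]
    · simp [h1]
  | jt ρ i s s' =>
    refine List.nodup_ofFn.2 fun p p' h => ?_
    simp only [MV.hor.injEq] at h
    exact h.2.1

theorem hub_mem {g : G} {i : Fin k} {r r' : R} {u : MT k R J} :
    MV.hub g i r r' ∈ S.sys.vars u ↔ ∃ ρ p, S.hub ρ p = some g ∧ u = .wt ρ p 0 i r r' := by
  cases u with
  | wt ρ p x i' s s' =>
    simp only [sys, varsL, List.mem_toFinset]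
    split_ifs with hx
    · obtain rfl : x = 0 := Fin.ext hx
      cases h : S.hub ρ p with
      | none =>
        simp only [Option.map_none, Option.toList_none, List.append_nil, List.mem_cons, reduceCtorEq,
          List.not_mem_nil, or_self, false_iff]
        rintro ⟨ρ', p', h1, h2⟩
        simp only [MT.wt.injEq] at h2
        obtain ⟨rfl, rfl, -⟩ := h2
        simp [h] at h1
      | some g' =>
        simp only [Option.map_some, Option.toList_some, List.cons_append, List.nil_append,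
          List.mem_cons, reduceCtorEq, List.not_mem_nil, or_false, false_or, MV.hub.injEq,
          MT.wt.injEq]
        constructor
        · rintro ⟨rfl, rfl, rfl, rfl⟩
          exact ⟨ρ, p, h, rfl, rfl, trivial, rfl, rfl, rfl⟩
        · rintro ⟨ρ', p', h1, rfl, rfl, -, rfl, rfl, rfl⟩
          exact ⟨Option.some.inj (h1.symm.trans h), rfl, rfl, rfl⟩
    · simp only [List.cons_append, List.nil_append, List.mem_cons, reduceCtorEq, List.not_mem_nil,
        or_self, false_iff, MT.wt.injEq]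
      rintro ⟨ρ', p', -, -, -, rfl, -⟩
      exact hx rfl
  | jt ρ i' s s' => simp [sys, varsL, -List.ofFn_succ]

theorem car_mem {ρ : J} {p : Fin 9} {x : ℕ} {i : Fin k} {r : R} {u : MT k R J} :
    MV.car ρ p x i r ∈ S.sys.vars u ↔ ∃ (x' : Fin (k + 2)) (r' : R), (x' : ℕ) = x ∧
      (u = .wt ρ p x' i r r' ∨ u = .wt ρ p x' (i - 1) r' r) := by
  cases u with
  | wt ρ' p' x' i' s s' =>
    have h0 : MV.car ρ p x i r ∈ S.sys.vars (.wt ρ' p' x' i' s s') ↔
        MV.car ρ p x i r = (.car ρ' p' x' i' s : MV k R J G) ∨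
          MV.car ρ p x i r = (.car ρ' p' x' (i' + 1) s' : MV k R J G) := by
      simp only [sys, varsL, List.mem_toFinset]
      split_ifs
      · cases S.hub ρ' p' <;> simp
      · simp
    rw [h0]
    simp only [MV.car.injEq, MT.wt.injEq]
    constructor
    · rintro (⟨rfl, rfl, rfl, rfl, rfl⟩ | ⟨rfl, rfl, rfl, rfl, rfl⟩)
      · exact ⟨x', s', rfl, Or.inl ⟨rfl, rfl, rfl, rfl, rfl, rfl⟩⟩
      · exact ⟨x', s, rfl, Or.inr ⟨rfl, rfl, rfl, by simp, rfl, rfl⟩⟩
    · rintro ⟨x'', r', rfl, ⟨rfl, rfl, rfl, rfl, rfl, rfl⟩ | ⟨rfl, rfl, rfl, rfl, rfl, rfl⟩⟩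
      · exact Or.inl ⟨rfl, rfl, rfl, rfl, rfl⟩
      · exact Or.inr ⟨rfl, rfl, rfl, by simp, rfl⟩
  | jt ρ i' s s' => simp [sys, varsL, -List.ofFn_succ]

theorem hor_mem {ρ : J} {p : Fin 9} {x : ℕ} {i : Fin k} {r r' : R} {u : MT k R J} :
    MV.hor ρ p x i r r' ∈ S.sys.vars u ↔
      (∃ x' : Fin (k + 2), ((x' : ℕ) + 1 = x ∨ ((x' : ℕ) = x ∧ x ≠ 0)) ∧ u = .wt ρ p x' i r r') ∨
      (x = k + 2 ∧ ∃ s s', S.π ρ p i s = r ∧ S.π ρ p (i + 1) s' = r' ∧ u = .jt ρ i s s') := by
  cases u with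
  | wt ρ' p' x' i' s s' =>
    have h0 : MV.hor ρ p x i r r' ∈ S.sys.vars (.wt ρ' p' x' i' s s') ↔
        MV.hor ρ p x i r r' = (.hor ρ' p' (x' + 1) i' s s' : MV k R J G) ∨
          ((x' : ℕ) ≠ 0 ∧ MV.hor ρ p x i r r' = (.hor ρ' p' x' i' s s' : MV k R J G)) := by
      simp only [sys, varsL, List.mem_toFinset]
      split_ifs with hx
      · cases S.hub ρ' p' <;> simp [hx]
      · simp only [List.cons_append, List.nil_append, List.mem_cons, reduceCtorEq, List.not_mem_nil,
          or_false, false_or, ne_eq, hx, not_false_eq_true, true_and]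
    rw [h0]
    simp only [MV.hor.injEq, MT.wt.injEq, reduceCtorEq, and_false, exists_false, or_false]
    constructor
    · rintro (⟨rfl, rfl, rfl, rfl, rfl, rfl⟩ | ⟨hx, rfl, rfl, rfl, rfl, rfl, rfl⟩)
      · exact ⟨x', Or.inl rfl, rfl, rfl, rfl, rfl, rfl, rfl⟩
      · exact ⟨x', Or.inr ⟨rfl, hx⟩, rfl, rfl, rfl, rfl, rfl, rfl⟩
    · rintro ⟨x'', rfl | ⟨rfl, hx⟩, rfl, rfl, rfl, rfl, rfl, rfl⟩
      · exact Or.inl ⟨rfl, rfl, rfl, rfl, rfl, rfl⟩
      · exact Or.inr ⟨hx, rfl, rfl, rfl, rfl, rfl, rfl⟩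
  | jt ρ' i' s s' =>
    simp only [sys, varsL, List.mem_toFinset, List.mem_ofFn, MV.hor.injEq, reduceCtorEq, and_false,
      exists_false, false_or, MT.jt.injEq]
    constructor
    · rintro ⟨p', rfl, rfl, rfl, rfl, rfl, rfl⟩
      exact ⟨rfl, s, s', rfl, rfl, rfl, rfl, rfl, rfl⟩
    · rintro ⟨rfl, t, t', rfl, rfl, rfl, rfl, rfl, rfl⟩
      exact ⟨p, rfl, rfl, rfl, rfl, rfl, rfl⟩

/-! ### Conservation -/

/-- The constraint of an unseen variable, summed over a parametrisation of its tiles. -/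
theorem Cl.cb_sum (h : S.Cl P F) {ι : Type} [Fintype ι] (φ : ι → MT k R J)
    (hφ : Function.Injective φ) (Q : ι → Prop) [DecidablePred Q] (y : MV k R J G)
    (hy : ∀ u, y ∈ S.sys.vars u ↔ ∃ t, Q t ∧ u = φ t) (hP : ∀ t, Q t → φ t ∉ P) :
    (∑ t, if Q t then F (φ t) else 0) = 0 := by
  have h1 := h.2 y fun hY => by
    obtain ⟨u, hu, hu'⟩ := Sys.mem_Y.1 hY
    obtain ⟨t, ht, rfl⟩ := (hy u).1 hu'
    exact hP t ht hu
  rw [Sys.bd, sum_subset (subset_univ _) fun u _ hu => by rw [h.1 u hu, ite_self],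
    ← sum_filter] at h1
  rw [← sum_filter, ← h1]
  refine (sum_map _ ⟨φ, hφ⟩ F).symm.trans (sum_congr ?_ fun _ _ => rfl)
  ext u
  simp only [mem_map, mem_filter, mem_univ, true_and, hy, Function.Embedding.coeFn_mk, eq_comm]

omit [NeZero k] [Fintype R] [DecidableEq R] [Fintype J] [DecidableEq J] [DecidableEq G] in
theorem cb_one (hc : P.card ≤ k) (h : ∀ i, ∃ u ∈ P, u.row = i) {u v : MT k R J} (hu : u ∈ P)
    (hv : v ∈ P) (huv : u.row = v.row) : u = v :=
  injOn_of_surjOn_of_card_le (s := P) (t := univ) MT.row (fun _ _ => by simp)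
    (fun i _ => by simpa using h i) (by simpa using hc) hu hv huv

theorem cb_two {a b : ZMod 2} (h : a + b = 0) : a = b := by
  revert a b; decide

theorem cb_ne {a b : ZMod 2} (h : a ≠ b) : a + b = 1 := by
  revert a b; decide

/-- In an unpebbled column the marginals of consecutive rows agree (carry variables). -/
theorem Cl.marg (hk : 2 ≤ k) (h : S.Cl P F) {ρ : J} {p : Fin 9} {x : Fin (k + 2)} (hx : Unp P ρ p x)
    (i : Fin k) (r : R) : ∑ r', F (.wt ρ p x (i + 1) r r') = ∑ r'', F (.wt ρ p x i r'' r) := by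
  have h1 := h.cb_sum (ι := R ⊕ R)
    (Sum.elim (fun r' => .wt ρ p x (i + 1) r r') fun r'' => .wt ρ p x i r'' r)
    (by
      have := fin_succ_ne hk i
      rintro (a | a) (b | b) hab <;> simp_all [eq_comm])
    (fun _ => True) (.car ρ p x (i + 1) r)
    (fun u => by
      rw [car_mem, add_sub_cancel_right]
      constructor
      · rintro ⟨x', r', hx', h | h⟩ <;> obtain rfl := Fin.ext hx'
        · exact ⟨.inl r', trivial, h⟩
        · exact ⟨.inr r', trivial, h⟩
      · rintro ⟨a | a, -, h⟩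
        · exact ⟨x, a, rfl, .inl h⟩
        · exact ⟨x, a, rfl, .inr h⟩)
    (by rintro (a | a) - <;> exact hx _ _ _)
  simp only [if_true, Fintype.sum_sum_type, Sum.elim_inl, Sum.elim_inr] at h1
  exact cb_two h1

theorem Cl.fl_eq (hk : 2 ≤ k) (h : S.Cl P F) {ρ : J} {p : Fin 9} {x : Fin (k + 2)} (hx : Unp P ρ p x)
    (i : Fin k) : fl F ρ p x i = fx F ρ p x := by
  refine fin_cyc (fl F ρ p x) (fun j => ?_) i 0
  simp only [fl, h.marg hk hx]
  exact sum_comm

/-- Along a wire, label by label. -/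
theorem Cl.wire (h : S.Cl P F) {ρ : J} {p : Fin 9} {x x' : Fin (k + 2)} (hxx : x ≤ x') {i : Fin k}
    {r r' : R} (hP : ∀ y, x ≤ y → y ≤ x' → MT.wt ρ p y i r r' ∉ P) :
    F (.wt ρ p x i r r') = F (.wt ρ p x' i r r') := by
  obtain ⟨n, hn⟩ := x'
  replace hxx : (x : ℕ) ≤ n := hxx
  induction n, hxx using Nat.le_induction with
  | base => rfl
  | succ n hxn ih =>
    have hn' : n < k + 2 := by omega
    rw [ih hn' fun y h1 h2 => hP y h1 (h2.trans (Nat.le_succ n))]
    have h1 := h.cb_sum (ι := Bool)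
      (fun b => .wt ρ p (if b then ⟨n, hn'⟩ else ⟨n + 1, hn⟩) i r r')
      (by rintro (_ | _) (_ | _) hab <;> simp_all)
      (fun _ => True) (.hor ρ p (n + 1) i r r')
      (fun u => by
        rw [hor_mem]
        constructor
        · rintro (⟨x', h1 | ⟨h1, -⟩, rfl⟩ | ⟨h1, -⟩)
          · exact ⟨true, trivial, by congr 1; exact Fin.ext (by simpa using h1)⟩
          · exact ⟨false, trivial, by congr 1; exact Fin.ext (by simpa using h1)⟩
          · omega
        · rintro ⟨_ | _, -, h⟩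
          · exact .inl ⟨_, .inr ⟨rfl, by omega⟩, h⟩
          · exact .inl ⟨_, .inl rfl, h⟩)
      (by
        rintro (_ | _) -
        · exact hP _ (hxn.trans (Nat.le_succ n)) le_rfl
        · exact hP _ hxn (Nat.le_succ n))
    simp only [if_true, Fintype.sum_bool] at h1
    exact cb_two h1

/-- From an unpebbled column to the join, for a label that is not pinned. -/
theorem Cl.join (h : S.Cl P F) {ρ : J} {p : Fin 9} {x : Fin (k + 2)} (hx : Unp P ρ p x) {i : Fin k}
    {r r' : R} (hP : ¬ S.PinR P ρ p x i r r') :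
    F (.wt ρ p x i r r') =
      ∑ s, ∑ s', if S.π ρ p i s = r ∧ S.π ρ p (i + 1) s' = r' then F (.jt ρ i s s') else 0 := by
  have hw : ∀ y, x ≤ y → MT.wt ρ p y i r r' ∉ P := fun y hy hm => by
    rcases hy.eq_or_lt with rfl | hy
    · exact hx _ _ _ hm
    · exact hP (.inl ⟨y, hy, hm⟩)
  rw [h.wire (Fin.le_last x) fun y hy _ => hw y hy]
  have h1 := h.cb_sum (ι := Option (R × R))
    (fun o => o.elim (.wt ρ p (Fin.last _) i r r') fun t => .jt ρ i t.1 t.2)
    (by rintro (_ | ⟨a, b⟩) (_ | ⟨c, d⟩) hab <;> simp_all)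
    (fun o => ∀ t ∈ o, S.π ρ p i t.1 = r ∧ S.π ρ p (i + 1) t.2 = r') (.hor ρ p (k + 2) i r r')
    (fun u => by
      rw [hor_mem]
      constructor
      · rintro (⟨x', h1 | ⟨h1, -⟩, rfl⟩ | ⟨-, s, s', h1, h2, rfl⟩)
        · exact ⟨none, by simp, by
            rw [show x' = Fin.last _ from Fin.ext (by simpa using h1)]; rfl⟩
        · omega
        · exact ⟨some (s, s'), by simp [h1, h2], rfl⟩
      · rintro ⟨_ | ⟨s, s'⟩, h1, h⟩
        · exact .inl ⟨_, .inl rfl, h⟩
        · exact .inr ⟨rfl, s, s', (h1 _ rfl).1, (h1 _ rfl).2, h⟩)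
    (by
      rintro (_ | ⟨s, s'⟩) h1
      · exact hw _ (Fin.le_last x)
      · exact fun hm => hP (.inr ⟨s, s', hm, h1 _ rfl⟩))
  rw [Fintype.sum_option, Fintype.sum_prod_type] at h1
  simp only [Option.mem_def, reduceCtorEq, false_imp_iff, implies_true, if_true, Option.elim,
    Option.some.injEq, forall_eq'] at h1
  exact cb_two h1

/-- From a hub to selected unpebbled columns, for a label that is not pinned. -/
theorem Cl.hub (h : S.Cl P F) {g : G} {X : J → Fin 9 → Fin (k + 2)}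
    (hX : ∀ ρ p, S.hub ρ p = some g → Unp P ρ p (X ρ p)) {i : Fin k} {r r' : R}
    (hP : ∀ ρ p x, S.hub ρ p = some g → x < X ρ p → MT.wt ρ p x i r r' ∉ P) :
    (∑ ρ, ∑ p, if S.hub ρ p = some g then F (.wt ρ p (X ρ p) i r r') else 0) = 0 := by
  have hw : ∀ ρ p, S.hub ρ p = some g → ∀ y, y ≤ X ρ p → MT.wt ρ p y i r r' ∉ P :=
    fun ρ p hg y hy hm => by
      rcases hy.eq_or_lt with rfl | hy
      · exact hX ρ p hg _ _ _ hm
      · exact hP ρ p y hg hy hm
  have h1 := h.cb_sum (ι := J × Fin 9) (fun t => .wt t.1 t.2 0 i r r')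
    (by rintro ⟨a, b⟩ ⟨c, d⟩ hab; simp_all)
    (fun t => S.hub t.1 t.2 = some g) (.hub g i r r')
    (fun u => by rw [hub_mem, Prod.exists]) fun t ht => hw _ _ ht _ (Fin.zero_le _)
  rw [Fintype.sum_prod_type] at h1
  refine Eq.trans (sum_congr rfl fun ρ _ => sum_congr rfl fun p _ => ?_) h1
  split_ifs with hg
  · exact (h.wire (Fin.zero_le _) fun y _ hy => hw ρ p hg y hy).symm
  · rfl

/-- Different fluxes at two unpebbled columns of a wire: every row has a pebble in between. -/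
theorem Cl.between (hk : 2 ≤ k) (h : S.Cl P F) {ρ : J} {p : Fin 9} {x x' : Fin (k + 2)} (hxx : x ≤ x')
    (hx : Unp P ρ p x) (hx' : Unp P ρ p x') (hf : fx F ρ p x ≠ fx F ρ p x') (i : Fin k) :
    ∃ y r r', x < y ∧ y < x' ∧ MT.wt ρ p y i r r' ∈ P := by
  by_contra hn
  push Not at hn
  apply hf
  rw [← h.fl_eq hk hx i, ← h.fl_eq hk hx' i]
  refine sum_congr rfl fun r _ => sum_congr rfl fun r' _ => h.wire hxx fun y h1 h2 => ?_
  rcases h1.eq_or_lt with rfl | h1
  · exact hx _ _ _
  rcases h2.eq_or_lt with rfl | h2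
  · exact hx' _ _ _
  exact hn y r r' h1 h2

/-- If moreover there are at most `k` pebbles, they are exactly one per row and spell an address
(`path_of_supp` with `Φ i r r' = F (wt x i r r') + F (wt x' i r r')`). -/
theorem Cl.between_adr (hk : 2 ≤ k) (h : S.Cl P F) (hc : P.card ≤ k) {ρ : J} {p : Fin 9}
    {x x' : Fin (k + 2)} (hxx : x ≤ x') (hx : Unp P ρ p x) (hx' : Unp P ρ p x')
    (hf : fx F ρ p x ≠ fx F ρ p x') :
    ∃ (a : Fin k → R) (y : Fin k → Fin (k + 2)), (∀ i, x < y i ∧ y i < x') ∧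
      (∀ i, MT.wt ρ p (y i) i (a i) (a (i + 1)) ∈ P) ∧
      ∀ u ∈ P, u = MT.wt ρ p (y u.row) u.row (a u.row) (a (u.row + 1)) := by
  choose y l l' h1 h2 h3 using h.between hk hxx hx hx' hf
  have one : ∀ u ∈ P, u = MT.wt ρ p (y u.row) u.row (l u.row) (l' u.row) := fun u hu =>
    cb_one hc (fun i => ⟨_, h3 i, rfl⟩) hu (h3 _) rfl
  have e := path_of_supp (fun i r r' => F (.wt ρ p x i r r') + F (.wt ρ p x' i r r')) l l'
    (fun i r => by rw [sum_add_distrib, sum_add_distrib, h.marg hk hx, h.marg hk hx'])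
    (fun i r r' hr => by
      rw [h.wire hxx fun z _ _ hz => hr ?_, CharTwo.add_self_eq_zero]
      have := one _ hz
      simp only [MT.row, MT.wt.injEq] at this
      exact this.2.2.2.2)
    fun i => by
      simp only [sum_add_distrib]
      exact cb_ne fun h4 => hf ((h.fl_eq hk hx i).symm.trans (h4.trans (h.fl_eq hk hx' i)))
  exact ⟨l, y, fun i => ⟨h1 i, h2 i⟩, fun i => e i ▸ h3 i, fun u hu => e u.row ▸ one u hu⟩

/-- If row `i` pins no label of port `p`, its flux is the parity of the join tiles of row `i`. -/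
theorem Cl.fx_eq_join (hk : 2 ≤ k) (h : S.Cl P F) {ρ : J} {p : Fin 9} {x : Fin (k + 2)}
    (hx : Unp P ρ p x) {i : Fin k} (hP : ∀ r r', ¬ S.PinR P ρ p x i r r') :
    fx F ρ p x = ∑ s, ∑ s', F (.jt ρ i s s') := by
  rw [← h.fl_eq hk hx i, fl]
  simp only [fun r r' => h.join hx (hP r r')]
  rw [← Fintype.sum_prod_type', sum_comm]
  refine sum_congr rfl fun s _ => ?_
  rw [sum_comm]
  refine sum_congr rfl fun s' _ => ?_
  rw [sum_eq_single (S.π ρ p i s, S.π ρ p (i + 1) s')]
  · simp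
  · rintro ⟨r, r'⟩ _ hr
    rw [if_neg]
    rintro ⟨rfl, rfl⟩
    exact hr rfl
  · simp

/-- Odd flux out of a hub with at most `k` pebbles: they are exactly one per row, all between the hub
and the selected columns, and spell an address (`path_of_supp` with
`Φ i r r' = ∑ ρ p at g, F (wt ρ p (X ρ p) i r r')`). -/
theorem Cl.hub_adr (hk : 2 ≤ k) (h : S.Cl P F) (hc : P.card ≤ k) {g : G}
    {X : J → Fin 9 → Fin (k + 2)} (hX : ∀ ρ p, S.hub ρ p = some g → Unp P ρ p (X ρ p))
    (hf : S.hubFlux F X g ≠ 0) :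
    ∃ a, S.PinH P X g a ∧ ∀ u ∈ P, ∃ ρ p x, S.hub ρ p = some g ∧ x < X ρ p ∧
      u = MT.wt ρ p x u.row (a u.row) (a (u.row + 1)) := by
  let Φ : Fin k → R → R → ZMod 2 := fun i r r' =>
    ∑ ρ, ∑ p, if S.hub ρ p = some g then F (.wt ρ p (X ρ p) i r r') else 0
  have sw : ∀ f : J → Fin 9 → R → ZMod 2,
      (∑ r, ∑ ρ, ∑ p, if S.hub ρ p = some g then f ρ p r else 0) =
        ∑ ρ, ∑ p, if S.hub ρ p = some g then ∑ r, f ρ p r else 0 := fun f => by
    rw [sum_comm]
    refine sum_congr rfl fun ρ _ => ?_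
    rw [sum_comm]
    refine sum_congr rfl fun p _ => ?_
    split_ifs <;> simp
  have ht : ∀ i, ∑ r, ∑ r', Φ i r r' = S.hubFlux F X g := fun i => by
    simp only [Φ, sw]
    refine sum_congr rfl fun ρ _ => sum_congr rfl fun p _ => ?_
    split_ifs with hg
    · exact h.fl_eq hk (hX ρ p hg) i
    · rfl
  have hex : ∀ i, ∃ ρ p x r r', S.hub ρ p = some g ∧ x < X ρ p ∧ MT.wt ρ p x i r r' ∈ P := by
    intro i
    by_contra hn
    push Not at hn
    apply hf
    rw [← ht i]
    exact sum_eq_zero fun r _ => sum_eq_zero fun r' _ =>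
      h.hub hX fun ρ p x h1 h2 => hn ρ p x r r' h1 h2
  choose ρ p x l l' h1 h2 h3 using hex
  have one : ∀ u ∈ P, u = MT.wt (ρ u.row) (p u.row) (x u.row) u.row (l u.row) (l' u.row) :=
    fun u hu => cb_one hc (fun i => ⟨_, h3 i, rfl⟩) hu (h3 _) rfl
  have e := path_of_supp Φ l l'
    (fun i r => by
      simp only [Φ, sw]
      refine sum_congr rfl fun ρ _ => sum_congr rfl fun p _ => ?_
      split_ifs with hg
      · exact h.marg hk (hX ρ p hg) i r
      · rfl)
    (fun i r r' hr => h.hub hX fun _ _ _ _ _ hz => hr (by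
      have := one _ hz
      simp only [MT.row, MT.wt.injEq] at this
      exact this.2.2.2.2))
    fun i => by rw [ht i]; simpa using cb_ne hf
  exact ⟨l, fun i => ⟨_, _, _, h1 i, h2 i, e i ▸ h3 i⟩,
    fun u hu => ⟨_, _, _, h1 _, h2 _, e u.row ▸ one u hu⟩⟩

/-! ### Counting pebbles -/

omit [NeZero k] [Fintype R] [Fintype J] [DecidableEq G] in
/-- At most `k` pebbles and one in every row: exactly one in every row. -/
theorem one_per_row (hc : P.card ≤ k) (h : ∀ i, ∃ u ∈ P, u.row = i) {u v : MT k R J} (hu : u ∈ P)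
    (hv : v ∈ P) (huv : u.row = v.row) : u = v := by
  have h1 : P.image MT.row = univ := eq_univ_of_forall fun i => mem_image.2 (h i)
  have h2 : (P.image MT.row).card = P.card :=
    le_antisymm card_image_le (by rw [h1, card_univ, Fintype.card_fin]; exact hc)
  exact card_image_iff.1 h2 hu hv huv

omit [NeZero k] [Fintype R] [Fintype J] [DecidableEq G] in
theorem exists_unp (hc : P.card ≤ k + 1) (ρ : J) (p : Fin 9) : ∃ x, Unp P ρ p x := by
  by_contra h
  simp only [Unp, not_exists, not_forall, not_not] at h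
  choose i r r' h using h
  have := card_le_card_of_injOn (s := univ) (t := P) (fun x => MT.wt ρ p x (i x) (r x) (r' x))
    (fun x _ => h x) (fun x _ y _ hxy => by
      simp only [MT.wt.injEq] at hxy
      exact hxy.2.2.1)
  rw [card_univ, Fintype.card_fin] at this
  omega

/-- With at most `k + 1` pebbles a port is pinned at one address only: two different addresses have
different labels in two rows (`adr_unique`), each of which then has two pebbles, and every row has one. -/
theorem PinJ.unique (hk : 2 ≤ k) (hc : P.card ≤ k + 1) {ρ : J} {p : Fin 9} {x x' : Fin (k + 2)}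
    {a b : Fin k → R} (ha : S.PinJ P ρ p x a) (hb : S.PinJ P ρ p x' b) : a = b := by
  let lab : MT k R J → R × R := fun u => match u with
    | .wt _ _ _ _ r r' => (r, r')
    | .jt ρ i s s' => (S.π ρ p i s, S.π ρ p (i + 1) s')
  have key : ∀ {x : Fin (k + 2)} {a : Fin k → R}, S.PinJ P ρ p x a →
      ∀ i, ∃ u ∈ P, u.row = i ∧ lab u = (a i, a (i + 1)) := by
    intro x a ha i
    rcases ha i with ⟨y, -, h⟩ | ⟨s, s', h, h1, h2⟩
    · exact ⟨_, h, rfl, rfl⟩
    · exact ⟨_, h, rfl, Prod.ext h1 h2⟩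
  choose u hu hu1 hu2 using key ha
  choose v hv hv1 hv2 using key hb
  by_contra hne
  have h2 : ∀ j, ∃ i, i ≠ j ∧ v i ∉ univ.image u := by
    intro j
    by_contra h
    push Not at h
    refine hne (adr_unique hk j fun i hi => ?_)
    obtain ⟨i', -, h'⟩ := mem_image.1 (h i hi)
    obtain rfl : i' = i := by rw [← hu1 i', h', hv1]
    have := (hu2 i').symm.trans (h' ▸ hv2 i')
    exact Prod.mk.inj this
  obtain ⟨i₁, -, h₁⟩ := h2 0
  obtain ⟨i₂, h12, h₂⟩ := h2 i₁
  have h3 : v i₂ ≠ v i₁ := fun h => h12 (by rw [← hv1 i₂, h, hv1])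
  have h4 : insert (v i₂) (insert (v i₁) (univ.image u)) ⊆ P :=
    insert_subset (hv _) (insert_subset (hv _) (image_subset_iff.2 fun i _ => hu i))
  have h5 := card_le_card h4
  rw [card_insert_of_notMem (by simp only [mem_insert, not_or]; exact ⟨h3, h₂⟩),
    card_insert_of_notMem h₁,
    card_image_of_injective _ fun i j h => by rw [← hu1 i, h, hu1], card_univ,
    Fintype.card_fin] at h5
  omega

omit [Fintype R] [DecidableEq R] [Fintype J] [DecidableEq J] [DecidableEq G] in
/-- An instance never has exactly one false port. -/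
theorem WF.two_false (hS : S.WF) {ρ : J} {c : Fin k → R} (hc : S.Inst ρ c) {p : Fin 9}
    (hp : ¬ S.TrW ρ p (S.adr ρ p c)) : ∃ p', p' ≠ p ∧ ¬ S.TrW ρ p' (S.adr ρ p' c) := by
  by_cases h0 : p = 0
  · subst h0
    by_contra h
    push Not at h
    exact hp ⟨fun g hg => Tr.rule ρ c g hc hg fun p g' hp' hg' => (h p hp').1 g' hg',
      fun h' => absurd h' (hS.out ρ)⟩
  · have h1 : S.hub ρ p ≠ none := fun h' => hp ⟨fun g hg => by simp [h'] at hg, fun _ => by
      have : S.adr ρ p c = c := funext fun i => hS.cap ρ p h' i _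
      rwa [this]⟩
    obtain ⟨p', h2, -, h3, h4⟩ := hS.mate ρ p h0 h1
    refine ⟨p', h2, ?_⟩
    unfold TrW adr at hp ⊢
    rwa [h3, h4]

omit [Fintype R] [DecidableEq R] [Fintype J] [DecidableEq J] [DecidableEq G] in
theorem WF.trW_cap (hS : S.WF) {ρ : J} {c : Fin k → R} (hc : S.Inst ρ c) {p : Fin 9}
    (hp : S.hub ρ p = none) : S.adr ρ p c = c ∧ S.TrW ρ p (S.adr ρ p c) := by
  have : S.adr ρ p c = c := funext fun i => hS.cap ρ p hp i _
  exact ⟨this, fun g hg => by simp [hp] at hg, fun _ => by rwa [this]⟩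

end RS

end Crest.Agent.R290
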