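import Crest.Agent.R290.Xor

/-!
# Row 290: the core system of wires and joins (definitions)

Rows are `Fin k` (cyclic). An *address* is `a : Fin k → R`; its label in row `i` is `(a i, a (i+1))`.
A rule (join) `ρ` has nine ports: `0` the conclusion, `1`, `2` capped guess ports, the others premises that
come in identical pairs (or are capped). Each port is the end of a wire with `k + 2` columns whose other end is
a hub (or nothing, if capped). An *instance* of `ρ` is an address `c` all of whose labels are `val`-valid;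
it uses the address `adr ρ p c` on port `p`.
-/

set_option autoImplicit false

namespace Crest.Agent.R290

open Finset

/-- A rule system. -/
structure RS (k : ℕ) (R J G : Type) where
  /-- the hub of a port (`none`: capped) -/
  hub : J → Fin 9 → Option G
  /-- the projection of a port in each row -/
  π : J → Fin 9 → Fin k → R → R
  /-- valid labels of a rule in each row -/
  val : J → Fin k → R → R → Bool

/-- Main tiles: wire tiles (rule, port, column, row, label) and join tiles (rule, row, label). -/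
inductive MT (k : ℕ) (R J : Type) : Type
  | wt (ρ : J) (p : Fin 9) (x : Fin (k + 2)) (i : Fin k) (r r' : R) : MT k R J
  | jt (ρ : J) (i : Fin k) (s s' : R) : MT k R J
  deriving DecidableEq

instance {k : ℕ} {R J : Type} [Fintype R] [Fintype J] : Fintype (MT k R J) := derive_fintype% _

/-- Main variables: hub variables, horizontal variables (left of column `x`), carries. -/
inductive MV (k : ℕ) (R J G : Type) : Type
  | hub (g : G) (i : Fin k) (r r' : R) : MV k R J G
  | hor (ρ : J) (p : Fin 9) (x : ℕ) (i : Fin k) (r r' : R) : MV k R J G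
  | car (ρ : J) (p : Fin 9) (x : ℕ) (i : Fin k) (r : R) : MV k R J G
  deriving DecidableEq

/-- The row of a tile. -/
def MT.row {k : ℕ} {R J : Type} : MT k R J → Fin k
  | .wt _ _ _ i _ _ => i
  | .jt _ i _ _ => i

namespace RS

variable {k : ℕ} [NeZero k] {R J G : Type} (S : RS k R J G)

/-- Instances of a rule. -/
def Inst (ρ : J) (c : Fin k → R) : Prop := ∀ i, S.val ρ i (c i) (c (i + 1)) = true

/-- The address used by an instance on a port. -/
def adr (ρ : J) (p : Fin 9) (c : Fin k → R) : Fin k → R := fun i => S.π ρ p i (c i)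

/-- Well-formed rule systems. -/
structure WF : Prop where
  out : ∀ ρ, S.hub ρ 0 ≠ none
  g1 : ∀ ρ, S.hub ρ 1 = none
  g2 : ∀ ρ, S.hub ρ 2 = none
  cap : ∀ ρ p, S.hub ρ p = none → ∀ i r, S.π ρ p i r = r
  mate : ∀ ρ p, p ≠ 0 → S.hub ρ p ≠ none →
    ∃ p', p' ≠ p ∧ p' ≠ 0 ∧ S.hub ρ p' = S.hub ρ p ∧ S.π ρ p' = S.π ρ p
  inj : ∀ ρ p c c', S.Inst ρ c → S.Inst ρ c' → S.adr ρ p c = S.adr ρ p c' → c = c'

/-- Derivable addresses at hubs. -/
inductive Tr : G → (Fin k → R) → Prop
  | rule (ρ : J) (c : Fin k → R) (g : G) : S.Inst ρ c → S.hub ρ 0 = some g →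
      (∀ p g', p ≠ 0 → S.hub ρ p = some g' → Tr g' (S.adr ρ p c)) → Tr g (S.adr ρ 0 c)

/-- True addresses on a wire: derivable at its hub, or (capped wire) an instance. -/
def TrW (ρ : J) (p : Fin 9) (a : Fin k → R) : Prop :=
  (∀ g, S.hub ρ p = some g → S.Tr g a) ∧ (S.hub ρ p = none → S.Inst ρ a)

/-- The variables of a tile, as a list. -/
def varsL : MT k R J → List (MV k R J G)
  | .wt ρ p x i r r' =>
      [.hor ρ p (x + 1) i r r', .car ρ p x i r, .car ρ p x (i + 1) r'] ++
        (if (x : ℕ) = 0 then ((S.hub ρ p).map fun g => MV.hub g i r r').toList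
          else [.hor ρ p x i r r'])
  | .jt ρ i s s' => List.ofFn fun p : Fin 9 => .hor ρ p (k + 2) i (S.π ρ p i s) (S.π ρ p (i + 1) s')

/-- Valid tiles. -/
def valid : MT k R J → Bool
  | .wt ρ p _ i r r' => (S.hub ρ p).isSome || S.val ρ i r r'
  | .jt ρ i s s' => S.val ρ i s s'

variable [Fintype R] [DecidableEq R] [Fintype J] [DecidableEq J] [DecidableEq G]

/-- The core system. -/
def sys : Sys (MT k R J) (MV k R J G) where
  T := univ.filter fun u => S.valid u = true
  vars u := (S.varsL u).toFinset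

/-- Parity of `F` on row `i` of a column. -/
def fl (F : MT k R J → ZMod 2) (ρ : J) (p : Fin 9) (x : Fin (k + 2)) (i : Fin k) : ZMod 2 :=
  ∑ r, ∑ r', F (.wt ρ p x i r r')

/-- The flux of `F` through a column (read in row `0`). -/
def fx (F : MT k R J → ZMod 2) (ρ : J) (p : Fin 9) (x : Fin (k + 2)) : ZMod 2 := fl F ρ p x 0

/-- The column carries no pebble. -/
def Unp (P : Finset (MT k R J)) (ρ : J) (p : Fin 9) (x : Fin (k + 2)) : Prop :=
  ∀ i r r', MT.wt ρ p x i r r' ∉ P

/-- `F` lives on valid tiles and is closed away from the pebbles. -/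
def Cl (P : Finset (MT k R J)) (F : MT k R J → ZMod 2) : Prop :=
  (∀ u, u ∉ S.sys.T → F u = 0) ∧ ∀ y, y ∉ S.sys.Y P → S.sys.bd F y = 0

/-- The address `a` is pinned between the hub `g` and the selected columns `X`. -/
def PinH (P : Finset (MT k R J)) (X : J → Fin 9 → Fin (k + 2)) (g : G) (a : Fin k → R) : Prop :=
  ∀ i, ∃ ρ p x, S.hub ρ p = some g ∧ x < X ρ p ∧ MT.wt ρ p x i (a i) (a (i + 1)) ∈ P

/-- In row `i` the label `(r, r')` of port `p` is pinned between the column `x₀` and the join. -/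
def PinR (P : Finset (MT k R J)) (ρ : J) (p : Fin 9) (x₀ : Fin (k + 2)) (i : Fin k) (r r' : R) :
    Prop :=
  (∃ x, x₀ < x ∧ MT.wt ρ p x i r r' ∈ P) ∨
    ∃ s s', MT.jt ρ i s s' ∈ P ∧ S.π ρ p i s = r ∧ S.π ρ p (i + 1) s' = r'

/-- The address `a` of port `p` is pinned between the column `x₀` and the join. -/
def PinJ (P : Finset (MT k R J)) (ρ : J) (p : Fin 9) (x₀ : Fin (k + 2)) (a : Fin k → R) : Prop :=
  ∀ i, S.PinR P ρ p x₀ i (a i) (a (i + 1))

/-- Total flux out of the hub `g`. -/
def hubFlux (F : MT k R J → ZMod 2) (X : J → Fin 9 → Fin (k + 2)) (g : G) : ZMod 2 :=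
  ∑ ρ, ∑ p, if S.hub ρ p = some g then fx F ρ p (X ρ p) else 0

/-- Hub invariant: odd flux out of a hub comes from a pinned true address. -/
def InvH (P : Finset (MT k R J)) (F : MT k R J → ZMod 2) : Prop :=
  ∀ g X, (∀ ρ p, S.hub ρ p = some g → Unp P ρ p (X ρ p)) → S.hubFlux F X g ≠ 0 →
    ∃ a, S.Tr g a ∧ S.PinH P X g a

/-- The join condition for the reference value `ε`: a port with another flux is pinned at a true
address, or is one of the false ports of an instance, all of which are pinned and have the other flux. -/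
def Good (P : Finset (MT k R J)) (F : MT k R J → ZMod 2) (ρ : J) (X : Fin 9 → Fin (k + 2))
    (ε : ZMod 2) : Prop :=
  ∀ p, fx F ρ p (X p) ≠ ε → (∃ a, S.TrW ρ p a ∧ S.PinJ P ρ p (X p) a) ∨
    ∃ c, S.Inst ρ c ∧ ¬ S.TrW ρ p (S.adr ρ p c) ∧ ∀ p', ¬ S.TrW ρ p' (S.adr ρ p' c) →
      S.PinJ P ρ p' (X p') (S.adr ρ p' c) ∧ fx F ρ p' (X p') ≠ ε

/-- Join invariant. -/
def InvJ (P : Finset (MT k R J)) (F : MT k R J → ZMod 2) : Prop :=
  ∀ ρ X, (∀ p, Unp P ρ p (X p)) → ∃ ε, S.Good P F ρ X ε

/-- The dual certificate of the core system. -/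
def D (P : Finset (MT k R J)) (F : MT k R J → ZMod 2) : Prop := S.Cl P F ∧ S.InvH P F ∧ S.InvJ P F

end RS

end Crest.Agent.R290
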