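import Crest.Agent.R290.CoreCons

/-!
# Row 290: restriction of the join invariant, main step
-/

set_option autoImplicit false
set_option linter.unusedSectionVars false

namespace Crest.Agent.R290

open Finset

namespace RS

variable {k : ℕ} [NeZero k] {R J G : Type} [Fintype R] [DecidableEq R] [Fintype J] [DecidableEq J]
  [DecidableEq G] {S : RS k R J G} {P : Finset (MT k R J)} {F : MT k R J → ZMod 2}

/-- Non-constant fluxes at a join: every row has a pebble between the selected columns and the join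
(otherwise `Cl.fx_eq_join` makes all fluxes equal). -/
theorem Cl.zone (hk : 2 ≤ k) (h : S.Cl P F) {ρ : J} {X : Fin 9 → Fin (k + 2)}
    (hX : ∀ p, Unp P ρ p (X p)) {p₁ p₂ : Fin 9} (hne : fx F ρ p₁ (X p₁) ≠ fx F ρ p₂ (X p₂)) (i : Fin k) :
    (∃ p x r r', X p < x ∧ MT.wt ρ p x i r r' ∈ P) ∨ ∃ s s', MT.jt ρ i s s' ∈ P := by
  by_contra hcon
  have key : ∀ p r r', ¬ S.PinR P ρ p (X p) i r r' := by
    rintro p r r' (⟨x, h1, h2⟩ | ⟨s, s', h1, -⟩)
    · exact hcon (Or.inl ⟨p, x, r, r', h1, h2⟩)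
    · exact hcon (Or.inr ⟨s, s', h1⟩)
  exact hne ((h.fx_eq_join hk (hX p₁) (key p₁)).trans (h.fx_eq_join hk (hX p₂) (key p₂)).symm)

theorem Cl.zone_one (hk : 2 ≤ k) (h : S.Cl P F) (hc : P.card ≤ k) {ρ : J} {X : Fin 9 → Fin (k + 2)}
    (hX : ∀ p, Unp P ρ p (X p)) {p₁ p₂ : Fin 9} (hne : fx F ρ p₁ (X p₁) ≠ fx F ρ p₂ (X p₂))
    {u v : MT k R J} (hu : u ∈ P) (hv : v ∈ P) (huv : u.row = v.row) : u = v :=
  one_per_row hc (fun i => by
    rcases h.zone hk hX hne i with ⟨p, x, r, r', -, h1⟩ | ⟨s, s', h1⟩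
    · exact ⟨_, h1, rfl⟩
    · exact ⟨_, h1, rfl⟩) hu hv huv

/-- A wire pebble alone in its row makes the fluxes of all other ports equal. -/
theorem Cl.fx_off (hk : 2 ≤ k) (h : S.Cl P F) {ρ : J} {X : Fin 9 → Fin (k + 2)}
    (hX : ∀ p, Unp P ρ p (X p)) (h1 : ∀ u ∈ P, ∀ v ∈ P, u.row = v.row → u = v) {w : Fin 9}
    {x : Fin (k + 2)} {i : Fin k} {r r' : R} (hw : MT.wt ρ w x i r r' ∈ P) {q q' : Fin 9}
    (hq : q ≠ w) (hq' : q' ≠ w) : fx F ρ q (X q) = fx F ρ q' (X q') := by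
  have key : ∀ q, q ≠ w → ∀ t t', ¬ S.PinR P ρ q (X q) i t t' := by
    rintro q hq t t' (⟨y, -, h2⟩ | ⟨s, s', h2, -⟩)
    · have := h1 _ h2 _ hw rfl
      simp only [MT.wt.injEq] at this
      exact hq this.2.1
    · exact absurd (h1 _ h2 _ hw rfl) (by simp)
  exact (h.fx_eq_join hk (hX q) (key q hq)).trans (h.fx_eq_join hk (hX q') (key q' hq')).symm

theorem push_marg (π π' : R → R) (m : R → R → ZMod 2) (r : R) :
    ∑ r', ∑ s, ∑ s', (if π s = r ∧ π' s' = r' then m s s' else 0) =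
      ∑ s, if π s = r then ∑ s', m s s' else 0 := by
  rw [sum_comm]
  refine sum_congr rfl fun s _ => ?_
  rw [sum_comm]
  split_ifs with hs
  · refine sum_congr rfl fun s' _ => ?_
    simp [hs]
  · simp [hs]

theorem push_marg' (π π' : R → R) (m : R → R → ZMod 2) (r' : R) :
    ∑ r, ∑ s, ∑ s', (if π s = r ∧ π' s' = r' then m s s' else 0) =
      ∑ s', if π' s' = r' then ∑ s, m s s' else 0 := by
  rw [← push_marg π' π (fun s' s => m s s') r']
  refine sum_congr rfl fun r _ => ?_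
  rw [sum_comm]
  simp only [and_comm]

/-- Consistency lemma. `κ` is a port with identity projection carrying no pebble, `p` has another flux.
Sketch: exactly one pebble per row (`Cl.zone`, `one_per_row`); a row whose pebble pins no label of `p` is
a wire pebble on a third port and gives `fx p = fx κ` (`Cl.fx_eq_join`), so each row pins a label
`(l i, l' i)` of `p`. Put `m i s s' = F (wt ρ κ (X κ) i s s')`; by `Cl.join` for `κ` it equals `F (jt ρ i s s')`
unless `jt ρ i s s' ∈ P`; its marginals are consistent (`Cl.marg`), hence so are those of the push-forward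
`n i r r' = ∑ s s' with π p i s = r, π p (i+1) s' = r', m i s s'`. Apply `path_of_supp` to
`Φ i r r' = F (wt ρ p (X p) i r r') + n i r r'`, which vanishes off `(l i, l' i)` by `Cl.join` for `p` and has
total `fx p + fx κ = 1`. -/
theorem Cl.pin_of_ne (hk : 2 ≤ k) (h : S.Cl P F) (hc : P.card ≤ k) {ρ : J} {X : Fin 9 → Fin (k + 2)}
    (hX : ∀ p, Unp P ρ p (X p)) {κ p : Fin 9} (hκ : ∀ i r, S.π ρ κ i r = r)
    (hκP : ∀ x i r r', MT.wt ρ κ x i r r' ∉ P) (hne : fx F ρ p (X p) ≠ fx F ρ κ (X κ)) :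
    ∃ a, S.PinJ P ρ p (X p) a := by
  have h1 : ∀ u ∈ P, ∀ v ∈ P, u.row = v.row → u = v :=
    fun u hu v hv => h.zone_one hk hc hX hne hu hv
  have h2 : ∀ i, ∃ l l', S.PinR P ρ p (X p) i l l' ∧
      ∀ r r', S.PinR P ρ p (X p) i r r' → r = l ∧ r' = l' := by
    intro i
    rcases h.zone hk hX hne i with ⟨q, x, r, r', h3, h4⟩ | ⟨s, s', h3⟩
    · by_cases hq : p = q
      · subst hq
        refine ⟨r, r', Or.inl ⟨x, h3, h4⟩, ?_⟩
        rintro t t' (⟨y, -, h5⟩ | ⟨s, s', h5, -⟩)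
        · have := h1 _ h5 _ h4 rfl
          simp only [MT.wt.injEq] at this
          exact this.2.2.2.2
        · exact absurd (h1 _ h5 _ h4 rfl) (by simp)
      · exact absurd (h.fx_off hk hX h1 h4 hq (by rintro rfl; exact hκP _ _ _ _ h4)) hne
    · refine ⟨_, _, Or.inr ⟨s, s', h3, rfl, rfl⟩, ?_⟩
      rintro t t' (⟨y, -, h5⟩ | ⟨s₁, s₁', h5, rfl, rfl⟩)
      · exact absurd (h1 _ h5 _ h3 rfl) (by simp)
      · have := h1 _ h5 _ h3 rfl
        simp only [MT.jt.injEq] at this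
        rw [this.2.2.1, this.2.2.2]
        exact ⟨rfl, rfl⟩
  choose l l' hl hu using h2
  have h3 : ∀ i s s', MT.jt ρ i s s' ∉ P → F (.wt ρ κ (X κ) i s s') = F (.jt ρ i s s') := by
    intro i s s' hs
    rw [h.join (hX κ)]
    · simp only [hκ]
      rw [sum_eq_single s, sum_eq_single s']
      · simp
      · intro t _ ht; simp [ht]
      · simp
      · intro t _ ht; simp [ht]
      · simp
    · rintro (⟨y, -, h5⟩ | ⟨t, t', h5, h6, h7⟩)
      · exact hκP _ _ _ _ h5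
      · rw [hκ] at h6 h7
        subst h6 h7
        exact hs h5
  have h4 := path_of_supp (fun i r r' => F (.wt ρ p (X p) i r r') + ∑ s, ∑ s',
    if S.π ρ p i s = r ∧ S.π ρ p (i + 1) s' = r' then F (.wt ρ κ (X κ) i s s') else 0) l l'
    (fun i r => by
      rw [sum_add_distrib, sum_add_distrib, h.marg hk (hX p), push_marg, push_marg']
      simp only [h.marg hk (hX κ)])
    (fun i r r' hr => by
      have hn : ¬ S.PinR P ρ p (X p) i r r' := fun h' => hr (hu i r r' h')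
      rw [h.join (hX p) hn, CharTwo.add_eq_zero]
      refine sum_congr rfl fun s _ => sum_congr rfl fun s' _ => ?_
      split_ifs with hs
      · exact (h3 i s s' fun h' => hn (Or.inr ⟨s, s', h', hs⟩)).symm
      · rfl)
    (fun i => by
      simp only [sum_add_distrib, push_marg]
      rw [sum_comm (f := fun r s => if S.π ρ p i s = r then _ else 0)]
      simp only [sum_ite_eq, mem_univ, if_true]
      have e1 := h.fl_eq hk (hX p) i
      have e2 := h.fl_eq hk (hX κ) i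
      unfold fl at e1 e2
      rw [e1, e2]
      revert hne
      generalize fx F ρ p (X p) = a
      generalize fx F ρ κ (X κ) = b
      revert a b
      decide)
  exact ⟨l, fun i => h4 i ▸ hl i⟩

/-- If `P` (one pebble per row, all beyond the selection `X`) pins port `p` at `a` and `insert u P` pins it
at `a'`, then `a = a'` (`adr_unique` at `u.row`). -/
theorem pin_agree (hk : 2 ≤ k) (hc : P.card ≤ k) {ρ : J} {p : Fin 9} {x x' : Fin (k + 2)}
    {u : MT k R J} {a a' : Fin k → R} (ha : S.PinJ P ρ p x a) (ha' : S.PinJ (insert u P) ρ p x' a') :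
    a = a' := by
  refine PinJ.unique (P := insert u P) (x := x) hk ((card_insert_le _ _).trans (by omega))
    (fun i => ?_) ha'
  rcases ha i with ⟨y, h1, h2⟩ | ⟨s, s', h1, h2⟩
  · exact Or.inl ⟨y, h1, mem_insert_of_mem h2⟩
  · exact Or.inr ⟨s, s', mem_insert_of_mem h1, h2⟩

theorem pin_of_jt {ρ : J} {c : Fin k → R} (h : ∀ i, MT.jt ρ i (c i) (c (i + 1)) ∈ P) (p : Fin 9)
    (x : Fin (k + 2)) : S.PinJ P ρ p x (S.adr ρ p c) :=
  fun i => Or.inr ⟨_, _, h i, rfl, rfl⟩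

/-- A capped port is pinned by join tiles, or by a pebble on its wire. -/
theorem jt_of_pin (hS : S.WF) {ρ : J} {κ : Fin 9} (hκ : S.hub ρ κ = none) {x : Fin (k + 2)}
    {c : Fin k → R} (h : S.PinJ P ρ κ x c) (hn : ∀ y i r r', MT.wt ρ κ y i r r' ∉ P) (i : Fin k) :
    MT.jt ρ i (c i) (c (i + 1)) ∈ P := by
  rcases h i with ⟨y, -, h1⟩ | ⟨s, s', h1, h2, h3⟩
  · exact absurd h1 (hn _ _ _ _)
  · rw [hS.cap ρ κ hκ] at h2 h3
    rwa [← h2, ← h3]

theorem Good.pin {ρ : J} {X : Fin 9 → Fin (k + 2)} {ε : ZMod 2} (h : S.Good P F ρ X ε) {p : Fin 9}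
    (hp : fx F ρ p (X p) ≠ ε) : ∃ a, S.PinJ P ρ p (X p) a := by
  rcases h p hp with ⟨a, -, ha⟩ | ⟨c, -, h1, h2⟩
  · exact ⟨a, ha⟩
  · exact ⟨_, (h2 p h1).1⟩

theorem Good.pin_cap (hS : S.WF) {ρ : J} {X : Fin 9 → Fin (k + 2)} {ε : ZMod 2}
    (h : S.Good P F ρ X ε) {κ : Fin 9} (hκ : S.hub ρ κ = none) (hp : fx F ρ κ (X κ) ≠ ε) :
    ∃ c, S.Inst ρ c ∧ S.PinJ P ρ κ (X κ) c := by
  rcases h κ hp with ⟨a, h1, ha⟩ | ⟨c, h0, h1, -⟩
  · exact ⟨a, h1.2 hκ, ha⟩
  · exact absurd (hS.trW_cap h0 hκ).2 h1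

/-- The common part of the cases (β) and (α, not a path). -/
theorem join_aux (hS : S.WF) (hk : 2 ≤ k) {u : MT k R J} (hc : P.card ≤ k) {ρ : J}
    {X X' : Fin 9 → Fin (k + 2)} (hf : ∀ p, fx F ρ p (X' p) = fx F ρ p (X p)) {ε' : ZMod 2}
    (h' : S.Good (insert u P) F ρ X' ε') {κ : Fin 9} (hκ : S.hub ρ κ = none)
    (h1 : ∀ p, fx F ρ p (X p) ≠ fx F ρ κ (X κ) → ∃ a, S.PinJ P ρ p (X p) a)
    (h2 : fx F ρ κ (X κ) ≠ ε' → ∀ y i r r', MT.wt ρ κ y i r r' ∉ insert u P) :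
    S.Good P F ρ X (fx F ρ κ (X κ)) := by
  intro p hp
  obtain ⟨a, ha⟩ := h1 p hp
  by_cases hε : fx F ρ κ (X κ) = ε'
  · rcases h' p (by rwa [hf, ← hε]) with ⟨a', h3, h4⟩ | ⟨c, h3, h4, h5⟩
    · exact Or.inl ⟨a, pin_agree hk hc ha h4 ▸ h3, ha⟩
    · refine Or.inr ⟨c, h3, h4, fun p' hp' => ?_⟩
      obtain ⟨h6, h7⟩ := h5 p' hp'
      rw [hf, ← hε] at h7
      obtain ⟨a', ha'⟩ := h1 p' h7
      exact ⟨pin_agree hk hc ha' h6 ▸ ha', h7⟩
  · obtain ⟨c, h3, h4⟩ := h'.pin_cap hS hκ (by rwa [hf])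
    have h5 := jt_of_pin hS hκ h4 (h2 hε)
    have hc' : (insert u P).card ≤ k + 1 := (card_insert_le _ _).trans (by omega)
    by_cases ht : S.TrW ρ p (S.adr ρ p c)
    · exact Or.inl ⟨a, pin_agree hk hc ha (pin_of_jt h5 p 0) ▸ ht, ha⟩
    · refine Or.inr ⟨c, h3, ht, fun p' hp' => ?_⟩
      have h6 : fx F ρ p' (X p') ≠ fx F ρ κ (X κ) := by
        intro h6
        rcases h' p' (by rwa [hf, h6]) with ⟨a', h7, h8⟩ | ⟨c', h7, h8, h9⟩
        · exact hp' (PinJ.unique hk hc' h8 (pin_of_jt h5 p' 0) ▸ h7)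
        · obtain rfl := hS.inj ρ p' _ _ h7 h3 (PinJ.unique hk hc' (h9 p' h8).1 (pin_of_jt h5 p' 0))
          have h10 := (h9 p ht).2
          rw [hf] at h10
          exact (by decide : ∀ a b c : ZMod 2, a ≠ b → b ≠ c → a ≠ c → False) _ _ _ hp hε h10
      obtain ⟨a', ha'⟩ := h1 p' h6
      exact ⟨pin_agree hk hc ha' (pin_of_jt h5 p' 0) ▸ ha', h6⟩

/-- Main step. Write `φ p = fx F ρ p (X p)`, `P' = insert u P`, `j = u.row`, `γ = 1`, `γ' = 2`; `P` has exactly one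
pebble `pb i` per row, beyond the selection (`Cl.zone`).
* (β) Some `pb i₀` is a wire pebble on port `w`. Then `φ` is a constant `ε₀` off `w` (`fx_eq_join` in row `i₀`)
  and `φ w ≠ ε₀`; no pebble of `P` is on another port's wire (same argument, nine ports). Take `ε = ε₀`.
  `pin_of_ne` with `κ ∈ {γ, γ'} \ {w}` pins `w` at `a`; show `TrW w a`. If `ε' = ε₀`: `Good P'` at `w`; the second
  alternative is impossible (`two_false`), so `a' = a` is true (`pin_agree`). If `ε' ≠ ε₀`: all ports `≠ w` are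
  pinned by `P'`; in row `i₀` only `u` can pin two different ports `≠ w`, so `u` is a join tile of row `i₀`, and
  in the other rows `pb i` is a join tile; `κ` is pinned at an instance `c` (capped ports are never false,
  `trW_cap`), so `jt ρ i (c i) (c (i+1)) ∈ P'` for all `i` and every port `p` is pinned at `adr p c`. If `w` were false
  for `c`, take another false port `p` (`two_false`); `Good P'` at `p`, `PinJ.unique` and `WF.inj` give
  `φ w ≠ ε'`, i.e. `φ w = ε₀`, absurd. So `adr w c` is true, and `a = adr w c` by `pin_agree`.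
* (α) All `pb i = jt ρ i (s i) (s' i)`. If `s' i = s (i+1)` for all `i`, `s` is an instance (tiles of `P` are valid),
  `P` pins every port `p` at `adr p s`, and `ε = ε'` works by `pin_agree` and `WF.inj`. Otherwise `φ γ = φ γ' =: ε₀`
  (else `pin_of_ne` makes the labels a path). Take `ε = ε₀`; a port with `φ p ≠ ε₀` is pinned by `P` at some
  `a p` (`pin_of_ne`). If `ε' = ε₀` transfer `Good P'` by `pin_agree`. If `ε' ≠ ε₀`: `γ`, `γ'` are pinned by
  `P'` at instances `c`, `c'`, equal by `adr_unique` (rows `≠ j` are pinned by `pb i`); in row `j`, `pb j` does not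
  pin them (else the labels form a path), so `u` pins both: `u = jt ρ j (c j) (c (j+1))`, and every port is pinned by
  `P'` at `adr p c`. For `φ p ≠ ε₀`: `a p = adr p c`; if true, first alternative. If false, all false ports `p'`
  of `c` have `φ p' ≠ ε₀` (otherwise `φ p' ≠ ε'`, and `Good P'` at `p'` with uniqueness gives `φ p ≠ ε'`, absurd),
  so the second alternative holds with `c`. -/
theorem join_main (hS : S.WF) (hk : 2 ≤ k) {u : MT k R J} (hT : P ⊆ S.sys.T) (hc : P.card ≤ k)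
    (hF : S.Cl P F) {ρ : J} {X X' : Fin 9 → Fin (k + 2)} (hX : ∀ p, Unp P ρ p (X p))
    (hf : ∀ p, fx F ρ p (X' p) = fx F ρ p (X p)) {p₁ p₂ : Fin 9}
    (hne : fx F ρ p₁ (X p₁) ≠ fx F ρ p₂ (X p₂)) {ε' : ZMod 2} (h' : S.Good (insert u P) F ρ X' ε') :
    ∃ ε, S.Good P F ρ X ε := by
  have h1 : ∀ u ∈ P, ∀ v ∈ P, u.row = v.row → u = v :=
    fun u hu v hv => hF.zone_one hk hc hX hne hu hv
  by_cases hβ : ∃ w x i r r', MT.wt ρ w x i r r' ∈ P
  · obtain ⟨w, x, i₀, r, r', hw⟩ := hβ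
    obtain ⟨κ, hκ, hκw⟩ : ∃ κ, S.hub ρ κ = none ∧ κ ≠ w := by
      by_cases h : w = 1
      · exact ⟨2, hS.g2 ρ, by rw [h]; decide⟩
      · exact ⟨1, hS.g1 ρ, Ne.symm h⟩
    have h3 : ∀ a b : Fin 9, ∃ q, q ≠ a ∧ q ≠ b := by decide
    have h2 : ∀ q, q ≠ w → ∀ y i t t', MT.wt ρ q y i t t' ∉ P := by
      intro q hq y i t t' h
      obtain ⟨q', h4, h5⟩ := h3 q w
      have h6 : ∀ p, fx F ρ p (X p) = fx F ρ q' (X q') := fun p => by
        by_cases hp : p = w
        · exact hF.fx_off hk hX h1 h (hp ▸ hq.symm) h4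
        · exact hF.fx_off hk hX h1 hw hp h5
      exact hne ((h6 p₁).trans (h6 p₂).symm)
    refine ⟨_, join_aux hS hk hc hf h' hκ
      (fun p hp => hF.pin_of_ne hk hc hX (hS.cap ρ κ hκ) (h2 κ hκw) hp) fun hε y i t t' h => ?_⟩
    obtain rfl : MT.wt ρ κ y i t t' = u := (mem_insert.1 h).resolve_right (h2 κ hκw _ _ _ _)
    obtain ⟨q, h4, h5⟩ := h3 κ w
    obtain ⟨a, ha⟩ := h'.pin (p := q) (by rwa [hf, hF.fx_off hk hX h1 hw h5 hκw])
    rcases ha i₀ with ⟨y', -, h6⟩ | ⟨s, s', h6, -⟩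
    · rcases mem_insert.1 h6 with h6 | h6
      · simp only [MT.wt.injEq] at h6
        exact h4 h6.2.1
      · exact h2 q h5 _ _ _ _ h6
    · rcases mem_insert.1 h6 with h6 | h6
      · simp at h6
      · exact absurd (h1 _ h6 _ hw rfl) (by simp)
  · push Not at hβ
    by_cases hα : ∃ c : Fin k → R, ∀ i, MT.jt ρ i (c i) (c (i + 1)) ∈ P
    · obtain ⟨c, hc'⟩ := hα
      have hi : S.Inst ρ c := fun i => mem_T.1 (hT (hc' i))
      refine ⟨ε', fun p hp => ?_⟩
      rcases h' p (by rwa [hf]) with ⟨a, h3, h4⟩ | ⟨c', h3, h4, h5⟩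
      · exact Or.inl ⟨a, h3, pin_agree hk hc (pin_of_jt hc' p 0) h4 ▸ pin_of_jt hc' p _⟩
      · obtain rfl := hS.inj ρ p _ _ hi h3 (pin_agree hk hc (pin_of_jt hc' p 0) (h5 p h4).1)
        exact Or.inr ⟨c, h3, h4, fun p' hp' => ⟨pin_of_jt hc' p' _, hf p' ▸ (h5 p' hp').2⟩⟩
    · have h2 : ∀ p, fx F ρ p (X p) ≠ fx F ρ 1 (X 1) → ∃ a, S.PinJ P ρ p (X p) a :=
        fun p hp => hF.pin_of_ne hk hc hX (hS.cap ρ 1 (hS.g1 ρ)) (hβ 1) hp
      refine ⟨_, join_aux hS hk hc hf h' (hS.g1 ρ) h2 fun hε y i t t' h => ?_⟩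
      obtain rfl : MT.wt ρ 1 y i t t' = u := (mem_insert.1 h).resolve_right (hβ _ _ _ _ _)
      by_cases h3 : fx F ρ 2 (X 2) = fx F ρ 1 (X 1)
      · obtain ⟨a, ha⟩ := h'.pin (p := 2) (by rwa [hf, h3])
        refine hα ⟨a, fun j => (mem_insert.1 (jt_of_pin hS (hS.g2 ρ) ha ?_ j)).resolve_left (by simp)⟩
        intro y' i' r r' h4
        rcases mem_insert.1 h4 with h4 | h4
        · simp at h4
        · exact hβ _ _ _ _ _ h4
      · obtain ⟨a, ha⟩ := h2 2 h3
        exact hα ⟨a, jt_of_pin hS (hS.g2 ρ) ha (hβ 2)⟩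

end RS

end Crest.Agent.R290
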