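import Crest.Agent.R290.CoreAdd
import Crest.Agent.R290.CoreJoin

/-!
# Row 290: the core certificate is a dual certificate for `k + 1` pebbles
-/

set_option autoImplicit false

namespace Crest.Agent.R290

open Finset

namespace RS

variable {k : ℕ} [NeZero k] {R J G : Type} [Fintype R] [DecidableEq R] [Fintype J] [DecidableEq J]
  [DecidableEq G] {S : RS k R J G} {P : Finset (MT k R J)} {F : MT k R J → ZMod 2}

theorem cm_hub_zero (hF : S.Cl P F) {g : G}
    (h0 : ∀ ρ p, S.hub ρ p = some g → Unp P ρ p 0) : S.hubFlux F (fun _ _ => 0) g = 0 := by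
  have key : ∀ r r', (∑ ρ, ∑ p, if S.hub ρ p = some g then F (.wt ρ p 0 0 r r') else 0) = 0 :=
    fun r r' => hF.hub (X := fun _ _ => 0) h0 fun _ _ x _ hx => absurd hx (Fin.not_lt_zero x)
  have e : S.hubFlux F (fun _ _ => 0) g =
      ∑ r, ∑ r', ∑ ρ, ∑ p, if S.hub ρ p = some g then F (.wt ρ p 0 0 r r') else 0 := by
    unfold hubFlux fx fl
    calc _ = ∑ ρ, ∑ p, ∑ r, ∑ r', if S.hub ρ p = some g then F (.wt ρ p 0 0 r r') else 0 := by
          refine sum_congr rfl fun ρ _ => sum_congr rfl fun p _ => ?_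
          split_ifs <;> simp
      _ = ∑ ρ, ∑ r, ∑ r', ∑ p, if S.hub ρ p = some g then F (.wt ρ p 0 0 r r') else 0 := by
          refine sum_congr rfl fun ρ _ => ?_
          rw [sum_comm]
          exact sum_congr rfl fun r _ => sum_comm
      _ = _ := by
          rw [sum_comm]
          exact sum_congr rfl fun r _ => sum_comm
  rw [e]
  simp [key]

theorem cm_hub_one {g : G} {ρ : J} {p₀ : Fin 9} (hg : S.hub ρ p₀ = some g) (x₁ : Fin (k + 2)) :
    S.hubFlux F (fun ρ' p' => if ρ' = ρ ∧ p' = p₀ then x₁ else 0) g =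
      S.hubFlux F (fun _ _ => 0) g + (fx F ρ p₀ x₁ - fx F ρ p₀ 0) := by
  have e : (fx F ρ p₀ x₁ - fx F ρ p₀ 0) =
      ∑ ρ', ∑ p', if ρ' = ρ ∧ p' = p₀ then fx F ρ p₀ x₁ - fx F ρ p₀ 0 else 0 := by
    simp [ite_and]
  unfold hubFlux
  rw [e, ← sum_add_distrib]
  refine sum_congr rfl fun ρ' _ => ?_
  rw [← sum_add_distrib]
  refine sum_congr rfl fun p' _ => ?_
  by_cases h : ρ' = ρ ∧ p' = p₀
  · obtain ⟨rfl, rfl⟩ := h
    simp [hg]
  · simp [h]

/-- Restriction of the join invariant. Let `X` be unpebbled for `P`, `φ p = fx F ρ p (X p)`. If `φ` is constant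
take `ε = φ 0`. Otherwise `P` has exactly one pebble per row, all beyond the selection (`Cl.zone`,
`one_per_row`). If `u` is in no selected column, `join_main` with `X' = X`. If `u` is in the column `X p₀`:
* `X p₀ ≠ 0`: the column `X p₀ - 1` is unpebbled for `insert u P` and has the same flux (`Cl.between`);
  `join_main` with the updated selection.
* `X p₀ = 0`: take `x₁` unpebbled for `insert u P`. If it has the same flux, `join_main` with `x₁`. Otherwise
  all of `P` lies on the wire `p₀` between `0` and `x₁` and spells `a` (`Cl.between_adr`); the other ports have a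
  common flux `m` (`Cl.fx_eq_join`), take `ε = m` and show `TrW ρ p₀ a`. Capped: the pebbles are valid tiles.
  Hub `g`: select `x₁` on this wire and column `0` on the other wires at `g` (no pebble of `insert u P` there).
  With column `0` on this wire too the hub flux is `0` (`Cl.hub` for `P`, summed over labels, `Cl.fl_eq`), so with
  `x₁` it is odd; `InvH (insert u P)` pins a true `a'`, and `a' = a` by `adr_unique` at `u.row`. -/
theorem invJ_res (hS : S.WF) (hk : 2 ≤ k) {u : MT k R J} (hT : P ⊆ S.sys.T) (hc : P.card ≤ k)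
    (h : S.D (insert u P) F) (hF : S.Cl P F) : S.InvJ P F := by
  intro ρ X hX
  by_cases hconst : ∀ p, fx F ρ p (X p) = fx F ρ 0 (X 0)
  · exact ⟨fx F ρ 0 (X 0), fun p hp => absurd (hconst p) hp⟩
  obtain ⟨p₁, hne⟩ := not_forall.1 hconst
  have hz := hF.zone hk hX hne
  have hrow : ∀ i, ∃ v ∈ P, v.row = i := fun i => by
    rcases hz i with ⟨p, x, r, r', -, h⟩ | ⟨s, s', h⟩
    · exact ⟨_, h, rfl⟩
    · exact ⟨_, h, rfl⟩
  have hlow : ∀ p x i r r', MT.wt ρ p x i r r' ∈ P → X p < x := fun p x i r r' hv => by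
    rcases hz i with ⟨p', x', s, s', hx, h⟩ | ⟨s, s', h⟩
    · have e := one_per_row hc hrow hv h rfl
      simp only [MT.wt.injEq] at e
      obtain ⟨-, rfl, rfl, -⟩ := e
      exact hx
    · exact absurd (one_per_row hc hrow hv h rfl) (by simp)
  have K : ∀ X' : Fin 9 → Fin (k + 2), (∀ p, Unp (insert u P) ρ p (X' p)) →
      (∀ p, fx F ρ p (X' p) = fx F ρ p (X p)) → ∃ ε, S.Good P F ρ X ε := fun X' h1 h2 => by
    obtain ⟨ε', hε'⟩ := h.2.2 ρ X' h1
    exact join_main hS hk hT hc hF hX h2 hne hε'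
  by_cases hu : ∀ p i r r', u ≠ MT.wt ρ p (X p) i r r'
  · refine K X (fun p i r r' hv => ?_) fun _ => rfl
    rcases mem_insert.1 hv with e | e
    · exact hu p i r r' e.symm
    · exact hX p i r r' e
  push Not at hu
  obtain ⟨p₀, i₀, r₀, r₀', rfl⟩ := hu
  have K' : ∀ x₁, Unp (insert (MT.wt ρ p₀ (X p₀) i₀ r₀ r₀') P) ρ p₀ x₁ →
      fx F ρ p₀ x₁ = fx F ρ p₀ (X p₀) → ∃ ε, S.Good P F ρ X ε := fun x₁ h1 h2 => by
    refine K (Function.update X p₀ x₁) (fun p => ?_) fun p => ?_
    · by_cases hp : p = p₀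
      · subst hp; rwa [Function.update_self]
      · rw [Function.update_of_ne hp]
        intro i r r' hv
        rcases mem_insert.1 hv with e | e
        · simp only [MT.wt.injEq] at e
          exact hp e.2.1
        · exact hX p i r r' e
    · by_cases hp : p = p₀
      · subst hp; rwa [Function.update_self]
      · rw [Function.update_of_ne hp]
  by_cases h0 : X p₀ = 0
  swap
  · have h0' : (X p₀ : ℕ) ≠ 0 := fun e => h0 (Fin.ext e)
    let x₁ : Fin (k + 2) := ⟨X p₀ - 1, by omega⟩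
    have hlt : x₁ < X p₀ := by
      rw [Fin.lt_def]; show (X p₀ : ℕ) - 1 < _; omega
    have h1 : Unp P ρ p₀ x₁ := fun i r r' hv => lt_asymm hlt (hlow _ _ _ _ _ hv)
    refine K' x₁ (fun i r r' hv => ?_) ?_
    · rcases mem_insert.1 hv with e | e
      · simp only [MT.wt.injEq] at e
        exact hlt.ne e.2.2.1
      · exact h1 i r r' e
    · by_contra hf
      obtain ⟨y, r, r', -, hy, hv⟩ := hF.between hk hlt.le h1 (hX p₀) hf 0
      exact lt_asymm hy (hlow _ _ _ _ _ hv)
  obtain ⟨x₁, hx₁⟩ := exists_unp (P := insert (MT.wt ρ p₀ (X p₀) i₀ r₀ r₀') P)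
    ((card_insert_le _ _).trans (by omega)) ρ p₀
  by_cases hf : fx F ρ p₀ x₁ = fx F ρ p₀ (X p₀)
  · exact K' x₁ hx₁ hf
  have hx₁' : Unp P ρ p₀ x₁ := fun i r r' hv => hx₁ i r r' (mem_insert_of_mem hv)
  obtain ⟨a, y, hy, hya, hall⟩ := hF.between_adr hk hc (by rw [h0]; exact Fin.zero_le _) (hX p₀) hx₁'
    (Ne.symm hf)
  have hoff : ∀ ρ' p' x i r r', MT.wt ρ' p' x i r r' ∈ P → ρ' = ρ ∧ p' = p₀ ∧ r = a i ∧
      r' = a (i + 1) := fun ρ' p' x i r r' hv => by
    have e := hall _ hv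
    simp only [MT.wt.injEq, MT.row] at e
    exact ⟨e.1, e.2.1, e.2.2.2.2.1, e.2.2.2.2.2⟩
  refine ⟨∑ s, ∑ s', F (.jt ρ 0 s s'), fun p hp => Or.inl ?_⟩
  obtain rfl : p = p₀ := by
    by_contra hpp
    refine hp (hF.fx_eq_join hk (hX p) fun r r' hpin => ?_)
    rcases hpin with ⟨x, -, hv⟩ | ⟨s, s', hv, -⟩
    · exact hpp (hoff _ _ _ _ _ _ hv).2.1
    · exact absurd (hall _ hv) (by simp)
  refine ⟨a, ⟨fun g hg => ?_, fun hg i => ?_⟩, fun i => Or.inl ⟨y i, (hy i).1, hya i⟩⟩
  · have hz0 : S.hubFlux F (fun _ _ => 0) g = 0 := cm_hub_zero hF fun ρ' p' _ i r r' hv => by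
      obtain ⟨rfl, rfl, -⟩ := hoff _ _ _ _ _ _ hv
      exact hX p' i r r' (h0 ▸ hv)
    obtain ⟨a', ha', hpin⟩ := h.2.1 g (fun ρ' p' => if ρ' = ρ ∧ p' = p then x₁ else 0)
      (fun ρ' p' _ => by
        by_cases hh : ρ' = ρ ∧ p' = p
        · obtain ⟨rfl, rfl⟩ := hh
          simpa using hx₁
        · intro i r r' hv
          rcases mem_insert.1 hv with e | e
          · simp only [MT.wt.injEq] at e
            exact hh ⟨e.1, e.2.1⟩
          · exact hh ⟨(hoff _ _ _ _ _ _ e).1, (hoff _ _ _ _ _ _ e).2.1⟩)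
      (by
        rw [cm_hub_one hg, hz0, zero_add, sub_ne_zero, ← h0]
        exact hf)
    obtain rfl : a' = a := adr_unique hk i₀ fun i hi => by
      obtain ⟨ρ', p', x, -, -, hv⟩ := hpin i
      rcases mem_insert.1 hv with e | e
      · simp only [MT.wt.injEq] at e
        exact absurd e.2.2.2.1 hi
      · exact (hoff _ _ _ _ _ _ e).2.2
    exact ha'
  · have := mem_T.1 (hT (hya i))
    simpa [valid, hg] using this

theorem core_dual (hS : S.WF) (hk : 2 ≤ k) : S.sys.IsDual (k + 1) S.D where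
  zero _ _ _ := D_zero
  add _ hc h h' := D_add hS hk hc h h'
  single hT _ hu := D_single hT hu
  bd h hy := h.1.2 _ hy
  mono hP _ _ h := D_mono hP h
  res hT _ hc h hb :=
    ⟨⟨h.1.1, hb⟩, invH_res hS hk (by omega) h ⟨h.1.1, hb⟩,
      invJ_res hS hk ((subset_insert _ _).trans hT) (by omega) h ⟨h.1.1, hb⟩⟩

end RS

end Crest.Agent.R290
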