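import Crest.Agent.R290.CLift

/-!
# Row 290: the dense encoding (diameter two)

Classes: `(0, y)` for a variable `y < V` (two vertices; one if `y` is unused), `(1, u)` for a tile, `(2, j)` for `j < w` (single vertices
forming a clique). The class of rank `ρ` (`y + 1`, resp. `V + u + 1`) is joined to the first `ρ * Δ` clique
vertices, where `Δ` exceeds the number of non-clique vertices; so degrees reveal the classes.
-/

set_option autoImplicit false

namespace Crest.Agent.R290

open Finset Crest.Agent.Lib.PolyTime Crest.WLRefine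

namespace CSys

variable (L : CSys)

/-- Exceeds the number of non-clique vertices. -/
def Δ : ℕ := 2 * L.V + 512 * L.length + 1

/-- Rank of a non-clique class. -/
def rank (c : ℕ × ℕ) : ℕ := if c.1 = 0 then c.2 + 1 else L.V + c.2 + 1

/-- Oriented adjacency. -/
def dadj (c c' : ℕ × ℕ) : Bool :=
  (decide (c.1 = 0) && decide (c'.1 = 1) && (L.vs c'.2).any fun y => decide (y = c.2)) ||
  (decide (c.1 = 2) && decide (c'.1 = 2) && decide (c.2 ≠ c'.2)) ||
  (decide (c.1 = 2) && decide (c'.1 < 2) && decide (c.2 < L.rank c' * L.Δ))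

/-- The dense base with a clique of size `w`. -/
def dense (w : ℕ) : CBase (ℕ × ℕ) where
  names := (List.range L.V).map (fun y => (0, y)) ++ (List.range L.length).map (fun u => (1, u)) ++
    (List.range w).map fun j => (2, j)
  S c := if c.1 = 0 then L.sv c.2 else if c.1 = 1 then L.vs c.2 else []
  con c := if c.1 = 1 then c.2 + 1 else 0
  adj c c' := L.dadj c c' || L.dadj c' c

/-- The clique is large enough. -/
def Big (w : ℕ) : Prop := (L.V + L.length + 1) * L.Δ + 2 ≤ w

variable {L} {w : ℕ}

theorem mem_dense {c : ℕ × ℕ} : c ∈ (L.dense w).base.Cl ↔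
    (c.1 = 0 ∧ c.2 < L.V) ∨ (c.1 = 1 ∧ c.2 < L.length) ∨ (c.1 = 2 ∧ c.2 < w) := by
  obtain ⟨a, b⟩ := c
  simp only [CBase.base, dense, List.mem_toFinset, List.mem_append, List.mem_map, List.mem_range,
    Prod.mk.injEq, or_assoc]
  refine or_congr ?_ (or_congr ?_ ?_) <;>
    exact ⟨fun ⟨_, h1, h2, h3⟩ => ⟨h2.symm, h3 ▸ h1⟩, fun ⟨h1, h2⟩ => ⟨b, h2, h1.symm, rfl⟩⟩

theorem dense_S (c : ℕ × ℕ) : (L.dense w).base.S c =
    (if c.1 = 0 then L.sv c.2 else if c.1 = 1 then L.vs c.2 else []).toFinset := rfl

theorem dense_con (c : ℕ × ℕ) : (L.dense w).base.con c = if c.1 = 1 then some c.2 else none := by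
  by_cases h : c.1 = 1 <;> simp [CBase.base, dense, h]

theorem dense_adj (c c' : ℕ × ℕ) :
    (L.dense w).base.adj c c' = (L.dadj c c' || L.dadj c' c) := rfl

theorem rank_le {c : ℕ × ℕ} (hc : c ∈ (L.dense w).base.Cl) (h : c.1 < 2) :
    1 ≤ L.rank c ∧ L.rank c ≤ L.V + L.length := by
  rw [mem_dense] at hc
  unfold rank
  split_ifs <;> omega

theorem Δ_pos : 0 < L.Δ := Nat.succ_pos _

theorem dense_ok (hL : L.WF) : (L.dense w).OK := by
  refine ⟨?_, fun c hc => ?_⟩
  · have h : ∀ a n : ℕ, ((List.range n).map fun y => (a, y)).Nodup := fun a n =>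
      List.nodup_range.map fun _ _ e => (Prod.ext_iff.1 e).2
    refine ((h _ _).append (h _ _) ?_).append (h _ _) ?_ <;> intro c h1 h2 <;>
      simp only [List.mem_append, List.mem_map] at h1 h2
    · obtain ⟨_, -, rfl⟩ := h1
      obtain ⟨_, -, e⟩ := h2
      cases e
    · obtain ⟨_, -, rfl⟩ := h2
      rcases h1 with ⟨_, -, e⟩ | ⟨_, -, e⟩ <;> cases e
  · obtain ⟨a, b⟩ := c
    rcases mem_dense.1 (List.mem_toFinset.2 hc) with ⟨rfl, h⟩ | ⟨rfl, h⟩ | ⟨rfl, h⟩
    · rcases L.sv_cases b with e | ⟨e, -⟩ <;> simp [dense, e]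
    · simpa [dense] using ⟨(hL b h).1, (hL b h).2.2, (hL b h).2.1⟩
    · simp [dense]

theorem dense_wf : (L.dense w).base.WF L.sys := by
  refine ⟨fun c hc u hu => ?_, fun c hc => ?_⟩
  · rw [dense_con] at hu
    split_ifs at hu with h
    cases hu
    have := mem_dense.1 hc
    exact ⟨mem_range.2 (by omega), by simp [dense_S, h, sys]⟩
  · obtain ⟨a, b⟩ := c
    rcases mem_dense.1 hc with ⟨rfl, h⟩ | ⟨rfl, h⟩ | ⟨rfl, h⟩
    · rcases L.sv_cases b with e | ⟨e, u, hu, hb⟩
      · exact Or.inl (by simp [dense_S, e])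
      · exact Or.inr ⟨u, mem_range.2 hu, by simpa [dense_S, e, sys] using hb⟩
    · exact Or.inr ⟨b, mem_range.2 h, by simp [dense_S, sys]⟩
    · exact Or.inl (by simp [dense_S])

theorem dense_paths (hL : L.WF) : (L.dense w).base.Paths L.sys (fun c => c.1 < 2) (fun u => (1, u))
    fun y => (0, y) := by
  refine ⟨fun u hu => ⟨mem_dense.2 (Or.inr (Or.inl ⟨rfl, mem_range.1 hu⟩)), by simp,
    by simp [dense_con]⟩, fun u hu => ?_, fun u hu y hy => ?_, fun u hu y hy => ?_⟩
  · simpa [sys] using (hL u (mem_range.1 hu)).2.1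
  · simp [dense_S, L.sv_of_mem (mem_range.1 hu) (List.mem_toFinset.1 hy)]
  · have hy' : y ∈ L.vs u := List.mem_toFinset.1 hy
    refine Relation.ReflTransGen.single ⟨mem_dense.2 (Or.inl ⟨rfl, L.lt_V hy'⟩), by simp, ?_, ?_,
      Or.inl (by simp [dense_con])⟩
    · simp [dense_adj, dadj, hy']
    · simp [dense_S, L.sv_of_mem (mem_range.1 hu) hy']

theorem dense_length (par : ℕ → Bool) :
    ((L.dense w).verts par).length = ((L.dense 0).verts par).length + w := by
  have h : (allB.filter fun a => decide (a.length = 0)).length = 1 := by decide +kernel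
  simp [CBase.verts, dense, List.length_flatMap, Function.comp_def, h,
    add_assoc, -List.length_eq_zero_iff]

section Clique

variable {β : ℕ → ZMod 2} {V : Type} {G : V → V → Bool}

theorem dense_symm (X : Lift (L.dense w).base β G) (v z : V) : G v z = G z v := by
  rw [Bool.eq_iff_iff, X.adj, X.adj, dense_adj, dense_adj, Bool.or_comm, inter_comm]
  simp only [eq_comm]

theorem dense_cases (X : Lift (L.dense w).base β G) (v : V) : (X.cls v).1 < 2 ∨ (X.cls v).1 = 2 := by
  have := mem_dense.1 (X.mem v)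
  omega

theorem dense_adj_out (X : Lift (L.dense w).base β G) {v z : V} (hv : (X.cls v).1 < 2)
    (hz : (X.cls z).1 = 2) : G v z = true ↔ (X.cls z).2 < L.rank (X.cls v) * L.Δ := by
  simp [X.adj, dense_adj, dadj, dense_S (X.cls z), hz, hv, hv.ne]

theorem dense_adj_in (X : Lift (L.dense w).base β G) {v z : V} (hv : (X.cls v).1 = 2)
    (hz : (X.cls z).1 = 2) : G v z = true ↔ (X.cls z).2 ≠ (X.cls v).2 := by
  simp [X.adj, dense_adj, dadj, dense_S (X.cls z), hz, hv, eq_comm (a := (X.cls v).2)]

theorem dense_clique_inj (X : Lift (L.dense w).base β G) {v z : V} (hv : (X.cls v).1 = 2)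
    (hz : (X.cls z).1 = 2) (h : (X.cls v).2 = (X.cls z).2) : v = z :=
  X.inj _ _ (Prod.ext (hv.trans hz.symm) h) (by simp [dense_S, hv])

theorem dense_clique_surj (X : Lift (L.dense w).base β G) {j : ℕ} (hj : j < w) :
    ∃ z, X.cls z = (2, j) :=
  (X.surj (2, j) (mem_dense.2 (Or.inr (Or.inr ⟨rfl, hj⟩))) 0 (by simp [dense_con])).imp
    fun _ h => h.1

theorem dense_card_clique [Fintype V] (X : Lift (L.dense w).base β G) (P : ℕ → Prop)
    [DecidablePred P] : (univ.filter fun z => (X.cls z).1 = 2 ∧ P (X.cls z).2).card =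
      ((range w).filter P).card := by
  refine card_bij (fun z _ => (X.cls z).2) (fun z hz => ?_) (fun z hz z' hz' e => ?_) fun j hj => ?_
  · have h1 := mem_dense.1 (X.mem z)
    have h2 := (mem_filter.1 hz).2
    exact mem_filter.2 ⟨mem_range.2 (by omega), h2.2⟩
  · exact dense_clique_inj X (mem_filter.1 hz).2.1 (mem_filter.1 hz').2.1 e
  · obtain ⟨z, hz⟩ := dense_clique_surj X (mem_range.1 (mem_filter.1 hj).1)
    exact ⟨z, by simpa [hz] using (mem_filter.1 hj).2, by rw [hz]⟩

theorem dense_deg_split [Fintype V] (X : Lift (L.dense w).base β G) (v : V) :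
    deg G v = (univ.filter fun z => (X.cls z).1 = 2 ∧ G v z = true).card +
      (univ.filter fun z => (X.cls z).1 < 2 ∧ G v z = true).card := by
  rw [deg, ← card_filter_add_card_filter_not fun z => (X.cls z).1 = 2, filter_filter,
    filter_filter]
  congr 2
  · exact filter_congr fun z _ => and_comm
  · refine filter_congr fun z _ => and_comm.trans (and_congr_left fun _ => ?_)
    have := dense_cases X z
    omega

theorem dense_card_in [Fintype V] (X : Lift (L.dense w).base β G) {v : V} (hv : (X.cls v).1 = 2) :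
    (univ.filter fun z => (X.cls z).1 = 2 ∧ G v z = true).card = w - 1 := by
  have h1 := mem_dense.1 (X.mem v)
  rw [filter_congr fun z _ => and_congr_right fun hz => dense_adj_in X hv hz,
    dense_card_clique X fun j => j ≠ (X.cls v).2, filter_ne', card_erase_of_mem (mem_range.2 (by omega)),
    card_range]

end Clique

/-- The vertex of class `(2, 0)` is adjacent to all other vertices. -/
theorem dense_diam (hw : L.Big w) {β : ℕ → ZMod 2} {n : ℕ} {G : Fin n → Fin n → Bool}
    (X : Lift (L.dense w).base β G) : SimpleConnDiamTwo G := by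
  obtain ⟨q, hq⟩ := dense_clique_surj X (j := 0) (by unfold Big at hw; omega)
  have hq1 : (X.cls q).1 = 2 := by rw [hq]
  have h : ∀ v, v ≠ q → G v q = true := fun v hv => by
    rcases dense_cases X v with h | h
    · rw [dense_adj_out X h hq1, hq]
      exact Nat.mul_pos (rank_le (X.mem v) h).1 Δ_pos
    · rw [dense_adj_in X h hq1]
      exact fun e => hv (dense_clique_inj X h hq1 e.symm)
  refine ⟨X.isSimple (fun c c' => by rw [dense_adj, dense_adj, Bool.or_comm]) fun c => ?_, ?_,
    fun v v' hne => ?_⟩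
  · simp only [dense_adj, dadj, Bool.or_self, Bool.or_eq_false_iff, Bool.and_eq_false_iff,
      decide_eq_false_iff_not]
    omega
  · refine (SimpleGraph.connected_iff_exists_forall_reachable _).2 ⟨q, fun v => ?_⟩
    by_cases hv : v = q
    · rw [hv]
    · exact SimpleGraph.Adj.reachable ((SimpleGraph.fromRel_adj _ _ _).2
        ⟨Ne.symm hv, Or.inr (h v hv)⟩)
  · by_cases h1 : v' = q
    · exact Or.inl (h1 ▸ h v (h1 ▸ hne))
    by_cases h2 : v = q
    · exact Or.inl (h2 ▸ dense_symm X _ _ ▸ h v' h1)
    · exact Or.inr ⟨q, h v h2, dense_symm X _ _ ▸ h v' h1⟩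

section Deg

variable {β : ℕ → ZMod 2} {V : Type} [Fintype V] [DecidableEq V] {G : V → V → Bool}

/-- Fewer than `Δ` vertices outside the clique (`Lift.card_le` with `T = ∅`). -/
theorem dense_card_lt (hL : L.WF) (X : Lift (L.dense w).base β G) :
    (univ.filter fun v => (X.cls v).1 < 2).card < L.Δ := by
  have h1 : ∀ c k, ((L.dense w).base.S c).card ≤ k →
      (univ.filter fun v => X.cls v = c).card ≤ 2 ^ k := fun c k hk => by
    have := X.card_le c ∅ 0
    simp only [empty_inter, notMem_empty, false_imp_iff, implies_true, and_true, sdiff_empty] at this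
    exact this.trans (Nat.pow_le_pow_right two_pos hk)
  have h2 : (univ.filter fun v => (X.cls v).1 < 2) ⊆
      ((range L.V).biUnion fun y => univ.filter fun v => X.cls v = (0, y)) ∪
        (range L.length).biUnion fun u => univ.filter fun v => X.cls v = (1, u) := fun v hv => by
    have h3 := (mem_filter.1 hv).2
    simp only [mem_union, mem_biUnion, mem_range, mem_filter, mem_univ, true_and]
    rcases mem_dense.1 (X.mem v) with h | h | h
    · exact Or.inl ⟨_, h.2, Prod.ext h.1 rfl⟩
    · exact Or.inr ⟨_, h.2, Prod.ext h.1 rfl⟩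
    · omega
  have h4 := card_biUnion_le_card_mul (range L.V) (fun y => univ.filter fun v => X.cls v = (0, y))
    (2 ^ 1) fun y _ => h1 _ _ (by rcases L.sv_cases y with e | ⟨e, -⟩ <;> simp [dense_S, e])
  have h5 := card_biUnion_le_card_mul (range L.length)
    (fun u => univ.filter fun v => X.cls v = (1, u)) (2 ^ 9) fun u hu => h1 _ _
      ((List.toFinset_card_le _).trans (hL u (mem_range.1 hu)).2.2)
  have h6 := (card_le_card h2).trans (card_union_le _ _)
  rw [card_range] at h4 h5
  unfold Δ
  omega

/-- A non-clique vertex has exactly `rank * Δ` neighbours in the clique (one vertex per class `(2, j)`). -/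
theorem dense_deg_cls (hL : L.WF) (hw : L.Big w) (X : Lift (L.dense w).base β G) {v : V}
    (hv : (X.cls v).1 < 2) :
    L.rank (X.cls v) * L.Δ ≤ deg G v ∧ deg G v < (L.rank (X.cls v) + 1) * L.Δ := by
  have h1 : L.rank (X.cls v) * L.Δ ≤ w :=
    (Nat.mul_le_mul_right _ ((rank_le (X.mem v) hv).2.trans (Nat.le_succ _))).trans
      ((Nat.le_add_right _ 2).trans hw)
  have h2 : (range w).filter (· < L.rank (X.cls v) * L.Δ) = range (L.rank (X.cls v) * L.Δ) := by
    ext j
    simp only [mem_filter, mem_range]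
    omega
  have h3 : (univ.filter fun z => (X.cls z).1 < 2 ∧ G v z = true).card < L.Δ :=
    (card_le_card (monotone_filter_right _ fun z _ hz => hz.1)).trans_lt (dense_card_lt hL X)
  rw [dense_deg_split X, filter_congr fun z _ => and_congr_right fun hz => dense_adj_out X hv hz,
    dense_card_clique X (· < L.rank (X.cls v) * L.Δ), h2, card_range, add_mul]
  omega

theorem dense_deg_clique (hw : L.Big w) (X : Lift (L.dense w).base β G) {v : V}
    (hv : (X.cls v).1 = 2) : (L.V + L.length + 1) * L.Δ < deg G v := by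
  rw [dense_deg_split X, dense_card_in X hv]
  unfold Big at hw
  omega

/-- Equal degrees, in any two lifts: same class outside the clique (`rank` is injective on valid
non-clique classes and at most `V + length`). -/
theorem dense_cls_of_deg (hL : L.WF) (hw : L.Big w) {β' : ℕ → ZMod 2} {W : Type} [Fintype W]
    [DecidableEq W] {H : W → W → Bool} (X : Lift (L.dense w).base β G)
    (X' : Lift (L.dense w).base β' H) {v : V} {v' : W} (h : deg G v = deg H v')
    (hv : (X.cls v).1 < 2) : X'.cls v' = X.cls v := by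
  obtain ⟨h1, h2⟩ := dense_deg_cls hL hw X hv
  rcases dense_cases X' v' with hv' | hv'
  · obtain ⟨h3, h4⟩ := dense_deg_cls hL hw X' hv'
    have h5 := Nat.lt_of_mul_lt_mul_right (h1.trans_lt (h ▸ h4))
    have h6 := Nat.lt_of_mul_lt_mul_right (h3.trans_lt (h ▸ h2))
    have h7 := mem_dense.1 (X.mem v)
    have h8 := mem_dense.1 (X'.mem v')
    unfold rank at h5 h6
    refine Prod.ext ?_ ?_ <;> split_ifs at h5 h6 <;> omega
  · have h3 := dense_deg_clique hw X' hv'
    have h4 := Nat.mul_le_mul_right L.Δ (Nat.succ_le_succ (rank_le (X.mem v) hv).2)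
    simp only [Nat.succ_eq_add_one] at h4
    omega

/-- Clique vertices of equal degree have the same neighbours outside the clique (these neighbourhoods are
nested, and each has `w - 1` neighbours inside). -/
theorem dense_clique_adj (X : Lift (L.dense w).base β G) {v v' z : V} (hv : (X.cls v).1 = 2)
    (hv' : (X.cls v').1 = 2) (h : deg G v = deg G v') (hz : (X.cls z).1 < 2) : G v z = G v' z := by
  wlog hle : (X.cls v).2 ≤ (X.cls v').2 generalizing v v'
  · exact (this hv' hv h.symm (not_le.1 hle).le).symm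
  rw [dense_deg_split X, dense_deg_split X, dense_card_in X hv, dense_card_in X hv',
    add_right_inj] at h
  have h1 : (univ.filter fun z => (X.cls z).1 < 2 ∧ G v' z = true) =
      univ.filter fun z => (X.cls z).1 < 2 ∧ G v z = true := by
    refine eq_of_subset_of_card_le (monotone_filter_right _ fun z _ hz => ⟨hz.1, ?_⟩) h.le
    have h2 := hz.2
    rw [dense_symm X, dense_adj_out X hz.1 hv'] at h2
    rw [dense_symm X, dense_adj_out X hz.1 hv]
    omega
  have h2 := Finset.ext_iff.1 h1 z
  simp only [mem_filter, mem_univ, true_and, hz] at h2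
  exact (Bool.eq_iff_iff.2 h2).symm

end Deg

section PT

variable {α : Type} [Enc α] {L : α → CSys}

@[fun_prop] theorem pt_Δ (hL : PT L) : PT fun a => (L a).Δ := by
  unfold Δ; fun_prop

@[fun_prop] theorem pt_rank {c : α → ℕ × ℕ} (hL : PT L) (hc : PT c) :
    PT fun a => (L a).rank (c a) := by
  unfold rank; fun_prop

@[fun_prop] theorem pt_dadj {c c' : α → ℕ × ℕ} (hL : PT L) (hc : PT c) (hc' : PT c') :
    PT fun a => (L a).dadj (c a) (c' a) := by
  unfold dadj; fun_prop

end PT

theorem pt_dense_code {α : Type} [Enc α] {L : α → CSys} {w : α → ℕ} {b : α → Bool} (hL : PT L)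
    (hw : PT w) (hb : PT b) : PT fun a => ((L a).dense (w a)).code ((L a).par (b a)) := by
  refine CBase.pt_code ?_ ?_ ?_ ?_ ?_ <;> (try simp only [dense]) <;> fun_prop

theorem pt_dense_length {α : Type} [Enc α] {L : α → CSys} (hL : PT L) :
    PT fun a => (((L a).dense 0).verts ((L a).par false)).length := by
  refine PT.length (CBase.pt_verts ?_ ?_ ?_ ?_) <;> (try simp only [dense]) <;> fun_prop

end CSys

end Crest.Agent.R290
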