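import Crest.Agent.R290.Force

/-!
# Row 290: the dense reduction from coded systems to pairs of graphs
-/

set_option autoImplicit false

namespace Crest.Agent.R290

open Finset Crest.Agent.Lib.PolyTime Crest.WLRefine

namespace CSys

theorem dense_cons {L : CSys} {w : ℕ} (hL : L.WF) (hw : L.Big w) {β β' : ℕ → ZMod 2} {V W : Type}
    [Fintype V] [DecidableEq V] [Fintype W] [DecidableEq W] {G : V → V → Bool} {H : W → W → Bool}
    (X : Lift (L.dense w).base β G) (X' : Lift (L.dense w).base β' H) {K : ℕ} (hK : 3 ≤ K)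
    (h : BP K G H) : L.sys.Cons K (β + β') := by
  obtain ⟨F, hF⟩ := h
  exact X.cons dense_wf (dense_paths hL) X' hK hF fun p hp a ha hg =>
    dense_cls_of_deg hL hw X X' (hF.deg_eq (by omega) hp ha) hg

end CSys

open CSys in
theorem exists_dense : ∃ (Rd : CSys × Bool × ℕ → List Bool) (sz : CSys → ℕ), PT Rd ∧ PT sz ∧
    ∀ (L : CSys) (n : ℕ), L.WF → sz L ≤ n → ∃ G H : Fin n → Fin n → Bool,
      SimpleConnDiamTwo G ∧ SimpleConnDiamTwo H ∧ Rd (L, false, n) = adjMatrixCode G ∧
      Rd (L, true, n) = adjMatrixCode H ∧ (∀ K, 3 ≤ K → (BP K G H ↔ L.sys.Cons K (L.β true))) ∧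
      ∀ K, 3 ≤ K → ∀ H' : Fin n → Fin n → Bool, BP K G H' →
        ∃ β', L.sys.Cons K β' ∧ (L.sys.Solvable β' → AdjIso G H') := by
  refine ⟨fun p => (p.1.dense (p.2.2 - ((p.1.dense 0).verts (p.1.par false)).length)).code
      (p.1.par p.2.1),
    fun L => ((L.dense 0).verts (L.par false)).length + ((L.V + L.length + 1) * L.Δ + 2),
    pt_dense_code (by fun_prop) (PT.nat_sub (by fun_prop) (pt_dense_length (by fun_prop)))
      (by fun_prop),
    PT.nat_add (pt_dense_length PT.id') (by unfold Δ; fun_prop), fun L n hL hn => ?_⟩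
  beta_reduce at hn
  set w := n - ((L.dense 0).verts (L.par false)).length with hw
  have hB : L.Big w := by unfold Big; omega
  have h0 : ((L.dense w).verts (L.par false)).length = n := by rw [dense_length]; omega
  have h1 : ((L.dense w).verts (L.par true)).length = n := by
    rw [CBase.length_verts (dense_ok hL) _ (L.par false), h0]
  obtain ⟨G, hG, ⟨X⟩⟩ := CBase.exists_lift (dense_ok hL) (L.par false) h0
  obtain ⟨H, hH, ⟨X'⟩⟩ := CBase.exists_lift (dense_ok hL) (L.par true) h1
  have e0 : ∀ β' : ℕ → ZMod 2, (fun u => if L.par false u then (1 : ZMod 2) else 0) + β' = β' := by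
    intro β'; funext u; simp [par]
  refine ⟨G, H, dense_diam hB X, dense_diam hB X', hG.symm, hH.symm, fun K hK => ⟨fun h => ?_,
    fun h => X.bp dense_wf X' (by rw [e0]; exact h)⟩, fun K hK H' h => ?_⟩
  · have := dense_cons hL hB X X' hK h
    rwa [e0] at this
  · obtain ⟨β', ⟨Y⟩⟩ := dense_force hL hB X hK h
    have := dense_cons hL hB X Y hK h
    rw [e0] at this
    exact ⟨β', this, fun hs => X.iso dense_wf Y (by rw [e0]; exact hs)⟩

end Crest.Agent.R290
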