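import Crest.Agent.R290.Dense

/-!
# Row 290: a graph that plays three pebbles against a dense lift is a dense lift

Plan. Let `F` be the family, `f₀ : V ≃ W` the bijection of `ext` at `∅`, and put `cls' w = X.cls (f₀.symm w)`.
If `(v, w)` is a pair of a position then `deg G v = deg H w = deg G (f₀.symm w)` (`IsBP.deg_eq`), so `cls' w = cls v` outside
the clique (`dense_cls_of_deg` with both lifts `X`), and for clique vertices `f₀.symm w` is a clique vertex with the same
neighbours outside the clique (`dense_clique_adj`). Any two vertices `w`, `w'` of `H` have partners `v`, `v'` with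
`F {(v, w), (v', w')}`, and a third bijection extends this position.
Values: for `w` of class `(0, y)` put `val' w y = X.val (f₀.symm w) y`; for `w` of class `(1, u)` and `y ∈ vs u`, `w` is adjacent to
exactly one of the two vertices of class `(0, y)` (transport from `G` by the bijection at `{(v, w)}`), and `val' w y` is the
value of that vertex. Two vertices `w`, `w'` of class `(1, u)` agree at `y` iff they have a common neighbour in class
`(0, y)` iff their partners `v`, `v'` agree at `y` (third pebble). Hence `inj`, and all vertices of class `(1, u)` have the same parity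
`β' u` (`val' w + val' w' = val v + val v'` on `vs u`). `surj`: the class has `2 ^ (card - 1)` vertices
(`Lift.card_cls`, `f₀`), injecting into the `2 ^ (card - 1)` assignments of parity `β' u` (`card_parity`). `adj`: `H w w' = G v v'`,
which is determined by the classes except for a tile and one of its variables, where it holds by definition.
-/

set_option autoImplicit false

namespace Crest.Agent.R290

open Finset

namespace CSys

section Aux

variable {L : CSys} {w : ℕ}

private theorem fo_S_two {c : ℕ × ℕ} (h : c.1 = 2) : (L.dense w).base.S c = ∅ := by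
  simp [dense, CBase.base, h]

private theorem fo_S_one (u : ℕ) : (L.dense w).base.S (1, u) = (L.vs u).toFinset := by
  simp [dense, CBase.base]

private theorem fo_S_zero {u y : ℕ} (hu : u < L.length) (hy : y ∈ L.vs u) :
    (L.dense w).base.S (0, y) = {y} := by
  simp [dense, CBase.base, L.sv_of_mem hu hy]

private theorem fo_con {c : ℕ × ℕ} {u : ℕ} : (L.dense w).base.con c = some u ↔ c = (1, u) := by
  obtain ⟨a, b⟩ := c
  by_cases h : a = 1
  · simp [dense, CBase.base, h]
  · simp [dense, CBase.base, h]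

private theorem fo_adj_symm (c c' : ℕ × ℕ) :
    (L.dense w).base.adj c c' = (L.dense w).base.adj c' c := Bool.or_comm _ _

private theorem fo_adj_same {c c' : ℕ × ℕ} (h : c.1 = c'.1) (h2 : c.1 < 2) :
    (L.dense w).base.adj c c' = false := by
  obtain ⟨a, b⟩ := c
  obtain ⟨a', b'⟩ := c'
  simp only at h h2
  subst h
  obtain rfl | rfl : a = 0 ∨ a = 1 := by omega
  · simp [dense, CBase.base, dadj]
  · simp [dense, CBase.base, dadj]

private theorem fo_adj_10 {u y : ℕ} :
    (L.dense w).base.adj (1, u) (0, y) = true ↔ y ∈ L.vs u := by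
  simp [dense, CBase.base, dadj]

private theorem fo_adj_22 {c c' : ℕ × ℕ} (h : c.1 = 2) (h' : c'.1 = 2) :
    (L.dense w).base.adj c c' = true ↔ c ≠ c' := by
  obtain ⟨a, b⟩ := c
  obtain ⟨a', b'⟩ := c'
  simp only at h h'
  subst h h'
  by_cases e : b = b'
  · simp [dense, CBase.base, dadj, e]
  · simp [dense, CBase.base, dadj, e]

private theorem fo_z2 (a b c : ZMod 2) (h : b ≠ c) : a = b ↔ ¬ a = c := by
  revert a b c; decide

private theorem fo_z2' (a b c d : ZMod 2) (h : a = b ↔ c = d) : a + b = c + d := by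
  revert a b c d; decide

variable {β : ℕ → ZMod 2} {V : Type} {G : V → V → Bool} (X : Lift (L.dense w).base β G)

private theorem fo_le_two (v : V) : (X.cls v).1 ≤ 2 := by
  rcases mem_dense.1 (X.mem v) with h | h | h <;> omega

private theorem fo_lt {v : V} {u : ℕ} (hv : X.cls v = (1, u)) : u < L.length := by
  have := mem_dense.1 (X.mem v)
  rw [hv] at this
  simpa using this

include X in
private theorem fo_symm (a b : V) : G a b = G b a := by
  rw [Bool.eq_iff_iff, X.adj, X.adj, fo_adj_symm, inter_comm]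
  exact and_congr_right fun _ => forall₂_congr fun _ _ => eq_comm

private theorem fo_G10 {v a : V} {u y : ℕ} (hv : X.cls v = (1, u)) (ha : X.cls a = (0, y))
    (hy : y ∈ L.vs u) : G v a = true ↔ X.val v y = X.val a y := by
  rw [X.adj, hv, ha, fo_adj_10, fo_S_one, fo_S_zero (fo_lt X hv) hy]
  simp [hy]

private theorem fo_inj0 {a a' : V} {u y : ℕ} (hu : u < L.length) (hy : y ∈ L.vs u)
    (ha : X.cls a = (0, y)) (ha' : X.cls a' = (0, y)) (h : X.val a y = X.val a' y) : a = a' := by
  refine X.inj a a' (ha.trans ha'.symm) fun y' hy' => ?_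
  rw [ha, fo_S_zero hu hy, mem_singleton] at hy'
  rw [hy', h]

private theorem fo_surj0 {u y : ℕ} (hu : u < L.length) (hy : y ∈ L.vs u) (b : ZMod 2) :
    ∃ a, X.cls a = (0, y) ∧ X.val a y = b := by
  obtain ⟨a, h1, h2⟩ := X.surj (0, y) (mem_dense.2 (.inl ⟨rfl, L.lt_V hy⟩)) (fun _ => b)
    fun u' hu' => absurd (fo_con.1 hu') (by simp)
  exact ⟨a, h1, h2 y (by rw [fo_S_zero hu hy]; exact mem_singleton_self y)⟩

private theorem fo_G22 {a b : V} (ha : (X.cls a).1 = 2) (hb : (X.cls b).1 = 2) :
    G a b = true ↔ a ≠ b := by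
  rw [X.adj, fo_adj_22 ha hb, fo_S_two ha]
  simp only [empty_inter, notMem_empty, false_imp_iff, implies_true, and_true]
  refine ⟨fun h e => h (by rw [e]), fun h e => h (X.inj a b e ?_)⟩
  rw [fo_S_two ha]
  simp

open Classical in
/-- the values read off the neighbours -/
private noncomputable def foVal {W : Type} (H : W → W → Bool) (g : W → V) (x : W) (y : ℕ) :
    ZMod 2 :=
  if (X.cls (g x)).1 = 1 then
    (if ∃ z, X.cls (g z) = (0, y) ∧ X.val (g z) y = 1 ∧ H x z = true then 1 else 0)
  else X.val (g x) y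

private theorem foVal_ne {W : Type} (H : W → W → Bool) (g : W → V) {x : W}
    (h : (X.cls (g x)).1 ≠ 1) (y : ℕ) : foVal X H g x y = X.val (g x) y := if_neg h

end Aux

theorem dense_force {L : CSys} {w : ℕ} (hL : L.WF) (hw : L.Big w) {β : ℕ → ZMod 2} {V W : Type}
    [Fintype V] [DecidableEq V] [Fintype W] [DecidableEq W] {G : V → V → Bool} {H : W → W → Bool}
    (X : Lift (L.dense w).base β G) {K : ℕ} (hK : 3 ≤ K) (h : BP K G H) :
    ∃ β' : ℕ → ZMod 2, Nonempty (Lift (L.dense w).base β' H) := by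
  classical
  obtain ⟨F, hF⟩ := h
  obtain ⟨f₀, hf₀⟩ := hF.ext hF.empty (by rw [card_empty]; omega)
  have hg : ∀ x, F {(f₀.symm x, x)} := fun x => by simpa using hf₀ (f₀.symm x)
  have hdeg : ∀ {p}, F p → ∀ {v x}, (v, x) ∈ p → deg G v = deg G (f₀.symm x) :=
    fun hp v x hm => (hF.deg_eq (by omega) hp hm).trans
      (hF.deg_eq (by omega) (hg x) (mem_singleton_self _)).symm
  have hc1 : ∀ {p}, F p → ∀ {v x}, (v, x) ∈ p → (X.cls v).1 < 2 →
      X.cls (f₀.symm x) = X.cls v := fun hp v x hm hv =>
    dense_cls_of_deg hL hw X X (hdeg hp hm) hv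
  have hc2 : ∀ {p}, F p → ∀ {v x}, (v, x) ∈ p → (X.cls (f₀.symm x)).1 < 2 →
      X.cls v = X.cls (f₀.symm x) := fun hp v x hm hv =>
    dense_cls_of_deg hL hw X X (hdeg hp hm).symm hv
  have htri : ∀ x x', ∃ (v' : V) (f : V ≃ W),
      ∀ z, F (insert (z, f z) (insert (v', x') {(f₀.symm x, x)})) := by
    intro x x'
    obtain ⟨f₁, hf₁⟩ := hF.ext (hg x) (by rw [card_singleton]; omega)
    have h1 := hf₁ (f₁.symm x')
    rw [Equiv.apply_symm_apply] at h1
    obtain ⟨f, hf⟩ := hF.ext h1 (lt_of_le_of_lt card_le_two (by omega))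
    exact ⟨_, f, hf⟩
  have hpair : ∀ x x', ∃ v' : V, F (insert (v', x') {(f₀.symm x, x)}) := fun x x' =>
    let ⟨v', _, hf⟩ := htri x x'; ⟨v', hF.sub (hf v') (subset_insert _ _)⟩
  have hsymm : ∀ x x', H x x' = H x' x := fun x x' => by
    obtain ⟨v', hv'⟩ := hpair x x'
    have h1 := hF.adj hv' (mem_insert_self _ _) (mem_insert_of_mem (mem_singleton_self _))
    have h2 := hF.adj hv' (mem_insert_of_mem (mem_singleton_self _)) (mem_insert_self _ _)
    exact h2.symm.trans ((fo_symm X _ _).trans h1)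
  -- a tile vertex sees exactly one of the two vertices of a variable
  have hA' : ∀ {x z z' u y}, X.cls (f₀.symm x) = (1, u) → y ∈ L.vs u →
      X.cls (f₀.symm z) = (0, y) → X.cls (f₀.symm z') = (0, y) → z ≠ z' →
      (H x z = true ↔ ¬ H x z' = true) := by
    intro x z z' u y hx hy hz hz' hne
    obtain ⟨f, hf⟩ := hF.ext (hg x) (by rw [card_singleton]; omega)
    have key : ∀ z, X.cls (f₀.symm z) = (0, y) → X.cls (f.symm z) = (0, y) ∧
        (H x z = true ↔ X.val (f₀.symm x) y = X.val (f.symm z) y) := by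
      intro z hz
      have h1 := hf (f.symm z)
      rw [Equiv.apply_symm_apply] at h1
      have h2 := (hc2 h1 (mem_insert_self _ _) (by rw [hz]; norm_num)).trans hz
      have h3 := hF.adj h1 (mem_insert_of_mem (mem_singleton_self _)) (mem_insert_self _ _)
      exact ⟨h2, by rw [← h3]; exact fo_G10 X hx h2 hy⟩
    rw [(key z hz).2, (key z' hz').2]
    exact fo_z2 _ _ _ fun e =>
      hne (f.symm.injective (fo_inj0 X (fo_lt X hx) hy (key z hz).1 (key z' hz').1 e))
  have hA : ∀ {x z u y}, X.cls (f₀.symm x) = (1, u) → y ∈ L.vs u →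
      X.cls (f₀.symm z) = (0, y) →
      (H x z = true ↔ foVal X H f₀.symm x y = X.val (f₀.symm z) y) := by
    intro x z u y hx hy hz
    have hu := fo_lt X hx
    obtain ⟨a, ha, ha1⟩ := fo_surj0 X hu hy 1
    have ha' : X.cls (f₀.symm (f₀ a)) = (0, y) := by rwa [Equiv.symm_apply_apply]
    have h1 : H x (f₀ a) = true ↔ foVal X H f₀.symm x y = 1 := by
      unfold foVal
      rw [if_pos (by rw [hx])]
      constructor
      · intro h
        exact if_pos ⟨f₀ a, ha', by rwa [Equiv.symm_apply_apply], h⟩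
      · intro h
        by_contra hn
        rw [if_neg] at h
        · exact zero_ne_one h
        · rintro ⟨z', k1, k2, k3⟩
          have := fo_inj0 X hu hy k1 ha (k2.trans ha1.symm)
          rw [← this, Equiv.apply_symm_apply] at hn
          exact hn k3
    by_cases e : z = f₀ a
    · rw [e, Equiv.symm_apply_apply, ha1]
      exact h1
    · rw [hA' hx hy hz ha' e, h1]
      refine (fo_z2 _ _ _ fun e' => e ?_).symm
      rw [← fo_inj0 X hu hy hz ha (e'.trans ha1.symm), Equiv.apply_symm_apply]
  -- agreement is transported by the third pebble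
  have hB : ∀ {x x' u}, X.cls (f₀.symm x) = (1, u) → X.cls (f₀.symm x') = (1, u) →
      ∃ v', X.cls v' = (1, u) ∧ (f₀.symm x = v' → x = x') ∧ ∀ y ∈ L.vs u,
        (foVal X H f₀.symm x y = foVal X H f₀.symm x' y ↔ X.val (f₀.symm x) y = X.val v' y) := by
    intro x x' u hx hx'
    obtain ⟨v', f, hf⟩ := htri x x'
    have m1 : ∀ z, (z, f z) ∈ insert (z, f z) (insert (v', x') {(f₀.symm x, x)} : Finset (V × W)) :=
      fun z => mem_insert_self _ _
    have m2 : ∀ z, (v', x') ∈ insert (z, f z) (insert (v', x') {(f₀.symm x, x)} : Finset (V × W)) :=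
      fun z => mem_insert_of_mem (mem_insert_self _ _)
    have m3 : ∀ z, (f₀.symm x, x) ∈
        insert (z, f z) (insert (v', x') {(f₀.symm x, x)} : Finset (V × W)) :=
      fun z => mem_insert_of_mem (mem_insert_of_mem (mem_singleton_self _))
    have hv' : X.cls v' = (1, u) := (hc2 (hf v') (m2 v') (by rw [hx']; norm_num)).trans hx'
    refine ⟨v', hv', (hF.eq (hf v') (m3 v') (m2 v')).1, fun y hy => ?_⟩
    obtain ⟨a, ha, ha1⟩ := fo_surj0 X (fo_lt X hx) hy (X.val (f₀.symm x) y)
    have hz : X.cls (f₀.symm (f a)) = (0, y) := (hc1 (hf a) (m1 a) (by rw [ha]; norm_num)).trans ha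
    have h1 : H x (f a) = true := by
      rw [← hF.adj (hf a) (m3 a) (m1 a)]
      exact (fo_G10 X hx ha hy).2 ha1.symm
    have h2 : H x' (f a) = true ↔ X.val v' y = X.val a y := by
      rw [← hF.adj (hf a) (m2 a) (m1 a)]
      exact fo_G10 X hv' ha hy
    rw [hA hx hy hz] at h1
    rw [hA hx' hy hz, ← h1, ha1] at h2
    exact eq_comm.trans (h2.trans eq_comm)
  have hpar : ∀ {x x' u}, X.cls (f₀.symm x) = (1, u) → X.cls (f₀.symm x') = (1, u) →
      ∑ y ∈ (L.vs u).toFinset, foVal X H f₀.symm x y =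
        ∑ y ∈ (L.vs u).toFinset, foVal X H f₀.symm x' y := by
    intro x x' u hx hx'
    obtain ⟨v', hv', -, h1⟩ := hB hx hx'
    have h2 := X.par _ u (fo_con.2 hx)
    have h3 := X.par _ u (fo_con.2 hv')
    rw [hx, fo_S_one] at h2
    rw [hv', fo_S_one] at h3
    rw [← CharTwo.add_eq_zero, ← sum_add_distrib, sum_congr rfl fun y hy =>
      fo_z2' _ _ _ _ (h1 y (List.mem_toFinset.1 hy)), sum_add_distrib, h2, h3,
      CharTwo.add_self_eq_zero]
  have hinj : ∀ x x', X.cls (f₀.symm x) = X.cls (f₀.symm x') →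
      (∀ y ∈ (L.dense w).base.S (X.cls (f₀.symm x)),
        foVal X H f₀.symm x y = foVal X H f₀.symm x' y) → x = x' := by
    intro x x' e hv
    by_cases h1 : (X.cls (f₀.symm x)).1 = 1
    · have hx : X.cls (f₀.symm x) = (1, (X.cls (f₀.symm x)).2) := Prod.ext h1 rfl
      obtain ⟨v', hv', h2, h3⟩ := hB hx (e.symm.trans hx)
      refine h2 (X.inj _ _ (hx.trans hv'.symm) fun y hy => ?_)
      refine (h3 y ?_).1 (hv y hy)
      rwa [hx, fo_S_one, List.mem_toFinset] at hy
    · refine f₀.symm.injective (X.inj _ _ e fun y hy => ?_)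
      rw [← foVal_ne X H f₀.symm h1, ← foVal_ne X H f₀.symm (e ▸ h1)]
      exact hv y hy
  have hβ : ∀ u, ∃ b : ZMod 2, ∀ x, X.cls (f₀.symm x) = (1, u) →
      ∑ y ∈ (L.vs u).toFinset, foVal X H f₀.symm x y = b := fun u => by
    by_cases h : ∃ x, X.cls (f₀.symm x) = (1, u)
    · obtain ⟨x₀, hx₀⟩ := h
      exact ⟨_, fun x hx => hpar hx hx₀⟩
    · exact ⟨0, fun x hx => absurd ⟨x, hx⟩ h⟩
  choose β' hβ' using hβ
  have hadj : ∀ x x', (X.cls (f₀.symm x')).1 ≤ (X.cls (f₀.symm x)).1 → (H x x' = true ↔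
      (L.dense w).base.adj (X.cls (f₀.symm x)) (X.cls (f₀.symm x')) = true ∧
        ∀ y ∈ (L.dense w).base.S (X.cls (f₀.symm x)) ∩ (L.dense w).base.S (X.cls (f₀.symm x')),
          foVal X H f₀.symm x y = foVal X H f₀.symm x' y) := by
    intro x x' hle
    obtain ⟨v', hv'⟩ := hpair x x'
    have m1 : (v', x') ∈ (insert (v', x') {(f₀.symm x, x)} : Finset (V × W)) := mem_insert_self _ _
    have m2 : (f₀.symm x, x) ∈ (insert (v', x') {(f₀.symm x, x)} : Finset (V × W)) :=
      mem_insert_of_mem (mem_singleton_self _)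
    have hH : G (f₀.symm x) v' = H x x' := hF.adj hv' m2 m1
    by_cases h2 : (X.cls (f₀.symm x')).1 < 2
    · have hc := hc2 hv' m1 h2
      by_cases h3 : (X.cls (f₀.symm x)).1 = 2
      · rw [← hH, X.adj, hc, fo_S_two h3]
        simp
      by_cases h4 : (X.cls (f₀.symm x)).1 = (X.cls (f₀.symm x')).1
      · rw [← hH, X.adj, hc, fo_adj_same h4 (by omega)]
        simp
      have h5 := fo_le_two X (f₀.symm x)
      have hx : X.cls (f₀.symm x) = (1, (X.cls (f₀.symm x)).2) := Prod.ext (by simp only; omega) rfl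
      have hx' : X.cls (f₀.symm x') = (0, (X.cls (f₀.symm x')).2) :=
        Prod.ext (by simp only; omega) rfl
      generalize (X.cls (f₀.symm x)).2 = u at hx
      generalize (X.cls (f₀.symm x')).2 = y at hx'
      by_cases hy : y ∈ L.vs u
      · rw [hA hx hy hx', hx, hx', fo_adj_10, fo_S_one, fo_S_zero (fo_lt X hx) hy,
          ← foVal_ne X H f₀.symm (by rw [hx']; norm_num)]
        simp [hy]
      · rw [← hH, X.adj, hc, hx, hx', fo_adj_10]
        simp [hy]
    · have h3 : (X.cls (f₀.symm x')).1 = 2 := le_antisymm (fo_le_two X _) (not_lt.1 h2)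
      have h4 : (X.cls (f₀.symm x)).1 = 2 := le_antisymm (fo_le_two X _) (h3 ▸ hle)
      have h5 : (X.cls v').1 = 2 := by
        by_contra hn
        have h6 := fo_le_two X v'
        have h7 := hc1 hv' m1 (by omega)
        rw [h7] at h3
        exact hn h3
      have h6 : H x x' = true ↔ G (f₀.symm x) (f₀.symm x') = true := by
        rw [← hH, fo_G22 X h4 h5, fo_G22 X h4 h3, f₀.symm.injective.ne_iff]
        exact not_congr (hF.eq hv' m2 m1)
      rw [h6, X.adj, fo_S_two h4]
      simp
  refine ⟨β', ⟨⟨fun x => X.cls (f₀.symm x), foVal X H f₀.symm, fun x => X.mem _, ?_, hinj, ?_, ?_⟩⟩⟩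
  · intro x u hu
    rw [fo_con] at hu
    rw [hu, fo_S_one]
    exact hβ' u x hu
  · intro c hc a ha
    by_cases h1 : c.1 = 1
    swap
    · obtain ⟨v, k1, k2⟩ := X.surj c hc a fun u hu => absurd (congrArg Prod.fst (fo_con.1 hu)) h1
      refine ⟨f₀ v, by rwa [Equiv.symm_apply_apply], fun y hy => ?_⟩
      rw [foVal_ne X H f₀.symm (by rwa [Equiv.symm_apply_apply, k1]), Equiv.symm_apply_apply]
      exact k2 y hy
    obtain ⟨_, u⟩ := c
    simp only at h1
    subst h1
    have hu : u < L.length := by simpa using mem_dense.1 hc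
    have hne : (L.vs u).toFinset.Nonempty := by
      rw [List.toFinset_nonempty_iff]
      exact (hL u hu).2.1
    have hcard := X.card_cls hc fun _ => by rwa [fo_S_one]
    rw [fo_con.2 rfl, if_neg (by simp), fo_S_one] at hcard
    have ha' := ha u (fo_con.2 rfl)
    rw [fo_S_one] at ha' ⊢
    have : Nonempty (L.vs u).toFinset := hne.to_subtype
    have hcard2 : (univ.filter fun x => X.cls (f₀.symm x) = (1, u)).card =
        (univ.filter fun v => X.cls v = (1, u)).card :=
      card_equiv f₀.symm fun x => by simp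
    have hcard3 := card_parity (ι := (L.vs u).toFinset) (β' u)
    rw [Fintype.card_coe] at hcard3
    obtain ⟨x, hx, e⟩ := surj_on_of_inj_on_of_card_le
      (s := univ.filter fun x => X.cls (f₀.symm x) = (1, u))
      (t := univ.filter fun α : (L.vs u).toFinset → ZMod 2 => ∑ y, α y = β' u)
      (fun x _ y => foVal X H f₀.symm x y)
      (fun x hx => mem_filter.2 ⟨mem_univ _, by
        rw [sum_coe_sort (L.vs u).toFinset (foVal X H f₀.symm x)]
        exact hβ' u x (mem_filter.1 hx).2⟩)
      (fun x x' hx hx' e => hinj x x' ((mem_filter.1 hx).2.trans (mem_filter.1 hx').2.symm)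
        fun y hy => congrFun e ⟨y, by rwa [(mem_filter.1 hx).2, fo_S_one] at hy⟩)
      (by rw [hcard2, hcard, hcard3]) (fun y => a y)
      (mem_filter.2 ⟨mem_univ _, by rw [sum_coe_sort (L.vs u).toFinset a]; exact ha'⟩)
    exact ⟨x, (mem_filter.1 hx).2, fun y hy => (congrFun e ⟨y, hy⟩).symm⟩
  · intro x x'
    rcases le_total (X.cls (f₀.symm x')).1 (X.cls (f₀.symm x)).1 with h | h
    · exact hadj x x' h
    · rw [hsymm, hadj x' x h, fo_adj_symm, inter_comm]
      exact and_congr_right fun _ => forall₂_congr fun _ _ => eq_comm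

end CSys

end Crest.Agent.R290
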