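import Crest.Agent.R290.GadDefs

/-!
# Row 290: if the output hub has no true address, the sink right-hand side is `(k+1)`-consistent

Dual certificate. Let `θ : XT → MT` send a main tile to itself, `gw γ A x i` with `x < k + 2` (hub half) to
`wt ρo 0 0 i r0 r0`, and the other tiles of the gadget `γ = some (u, j)` to `u` (for the sink: to
`wt ρo 0 0 i r0 r0`). `D' P F` iff `F` vanishes on invalid tiles, `bd F` vanishes off `Y P`,
`S.D (P.image θ) (F ∘ inl)`, and `F (gw γ A x i) = 0` for all `i` whenever no `gw γ A x _` is in `P`.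
`zero`, `add`, `single`, `mono` follow from `core_dual` (`θ` maps valid tiles to valid tiles). For `P = ∅`:
`F (gj none 0) = F (gw none false last 0) = 0` (variable `gh none false (2k+4) 0`).
Conservation on a valid gadget wire (`bd F = 0` off `Y P`): (c) in a column without pebble `F (gw γ A x i)` does not
depend on `i` (`fin_cyc`); (h) `F (gw γ A x i) = F (gw γ A (x+1) i)` if neither tile is in `P`;
(e) `F (gj γ i) = F (gw γ A last i)` if neither is in `P`.
`res` (`P' = insert u P`, `P.card ≤ k`):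
(i) A column `(γ, A, x)` without pebble of `P` but containing `u`; suppose its common value is `1`. For every column
`x₁` of this wire without pebble of `P'` (value `0`), every row has a pebble of `P` strictly between `x` and `x₁`, so
`P` is exactly these `k` pebbles. Such an `x₁` exists in each half (`k + 2 > P'.card`). If `x₁ > x` then
`x = 0` (otherwise column `x - 1` has no pebble of `P'`, value `0`, contradicting (h)); if `x₁ < x` then `x` is last.
For `x` last: (e) for `A` and for `!A` gives value `1` on the last column of the other wire, which has no pebble of `P'`: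
absurd. For `x = 0` take `x₁` in the hub half: `P'.image θ` lies in column `0` of the output wire, all other gadget
wires vanish at column `0`, so the variables `hub go 0 r r'` (not in `Y P`) give
`F (wt ρo 0 0 0 r r') = [r = r0 ∧ r' = r0]`, and the variables `hor ρo 0 1 0 r r'` (not in `Y P`, and in no valid
gadget tile since gadgets avoid the output wire) give flux `1` at column `1` of the output wire; `InvH` at `go`
with column `1` (`Out.only`) yields a true address: absurd.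
(ii) `S.D (P.image θ) (F ∘ inl)` by `IsDual.res'` of `core_dual`; the main boundary at `y ∉ Y (P.image θ)` is
`bd F (inl y)` (zero, since `inl y ∉ Y P`) plus the values of `F` at the gadget tiles containing `inl y`, which vanish:
`gw γ A 0 i` with `y = hub go i r0 r0`: no pebble of `P` in row `i` of any hub half, some column of the hub half has no
pebble (value `0` by (i)), use (h); `gj (some (u', j)) 0`: `u' ∉ P.image θ`, so the join half has no pebble, use (i), (e).
-/

set_option autoImplicit false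

namespace Crest.Agent.R290

open Finset

section Generic

variable {τ ν : Type} [Fintype τ] [DecidableEq τ] [DecidableEq ν] {X : Sys τ ν} {F : τ → ZMod 2}

omit [DecidableEq τ] in
theorem gc_bd_univ (h0 : ∀ u, u ∉ X.T → F u = 0) (y : ν) :
    X.bd F y = ∑ u, if y ∈ X.vars u then F u else 0 :=
  sum_subset (subset_univ _) fun u _ hu => by rw [h0 u hu, ite_self]

theorem gc_bd_one (h0 : ∀ u, u ∉ X.T → F u = 0) {y : ν} {a : τ} (h : ∀ u, y ∈ X.vars u ↔ u = a) :
    X.bd F y = F a := by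
  rw [gc_bd_univ h0]
  simp only [h, sum_ite_eq', mem_univ, if_true]

theorem gc_bd_two (h0 : ∀ u, u ∉ X.T → F u = 0) {y : ν} {a b : τ} (hab : a ≠ b)
    (h : ∀ u, y ∈ X.vars u ↔ u = a ∨ u = b) : X.bd F y = F a + F b := by
  rw [gc_bd_univ h0]
  have e : ∀ u, (if y ∈ X.vars u then F u else 0) =
      (if u = a then F u else 0) + if u = b then F u else 0 := by
    intro u
    simp only [h]
    by_cases h1 : u = a
    · subst h1; simp [hab]
    · by_cases h2 : u = b
      · subst h2; simp [h1]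
      · simp [h1, h2]
  simp only [e, sum_add_distrib, sum_ite_eq', mem_univ, if_true]

theorem gc_eq_of_add {x y : ZMod 2} (h : x + y = 0) : x = y := by
  revert x y; decide

theorem gc_pair {P : Finset τ} (h0 : ∀ u, u ∉ X.T → F u = 0)
    (hb : ∀ y, y ∉ X.Y P → X.bd F y = 0) {y : ν} {a b : τ} (hab : a ≠ b)
    (h : ∀ u, y ∈ X.vars u ↔ u = a ∨ u = b) (ha : a ∉ P) (hb' : b ∉ P) : F a = F b := by
  refine gc_eq_of_add ?_
  rw [← gc_bd_two h0 hab h]
  refine hb y fun hy => ?_
  obtain ⟨u, hu, h1⟩ := Sys.mem_Y.1 hy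
  rcases (h u).1 h1 with rfl | rfl
  · exact ha hu
  · exact hb' hu

end Generic

namespace RS

variable {k : ℕ} [NeZero k] {R J G : Type} [Fintype R] [DecidableEq R] [Fintype J] [DecidableEq J]
  [DecidableEq G] {S : RS k R J G} {ρo : J} {go : G} {r0 : R}

namespace GC

/-! ### Which tiles contain a variable -/

theorem mem_xT {u : XT k R J} : u ∈ (S.xsys ρo go r0).T ↔ S.xvalid ρo u = true := by simp [xsys]

theorem mem_xvars {u : XT k R J} {y : XV k R J G} :
    y ∈ (S.xsys ρo go r0).vars u ↔ y ∈ S.xvarsL go r0 u := List.mem_toFinset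

theorem inl_main {u : MT k R J} {y : MV k R J G} :
    Sum.inl y ∈ (S.xsys ρo go r0).vars (.inl u) ↔ y ∈ S.sys.vars u := by
  simp [mem_xvars, xvarsL, sys]

theorem inl_gw {γ : GI k R J} {A : Bool} {x : Fin (2 * k + 4)} {i : Fin k} {y : MV k R J G} :
    Sum.inl y ∈ (S.xsys ρo go r0).vars (.inr (.gw γ A x i)) ↔
      (x : ℕ) = 0 ∧ y = .hub go i r0 r0 := by
  by_cases hx : (x : ℕ) = 0 <;> simp [mem_xvars, xvarsL, hx]

theorem inl_gj {γ : GI k R J} {i : Fin k} {y : MV k R J G} :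
    Sum.inl y ∈ (S.xsys ρo go r0).vars (.inr (.gj γ i)) ↔ i = 0 ∧ y ∈ S.gvar γ := by
  by_cases hi : i = 0 <;> simp [mem_xvars, xvarsL, hi]

omit [Fintype R] [DecidableEq R] [Fintype J] [DecidableEq J] [DecidableEq G] in
theorem gvar_spec {γ : GI k R J} {y : MV k R J G} (h : y ∈ S.gvar γ) :
    ∃ u j, γ = some (u, j) ∧ y ∈ S.varsL u := by
  rcases γ with _ | ⟨u, j⟩
  · simp [gvar] at h
  · refine ⟨u, j, rfl, ?_⟩
    simp only [gvar, Option.mem_toList] at h
    exact List.mem_of_getElem? h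

theorem gc_mem (γ : GI k R J) (A : Bool) (x : Fin (2 * k + 4)) (i : Fin k) (u : XT k R J) :
    Sum.inr (GV.gc γ A x (i + 1)) ∈ (S.xsys ρo go r0).vars u ↔
      u = .inr (.gw γ A x (i + 1)) ∨ u = .inr (.gw γ A x i) := by
  rcases u with u | ⟨γ', A', x', i'⟩ | ⟨γ', i'⟩
  · simp [mem_xvars, xvarsL]
  · by_cases hx : (x' : ℕ) = 0
    · simp only [mem_xvars, xvarsL, if_pos hx]
      simp [Fin.val_inj]
      tauto
    · simp only [mem_xvars, xvarsL, if_neg hx]
      simp [Fin.val_inj]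
      tauto
  · by_cases hi : i' = 0 <;> simp [mem_xvars, xvarsL, hi]

theorem gh_mem (γ : GI k R J) (A : Bool) {x x' : Fin (2 * k + 4)} (hx : (x : ℕ) + 1 = x')
    (i : Fin k) (u : XT k R J) :
    Sum.inr (GV.gh γ A x' i) ∈ (S.xsys ρo go r0).vars u ↔
      u = .inr (.gw γ A x i) ∨ u = .inr (.gw γ A x' i) := by
  have h1 := x'.2
  rcases u with u | ⟨γ', A', z, i'⟩ | ⟨γ', i'⟩
  · simp [mem_xvars, xvarsL]
  · by_cases hz : (z : ℕ) = 0
    · simp only [mem_xvars, xvarsL, hz, if_true, List.mem_cons, Sum.inr.injEq, GV.gh.injEq,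
        reduceCtorEq, List.not_mem_nil, or_false, GT.gw.injEq, Fin.ext_iff]
      constructor
      · rintro ⟨h2, h3, h4, h5⟩
        exact Or.inl ⟨h2.symm, h3.symm, by omega, h5.symm⟩
      · rintro (⟨h2, h3, h4, h5⟩ | ⟨h2, h3, h4, h5⟩)
        · exact ⟨h2.symm, h3.symm, by omega, h5.symm⟩
        · omega
    · simp only [mem_xvars, xvarsL, hz, if_false, List.mem_cons, Sum.inr.injEq, GV.gh.injEq,
        reduceCtorEq, List.not_mem_nil, or_false, false_or, GT.gw.injEq, Fin.ext_iff]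
      constructor
      · rintro (⟨h2, h3, h4, h5⟩ | ⟨h2, h3, h4, h5⟩)
        · exact Or.inl ⟨h2.symm, h3.symm, by omega, h5.symm⟩
        · exact Or.inr ⟨h2.symm, h3.symm, by omega, h5.symm⟩
      · rintro (⟨h2, h3, h4, h5⟩ | ⟨h2, h3, h4, h5⟩)
        · exact Or.inl ⟨h2.symm, h3.symm, by omega, h5.symm⟩
        · exact Or.inr ⟨h2.symm, h3.symm, by omega, h5.symm⟩
  · have h2 : (x' : ℕ) ≠ 2 * k + 4 := by omega
    by_cases hi : i' = 0 <;> simp [mem_xvars, xvarsL, hi, h2]

theorem ge_mem (γ : GI k R J) (A : Bool) (i : Fin k) (u : XT k R J) :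
    Sum.inr (GV.gh γ A (2 * k + 4) i) ∈ (S.xsys ρo go r0).vars u ↔
      u = .inr (.gj γ i) ∨ u = .inr (.gw γ A (Fin.last (2 * k + 3)) i) := by
  rcases u with u | ⟨γ', A', z, i'⟩ | ⟨γ', i'⟩
  · simp [mem_xvars, xvarsL]
  · have h1 := z.2
    by_cases hz : (z : ℕ) = 0
    · simp only [mem_xvars, xvarsL, hz, if_true, List.mem_cons, Sum.inr.injEq, GV.gh.injEq,
        reduceCtorEq, List.not_mem_nil, or_false, false_or, GT.gw.injEq, Fin.ext_iff, Fin.val_last]
      have h6 : ¬ (2 * k + 4 = 0 + 1) := by omega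
      simp only [h6, false_and, and_false]
    · simp only [mem_xvars, xvarsL, hz, if_false, List.mem_cons, Sum.inr.injEq, GV.gh.injEq,
        reduceCtorEq, List.not_mem_nil, or_false, false_or, GT.gw.injEq, Fin.ext_iff, Fin.val_last]
      constructor
      · rintro (⟨h2, h3, h4, h5⟩ | ⟨h2, h3, h4, h5⟩)
        · exact ⟨h2.symm, h3.symm, by omega, h5.symm⟩
        · omega
      · rintro ⟨h2, h3, h4, h5⟩
        exact Or.inl ⟨h2.symm, h3.symm, by omega, h5.symm⟩
  · by_cases hi : i' = 0 <;> cases A <;> simp [mem_xvars, xvarsL, hi, eq_comm]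

/-! ### Conservation on gadget wires -/

section Cons

variable {P : Finset (XT k R J)} {F : XT k R J → ZMod 2}

theorem col_const (hk : 2 ≤ k) (h0 : ∀ u, u ∉ (S.xsys ρo go r0).T → F u = 0)
    (hb : ∀ y, y ∉ (S.xsys ρo go r0).Y P → (S.xsys ρo go r0).bd F y = 0) {γ : GI k R J} {A : Bool}
    {x : Fin (2 * k + 4)} (hx : ∀ i, Sum.inr (GT.gw γ A x i) ∉ P) (i j : Fin k) :
    F (.inr (.gw γ A x i)) = F (.inr (.gw γ A x j)) :=
  fin_cyc (fun i => F (.inr (.gw γ A x i))) (fun i => gc_pair h0 hb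
    (by simpa using fin_succ_ne hk i) (gc_mem γ A x i) (hx _) (hx _)) i j

theorem hor_step (h0 : ∀ u, u ∉ (S.xsys ρo go r0).T → F u = 0)
    (hb : ∀ y, y ∉ (S.xsys ρo go r0).Y P → (S.xsys ρo go r0).bd F y = 0) {γ : GI k R J} {A : Bool}
    {x x' : Fin (2 * k + 4)} (hx : (x : ℕ) + 1 = x') {i : Fin k} (h1 : Sum.inr (GT.gw γ A x i) ∉ P)
    (h2 : Sum.inr (GT.gw γ A x' i) ∉ P) : F (.inr (.gw γ A x i)) = F (.inr (.gw γ A x' i)) :=
  gc_pair h0 hb (by simp only [ne_eq, Sum.inr.injEq, GT.gw.injEq, Fin.ext_iff]; omega)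
    (gh_mem γ A hx i) h1 h2

theorem hor_chain (h0 : ∀ u, u ∉ (S.xsys ρo go r0).T → F u = 0)
    (hb : ∀ y, y ∉ (S.xsys ρo go r0).Y P → (S.xsys ρo go r0).bd F y = 0) {γ : GI k R J} {A : Bool}
    {i : Fin k} (n : ℕ) {x x' : Fin (2 * k + 4)} (hx : (x : ℕ) + n = x')
    (h : ∀ y : Fin (2 * k + 4), x ≤ y → y ≤ x' → Sum.inr (GT.gw γ A y i) ∉ P) :
    F (.inr (.gw γ A x i)) = F (.inr (.gw γ A x' i)) := by
  induction n generalizing x' with
  | zero => obtain rfl : x = x' := Fin.ext hx; rfl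
  | succ n ih =>
    have h1 := x'.2
    let z : Fin (2 * k + 4) := ⟨x + n, by omega⟩
    have hz : z ≤ x' := by simp only [Fin.le_def, z]; omega
    have hz' : x ≤ z := by simp only [Fin.le_def, z]; omega
    rw [ih (x' := z) rfl fun y h2 h3 => h y h2 (h3.trans hz)]
    exact hor_step h0 hb (by simp only [z]; omega) (h z hz' hz) (h x' (hz'.trans hz) le_rfl)

theorem end_step (h0 : ∀ u, u ∉ (S.xsys ρo go r0).T → F u = 0)
    (hb : ∀ y, y ∉ (S.xsys ρo go r0).Y P → (S.xsys ρo go r0).bd F y = 0) {γ : GI k R J} (A : Bool)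
    {i : Fin k} (h1 : Sum.inr (GT.gj γ i) ∉ P)
    (h2 : Sum.inr (GT.gw γ A (Fin.last (2 * k + 3)) i) ∉ P) :
    F (.inr (.gj γ i)) = F (.inr (.gw γ A (Fin.last (2 * k + 3)) i)) :=
  gc_pair h0 hb (by simp) (ge_mem γ A i) h1 h2

omit [NeZero k] [Fintype R] [Fintype J] in
theorem exists_free (hc : P.card ≤ k + 1) (γ : GI k R J) (A : Bool) :
    ∃ x : Fin (2 * k + 4), (x : ℕ) < k + 2 ∧ ∀ i, Sum.inr (GT.gw γ A x i) ∉ P := by
  by_contra hcon
  push Not at hcon
  have h1 : ∀ j : Fin (k + 2), ∃ i, Sum.inr (GT.gw γ A (Fin.castLE (by omega) j) i) ∈ P :=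
    fun j => hcon _ j.2
  choose f hf using h1
  have h2 := card_le_card_of_injOn (s := univ) (t := P)
    (fun j : Fin (k + 2) => (Sum.inr (GT.gw γ A (Fin.castLE (by omega) j) (f j)) : XT k R J))
    (fun j _ => hf j) (fun j _ j' _ e => by
      simp only [Sum.inr.injEq, GT.gw.injEq, Fin.castLE_inj] at e
      exact e.2.2.1)
  rw [card_univ, Fintype.card_fin] at h2
  omega

/-- Different values at two columns without pebbles: the pebbles are exactly one per row, in between. -/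
theorem between (h0 : ∀ u, u ∉ (S.xsys ρo go r0).T → F u = 0)
    (hb : ∀ y, y ∉ (S.xsys ρo go r0).Y P → (S.xsys ρo go r0).bd F y = 0) (hc : P.card ≤ k)
    {γ : GI k R J} {A : Bool} {x x' : Fin (2 * k + 4)} (hxx : x ≤ x')
    (hx : ∀ i, Sum.inr (GT.gw γ A x i) ∉ P) (hx' : ∀ i, Sum.inr (GT.gw γ A x' i) ∉ P)
    (hne : ∀ i, F (.inr (.gw γ A x i)) ≠ F (.inr (.gw γ A x' i))) :
    ∀ t ∈ P, ∃ y i, x < y ∧ y < x' ∧ t = Sum.inr (GT.gw γ A y i) := by
  have h1 : ∀ i, ∃ y, x < y ∧ y < x' ∧ Sum.inr (GT.gw γ A y i) ∈ P := by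
    intro i
    by_contra hcon
    push Not at hcon
    refine hne i (hor_chain h0 hb (x' - x) (by have := Fin.le_def.1 hxx; omega) fun y h1 h2 => ?_)
    rcases h1.eq_or_lt with rfl | h1
    · exact hx i
    · rcases h2.eq_or_lt with rfl | h2
      · exact hx' i
      · exact hcon y h1 h2
  choose y hy using h1
  have h2 : univ.image (fun i => (Sum.inr (GT.gw γ A (y i) i) : XT k R J)) = P := by
    refine eq_of_subset_of_card_le (fun t ht => ?_) ?_
    · obtain ⟨i, _, rfl⟩ := mem_image.1 ht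
      exact (hy i).2.2
    · rw [card_image_of_injective _ fun i j e => by
        simp only [Sum.inr.injEq, GT.gw.injEq] at e
        exact e.2.2.2]
      simpa using hc
  intro t ht
  rw [← h2] at ht
  obtain ⟨i, _, rfl⟩ := mem_image.1 ht
  exact ⟨y i, i, (hy i).1, (hy i).2.1, rfl⟩

omit [NeZero k] [Fintype R] [DecidableEq R] [Fintype J] in
theorem onOut_wt (x : Fin (k + 2)) (i : Fin k) (r r' : R) :
    onOut ρo (MT.wt ρo 0 x i r r' : MT k R J) = true := by simp [onOut]

/-- The boundary at a main variable. -/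
theorem bd_inl (h0 : ∀ u, u ∉ (S.xsys ρo go r0).T → F u = 0) (y : MV k R J G) :
    (S.xsys ρo go r0).bd F (.inl y) = S.sys.bd (F ∘ Sum.inl) y +
      ∑ g : GT k R J, if Sum.inl y ∈ (S.xsys ρo go r0).vars (.inr g) then F (.inr g) else 0 := by
  rw [gc_bd_univ h0, Fintype.sum_sum_type, gc_bd_univ (X := S.sys) (F := F ∘ Sum.inl)
    fun u hu => h0 _ fun h => hu (mem_T.2 (mem_xT.1 h))]
  simp only [inl_main, Function.comp]

end Cons

/-! ### The certificate -/

variable (ρo r0) in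
/-- The main tile standing for the join half of a gadget. -/
def gt : GI k R J → Fin k → MT k R J
  | none, i => .wt ρo 0 0 i r0 r0
  | some (u, _), _ => u

variable (ρo r0) in
/-- The main tile standing for a tile. -/
def θ : XT k R J → MT k R J
  | .inl u => u
  | .inr (.gw γ _ x i) => if (x : ℕ) < k + 2 then .wt ρo 0 0 i r0 r0 else gt ρo r0 γ i
  | .inr (.gj γ i) => gt ρo r0 γ i

theorem θ_mem (hO : S.Out ρo go r0) {t : XT k R J} (ht : t ∈ (S.xsys ρo go r0).T) :
    θ ρo r0 t ∈ S.sys.T := by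
  have h1 : ∀ i, (MT.wt ρo 0 0 i r0 r0 : MT k R J) ∈ S.sys.T := fun i => by
    simp [mem_T, valid, hO.hub]
  have h2 : ∀ γ i, S.gvalid ρo γ = true → gt ρo r0 γ i ∈ S.sys.T := by
    rintro (_ | ⟨u, j⟩) i h
    · exact h1 i
    · simp only [gvalid, Bool.and_eq_true] at h
      exact mem_T.2 h.1.1
  rw [mem_xT] at ht
  rcases t with u | ⟨γ, A, x, i⟩ | ⟨γ, i⟩
  · exact mem_T.2 ht
  · simp only [θ]
    split_ifs
    · exact h1 i
    · exact h2 γ i ht
  · exact h2 γ i ht

theorem θ_sub (hO : S.Out ρo go r0) {P : Finset (XT k R J)} (hP : P ⊆ (S.xsys ρo go r0).T) :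
    P.image (θ ρo r0) ⊆ S.sys.T := by
  intro u hu
  obtain ⟨t, ht, rfl⟩ := mem_image.1 hu
  exact θ_mem hO (hP ht)

theorem θ_vars (hO : S.Out ρo go r0) {t : XT k R J} {y : MV k R J G}
    (h : Sum.inl y ∈ (S.xsys ρo go r0).vars t) : y ∈ S.sys.vars (θ ρo r0 t) := by
  rcases t with u | ⟨γ, A, x, i⟩ | ⟨γ, i⟩
  · exact inl_main.1 h
  · obtain ⟨hx, rfl⟩ := inl_gw.1 h
    simp only [θ, hx, Nat.zero_lt_succ, if_true]
    exact hub_mem.2 ⟨ρo, 0, hO.hub, rfl⟩
  · obtain ⟨u, j, rfl, hy⟩ := gvar_spec (inl_gj.1 h).2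
    exact List.mem_toFinset.2 hy

variable (S ρo go r0) in
/-- The dual certificate of the full system. -/
def D' (P : Finset (XT k R J)) (F : XT k R J → ZMod 2) : Prop :=
  (∀ u, u ∉ (S.xsys ρo go r0).T → F u = 0) ∧
  (∀ y, y ∉ (S.xsys ρo go r0).Y P → (S.xsys ρo go r0).bd F y = 0) ∧
  S.D (P.image (θ ρo r0)) (F ∘ Sum.inl) ∧
  ∀ γ A x, (∀ i, Sum.inr (GT.gw γ A x i) ∉ P) → ∀ i, F (.inr (.gw γ A x i)) = 0

/-- Join tiles of gadgets attached to the output wire are invalid. -/
theorem gj_out {F : XT k R J → ZMod 2} (h0 : ∀ u, u ∉ (S.xsys ρo go r0).T → F u = 0)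
    {y : MV k R J G} (hy : ∀ u, y ∈ S.sys.vars u → onOut ρo u = true) {γ : GI k R J} {i : Fin k}
    (h : Sum.inl y ∈ (S.xsys ρo go r0).vars (.inr (.gj γ i))) : F (.inr (.gj γ i)) = 0 := by
  obtain ⟨u, j, rfl, hu⟩ := gvar_spec (inl_gj.1 h).2
  refine h0 _ fun h1 => ?_
  have h2 := mem_xT.1 h1
  simp [xvalid, GT.idx, gvalid, hy u (List.mem_toFinset.2 hu)] at h2

/-- The case of an odd first column. -/
theorem first_col (hk : 2 ≤ k) (hO : S.Out ρo go r0) (h : ∀ a, ¬ S.Tr go a)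
    {P P' : Finset (XT k R J)} {F : XT k R J → ZMod 2} (hD : D' S ρo go r0 P' F)
    (hb : ∀ y, y ∉ (S.xsys ρo go r0).Y P → (S.xsys ρo go r0).bd F y = 0) {γ : GI k R J} {A : Bool}
    (hP : ∀ t ∈ P, ∃ (y : Fin (2 * k + 4)) (i : Fin k), (y : ℕ) ≠ 0 ∧ t = Sum.inr (GT.gw γ A y i))
    (hP' : ∀ t ∈ P', ∃ (y : Fin (2 * k + 4)) (i : Fin k),
      (y : ℕ) < k + 2 ∧ t = Sum.inr (GT.gw γ A y i)) :
    F (.inr (.gw γ A 0 0)) = 0 := by
  obtain ⟨h0, -, hD, hz⟩ := hD
  have h0' := hD.1.1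
  have hY : ∀ y : MV k R J G, Sum.inl y ∉ (S.xsys ρo go r0).Y P := by
    intro y hy
    obtain ⟨t, ht, h1⟩ := Sys.mem_Y.1 hy
    obtain ⟨x, i, hx, rfl⟩ := hP t ht
    exact hx (inl_gw.1 h1).1
  have hhub : ∀ r r', (F ∘ Sum.inl) (.wt ρo 0 0 0 r r') =
      if r = r0 ∧ r' = r0 then F (.inr (.gw γ A 0 0)) else 0 := by
    intro r r'
    have hm : ∀ u, MV.hub go 0 r r' ∈ S.sys.vars u ↔ u = .wt ρo 0 0 0 r r' := by
      intro u
      rw [hub_mem]
      constructor
      · rintro ⟨ρ, p, h1, rfl⟩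
        obtain ⟨rfl, rfl⟩ := hO.only ρ p h1
        rfl
      · rintro rfl
        exact ⟨ρo, 0, hO.hub, rfl⟩
    have h1 := hb _ (hY (.hub go 0 r r'))
    rw [bd_inl h0, gc_bd_one h0' hm, sum_eq_single (GT.gw γ A 0 0)] at h1
    · refine (gc_eq_of_add h1).trans ?_
      simp only [inl_gw, Fin.val_zero, true_and, MV.hub.injEq]
    · rintro (⟨γ', A', x, i⟩ | ⟨γ', i⟩) _ hne
      · split_ifs with h2
        · obtain ⟨hx, h3⟩ := inl_gw.1 h2
          obtain rfl : x = 0 := Fin.ext hx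
          obtain rfl : 0 = i := by injection h3
          refine hz γ' A' 0 (fun i hi => ?_) 0
          obtain ⟨y, i', -, e⟩ := hP' _ hi
          simp only [Sum.inr.injEq, GT.gw.injEq] at e
          exact hne (by rw [e.1, e.2.1])
        · rfl
      · split_ifs with h2
        · exact gj_out h0 (fun u hu => by rw [(hm u).1 hu]; exact onOut_wt _ _ _ _) h2
        · rfl
    · simp
  have h01 : (0 : Fin (k + 2)) ≠ 1 := by simp
  have hhor : ∀ r r', (F ∘ Sum.inl) (.wt ρo 0 0 0 r r') = (F ∘ Sum.inl) (.wt ρo 0 1 0 r r') := by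
    intro r r'
    have hm : ∀ u, MV.hor ρo 0 1 0 r r' ∈ S.sys.vars u ↔
        u = .wt ρo 0 0 0 r r' ∨ u = .wt ρo 0 1 0 r r' := by
      intro u
      rw [hor_mem]
      constructor
      · rintro (⟨x, hx | hx, rfl⟩ | ⟨hx, -⟩)
        · obtain rfl : x = 0 := Fin.ext (by simpa using hx)
          exact Or.inl rfl
        · obtain rfl : x = 1 := Fin.ext (by simpa using hx.1)
          exact Or.inr rfl
        · omega
      · rintro (rfl | rfl)
        · exact Or.inl ⟨0, Or.inl rfl, rfl⟩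
        · exact Or.inl ⟨1, Or.inr ⟨by simp, one_ne_zero⟩, rfl⟩
    have h1 := hb _ (hY (.hor ρo 0 1 0 r r'))
    rw [bd_inl h0, gc_bd_two h0' (by simp) hm, sum_eq_zero, add_zero] at h1
    · exact gc_eq_of_add h1
    · rintro (⟨γ', A', x, i⟩ | ⟨γ', i⟩) _
      · exact if_neg fun h2 => by simpa using (inl_gw.1 h2).2
      · split_ifs with h2
        · refine gj_out h0 (fun u hu => ?_) h2
          rcases (hm u).1 hu with rfl | rfl <;> exact onOut_wt _ _ _ _
        · rfl
  have hfx : fx (F ∘ Sum.inl) ρo 0 1 = F (.inr (.gw γ A 0 0)) := by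
    simp only [fx, fl, ← hhor, hhub, ite_and, sum_ite_irrel, sum_ite_eq', mem_univ, if_true,
      sum_const_zero]
  by_contra hne
  obtain ⟨a, ha, -⟩ := hD.2.1 go (fun _ _ => 1) (fun ρ p _ i r r' hu => by
      obtain ⟨t, ht, e⟩ := mem_image.1 hu
      obtain ⟨y, i', hy, rfl⟩ := hP' t ht
      simp only [θ, hy, if_true, MT.wt.injEq] at e
      exact h01 e.2.2.1) (by
      unfold hubFlux
      rw [sum_eq_single ρo, sum_eq_single (0 : Fin 9), if_pos hO.hub, hfx]
      · exact hne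
      · intro p _ hp
        exact if_neg fun h1 => hp (hO.only _ _ h1).2
      · simp
      · intro ρ _ hρ
        exact sum_eq_zero fun p _ => if_neg fun h1 => hρ (hO.only _ _ h1).1
      · simp)
  exact h a ha

/-- Part (i) of the restriction property. -/
theorem res_col (hk : 2 ≤ k) (hO : S.Out ρo go r0) (h : ∀ a, ¬ S.Tr go a)
    {P : Finset (XT k R J)} {u : XT k R J} {F : XT k R J → ZMod 2} (hc : P.card ≤ k)
    (hD : D' S ρo go r0 (insert u P) F)
    (hb : ∀ y, y ∉ (S.xsys ρo go r0).Y P → (S.xsys ρo go r0).bd F y = 0) (γ : GI k R J) (A : Bool)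
    (x : Fin (2 * k + 4)) (hx : ∀ i, Sum.inr (GT.gw γ A x i) ∉ P) (i : Fin k) :
    F (.inr (.gw γ A x i)) = 0 := by
  have h0 := hD.1
  have hz := hD.2.2.2
  by_cases hu : ∀ j, Sum.inr (GT.gw γ A x j) ∉ insert u P
  · exact hz γ A x hu i
  obtain ⟨i₀, rfl⟩ : ∃ i₀, u = Sum.inr (GT.gw γ A x i₀) := by
    push Not at hu
    obtain ⟨j, hj⟩ := hu
    exact ⟨j, ((mem_insert.1 hj).resolve_right (hx j)).symm⟩
  by_contra hne
  have hne' : ∀ j, F (.inr (.gw γ A x j)) ≠ 0 := fun j => by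
    rw [col_const hk h0 hb hx j i]; exact hne
  obtain ⟨x₁, hx₁, hf⟩ := exists_free (P := insert (Sum.inr (GT.gw γ A x i₀)) P)
    ((card_insert_le _ _).trans (by omega)) γ A
  have hf' : ∀ j, Sum.inr (GT.gw γ A x₁ j) ∉ P := fun j hj => hf j (mem_insert_of_mem hj)
  have hv := hz γ A x₁ hf
  have hlt := x.2
  rcases le_total x₁ x with hle | hle
  · have hP := between h0 hb hc hle hf' hx fun j => by rw [hv j]; exact (hne' j).symm
    by_cases hl : (x : ℕ) = 2 * k + 3
    · obtain rfl : x = Fin.last (2 * k + 3) := Fin.ext hl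
      have h1 : Sum.inr (GT.gj γ i) ∉ P := fun h1 => by
        obtain ⟨y, j, -, -, e⟩ := hP _ h1
        simp at e
      have h2 : ∀ j, Sum.inr (GT.gw γ (!A) (Fin.last (2 * k + 3)) j) ∉
          insert (Sum.inr (GT.gw γ A (Fin.last (2 * k + 3)) i₀)) P := by
        intro j h2
        rcases mem_insert.1 h2 with e | h2
        · simp at e
        · obtain ⟨y, j', -, -, e⟩ := hP _ h2
          simp at e
      refine hne ?_
      rw [← end_step h0 hb A h1 (hx i), end_step h0 hb (!A) h1 fun h3 => h2 i (mem_insert_of_mem h3)]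
      exact hz _ _ _ h2 i
    · let z : Fin (2 * k + 4) := ⟨x + 1, by omega⟩
      have h2 : ∀ j, Sum.inr (GT.gw γ A z j) ∉ insert (Sum.inr (GT.gw γ A x i₀)) P := by
        intro j h2
        rcases mem_insert.1 h2 with e | h2
        · simp [z, Fin.ext_iff] at e
        · obtain ⟨y, j', -, hy, e⟩ := hP _ h2
          simp only [Sum.inr.injEq, GT.gw.injEq] at e
          rw [← e.2.2.1, Fin.lt_def] at hy
          simp only [z] at hy
          omega
      refine hne ?_
      rw [hor_step h0 hb (x' := z) rfl (hx i) fun h3 => h2 i (mem_insert_of_mem h3)]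
      exact hz _ _ _ h2 i
  · have hP := between h0 hb hc hle hx hf' fun j => by rw [hv j]; exact hne' j
    by_cases hl : (x : ℕ) = 0
    · obtain rfl : x = 0 := Fin.ext hl
      refine hne' 0 (first_col hk hO h hD hb (fun t ht => ?_) fun t ht => ?_)
      · obtain ⟨y, j, hy, -, e⟩ := hP t ht
        exact ⟨y, j, (Fin.lt_def.1 hy).ne', e⟩
      · rcases mem_insert.1 ht with e | ht
        · exact ⟨0, i₀, by simp, e⟩
        · obtain ⟨y, j, -, hy, e⟩ := hP t ht
          exact ⟨y, j, (Fin.lt_def.1 hy).trans hx₁, e⟩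
    · let z : Fin (2 * k + 4) := ⟨x - 1, by omega⟩
      have h2 : ∀ j, Sum.inr (GT.gw γ A z j) ∉ insert (Sum.inr (GT.gw γ A x i₀)) P := by
        intro j h2
        rcases mem_insert.1 h2 with e | h2
        · simp only [Sum.inr.injEq, GT.gw.injEq, Fin.ext_iff, z] at e
          omega
        · obtain ⟨y, j', hy, -, e⟩ := hP _ h2
          simp only [Sum.inr.injEq, GT.gw.injEq] at e
          rw [← e.2.2.1, Fin.lt_def] at hy
          simp only [z] at hy
          omega
      refine hne ?_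
      rw [← hor_step h0 hb (x := z) (by simp only [z]; omega)
        (fun h3 => h2 i (mem_insert_of_mem h3)) (hx i)]
      exact hz _ _ _ h2 i

theorem D'_res (hS : S.WF) (hk : 2 ≤ k) (hO : S.Out ρo go r0) (h : ∀ a, ¬ S.Tr go a)
    {P : Finset (XT k R J)} {u : XT k R J} {F : XT k R J → ZMod 2}
    (hT : insert u P ⊆ (S.xsys ρo go r0).T) (hc : P.card ≤ k) (hD : D' S ρo go r0 (insert u P) F)
    (hb : ∀ y, y ∉ (S.xsys ρo go r0).Y P → (S.xsys ρo go r0).bd F y = 0) : D' S ρo go r0 P F := by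
  have hcol := res_col hk hO h hc hD hb
  have h0 := hD.1
  refine ⟨h0, hb, (core_dual hS hk).res' (image_subset_image (subset_insert u P)) (θ_sub hO hT)
    (card_image_le.trans ((card_insert_le _ _).trans (by omega))) hD.2.2.1 fun y hy => ?_, hcol⟩
  have hθ : ∀ t ∈ P, y ∉ S.sys.vars (θ ρo r0 t) := fun t ht h1 =>
    hy (Sys.mem_Y.2 ⟨_, mem_image_of_mem _ ht, h1⟩)
  have h1 := hb (.inl y) fun h1 => by
    obtain ⟨t, ht, h2⟩ := Sys.mem_Y.1 h1
    exact hθ t ht (θ_vars hO h2)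
  rw [bd_inl h0, sum_eq_zero, add_zero] at h1
  · exact h1
  rintro (⟨γ, A, x, i⟩ | ⟨γ, i⟩) _
  · split_ifs with h2
    · obtain ⟨hx, rfl⟩ := inl_gw.1 h2
      obtain ⟨x₁, hx₁, hf⟩ := exists_free (P := P) (by omega) γ A
      rw [hor_chain h0 hb x₁ (x' := x₁) (by omega) fun z _ hz ht => hθ _ ht ?_]
      · exact hcol γ A x₁ hf i
      · have : (z : ℕ) < k + 2 := (Fin.le_def.1 hz).trans_lt hx₁
        simp only [θ, this, if_true]
        exact hub_mem.2 ⟨ρo, 0, hO.hub, rfl⟩
    · rfl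
  · split_ifs with h2
    · obtain ⟨v, j, rfl, hv⟩ := gvar_spec (inl_gj.1 h2).2
      have hv' : y ∈ S.sys.vars v := List.mem_toFinset.2 hv
      have h3 : ∀ i', Sum.inr (GT.gw (some (v, j)) false (Fin.last (2 * k + 3)) i') ∉ P := by
        intro i' ht
        refine hθ _ ht ?_
        have : ¬ (2 * k + 3 < k + 2) := by omega
        simp only [θ, Fin.val_last, this, if_false, gt]
        exact hv'
      rw [end_step h0 hb (γ := some (v, j)) (i := i) false (fun ht => hθ _ ht hv') (h3 i)]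
      exact hcol _ _ _ h3 i
    · rfl

theorem isDual (hS : S.WF) (hk : 2 ≤ k) (hO : S.Out ρo go r0) (h : ∀ a, ¬ S.Tr go a) :
    (S.xsys ρo go r0).IsDual (k + 1) (D' S ρo go r0) where
  zero P _ _ := ⟨fun _ _ => rfl, fun y _ => by simp [Sys.bd], D_zero, fun _ _ _ _ _ => rfl⟩
  add _ hc h h' := ⟨fun u hu => by rw [Pi.add_apply, h.1 u hu, h'.1 u hu, add_zero],
    fun y hy => by rw [Sys.bd_add, h.2.1 y hy, h'.2.1 y hy, add_zero],
    D_add hS hk (card_image_le.trans hc) h.2.2.1 h'.2.2.1,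
    fun γ A x hx i => by rw [Pi.add_apply, h.2.2.2 γ A x hx i, h'.2.2.2 γ A x hx i, add_zero]⟩
  single {P u} hT _ hu := by
    refine ⟨fun v hv => Pi.single_eq_of_ne (fun e : v = u => hv (e ▸ hT hu)) _, fun y hy => ?_, ?_,
      fun γ A x hx i => Pi.single_eq_of_ne (fun e => hx i (by rw [e]; exact hu)) _⟩
    · rw [Sys.bd_single (hT hu), if_neg fun h => hy (Sys.mem_Y.2 ⟨u, hu, h⟩)]
    · rcases u with u | g
      · have e : (Pi.single (Sum.inl u) 1 : XT k R J → ZMod 2) ∘ Sum.inl = Pi.single u 1 := by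
          funext v
          simp [Pi.single_apply]
        rw [e]
        exact D_single (θ_sub hO hT) (mem_image_of_mem (θ ρo r0) hu)
      · have e : (Pi.single (Sum.inr g) 1 : XT k R J → ZMod 2) ∘ Sum.inl = 0 := by
          funext v
          simp
        rw [e]
        exact D_zero
  bd h hy := h.2.1 _ hy
  mono hP _ _ h := ⟨h.1, fun y hy => h.2.1 y fun h' => hy (Sys.Y_mono hP h'),
    D_mono (image_subset_image hP) h.2.2.1, fun γ A x hx => h.2.2.2 γ A x fun i h' => hx i (hP h')⟩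
  res hT _ hc hD hb := D'_res hS hk hO h hT (by omega) hD hb

end GC

theorem xsys_cons (hS : S.WF) (hk : 2 ≤ k) (hO : S.Out ρo go r0) (h : ∀ a, ¬ S.Tr go a) :
    (S.xsys ρo go r0).Cons (k + 1) sink := by
  refine (GC.isDual hS hk hO h).cons fun F hF => sum_eq_zero fun u _ => ?_
  unfold sink
  split_ifs with hu
  · obtain rfl : u = .inr (.gj none 0) := by
      rcases u with u | ⟨γ, A, x, i⟩ | ⟨_ | γ, i⟩ <;> simp_all [sinkB]
    rw [GC.end_step hF.1 hF.2.1 false (by simp) (by simp), hF.2.2.2 _ _ _ (by simp), zero_mul]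
  · exact mul_zero _

end RS

end Crest.Agent.R290
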