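import Crest.Agent.R290.CoreMain

/-!
# Row 290: the core system with gadgets (definitions)

The hub `go` has a single wire, port `0` of the rule `ρo`, whose projection is the constant `r0`. For every
valid main tile `u` off that wire and every variable `y` of `u` (the `j`-th one) a gadget consists of two
unlabelled wires with `2k + 4` columns from the hub variables `hub go i r0 r0` to join tiles; the join tile of
row `0` also contains `y`. The sink gadget `none` has no such variable and carries the odd right-hand side.
-/

set_option autoImplicit false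

namespace Crest.Agent.R290

open Finset

/-- The output hub. -/
structure RS.Out {k : ℕ} {R J G : Type} (S : RS k R J G) (ρo : J) (go : G) (r0 : R) : Prop where
  hub : S.hub ρo 0 = some go
  only : ∀ ρ p, S.hub ρ p = some go → ρ = ρo ∧ p = 0
  proj : ∀ i r, S.π ρo 0 i r = r0

/-- Gadget indices. -/
abbrev GI (k : ℕ) (R J : Type) : Type := Option (MT k R J × Fin 9)

/-- Gadget tiles. -/
inductive GT (k : ℕ) (R J : Type) : Type
  | gw (γ : GI k R J) (A : Bool) (x : Fin (2 * k + 4)) (i : Fin k) : GT k R J
  | gj (γ : GI k R J) (i : Fin k) : GT k R J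
  deriving DecidableEq

instance {k : ℕ} {R J : Type} [Fintype R] [Fintype J] : Fintype (GT k R J) := derive_fintype% _

/-- Gadget variables. -/
inductive GV (k : ℕ) (R J : Type) : Type
  | gh (γ : GI k R J) (A : Bool) (x : ℕ) (i : Fin k) : GV k R J
  | gc (γ : GI k R J) (A : Bool) (x : ℕ) (i : Fin k) : GV k R J
  deriving DecidableEq

/-- The gadget of a gadget tile. -/
def GT.idx {k : ℕ} {R J : Type} : GT k R J → GI k R J
  | .gw γ _ _ _ => γ
  | .gj γ _ => γ

/-- All tiles. -/
abbrev XT (k : ℕ) (R J : Type) : Type := MT k R J ⊕ GT k R J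

/-- All variables. -/
abbrev XV (k : ℕ) (R J G : Type) : Type := MV k R J G ⊕ GV k R J

namespace RS

variable {k : ℕ} [NeZero k] {R J G : Type} [DecidableEq J] (S : RS k R J G) (ρo : J) (go : G) (r0 : R)

/-- The tile lies on the output wire. -/
def onOut : MT k R J → Bool
  | .wt ρ p _ _ _ _ => decide (ρ = ρo ∧ p = 0)
  | .jt _ _ _ _ => false

/-- The main variable of a gadget (as a list with at most one element). -/
def gvar : GI k R J → List (MV k R J G)
  | none => []
  | some (u, j) => ((S.varsL u)[(j : ℕ)]?).toList

/-- Valid gadgets. -/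
def gvalid : GI k R J → Bool
  | none => true
  | some (u, j) => S.valid u && !onOut ρo u && decide ((j : ℕ) < (S.varsL u).length)

/-- The variables of a tile, as a list. -/
def xvarsL : XT k R J → List (XV k R J G)
  | .inl u => (S.varsL u).map Sum.inl
  | .inr (.gw γ A x i) =>
      [.inr (.gh γ A (x + 1) i), .inr (.gc γ A x i), .inr (.gc γ A x (i + 1)),
        if (x : ℕ) = 0 then .inl (.hub go i r0 r0) else .inr (.gh γ A x i)]
  | .inr (.gj γ i) =>
      [.inr (.gh γ false (2 * k + 4) i), .inr (.gh γ true (2 * k + 4) i)] ++
        (if i = 0 then (S.gvar γ).map Sum.inl else [])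

/-- Valid tiles. -/
def xvalid : XT k R J → Bool
  | .inl u => S.valid u
  | .inr t => S.gvalid ρo t.idx

/-- The odd tile: the join tile of row `0` of the sink gadget. -/
def sinkB : XT k R J → Bool
  | .inr (.gj none i) => decide (i = 0)
  | _ => false

/-- The right-hand side concentrated on the odd tile. -/
def sink (u : XT k R J) : ZMod 2 := if sinkB u then 1 else 0

variable [Fintype R] [DecidableEq R] [Fintype J] [DecidableEq G]

/-- The full system. -/
def xsys : Sys (XT k R J) (XV k R J G) where
  T := univ.filter fun u => S.xvalid ρo u = true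
  vars u := (S.xvarsL go r0 u).toFinset

theorem xvarsL_nodup (hk : 2 ≤ k) (u : XT k R J) : (S.xvarsL go r0 u).Nodup := by
  rcases u with u | ⟨γ, A, x, i⟩ | ⟨γ, i⟩
  · exact (varsL_nodup hk u).map Sum.inl_injective
  · have := (fin_succ_ne hk i).symm
    by_cases hx : (x : ℕ) = 0 <;> simp [xvarsL, hx, this]
  · by_cases hi : i = 0
    · rcases γ with _ | ⟨u, j⟩
      · simp [xvarsL, gvar]
      · cases h : (S.varsL u)[(j : ℕ)]? <;> simp [xvarsL, gvar, hi, h]
    · simp [xvarsL, hi]

end RS

end Crest.Agent.R290
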