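import Crest.Prelude.Def_ParityLift

/-!
# Row 290: the bijective pebble game

`BP K G H`: Duplicator wins the bijective `K`-pebble game on the Boolean graphs `G`, `H`.
A position is a finite set of pairs.
-/

set_option autoImplicit false

namespace Crest.Agent.R290

open Finset Crest.WLRefine Crest.WLRefine.ParityLift

section Defs

variable {V W : Type} [DecidableEq V] [DecidableEq W]

/-- A winning family of positions in the bijective `K`-pebble game. -/
structure IsBP (K : ℕ) (G : V → V → Bool) (H : W → W → Bool) (F : Finset (V × W) → Prop) :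
    Prop where
  empty : F ∅
  sub : ∀ {p q : Finset (V × W)}, F p → q ⊆ p → F q
  eq : ∀ {p : Finset (V × W)} {a b : V × W}, F p → a ∈ p → b ∈ p → (a.1 = b.1 ↔ a.2 = b.2)
  adj : ∀ {p : Finset (V × W)} {a b : V × W}, F p → a ∈ p → b ∈ p → G a.1 b.1 = H a.2 b.2
  ext : ∀ {p : Finset (V × W)}, F p → p.card < K → ∃ f : V ≃ W, ∀ v, F (insert (v, f v) p)

/-- Duplicator wins the bijective `K`-pebble game. -/
def BP (K : ℕ) (G : V → V → Bool) (H : W → W → Bool) : Prop := ∃ F, IsBP K G H F

/-- Number of neighbours. -/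
def deg [Fintype V] (G : V → V → Bool) (v : V) : ℕ := (univ.filter fun w => G v w = true).card

end Defs

section Basic

variable {V W V' W' : Type} [DecidableEq V] [DecidableEq W] [DecidableEq V'] [DecidableEq W']
  {K K' : ℕ} {G : V → V → Bool} {H : W → W → Bool}

theorem IsBP.mono {F : Finset (V × W) → Prop} (h : IsBP K G H F) (hK : K' ≤ K) :
    IsBP K' G H F :=
  ⟨h.empty, h.sub, h.eq, h.adj, fun hp hc => h.ext hp (hc.trans_le hK)⟩

theorem BP.mono (h : BP K G H) (hK : K' ≤ K) : BP K' G H :=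
  h.imp fun _ hF => hF.mono hK

/-- The mirrored family. -/
theorem IsBP.symm {F : Finset (V × W) → Prop} (h : IsBP K G H F) :
    IsBP K H G fun q => F (q.image Prod.swap) := by
  refine ⟨by simpa using h.empty, fun hp hq => h.sub hp (image_subset_image hq),
    fun hp ha hb => (h.eq hp (mem_image_of_mem _ ha) (mem_image_of_mem _ hb)).symm,
    fun hp ha hb => (h.adj hp (mem_image_of_mem _ ha) (mem_image_of_mem _ hb)).symm,
    fun hp hc => ?_⟩
  obtain ⟨f, hf⟩ := h.ext hp (card_image_le.trans_lt hc)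
  refine ⟨f.symm, fun w => ?_⟩
  simpa [image_insert] using hf (f.symm w)

theorem BP.symm (h : BP K G H) : BP K H G :=
  let ⟨_, hF⟩ := h; ⟨_, hF.symm⟩

/-- Positions: subsets of the graph of `e`. -/
theorem BP.of_iso (e : V ≃ W) (he : ∀ a b, H (e a) (e b) = G a b) (K : ℕ) : BP K G H := by
  refine ⟨fun p => ∀ a ∈ p, a.2 = e a.1, by simp, fun hp hq a ha => hp a (hq ha),
    fun hp ha hb => ?_, fun hp ha hb => ?_, fun hp _ => ⟨e, fun v a ha => ?_⟩⟩
  · rw [hp _ ha, hp _ hb, e.injective.eq_iff]
  · rw [hp _ ha, hp _ hb, he]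
  · rcases mem_insert.1 ha with rfl | ha
    · rfl
    · exact hp a ha

/-- Relabelling both graphs, with the family. -/
theorem IsBP.map {F : Finset (V × W) → Prop} (h : IsBP K G H F) (e : V' ≃ V) (e' : W' ≃ W) :
    IsBP K (fun a b => G (e a) (e b)) (fun a b => H (e' a) (e' b))
      fun q => F (q.image (Prod.map e e')) := by
  refine ⟨by simpa using h.empty, fun hp hq => h.sub hp (image_subset_image hq),
    fun hp ha hb => ?_,
    fun hp ha hb => h.adj hp (mem_image_of_mem _ ha) (mem_image_of_mem _ hb), fun hp hc => ?_⟩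
  · simpa using h.eq hp (mem_image_of_mem _ ha) (mem_image_of_mem _ hb)
  · obtain ⟨f, hf⟩ := h.ext hp (card_image_le.trans_lt hc)
    refine ⟨(e.trans f).trans e'.symm, fun v => ?_⟩
    simpa [image_insert] using hf (e v)

/-- Relabelling both graphs. -/
theorem BP.map (h : BP K G H) (e : V' ≃ V) (e' : W' ≃ W) :
    BP K (fun a b => G (e a) (e b)) (fun a b => H (e' a) (e' b)) :=
  let ⟨_, hF⟩ := h; ⟨_, hF.map e e'⟩

theorem BP.nonempty_equiv (h : BP K G H) (hK : 1 ≤ K) : Nonempty (V ≃ W) := by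
  obtain ⟨F, hF⟩ := h
  obtain ⟨f, -⟩ := hF.ext hF.empty (by rw [card_empty]; omega)
  exact ⟨f⟩

/-- With two pebbles, paired vertices have the same degree: the bijection of `ext` at `{a}` maps
neighbours onto neighbours. -/
theorem IsBP.deg_eq [Fintype V] [Fintype W] {F : Finset (V × W) → Prop} (h : IsBP K G H F)
    (hK : 2 ≤ K) {p : Finset (V × W)} (hp : F p) {a : V × W} (ha : a ∈ p) :
    deg G a.1 = deg H a.2 := by
  obtain ⟨f, hf⟩ := h.ext (h.sub hp (singleton_subset_iff.2 ha)) (by rw [card_singleton]; omega)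
  refine card_equiv f fun v => ?_
  have := h.adj (hf v) (mem_insert_of_mem (mem_singleton_self a)) (mem_insert_self _ _)
  simp only [mem_filter, mem_univ, true_and]
  rw [this]

/-- The set of pairs of two tuples. -/
def pairs {j : ℕ} (v : Fin j → V) (w : Fin j → W) : Finset (V × W) :=
  univ.image fun i => (v i, w i)

theorem mem_pairs {j : ℕ} (v : Fin j → V) (w : Fin j → W) (i : Fin j) :
    (v i, w i) ∈ pairs v w :=
  mem_image_of_mem _ (mem_univ i)

theorem pairs_subset {j : ℕ} {v : Fin j → V} {w : Fin j → W} {q : Finset (V × W)}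
    (h : ∀ i, (v i, w i) ∈ q) : pairs v w ⊆ q :=
  image_subset_iff.2 fun i _ => h i

theorem card_pairs_le {j : ℕ} (v : Fin j → V) (w : Fin j → W) : (pairs v w).card ≤ j :=
  card_image_le.trans (by simp)

theorem IsBP.tuples_from {F : Finset (V × W) → Prop} (h : IsBP K G H F) (j : ℕ)
    {p : Finset (V × W)} (hp : F p) (hj : p.card + j ≤ K) :
    ∃ e : (Fin j → V) ≃ (Fin j → W), ∀ v, F (p ∪ pairs v (e v)) := by
  induction j generalizing p with
  | zero => exact ⟨Equiv.ofUnique _ _, fun v => by simpa [pairs] using hp⟩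
  | succ j ih =>
    obtain ⟨f, hf⟩ := h.ext hp (by omega)
    choose e he using fun x => ih (hf x) (by have := card_insert_le (x, f x) p; omega)
    refine ⟨((Fin.consEquiv fun _ => V).symm.trans (Equiv.prodShear f e)).trans
      (Fin.consEquiv fun _ => W), fun v => h.sub (he (v 0) (Fin.tail v)) ?_⟩
    refine union_subset ((subset_insert _ _).trans subset_union_left) (pairs_subset fun i => ?_)
    refine Fin.cases ?_ (fun i => ?_) i
    · exact mem_union_left _ (mem_insert_self _ _)
    · exact mem_union_right _ (mem_pairs (Fin.tail v) (e (v 0) (Fin.tail v)) i)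

/-- Sketch: induction on `j` (generalising to a start position `p` with `p.card + j ≤ K` and the
conclusion `F (p ∪ pairs v (e v))`), using `Fin.consEquiv`/`Fin.insertNthEquiv` and
`Equiv.sigmaCongr`/`Equiv.prodShear`. -/
theorem IsBP.tuples {F : Finset (V × W) → Prop} (h : IsBP K G H F) {j : ℕ} (hj : j ≤ K) :
    ∃ e : (Fin j → V) ≃ (Fin j → W), ∀ v, F (pairs v (e v)) := by
  simpa using h.tuples_from j h.empty (by simpa using hj)

/-- Pebble all vertices of `V` (`IsBP.tuples`); the final position is the graph of an injective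
map, bijective since `V ≃ W`. -/
theorem BP.iso [Fintype V] [Fintype W] (h : BP K G H) (hK : Fintype.card V < K) :
    ∃ e : V ≃ W, ∀ a b, H (e a) (e b) = G a b := by
  obtain ⟨f⟩ := h.nonempty_equiv (by omega)
  obtain ⟨F, hF⟩ := h
  obtain ⟨e, he⟩ := hF.tuples hK.le
  have hp := he (Fintype.equivFin V).symm
  have hm : ∀ a : V, (a, e (Fintype.equivFin V).symm (Fintype.equivFin V a)) ∈
      pairs (Fintype.equivFin V).symm (e (Fintype.equivFin V).symm) := fun a => by
    simpa using mem_pairs (Fintype.equivFin V).symm (e (Fintype.equivFin V).symm)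
      (Fintype.equivFin V a)
  have hinj : Function.Injective fun a => e (Fintype.equivFin V).symm (Fintype.equivFin V a) :=
    fun a b hab => (hF.eq hp (hm a) (hm b)).2 hab
  exact ⟨Equiv.ofBijective _ ((Fintype.bijective_iff_injective_and_card _).2
    ⟨hinj, Fintype.card_congr f⟩), fun a b => (hF.adj hp (hm a) (hm b)).symm⟩

end Basic

section ToWL

variable {n m k : ℕ} {G : Fin n → Fin n → Bool} {H : Fin m → Fin m → Bool}

theorem IsBP.atomicType_eq {K : ℕ} {F : Finset (Fin n × Fin m) → Prop} (h : IsBP K G H F)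
    (v : Fin k → Fin n) (w : Fin k → Fin m) (hp : F (pairs v w)) :
    atomicType G v = atomicType H w :=
  Prod.ext (funext₂ fun i j => decide_eq_decide.2 (h.eq hp (mem_pairs v w i) (mem_pairs v w j)))
    (funext₂ fun i j => h.adj hp (mem_pairs v w i) (mem_pairs v w j))

theorem map_univ_eq_of_equiv {α β γ : Type} [Fintype α] [Fintype β] (f : α ≃ β) {g : α → γ}
    {g' : β → γ} (h : ∀ z, g z = g' (f z)) :
    (univ : Finset α).val.map g = (univ : Finset β).val.map g' := by
  rw [← Multiset.map_univ_val_equiv f, Multiset.map_map]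
  exact Multiset.map_congr rfl fun z _ => h z

/-- Sketch: induction on `s`; `(pairs v w).card ≤ k`, take `f` from `ext`; the pairs of
`update v i z`, `update w i (f z)` lie in `insert (z, f z) (pairs v w)`; reindex the multiset by
`f` (`Multiset.map_univ_val_equiv`). -/
theorem IsBP.jcolor_eq {F : Finset (Fin n × Fin m) → Prop} (h : IsBP (k + 1) G H F) (s : ℕ)
    (v : Fin k → Fin n) (w : Fin k → Fin m) (hp : F (pairs v w)) :
    jcolor G k s v = jcolor H k s w := by
  induction s generalizing v w with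
  | zero => exact h.atomicType_eq v w hp
  | succ s ih =>
    obtain ⟨f, hf⟩ := h.ext hp (Nat.lt_succ_of_le (card_pairs_le v w))
    refine Prod.ext (ih v w hp) (map_univ_eq_of_equiv f fun z => funext fun i => ?_)
    refine ih _ _ (h.sub (hf z) (pairs_subset fun l => ?_))
    rcases eq_or_ne l i with rfl | hl
    · simp
    · rw [Function.update_of_ne hl, Function.update_of_ne hl]
      exact mem_insert_of_mem (mem_pairs v w l)

/-- Sketch: as above, but for coordinate `i` use `ext` at the pairs with index `≠ i`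
(at most `k - 1` of them). -/
theorem IsBP.scolor_eq {F : Finset (Fin n × Fin m) → Prop} (h : IsBP k G H F) (s : ℕ)
    (v : Fin k → Fin n) (w : Fin k → Fin m) (hp : F (pairs v w)) :
    scolor G k s v = scolor H k s w := by
  induction s generalizing v w with
  | zero => exact h.atomicType_eq v w hp
  | succ s ih =>
    refine Prod.ext (ih v w hp) (funext fun i => ?_)
    have hc : ((univ.erase i).image fun l => (v l, w l)).card < k :=
      card_image_le.trans_lt ((card_erase_lt_of_mem (mem_univ i)).trans_eq (by simp))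
    obtain ⟨f, hf⟩ := h.ext (h.sub hp (image_subset_image (erase_subset _ _))) hc
    refine map_univ_eq_of_equiv f fun z => ih _ _ (h.sub (hf z) (pairs_subset fun l => ?_))
    rcases eq_or_ne l i with rfl | hl
    · simp
    · rw [Function.update_of_ne hl, Function.update_of_ne hl]
      exact mem_insert_of_mem (mem_image_of_mem _ (mem_erase.2 ⟨hl, mem_univ l⟩))

theorem BP.jEquiv (h : BP (k + 1) G H) : JEquiv k G H := by
  obtain ⟨F, hF⟩ := h
  obtain ⟨e, he⟩ := hF.tuples (Nat.le_succ k)
  exact fun s => map_univ_eq_of_equiv e fun v => hF.jcolor_eq s v _ (he v)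

theorem BP.sEquiv (h : BP k G H) : SEquiv k G H := by
  obtain ⟨F, hF⟩ := h
  obtain ⟨e, he⟩ := hF.tuples le_rfl
  exact fun s => map_univ_eq_of_equiv e fun v => hF.scolor_eq s v _ (he v)

theorem IsBP.crcolor_eq {F : Finset (Fin n × Fin m) → Prop} (h : IsBP 2 G H F) (s : ℕ)
    (v : Fin n) (w : Fin m) (hp : F {(v, w)}) : crcolor G s v = crcolor H s w := by
  induction s generalizing v w with
  | zero => rfl
  | succ s ih =>
    obtain ⟨f, hf⟩ := h.ext hp (by simp)
    have hadj : ∀ z, G v z = H w (f z) := fun z =>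
      h.adj (hf z) (mem_insert_of_mem (mem_singleton_self (v, w))) (mem_insert_self _ _)
    have hfil : (univ.filter fun z => H w z = true) =
        (univ.filter fun z => G v z = true).map f.toEmbedding := by
      ext z
      simp [mem_map_equiv, hadj]
    refine Prod.ext (ih v w hp) ?_
    simp only [crcolor]
    rw [hfil, map_val, Multiset.map_map]
    exact Multiset.map_congr rfl fun z _ =>
      ih _ _ (h.sub (hf z) (singleton_subset_iff.2 (mem_insert_self _ _)))

/-- Sketch: `crcolor G s v = crcolor H s w` whenever `F {(v, w)}`, by induction on `s`. -/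
theorem BP.crEquiv (h : BP 2 G H) : CREquiv G H := by
  obtain ⟨F, hF⟩ := h
  obtain ⟨f, hf⟩ := hF.ext hF.empty (by simp)
  exact fun s => map_univ_eq_of_equiv f fun v => hF.crcolor_eq s v _ (by simpa using hf v)

/-- Two independent copies of the game on the disjoint union against itself. -/
theorem IsBP.union {K : ℕ} {F : Finset (Fin n × Fin m) → Prop} (h : IsBP K G H F) :
    IsBP K (unionAdj G H) (unionAdj G H) fun q => ∃ p₁ p₂, F p₁ ∧ F p₂ ∧ ∀ a ∈ q,
      (∃ b ∈ p₁, a = (Sum.inl b.1, Sum.inr b.2)) ∨ ∃ b ∈ p₂, a = (Sum.inr b.2, Sum.inl b.1) := by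
  refine ⟨⟨∅, ∅, h.empty, h.empty, by simp⟩, ?_, ?_, ?_, ?_⟩
  · rintro p q ⟨p₁, p₂, h₁, h₂, hp⟩ hq
    exact ⟨p₁, p₂, h₁, h₂, fun a ha => hp a (hq ha)⟩
  · rintro p a b ⟨p₁, p₂, h₁, h₂, hp⟩ ha hb
    rcases hp a ha with ⟨c, hc, rfl⟩ | ⟨c, hc, rfl⟩ <;>
      rcases hp b hb with ⟨d, hd, rfl⟩ | ⟨d, hd, rfl⟩
    · simpa using h.eq h₁ hc hd
    · simp
    · simp
    · simpa using (h.eq h₂ hc hd).symm
  · rintro p a b ⟨p₁, p₂, h₁, h₂, hp⟩ ha hb
    rcases hp a ha with ⟨c, hc, rfl⟩ | ⟨c, hc, rfl⟩ <;>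
      rcases hp b hb with ⟨d, hd, rfl⟩ | ⟨d, hd, rfl⟩
    · exact h.adj h₁ hc hd
    · rfl
    · rfl
    · exact (h.adj h₂ hc hd).symm
  · rintro p ⟨p₁, p₂, h₁, h₂, hp⟩ hc
    have c₁ : (p₁.filter fun b => (Sum.inl b.1, Sum.inr b.2) ∈ p).card ≤ p.card :=
      card_le_card_of_injOn (fun b => (Sum.inl b.1, Sum.inr b.2))
        (fun b hb => (mem_filter.1 hb).2) fun b _ c _ hbc => by simpa [Prod.ext_iff] using hbc
    have c₂ : (p₂.filter fun b => (Sum.inr b.2, Sum.inl b.1) ∈ p).card ≤ p.card :=
      card_le_card_of_injOn (fun b => (Sum.inr b.2, Sum.inl b.1))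
        (fun b hb => (mem_filter.1 hb).2) fun b _ c _ hbc => by
          simpa [Prod.ext_iff, and_comm] using hbc
    obtain ⟨f₁, hf₁⟩ := h.ext (h.sub h₁ (filter_subset _ _)) (c₁.trans_lt hc)
    obtain ⟨f₂, hf₂⟩ := h.ext (h.sub h₂ (filter_subset _ _)) (c₂.trans_lt hc)
    refine ⟨(Equiv.sumCongr f₁ f₂.symm).trans (Equiv.sumComm _ _), ?_⟩
    rintro (v | w)
    · refine ⟨_, p₂, hf₁ v, h₂, fun a ha => ?_⟩
      rcases mem_insert.1 ha with rfl | ha
      · exact Or.inl ⟨_, mem_insert_self _ _, rfl⟩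
      rcases hp a ha with ⟨c, hc, rfl⟩ | hc
      · exact Or.inl ⟨c, mem_insert_of_mem (mem_filter.2 ⟨hc, ha⟩), rfl⟩
      · exact Or.inr hc
    · refine ⟨p₁, _, h₁, hf₂ (f₂.symm w), fun a ha => ?_⟩
      rcases mem_insert.1 ha with rfl | ha
      · exact Or.inr ⟨_, mem_insert_self _ _, by simp⟩
      rcases hp a ha with hc | ⟨c, hc, rfl⟩
      · exact Or.inl hc
      · exact Or.inr ⟨c, mem_insert_of_mem (mem_filter.2 ⟨hc, ha⟩), rfl⟩

/-- The game on `asMatrix (unionAdj G H)` contains the lifted positions of `F`. -/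
theorem IsBP.exists_union {K : ℕ} {F : Finset (Fin n × Fin m) → Prop} (h : IsBP K G H F) :
    ∃ F', IsBP K (asMatrix (unionAdj G H)) (asMatrix (unionAdj G H)) F' ∧
      ∀ (v : Fin k → Fin n) (w : Fin k → Fin m), F (pairs v w) →
        F' (pairs (Fintype.equivFin _ ∘ Sum.inl ∘ v) (Fintype.equivFin _ ∘ Sum.inr ∘ w)) := by
  refine ⟨_, h.union.map (Fintype.equivFin _).symm (Fintype.equivFin _).symm, fun v w hp =>
    ⟨_, ∅, hp, h.empty, fun a ha => Or.inl ?_⟩⟩
  obtain ⟨b, hb, rfl⟩ := mem_image.1 ha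
  obtain ⟨i, -, rfl⟩ := mem_image.1 hb
  exact ⟨_, mem_pairs v w i, by simp⟩

/-- Sketch: on `U = unionAdj G H` against itself play two independent copies of the game: a
position consists of pairs `(inl v, inr w)` forming a position of `F` and of pairs
`(inr w, inl v)` forming (after swapping) a position of `F`; `ext` uses the bijection
`inl v ↦ inr (f₁ v)`, `inr w ↦ inl (f₂.symm w)`. Transport this family along
`Fintype.equivFin` (image of positions) to `asMatrix U`, apply `IsBP.jcolor_eq`, and reindex the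
histogram by `IsBP.tuples` of `F`. -/
theorem BP.pureJ (h : BP (k + 1) G H) : PureJEquiv k G H := by
  obtain ⟨F, hF⟩ := h
  obtain ⟨e, he⟩ := hF.tuples (Nat.le_succ k)
  obtain ⟨F', hF', hl⟩ := hF.exists_union (k := k)
  exact fun s => map_univ_eq_of_equiv e fun v => hF'.jcolor_eq s _ _ (hl v _ (he v))

theorem BP.pureS (h : BP k G H) : PureSEquiv k G H := by
  obtain ⟨F, hF⟩ := h
  obtain ⟨e, he⟩ := hF.tuples le_rfl
  obtain ⟨F', hF', hl⟩ := hF.exists_union (k := k)
  exact fun s => map_univ_eq_of_equiv e fun v => hF'.scolor_eq s _ _ (hl v _ (he v))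

end ToWL

end Crest.Agent.R290
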