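import Crest.Agent.R290.Game

/-!
# Row 290: from Weisfeiler-Leman equivalence to the pebble game

Common plan. Call tuples `v`, `w` *stably equivalent* (`v ∼ w`) when their colours agree at every
round. The colour at round `s + 1` contains the colour at round `s`, so agreement is antitone in `s`.
* Pigeonhole: if for every `s` some bijection `f_s` in a finite set has a property `P s f` that is
  antitone in `s`, one `f` has `P s f` for all `s` (`Finite.exists_infinite_fiber`, or minimal bad
  rounds and `Finset.sup`). Equal multisets `univ.val.map a = univ.val.map b` give a bijection `f` with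
  `a = b ∘ f` (e.g. `Multiset.rel_eq`/`Equiv.sigmaFiberEquiv`/`Equiv.ofFiberEquiv` via equal fibre
  cardinalities).
* Hence `v ∼ w` gives one bijection `f` with `update v i z ∼ update w i (f z)` for all `z`, `i`
  (joint), resp. one `f_i` for every `i` (separate).
* (Sub) `v ∼ w → v ∘ σ ∼ w ∘ σ` for every `σ : Fin k → Fin k`, by induction on the round (for all
  `v w σ`): `update (v ∘ σ) i z = update v j z ∘ update σ i j` whenever `j ∉ σ '' {i}ᶜ`, and such a `j`
  exists since `{i}ᶜ` has `k - 1` elements.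
* The family: `F p` iff every `t : Fin k → Fin n × Fin m` with values in `p` has
  `fst ∘ t ∼ snd ∘ t`. `eq`, `adj` come from the atomic type of the tuple `(a, b, b, …)` (`k ≥ 2`).
  `ext` at `∅`: the histograms give a bijection of `k`-tuples preserving `∼`; it maps constant tuples
  to constant tuples (atomic type), giving `f`. `ext` at `p ≠ ∅`: enumerate `p` by a tuple `t` (onto
  `p`; in the separate case `p.card < k`, so choose `t` with a coordinate `i` whose value occurs at
  another coordinate too); every `k`-tuple from `insert (z, f z) p` either lies in `p` or lies among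
  the entries of some `update t i (z, f z)`; use (Sub).
-/

set_option autoImplicit false

namespace Crest.Agent.R290

open Finset Crest.WLRefine

variable {n m k : ℕ} {G : Fin n → Fin n → Bool} {H : Fin m → Fin m → Bool}

theorem gb_equiv_of_map {α β γ : Type} [Fintype α] [Fintype β] {a : α → γ} {b : β → γ}
    (h : (univ : Finset α).val.map a = (univ : Finset β).val.map b) :
    ∃ f : α ≃ β, ∀ z, a z = b (f z) := by
  classical
  have key : ∀ c, Fintype.card {z // a z = c} = Fintype.card {z // b z = c} := fun c => by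
    have h1 := congrArg (Multiset.count c) h
    rw [Multiset.count_map, Multiset.count_map] at h1
    rw [Fintype.card_subtype, Fintype.card_subtype]
    simp only [eq_comm (b := c)]
    exact h1
  exact ⟨Equiv.ofFiberEquiv fun c => Fintype.equivOfCardEq (key c),
    fun z => (Equiv.ofFiberEquiv_map (fun c => Fintype.equivOfCardEq (key c)) z).symm⟩

theorem gb_map_of_equiv {α β γ : Type} [Fintype α] [Fintype β] {a : α → γ} {b : β → γ}
    (f : α ≃ β) (h : ∀ z, a z = b (f z)) :
    (univ : Finset α).val.map a = (univ : Finset β).val.map b := by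
  rw [← Multiset.map_univ_val_equiv f, Multiset.map_map]
  exact Multiset.map_congr rfl fun z _ => h z

theorem gb_pigeon {ι : Type} [Finite ι] (P : ℕ → ι → Prop) (anti : ∀ s f, P (s + 1) f → P s f)
    (h : ∀ s, ∃ f, P s f) : ∃ f, ∀ s, P s f := by
  choose g hg using h
  obtain ⟨f, hf⟩ := Finite.exists_infinite_fiber g
  refine ⟨f, fun s => ?_⟩
  obtain ⟨s', hs', hlt⟩ := (Set.infinite_coe_iff.1 hf).exists_gt s
  have h1 : P s' f := by
    have : g s' = f := hs'
    exact this ▸ hg s'
  have h2 : ∀ d, P (s + d) f → P s f := fun d => by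
    induction d with
    | zero => exact id
    | succ d ih => exact fun h => ih (anti _ _ h)
  exact h2 (s' - s) (by rwa [Nat.add_sub_cancel' hlt.le])

theorem gb_free (σ : Fin k → Fin k) (i : Fin k) : ∃ j, ∀ i', i' ≠ i → σ i' ≠ j := by
  obtain ⟨j, -, hj⟩ := Finset.exists_mem_notMem_of_card_lt_card
    (s := (univ.erase i).image σ) (t := univ) (lt_of_le_of_lt Finset.card_image_le
      (Finset.card_erase_lt_of_mem (mem_univ i)))
  exact ⟨j, fun i' h e => hj (mem_image.2 ⟨i', mem_erase.2 ⟨h, mem_univ _⟩, e⟩)⟩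

theorem gb_update_comp {α : Type} (v : Fin k → α) {σ : Fin k → Fin k} {i j : Fin k}
    (h : ∀ i', i' ≠ i → σ i' ≠ j) (z : α) :
    Function.update (v ∘ σ) i z = Function.update v j z ∘ Function.update σ i j := by
  funext i'
  by_cases e : i' = i
  · subst e; simp
  · simp [Function.update_of_ne e, Function.update_of_ne (h i' e)]

theorem gb_enum {α : Type} {p : Finset α} (hp : p.Nonempty) {A : Finset (Fin k)}
    (h : p.card ≤ A.card) : ∃ t : Fin k → α, (∀ i, t i ∈ p) ∧ ∀ a ∈ p, ∃ i ∈ A, t i = a := by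
  obtain ⟨a₀, h₀⟩ := hp
  obtain ⟨A', hA, hc⟩ := Finset.exists_subset_card_eq h
  let e := Finset.equivOfCardEq hc
  refine ⟨fun i => if hi : i ∈ A' then (e ⟨i, hi⟩ : α) else a₀, fun i => ?_, fun a ha => ?_⟩
  · dsimp only
    split_ifs with hi
    · exact (e ⟨i, hi⟩).2
    · exact h₀
  · refine ⟨e.symm ⟨a, ha⟩, hA (e.symm ⟨a, ha⟩).2, ?_⟩
    simp

theorem gb_atomic {v : Fin k → Fin n} {w : Fin k → Fin m} :
    atomicType G v = atomicType H w ↔
      ∀ i j, (v i = v j ↔ w i = w j) ∧ G (v i) (v j) = H (w i) (w j) := by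
  unfold atomicType
  rw [Prod.ext_iff]
  simp only [funext_iff, decide_eq_decide]
  exact ⟨fun h i j => ⟨h.1 i j, h.2 i j⟩, fun h => ⟨fun i j => (h i j).1, fun i j => (h i j).2⟩⟩

section Abstract

variable {R : (Fin k → Fin n) → (Fin k → Fin m) → Prop}

theorem gb_core (hsub : ∀ v w (σ : Fin k → Fin k), R v w → R (v ∘ σ) (w ∘ σ))
    {t u : Fin k → Fin n × Fin m} {j : Fin k} {q : Fin n × Fin m}
    (hR : R (Function.update (Prod.fst ∘ t) j q.1) (Function.update (Prod.snd ∘ t) j q.2))
    (hu : ∀ i, u i = q ∨ ∃ i', i' ≠ j ∧ t i' = u i) : R (Prod.fst ∘ u) (Prod.snd ∘ u) := by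
  have : ∀ i, ∃ i', Function.update t j q i' = u i := fun i => by
    rcases hu i with h | ⟨i', h, e⟩
    · exact ⟨j, by simp [h]⟩
    · exact ⟨i', by rw [Function.update_of_ne h, e]⟩
  choose σ hσ using this
  have e : u = Function.update t j q ∘ σ := funext fun i => (hσ i).symm
  rw [← Function.comp_update, ← Function.comp_update] at hR
  rw [e]
  exact hsub _ _ σ hR

theorem gb_bp (hk : 2 ≤ k) {K : ℕ}
    (hat : ∀ v w, R v w → atomicType G v = atomicType H w)
    (hinit : ∃ e : (Fin k → Fin n) ≃ (Fin k → Fin m), ∀ v, R v (e v))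
    (hext : ∀ p : Finset (Fin n × Fin m), p.Nonempty → p.card < K →
      (∀ t : Fin k → Fin n × Fin m, (∀ i, t i ∈ p) → R (Prod.fst ∘ t) (Prod.snd ∘ t)) →
      ∃ f : Fin n ≃ Fin m, ∀ z, ∀ t : Fin k → Fin n × Fin m, (∀ i, t i ∈ insert (z, f z) p) →
        R (Prod.fst ∘ t) (Prod.snd ∘ t)) : BP K G H := by
  let i₀ : Fin k := ⟨0, by omega⟩
  let i₁ : Fin k := ⟨1, by omega⟩
  have h01 : i₁ ≠ i₀ := by simp [i₀, i₁]
  have key : ∀ {p : Finset (Fin n × Fin m)} {a b : Fin n × Fin m},
      (∀ t : Fin k → Fin n × Fin m, (∀ i, t i ∈ p) → R (Prod.fst ∘ t) (Prod.snd ∘ t)) → a ∈ p →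
      b ∈ p → (a.1 = b.1 ↔ a.2 = b.2) ∧ G a.1 b.1 = H a.2 b.2 := by
    intro p a b hp ha hb
    have := gb_atomic.1 (hat _ _ (hp (fun i => if i = i₀ then a else b)
      fun i => by split_ifs <;> assumption)) i₀ i₁
    simpa [h01] using this
  refine ⟨fun p => ∀ t : Fin k → Fin n × Fin m, (∀ i, t i ∈ p) → R (Prod.fst ∘ t) (Prod.snd ∘ t),
    fun t ht => absurd (ht i₀) (notMem_empty _), fun hp hq t ht => hp t fun i => hq (ht i),
    fun hp ha hb => (key hp ha hb).1, fun hp ha hb => (key hp ha hb).2, fun {p} hp hc => ?_⟩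
  rcases p.eq_empty_or_nonempty with rfl | hne
  · obtain ⟨e, he⟩ := hinit
    have h1 : ∀ z, e (fun _ => z) = fun _ => e (fun _ => z) i₀ := fun z =>
      funext fun i => (gb_atomic.1 (hat _ _ (he fun _ => z)) i i₀).1.1 rfl
    have hb : Function.Bijective fun z => e (fun _ => z) i₀ := by
      refine ⟨fun z z' h => ?_, fun y => ?_⟩
      · have h2 : e (fun _ => z) = e (fun _ => z') := by
          rw [h1 z, h1 z']; exact funext fun _ => h
        exact congrFun (e.injective h2) i₀
      · have h2 := he (e.symm fun _ => y)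
        rw [e.apply_symm_apply] at h2
        have h3 : (fun _ => e.symm (fun _ => y) i₀) = e.symm fun _ => y :=
          funext fun i => (gb_atomic.1 (hat _ _ h2) i₀ i).1.2 rfl
        exact ⟨e.symm (fun _ => y) i₀, by simp only [h3, e.apply_symm_apply]⟩
    refine ⟨Equiv.ofBijective _ hb, fun z t ht => ?_⟩
    have h4 : t = fun _ => (z, e (fun _ => z) i₀) := funext fun i => by simpa using ht i
    have h5 := he fun _ => z
    rw [h1 z] at h5
    rw [h4]
    exact h5
  · exact hext p hne hc hp

end Abstract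

theorem gb_j_succ {s : ℕ} {v : Fin k → Fin n} {w : Fin k → Fin m} :
    jcolor G k (s + 1) v = jcolor H k (s + 1) w ↔ jcolor G k s v = jcolor H k s w ∧
      ∃ f : Fin n ≃ Fin m, ∀ z i, jcolor G k s (Function.update v i z) =
        jcolor H k s (Function.update w i (f z)) := by
  rw [jcolor, jcolor, Prod.mk.injEq]
  refine and_congr Iff.rfl ⟨fun h => ?_, fun ⟨f, hf⟩ => gb_map_of_equiv f fun z => funext (hf z)⟩
  obtain ⟨f, hf⟩ := gb_equiv_of_map h
  exact ⟨f, fun z i => congrFun (hf z) i⟩

theorem gb_s_succ {s : ℕ} {v : Fin k → Fin n} {w : Fin k → Fin m} :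
    scolor G k (s + 1) v = scolor H k (s + 1) w ↔ scolor G k s v = scolor H k s w ∧
      ∀ i, ∃ f : Fin n ≃ Fin m, ∀ z, scolor G k s (Function.update v i z) =
        scolor H k s (Function.update w i (f z)) := by
  rw [scolor, scolor, Prod.mk.injEq]
  exact and_congr Iff.rfl ⟨fun h i => gb_equiv_of_map (congrFun h i),
    fun h => funext fun i => let ⟨f, hf⟩ := h i; gb_map_of_equiv f hf⟩

theorem gb_j_sub (s : ℕ) : ∀ (v : Fin k → Fin n) (w : Fin k → Fin m) (σ : Fin k → Fin k),
    jcolor G k s v = jcolor H k s w → jcolor G k s (v ∘ σ) = jcolor H k s (w ∘ σ) := by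
  induction s with
  | zero => exact fun v w σ h => gb_atomic.2 fun i j => gb_atomic.1 h (σ i) (σ j)
  | succ s ih =>
    intro v w σ h
    obtain ⟨h1, f, hf⟩ := gb_j_succ.1 h
    refine gb_j_succ.2 ⟨ih v w σ h1, f, fun z i => ?_⟩
    obtain ⟨j, hj⟩ := gb_free σ i
    rw [gb_update_comp v hj, gb_update_comp w hj]
    exact ih _ _ _ (hf z j)

theorem gb_s_sub (s : ℕ) : ∀ (v : Fin k → Fin n) (w : Fin k → Fin m) (σ : Fin k → Fin k),
    scolor G k s v = scolor H k s w → scolor G k s (v ∘ σ) = scolor H k s (w ∘ σ) := by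
  induction s with
  | zero => exact fun v w σ h => gb_atomic.2 fun i j => gb_atomic.1 h (σ i) (σ j)
  | succ s ih =>
    intro v w σ h
    obtain ⟨h1, h2⟩ := gb_s_succ.1 h
    refine gb_s_succ.2 ⟨ih v w σ h1, fun i => ?_⟩
    obtain ⟨j, hj⟩ := gb_free σ i
    obtain ⟨f, hf⟩ := h2 j
    refine ⟨f, fun z => ?_⟩
    rw [gb_update_comp v hj, gb_update_comp w hj]
    exact ih _ _ _ (hf z)

theorem bp_of_jEquiv (hk : 2 ≤ k) (h : JEquiv k G H) : BP (k + 1) G H := by
  have hsub : ∀ (v : Fin k → Fin n) (w : Fin k → Fin m) (σ : Fin k → Fin k),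
      (∀ s, jcolor G k s v = jcolor H k s w) → ∀ s, jcolor G k s (v ∘ σ) = jcolor H k s (w ∘ σ) :=
    fun v w σ h s => gb_j_sub s v w σ (h s)
  refine gb_bp (R := fun v w => ∀ s, jcolor G k s v = jcolor H k s w) hk (fun v w h => h 0) ?_ ?_
  · obtain ⟨e, he⟩ := gb_pigeon
      (fun s (e : (Fin k → Fin n) ≃ (Fin k → Fin m)) => ∀ v, jcolor G k s v = jcolor H k s (e v))
      (fun s e h v => (gb_j_succ.1 (h v)).1) fun s => gb_equiv_of_map (h s)
    exact ⟨e, fun v s => he s v⟩
  · intro p hne hc hp
    obtain ⟨t, ht, hon⟩ := gb_enum hne (A := (univ : Finset (Fin k))) (by simpa using hc)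
    obtain ⟨f, hf⟩ := gb_pigeon (fun s (f : Fin n ≃ Fin m) => ∀ z i,
        jcolor G k s (Function.update (Prod.fst ∘ t) i z) =
          jcolor H k s (Function.update (Prod.snd ∘ t) i (f z)))
      (fun s e h z i => (gb_j_succ.1 (h z i)).1) fun s => (gb_j_succ.1 (hp t ht (s + 1))).2
    refine ⟨f, fun z u hu => ?_⟩
    by_cases hall : ∀ i, u i ∈ p
    · exact hp u hall
    obtain ⟨i₀, hi₀⟩ := not_forall.1 hall
    have : ∀ i, ∃ i', u i ∈ p → t i' = u i := fun i => by
      by_cases hi : u i ∈ p
      · obtain ⟨i', -, e⟩ := hon _ hi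
        exact ⟨i', fun _ => e⟩
      · exact ⟨i, fun h => absurd h hi⟩
    choose τ hτ using this
    obtain ⟨j, hj⟩ := gb_free τ i₀
    refine gb_core (R := fun v w => ∀ s, jcolor G k s v = jcolor H k s w) hsub (t := t) (j := j)
      (q := (z, f z)) (fun s => hf s z j) fun i => ?_
    rcases mem_insert.1 (hu i) with e | e
    · exact Or.inl e
    · exact Or.inr ⟨τ i, hj i (by rintro rfl; exact hi₀ e), hτ i e⟩

theorem bp_of_sEquiv (hk : 2 ≤ k) (h : SEquiv k G H) : BP k G H := by
  have hsub : ∀ (v : Fin k → Fin n) (w : Fin k → Fin m) (σ : Fin k → Fin k),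
      (∀ s, scolor G k s v = scolor H k s w) → ∀ s, scolor G k s (v ∘ σ) = scolor H k s (w ∘ σ) :=
    fun v w σ h s => gb_s_sub s v w σ (h s)
  refine gb_bp (R := fun v w => ∀ s, scolor G k s v = scolor H k s w) hk (fun v w h => h 0) ?_ ?_
  · obtain ⟨e, he⟩ := gb_pigeon
      (fun s (e : (Fin k → Fin n) ≃ (Fin k → Fin m)) => ∀ v, scolor G k s v = scolor H k s (e v))
      (fun s e h v => (gb_s_succ.1 (h v)).1) fun s => gb_equiv_of_map (h s)
    exact ⟨e, fun v s => he s v⟩
  · intro p hne hc hp
    let j : Fin k := ⟨0, by omega⟩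
    obtain ⟨t, ht, hon⟩ := gb_enum hne (A := (univ : Finset (Fin k)).erase j)
      (by rw [card_erase_of_mem (mem_univ _), card_univ, Fintype.card_fin]; omega)
    obtain ⟨f, hf⟩ := gb_pigeon (fun s (f : Fin n ≃ Fin m) => ∀ z,
        scolor G k s (Function.update (Prod.fst ∘ t) j z) =
          scolor H k s (Function.update (Prod.snd ∘ t) j (f z)))
      (fun s e h z => (gb_s_succ.1 (h z)).1) fun s => (gb_s_succ.1 (hp t ht (s + 1))).2 j
    refine ⟨f, fun z u hu => ?_⟩
    refine gb_core (R := fun v w => ∀ s, scolor G k s v = scolor H k s w) hsub (t := t) (j := j)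
      (q := (z, f z)) (fun s => hf s z) fun i => ?_
    rcases mem_insert.1 (hu i) with e | e
    · exact Or.inl e
    · obtain ⟨i', h1, h2⟩ := hon _ e
      exact Or.inr ⟨i', (mem_erase.1 h1).1, h2⟩

theorem gb_split {γ : Type} (hG : IsSimple G) (v : Fin n) (c : Fin n → γ) :
    ∃ C : Multiset γ, (univ : Finset (Fin n)).val.map c =
        {c v} + (univ.filter fun w => G v w = true).val.map c + C ∧
      (univ : Finset (Fin n)).val.map (fun z => (c z, decide (z = v), G v z)) =
        {(c v, true, false)} +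
          ((univ.filter fun w => G v w = true).val.map c).map (fun x => (x, false, true)) +
          C.map fun x => (x, false, false) := by
  have e : (univ : Finset (Fin n)).val = {v} + (univ.filter fun w => G v w = true).val +
      (univ.filter fun w => w ≠ v ∧ G v w = false).val := by
    ext z
    rw [Multiset.count_add, Multiset.count_add, filter_val, filter_val, Multiset.count_filter,
      Multiset.count_filter, Multiset.count_singleton, Multiset.count_univ]
    by_cases hz : z = v
    · simp [hz, hG.2 v]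
    · cases h : G v z <;> simp [hz]
  refine ⟨(univ.filter fun w => w ≠ v ∧ G v w = false).val.map c, ?_, ?_⟩
  · conv_lhs => rw [e]
    simp only [Multiset.map_add, Multiset.map_singleton]
  · conv_lhs => rw [e]
    rw [Multiset.map_add, Multiset.map_add, Multiset.map_singleton, Multiset.map_map,
      Multiset.map_map]
    congr 1
    · congr 1
      · simp [hG.2 v]
      · refine Multiset.map_congr rfl fun z hz => ?_
        have h1 : G v z = true := (mem_filter.1 (mem_def.2 hz)).2
        have h2 : z ≠ v := by rintro rfl; simp [hG.2 z] at h1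
        simp [h1, h2]
    · refine Multiset.map_congr rfl fun z hz => ?_
      have h1 := (mem_filter.1 (mem_def.2 hz)).2
      simp [h1.1, h1.2]

/-- Sketch: `v ∼ w` iff all `crcolor`s agree; `F p` iff `p` is a partial isomorphism (`eq`, `adj`)
all of whose pairs are `∼`. `ext` at `∅` by the histograms. `ext` at `{(v, w)}`: for each round the
colour multisets of `univ`, of `{v}` / `{w}` and of the neighbourhoods agree, hence (cancellation)
also of the remaining vertices; so the functions `z ↦ (crcolor G s z, z = v, G v z)` and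
`z ↦ (crcolor H s z, z = w, H w z)` have equal histograms; pigeonhole. -/
theorem bp_of_crEquiv (hG : IsSimple G) (hH : IsSimple H) (h : CREquiv G H) : BP 2 G H := by
  have anti : ∀ {s v w}, crcolor G (s + 1) v = crcolor H (s + 1) w →
      crcolor G s v = crcolor H s w := fun h => congrArg Prod.fst h
  refine ⟨fun p => (∀ a ∈ p, ∀ b ∈ p, (a.1 = b.1 ↔ a.2 = b.2) ∧ G a.1 b.1 = H a.2 b.2) ∧
      ∀ a ∈ p, ∀ s, crcolor G s a.1 = crcolor H s a.2, ⟨by simp, by simp⟩,
    fun hp hq => ⟨fun a ha b hb => hp.1 a (hq ha) b (hq hb), fun a ha => hp.2 a (hq ha)⟩,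
    fun hp ha hb => (hp.1 _ ha _ hb).1, fun hp ha hb => (hp.1 _ ha _ hb).2, fun {p} hp hc => ?_⟩
  rcases p.eq_empty_or_nonempty with rfl | hne
  · obtain ⟨f, hf⟩ := gb_pigeon (fun s (f : Fin n ≃ Fin m) => ∀ z, crcolor G s z = crcolor H s (f z))
      (fun s e h z => anti (h z)) fun s => gb_equiv_of_map (h s)
    refine ⟨f, fun z => ⟨fun a ha b hb => ?_, fun a ha s => ?_⟩⟩
    · obtain rfl : a = (z, f z) := by simpa using ha
      obtain rfl : b = (z, f z) := by simpa using hb
      simp [hG.2, hH.2]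
    · obtain rfl : a = (z, f z) := by simpa using ha
      exact hf s z
  · obtain ⟨⟨v, w⟩, rfl⟩ := card_eq_one.1 (show p.card = 1 by have := hne.card_pos; omega)
    have hvw := hp.2 _ (mem_singleton_self _)
    obtain ⟨f, hf⟩ := gb_pigeon (fun s (f : Fin n ≃ Fin m) => ∀ z,
        crcolor G s z = crcolor H s (f z) ∧ (z = v ↔ f z = w) ∧ G v z = H w (f z))
      (fun s e h z => ⟨anti (h z).1, (h z).2⟩) fun s => by
        obtain ⟨C, h1, h2⟩ := gb_split hG v (crcolor G s)
        obtain ⟨C', h1', h2'⟩ := gb_split hH w (crcolor H s)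
        have e1 : crcolor G s v = crcolor H s w := hvw s
        have e2 : (univ.filter fun z => G v z = true).val.map (crcolor G s) =
            (univ.filter fun z => H w z = true).val.map (crcolor H s) :=
          congrArg Prod.snd (hvw (s + 1))
        have e3 : C = C' := by
          have := h s
          rw [h1, h1', e1, e2] at this
          exact add_left_cancel this
        rw [e1, e2, e3, ← h2'] at h2
        obtain ⟨f, hf⟩ := gb_equiv_of_map h2
        exact ⟨f, fun z => by simpa using hf z⟩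
    refine ⟨f, fun z => ⟨fun a ha b hb => ?_, fun a ha s => ?_⟩⟩
    · obtain ⟨-, h1, h2⟩ := hf 0 z
      rcases mem_insert.1 ha with rfl | ha <;> rcases mem_insert.1 hb with rfl | hb
      · simp [hG.2, hH.2]
      · obtain rfl := mem_singleton.1 hb
        exact ⟨h1, by rw [hG.1, hH.1]; exact h2⟩
      · obtain rfl := mem_singleton.1 ha
        exact ⟨by rw [eq_comm, h1, eq_comm], h2⟩
      · exact hp.1 a ha b hb
    · rcases mem_insert.1 ha with rfl | ha
      · exact (hf s z).1
      · exact hp.2 a ha s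

theorem jEquiv_iff (hk : 2 ≤ k) : JEquiv k G H ↔ BP (k + 1) G H :=
  ⟨bp_of_jEquiv hk, BP.jEquiv⟩

theorem sEquiv_iff (hk : 2 ≤ k) : SEquiv k G H ↔ BP k G H := ⟨bp_of_sEquiv hk, BP.sEquiv⟩

theorem wlEquiv_iff (hG : IsSimple G) (hH : IsSimple H) (hk : 1 ≤ k) :
    WLEquiv k G H ↔ BP (k + 1) G H := by
  unfold WLEquiv
  split_ifs with h1
  · subst h1; exact ⟨bp_of_crEquiv hG hH, BP.crEquiv⟩
  · exact jEquiv_iff (by omega)

/-- Some dimension in `[1, k]` identifies `G` iff the `(k+1)`-pebble game does. -/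
theorem ident_iff (hG : IsSimple G) (hk : 1 ≤ k) :
    (∃ k', 1 ≤ k' ∧ k' ≤ k ∧ Identifies k' G) ↔
      ∀ H : Fin n → Fin n → Bool, IsSimple H → BP (k + 1) G H → AdjIso G H := by
  constructor
  · rintro ⟨k', h1, h2, h⟩ H hH hb
    exact h n H hH ((wlEquiv_iff hG hH h1).2 (hb.mono (by omega)))
  · intro h
    refine ⟨k, hk, le_rfl, fun m H hH he => ?_⟩
    have hb := (wlEquiv_iff hG hH hk).1 he
    obtain ⟨e⟩ := hb.nonempty_equiv (by omega)
    have hnm : n = m := by simpa using Fintype.card_congr e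
    subst hnm
    exact h H hH hb

end Crest.Agent.R290
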