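import Mathlib

/-!
# Row 290: systems of parity constraints and local consistency

A system has tiles (constraints) `u ∈ T`, each with a finite set of variables; a right-hand side is
`β : τ → ZMod 2`, the constraint of `u` being `∑ y ∈ vars u, α y = β u`. `Cons K β`: Duplicator's
strategy in the `K`-pebble game on the constraints.
-/

set_option autoImplicit false
set_option linter.unusedSectionVars false

namespace Crest.Agent.R290

open Finset

/-- A system of parity constraints. -/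
structure Sys (τ ν : Type) where
  /-- the valid tiles -/
  T : Finset τ
  /-- the variables of a tile -/
  vars : τ → Finset ν

namespace Sys

variable {τ ν : Type} [DecidableEq τ] [DecidableEq ν] (S : Sys τ ν)

/-- The variables seen by a set of pebbled tiles. -/
def Y (P : Finset τ) : Finset ν := P.biUnion S.vars

/-- The boundary of a combination of tiles. -/
def bd (F : τ → ZMod 2) (y : ν) : ZMod 2 := ∑ u ∈ S.T, if y ∈ S.vars u then F u else 0

/-- The right-hand side of a combination of tiles. -/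
def ev (β F : τ → ZMod 2) : ZMod 2 := ∑ u ∈ S.T, F u * β u

/-- All constraints can be met at once. -/
def Solvable (β : τ → ZMod 2) : Prop := ∃ α : ν → ZMod 2, ∀ u ∈ S.T, ∑ y ∈ S.vars u, α y = β u

/-- A strategy: `W P α` says that the values of `α` on `Y P` are allowed for the pebbles `P`. -/
structure IsCons (K : ℕ) (β : τ → ZMod 2) (W : Finset τ → (ν → ZMod 2) → Prop) : Prop where
  nonempty : ∃ α, W ∅ α
  congr : ∀ {P : Finset τ} {α α' : ν → ZMod 2}, W P α → (∀ y ∈ S.Y P, α' y = α y) → W P α'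
  par : ∀ {P : Finset τ} {α : ν → ZMod 2} {u : τ}, W P α → u ∈ P → ∑ y ∈ S.vars u, α y = β u
  sub : ∀ {P Q : Finset τ} {α : ν → ZMod 2}, W P α → Q ⊆ P → W Q α
  ext : ∀ {P : Finset τ} {α : ν → ZMod 2} {u : τ}, W P α → P ⊆ S.T → P.card < K → u ∈ S.T →
    ∃ α', (∀ y ∈ S.Y P, α' y = α y) ∧ W (insert u P) α'

/-- `K`-consistency of the right-hand side `β`. -/
def Cons (K : ℕ) (β : τ → ZMod 2) : Prop := ∃ W, S.IsCons K β W

/-- A dual certificate of consistency: for every set `P` of at most `K` pebbled tiles a subspace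
`D P` of combinations of tiles, containing everything Spoiler can derive at `P`. -/
structure IsDual (K : ℕ) (D : Finset τ → (τ → ZMod 2) → Prop) : Prop where
  zero : ∀ P, P ⊆ S.T → P.card ≤ K → D P 0
  add : ∀ {P : Finset τ} {F F' : τ → ZMod 2}, P ⊆ S.T → P.card ≤ K → D P F → D P F' → D P (F + F')
  single : ∀ {P : Finset τ} {u : τ}, P ⊆ S.T → P.card ≤ K → u ∈ P → D P (Pi.single u 1)
  bd : ∀ {P : Finset τ} {F : τ → ZMod 2} {y : ν}, D P F → y ∉ S.Y P → S.bd F y = 0
  mono : ∀ {P P' : Finset τ} {F : τ → ZMod 2}, P ⊆ P' → P' ⊆ S.T → P'.card ≤ K → D P F → D P' F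
  res : ∀ {P : Finset τ} {u : τ} {F : τ → ZMod 2}, insert u P ⊆ S.T → u ∉ P → P.card < K →
    D (insert u P) F → (∀ y, y ∉ S.Y P → S.bd F y = 0) → D P F

variable {S} {K K' : ℕ} {β β' : τ → ZMod 2}

theorem mem_Y {P : Finset τ} {y : ν} : y ∈ S.Y P ↔ ∃ u ∈ P, y ∈ S.vars u := by
  simp [Y]

theorem Y_mono {P Q : Finset τ} (h : P ⊆ Q) : S.Y P ⊆ S.Y Q := biUnion_subset_biUnion_of_subset_left _ h

theorem bd_add (F F' : τ → ZMod 2) (y : ν) : S.bd (F + F') y = S.bd F y + S.bd F' y := by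
  unfold bd
  rw [← sum_add_distrib]
  refine sum_congr rfl fun u _ => ?_
  split_ifs <;> simp

theorem bd_single {u : τ} (hu : u ∈ S.T) (y : ν) :
    S.bd (Pi.single u 1) y = if y ∈ S.vars u then 1 else 0 := by
  unfold bd
  rw [sum_eq_single u]
  · simp
  · intro v _ hv; simp [hv]
  · intro h; exact absurd hu h

theorem ev_add (β F F' : τ → ZMod 2) : S.ev β (F + F') = S.ev β F + S.ev β F' := by
  simp [ev, add_mul, sum_add_distrib]

theorem ev_single {u : τ} (hu : u ∈ S.T) (β : τ → ZMod 2) : S.ev β (Pi.single u 1) = β u := by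
  unfold ev
  rw [sum_eq_single u]
  · simp
  · intro v _ hv; simp [hv]
  · intro h; exact absurd hu h

theorem vars_subset_Y {P : Finset τ} {u : τ} (hu : u ∈ P) : S.vars u ⊆ S.Y P :=
  fun _ hy => mem_Y.2 ⟨u, hu, hy⟩

theorem sum_bd_single {u : τ} (hu : u ∈ S.T) {Z : Finset ν} (hZ : S.vars u ⊆ Z)
    (α : ν → ZMod 2) : ∑ y ∈ Z, S.bd (Pi.single u 1) y * α y = ∑ y ∈ S.vars u, α y := by
  simp only [bd_single hu, ite_mul, one_mul, zero_mul]
  rw [← sum_filter, filter_mem_eq_inter, inter_eq_right.2 hZ]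

/-- A functional that vanishes on the common kernel of finitely many functionals is a combination
of them (on a subspace `D`). -/
theorem exists_vec {V : Type} [AddCommGroup V] [Module (ZMod 2) V] (D : V → Prop) (h0 : D 0)
    (hadd : ∀ F F', D F → D F' → D (F + F')) (Z : Finset ν) (L : V → ν → ZMod 2) (ℓ : V → ZMod 2)
    (hL : ∀ F F' y, L (F + F') y = L F y + L F' y) (hℓ : ∀ F F', ℓ (F + F') = ℓ F + ℓ F')
    (h : ∀ F, D F → (∀ y ∈ Z, L F y = 0) → ℓ F = 0) :
    ∃ a : ν → ZMod 2, ∀ F, D F → ℓ F = ∑ y ∈ Z, L F y * a y := by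
  have h2 : ∀ c : ZMod 2, c = 0 ∨ c = 1 := by decide
  let E : Submodule (ZMod 2) V :=
    { carrier := {F | D F}
      add_mem' := fun hF hF' => hadd _ _ hF hF'
      zero_mem' := h0
      smul_mem' := fun c F hF => by
        rcases h2 c with rfl | rfl
        · rw [zero_smul]; exact h0
        · rw [one_smul]; exact hF }
  let mk : (f : V → ZMod 2) → (∀ F F', f (F + F') = f F + f F') → E →ₗ[ZMod 2] ZMod 2 :=
    fun f hf => ((AddMonoidHom.mk' f hf).toZModLinearMap 2).comp E.subtype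
  have hs := mem_span_of_iInf_ker_le_ker (ι := Z)
    (L := fun y => mk (fun F => L F y) fun F F' => hL F F' y) (K := mk ℓ hℓ) (by
      intro F hF
      simp only [Submodule.mem_iInf, LinearMap.mem_ker] at hF ⊢
      exact h F F.2 fun y hy => hF ⟨y, hy⟩)
  obtain ⟨c, hc⟩ := (Submodule.mem_span_range_iff_exists_fun _).1 hs
  refine ⟨fun y => if hy : y ∈ Z then c ⟨y, hy⟩ else 0, fun F hF => ?_⟩
  have h1 := LinearMap.congr_fun hc ⟨F, hF⟩
  rw [LinearMap.sum_apply] at h1
  rw [← sum_coe_sort Z]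
  refine h1.symm.trans (sum_congr rfl fun y _ => ?_)
  beta_reduce
  rw [dif_pos y.2, mul_comm]
  rfl

/-- Restriction to an arbitrary subset: remove the pebbles of `P' \ P` one at a time
(`bd F` vanishes outside `Y P ⊆ Y Q` for every intermediate `Q`). -/
theorem IsDual.res' {D : Finset τ → (τ → ZMod 2) → Prop} (h : S.IsDual K D) {P P' : Finset τ}
    {F : τ → ZMod 2} (hP : P ⊆ P') (hT : P' ⊆ S.T) (hK : P'.card ≤ K) (hF : D P' F)
    (hb : ∀ y, y ∉ S.Y P → S.bd F y = 0) : D P F := by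
  induction hP' : (P' \ P).card generalizing P' with
  | zero =>
    have h1 : P' ⊆ P := sdiff_eq_empty_iff_subset.1 (card_eq_zero.1 hP')
    rwa [Subset.antisymm hP h1]
  | succ n ih =>
    obtain ⟨u, hu⟩ : (P' \ P).Nonempty := card_pos.1 (by omega)
    obtain ⟨hu1, hu2⟩ := mem_sdiff.1 hu
    have hPQ : P ⊆ P'.erase u := subset_erase.2 ⟨hP, hu2⟩
    have hc := card_erase_add_one hu1
    refine ih hPQ ((erase_subset _ _).trans hT) (by omega) ?_ ?_
    · refine h.res (u := u) (by rwa [insert_erase hu1]) (notMem_erase _ _) (by omega)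
        (by rwa [insert_erase hu1]) fun y hy => hb y fun hy' => hy (Y_mono hPQ hy')
    · rw [erase_sdiff_comm, card_erase_of_mem hu, hP']; rfl

/-- Sketch: `W P α := P ⊆ T ∧ P.card ≤ K ∧ ∀ F, D P F → ∑ y ∈ Y P, bd F y * α y = ev β F`.
`par` by `single`, `sub` by `mono` and `bd`. `ext` (for `u ∉ P`, `P' = insert u P`): `D P'` is a
`Submodule (ZMod 2)` (scalars are `0`, `1`); the linear map `L F = (bd F y)_{y ∈ Y P' \ Y P}` and the
functional `ℓ F = ev β F - ∑ y ∈ Y P, bd F y * α y` satisfy `ker L ≤ ker ℓ` by `res`; so `ℓ = φ ∘ L`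
for a functional `φ` on `(Y P' \ Y P) → ZMod 2` (lift through the range, `LinearMap.exists_extend`),
and `φ` is given by the vector `y ↦ φ (Pi.single y 1)` (`LinearMap.pi_apply_eq_sum_univ`). -/
theorem IsDual.cons {D : Finset τ → (τ → ZMod 2) → Prop} (h : S.IsDual K D)
    (h0 : ∀ F, D ∅ F → S.ev β F = 0) : S.Cons K β := by
  refine ⟨fun P α => P ⊆ S.T ∧ P.card ≤ K ∧
    ∀ F, D P F → ∑ y ∈ S.Y P, S.bd F y * α y = S.ev β F, ?_, ?_, ?_, ?_, ?_⟩
  · exact ⟨0, empty_subset _, by simp, fun F hF => by simp [h0 F hF]⟩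
  · rintro P α α' ⟨h1, h2, h3⟩ hα
    refine ⟨h1, h2, fun F hF => ?_⟩
    rw [← h3 F hF]
    exact sum_congr rfl fun y hy => by rw [hα y hy]
  · rintro P α u ⟨h1, h2, h3⟩ hu
    rw [← sum_bd_single (h1 hu) (vars_subset_Y hu), h3 _ (h.single h1 h2 hu), ev_single (h1 hu)]
  · rintro P Q α ⟨h1, h2, h3⟩ hQ
    refine ⟨hQ.trans h1, (card_le_card hQ).trans h2, fun F hF => ?_⟩
    rw [← h3 F (h.mono hQ h1 h2 hF)]
    exact sum_subset (Y_mono hQ) fun y _ hy => by rw [h.bd hF hy, zero_mul]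
  · rintro P α u ⟨h1, h2, h3⟩ - hK hu
    by_cases huP : u ∈ P
    · rw [insert_eq_of_mem huP]
      exact ⟨α, fun _ _ => rfl, h1, h2, h3⟩
    have hT : insert u P ⊆ S.T := insert_subset hu h1
    have hc : (insert u P).card ≤ K := by rw [card_insert_of_notMem huP]; omega
    obtain ⟨a, ha⟩ := exists_vec (D (insert u P)) (h.zero _ hT hc) (fun _ _ => h.add hT hc)
      (S.Y (insert u P) \ S.Y P) S.bd (fun F => S.ev β F - ∑ y ∈ S.Y P, S.bd F y * α y) bd_add
      (fun F F' => by simp only [ev_add, bd_add, add_mul, sum_add_distrib]; ring)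
      (fun F hF hb => by
        refine sub_eq_zero.2 (h3 F (h.res hT huP hK hF fun y hy => ?_)).symm
        by_cases hy' : y ∈ S.Y (insert u P)
        · exact hb y (mem_sdiff.2 ⟨hy', hy⟩)
        · exact h.bd hF hy')
    refine ⟨fun y => if y ∈ S.Y P then α y else a y, fun y hy => if_pos hy, hT, hc, fun F hF => ?_⟩
    rw [← sum_sdiff (Y_mono (subset_insert u P)), eq_comm, ← sub_eq_iff_eq_add]
    have e1 : ∑ y ∈ S.Y P, S.bd F y * (if y ∈ S.Y P then α y else a y) =
        ∑ y ∈ S.Y P, S.bd F y * α y := sum_congr rfl fun y hy => by rw [if_pos hy]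
    rw [e1, ha F hF]
    exact sum_congr rfl fun y hy => by simp only [if_neg (mem_sdiff.1 hy).2]

/-- Same linear algebra with all combinations and all variables of `Y T`. -/
theorem solvable_of_ker (h : ∀ F, (∀ u, u ∉ S.T → F u = 0) → (∀ y, S.bd F y = 0) → S.ev β F = 0) :
    S.Solvable β := by
  obtain ⟨a, ha⟩ := exists_vec (fun F : τ → ZMod 2 => ∀ u, u ∉ S.T → F u = 0) (fun _ _ => rfl)
    (fun F F' hF hF' u hu => by rw [Pi.add_apply, hF u hu, hF' u hu, add_zero]) (S.Y S.T) S.bd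
    (S.ev β) bd_add (ev_add β) (fun F hF hb => h F hF fun y => by
      by_cases hy : y ∈ S.Y S.T
      · exact hb y hy
      · exact sum_eq_zero fun u hu => if_neg fun h' => hy (vars_subset_Y hu h'))
  refine ⟨a, fun u hu => ?_⟩
  rw [← sum_bd_single hu (vars_subset_Y hu), ← ha, ev_single hu]
  intro v hv
  exact Pi.single_eq_of_ne (fun h' : v = u => hv (h' ▸ hu)) _

/-- `ev β F = ∑ y ∈ Y T, bd F y * α y` for a solution `α`. -/
theorem Solvable.ev_eq_zero (h : S.Solvable β) {F : τ → ZMod 2} (hF : ∀ y, S.bd F y = 0) :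
    S.ev β F = 0 := by
  obtain ⟨α, hα⟩ := h
  have h1 : S.ev β F = ∑ y ∈ S.Y S.T, S.bd F y * α y := by
    simp only [bd, sum_mul]
    rw [sum_comm]
    refine sum_congr rfl fun u hu => ?_
    simp only [ite_mul, zero_mul]
    rw [← sum_filter, filter_mem_eq_inter, inter_eq_right.2 (vars_subset_Y hu), ← mul_sum, hα u hu]
  simp [h1, hF]

theorem Cons.mono (h : S.Cons K β) (hK : K' ≤ K) : S.Cons K' β := by
  obtain ⟨W, h⟩ := h
  exact ⟨W, h.nonempty, h.congr, h.par, h.sub, fun h1 h2 h3 h4 => h.ext h1 h2 (h3.trans_le hK) h4⟩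

theorem IsCons.extend' {W : Finset τ → (ν → ZMod 2) → Prop} (h : S.IsCons K β W) {P : Finset τ}
    {α : ν → ZMod 2} (hα : W P α) (Q : Finset τ) (hT : Q ∪ P ⊆ S.T) (hK : (Q ∪ P).card ≤ K) :
    ∃ α', (∀ y ∈ S.Y P, α' y = α y) ∧ W (Q ∪ P) α' := by
  induction Q using Finset.induction_on with
  | empty => exact ⟨α, fun _ _ => rfl, by rwa [empty_union]⟩
  | insert u Q _ ih =>
    rw [insert_union] at hT hK ⊢
    have hT' := (subset_insert _ _).trans hT
    obtain ⟨α₁, h1, h2⟩ := ih hT' ((card_le_card (subset_insert _ _)).trans hK)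
    by_cases hu : u ∈ Q ∪ P
    · rw [insert_eq_of_mem hu]
      exact ⟨α₁, h1, h2⟩
    · rw [card_insert_of_notMem hu] at hK
      obtain ⟨α₂, h3, h4⟩ := h.ext h2 hT' hK (hT (mem_insert_self _ _))
      exact ⟨α₂, fun y hy => (h3 y (Y_mono subset_union_right hy)).trans (h1 y hy), h4⟩

/-- Pebble all tiles. -/
theorem Cons.solvable (h : S.Cons K β) (hK : S.T.card ≤ K) : S.Solvable β := by
  obtain ⟨W, h⟩ := h
  obtain ⟨α, hα⟩ := h.nonempty
  obtain ⟨α', -, h'⟩ := h.extend' hα S.T (by simp) (by simpa using hK)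
  exact ⟨α', fun u hu => h.par h' (by simpa using hu)⟩

theorem Cons.congr (h : S.Cons K β) (hβ : ∀ u ∈ S.T, β u = β' u) : S.Cons K β' := by
  obtain ⟨W, h⟩ := h
  refine ⟨fun P α => P ⊆ S.T ∧ W P α, ?_, ?_, ?_, ?_, ?_⟩
  · obtain ⟨α, hα⟩ := h.nonempty
    exact ⟨α, empty_subset _, hα⟩
  · exact fun h1 h2 => ⟨h1.1, h.congr h1.2 h2⟩
  · exact fun h1 h2 => (h.par h1.2 h2).trans (hβ _ (h1.1 h2))
  · exact fun h1 h2 => ⟨h2.trans h1.1, h.sub h1.2 h2⟩
  · intro P α u h1 h2 h3 h4
    obtain ⟨α', h5, h6⟩ := h.ext h1.2 h2 h3 h4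
    exact ⟨α', h5, insert_subset h4 h2, h6⟩

theorem Solvable.congr (h : S.Solvable β) (hβ : ∀ u ∈ S.T, β u = β' u) : S.Solvable β' := by
  obtain ⟨α, hα⟩ := h
  exact ⟨α, fun u hu => (hα u hu).trans (hβ u hu)⟩

/-- Every allowed position can be reached: a set of at most `K` valid tiles has an allowed
assignment, extending any allowed assignment of a subset. -/
theorem IsCons.extend {W : Finset τ → (ν → ZMod 2) → Prop} (h : S.IsCons K β W) {P P' : Finset τ}
    {α : ν → ZMod 2} (hα : W P α) (hP : P ⊆ P') (hT : P' ⊆ S.T) (hK : P'.card ≤ K) :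
    ∃ α', (∀ y ∈ S.Y P, α' y = α y) ∧ W P' α' := by
  have := h.extend' hα P' (by rwa [union_eq_left.2 hP]) (by rwa [union_eq_left.2 hP])
  rwa [union_eq_left.2 hP] at this

/-! ### Derived values of cuts -/

/-- The sum of the values of the variables `y i` is forced to be `c` whenever they are covered by
pebbles `t i`. -/
def Der {ι : Type} [Fintype ι] (S : Sys τ ν) (W : Finset τ → (ν → ZMod 2) → Prop) (y : ι → ν)
    (c : ZMod 2) : Prop :=
  ∀ t : ι → τ, (∀ i, t i ∈ S.T ∧ y i ∈ S.vars (t i)) → ∀ α, W (univ.image t) α → ∑ i, α (y i) = c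

/-- Swap lemma: one cover suffices. Sketch: given another cover `t` and `α` allowed for it, replace
`t i` by `t₀ i` one index at a time (induction on the finset of replaced indices): extend to
`insert (t₀ i) (image t')` (at most `card ι + 1 ≤ K` tiles; the values `α (y j)` are kept because
all `y j ∈ Y (image t')`), then restrict to `image (update t' i (t₀ i))`. -/
theorem IsCons.der_of_cover {ι : Type} [Fintype ι] [DecidableEq ι]
    {W : Finset τ → (ν → ZMod 2) → Prop} (h : S.IsCons K β W) (hK : Fintype.card ι < K)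
    {y : ι → ν} {c : ZMod 2} (t₀ : ι → τ) (ht₀ : ∀ i, t₀ i ∈ S.T ∧ y i ∈ S.vars (t₀ i))
    (hc : ∀ α, W (univ.image t₀) α → ∑ i, α (y i) = c) : S.Der W y c := by
  have key : ∀ (s : Finset ι) (t : ι → τ), (∀ i, t i ∈ S.T ∧ y i ∈ S.vars (t i)) →
      (∀ i, i ∉ s → t i = t₀ i) → ∀ α, W (univ.image t) α → ∑ i, α (y i) = c := by
    intro s
    induction s using Finset.induction_on with
    | empty =>
      intro t _ h1
      obtain rfl : t = t₀ := funext fun i => h1 i (notMem_empty i)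
      exact hc
    | insert i s _ ih =>
      intro t ht h1 α hα
      obtain ⟨α', h2, h3⟩ := h.ext hα (image_subset_iff.2 fun j _ => (ht j).1)
        (card_image_le.trans_lt (by simpa using hK)) (ht₀ i).1
      rw [← ih (Function.update t i (t₀ i)) ?_ ?_ α' (h.sub h3 ?_)]
      · exact sum_congr rfl fun j _ =>
          (h2 _ (mem_Y.2 ⟨t j, mem_image_of_mem _ (mem_univ j), (ht j).2⟩)).symm
      · intro j
        by_cases hj : j = i
        · subst hj; rw [Function.update_self]; exact ht₀ j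
        · rw [Function.update_of_ne hj]; exact ht j
      · intro j hj
        by_cases hj' : j = i
        · subst hj'; rw [Function.update_self]
        · rw [Function.update_of_ne hj']; exact h1 j (by simp [hj, hj'])
      · refine image_subset_iff.2 fun j _ => ?_
        by_cases hj : j = i
        · subst hj; rw [Function.update_self]; exact mem_insert_self _ _
        · rw [Function.update_of_ne hj]
          exact mem_insert_of_mem (mem_image_of_mem _ (mem_univ j))
  exact fun t ht => key univ t ht fun i hi => absurd (mem_univ i) hi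

/-! ### Transfer along a presentation -/

/-- `S'` presents `S`: tiles of `S'` map onto tiles of `S` (repetitions allowed) and variables are
renamed injectively. -/
structure Presents {τ' ν' : Type} [DecidableEq ν'] (S' : Sys τ' ν') (S : Sys τ ν) (φ : τ' → τ)
    (e : ν → ν') : Prop where
  mem : ∀ u ∈ S'.T, φ u ∈ S.T
  surj : ∀ u ∈ S.T, ∃ u' ∈ S'.T, φ u' = u
  inj : Function.Injective e
  vars : ∀ u ∈ S'.T, S'.vars u = (S.vars (φ u)).image e

section Presents

variable {τ' ν' : Type} [DecidableEq τ'] [DecidableEq ν'] {S' : Sys τ' ν'} {φ : τ' → τ}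
  {e : ν → ν'}

theorem Presents.sum_vars (h : Presents S' S φ e) {u : τ'} (hu : u ∈ S'.T) (α : ν' → ZMod 2) :
    ∑ y ∈ S'.vars u, α y = ∑ y ∈ S.vars (φ u), α (e y) := by
  rw [h.vars u hu, sum_image fun _ _ _ _ h' => h.inj h']

theorem Presents.mem_Y_iff (h : Presents S' S φ e) {P : Finset τ'} (hP : P ⊆ S'.T) {y : ν'} :
    y ∈ S'.Y P ↔ ∃ z ∈ S.Y (P.image φ), e z = y := by
  simp only [mem_Y, mem_image]
  constructor
  · rintro ⟨u, hu, hy⟩
    rw [h.vars u (hP hu), mem_image] at hy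
    obtain ⟨z, hz, rfl⟩ := hy
    exact ⟨z, ⟨_, ⟨u, hu, rfl⟩, hz⟩, rfl⟩
  · rintro ⟨z, ⟨_, ⟨u, hu, rfl⟩, hz⟩, rfl⟩
    exact ⟨u, hu, by rw [h.vars u (hP hu)]; exact mem_image_of_mem _ hz⟩

/-- Sketch: `→`: fix a section `ψ` of `φ` on `T`, `W P α := P ⊆ T ∧ W' (P.image ψ) (Function.extend e α 0)`
(use `congr`); `←`: `W' P α' := P ⊆ T' ∧ W (P.image φ) (α' ∘ e)`; in `ext` put
`α'' = Function.extend e α₁ α'`. -/
theorem Presents.cons_iff (h : Presents S' S φ e) : S'.Cons K (β ∘ φ) ↔ S.Cons K β := by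
  constructor
  · rintro ⟨W, hW⟩
    refine ⟨fun P α => ∃ P' ⊆ S'.T, P'.image φ = P ∧ P'.card = P.card ∧
      W P' (Function.extend e α 0), ?_, ?_, ?_, ?_, ?_⟩
    · obtain ⟨α, hα⟩ := hW.nonempty
      exact ⟨0, ∅, empty_subset _, rfl, rfl, hW.congr hα fun y hy => by simp [Y] at hy⟩
    · rintro _ α α' ⟨P', h1, rfl, h2, h3⟩ hα
      refine ⟨P', h1, rfl, h2, hW.congr h3 fun y hy => ?_⟩
      obtain ⟨z, hz, rfl⟩ := (h.mem_Y_iff h1).1 hy
      rw [h.inj.extend_apply, h.inj.extend_apply, hα z hz]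
    · rintro _ α u ⟨P', h1, rfl, h2, h3⟩ hu
      obtain ⟨u', hu', rfl⟩ := mem_image.1 hu
      have := hW.par h3 hu'
      rw [h.sum_vars (h1 hu')] at this
      simpa only [h.inj.extend_apply, Function.comp_apply] using this
    · rintro _ Q α ⟨P', h1, rfl, h2, h3⟩ hQ
      obtain ⟨Q', h4, rfl⟩ := subset_image_iff.1 hQ
      exact ⟨Q', h4.trans h1, rfl,
        (card_image_of_injOn ((card_image_iff.1 h2.symm).mono h4)).symm, hW.sub h3 h4⟩
    · rintro _ α u ⟨P', h1, rfl, h2, h3⟩ - hK hu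
      by_cases huP : u ∈ P'.image φ
      · rw [insert_eq_of_mem huP]
        exact ⟨α, fun _ _ => rfl, P', h1, rfl, h2, h3⟩
      obtain ⟨u', hu', rfl⟩ := h.surj u hu
      obtain ⟨α', h4, h5⟩ := hW.ext h3 h1 (h2 ▸ hK) hu'
      refine ⟨α' ∘ e, fun y hy => ?_, insert u' P', insert_subset hu' h1, image_insert _ _ _, ?_,
        hW.congr h5 fun y hy => ?_⟩
      · rw [Function.comp_apply, h4 _ ((h.mem_Y_iff h1).2 ⟨y, hy, rfl⟩), h.inj.extend_apply]
      · rw [card_insert_of_notMem huP, card_insert_of_notMem fun h' => huP (mem_image_of_mem _ h'),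
          h2]
      · obtain ⟨z, -, rfl⟩ := (h.mem_Y_iff (insert_subset hu' h1)).1 hy
        rw [h.inj.extend_apply, Function.comp_apply]
  · rintro ⟨W, hW⟩
    refine ⟨fun P α => P ⊆ S'.T ∧ W (P.image φ) (α ∘ e), ?_, ?_, ?_, ?_, ?_⟩
    · obtain ⟨α, hα⟩ := hW.nonempty
      exact ⟨0, empty_subset _, hW.congr hα fun y hy => by simp [Y] at hy⟩
    · rintro P α α' ⟨h1, h2⟩ hα
      exact ⟨h1, hW.congr h2 fun y hy => hα _ ((h.mem_Y_iff h1).2 ⟨y, hy, rfl⟩)⟩
    · rintro P α u ⟨h1, h2⟩ hu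
      rw [h.sum_vars (h1 hu)]
      exact hW.par h2 (mem_image_of_mem _ hu)
    · rintro P Q α ⟨h1, h2⟩ hQ
      exact ⟨hQ.trans h1, hW.sub h2 (image_subset_image hQ)⟩
    · rintro P α u ⟨h1, h2⟩ - hK hu
      obtain ⟨α', h3, h4⟩ := hW.ext h2 (image_subset_iff.2 fun v hv => h.mem v (h1 hv))
        (card_image_le.trans_lt hK) (h.mem u hu)
      refine ⟨Function.extend e α' α, fun y hy => ?_, insert_subset hu h1, ?_⟩
      · obtain ⟨z, hz, rfl⟩ := (h.mem_Y_iff h1).1 hy
        rw [h.inj.extend_apply, h3 z hz, Function.comp_apply]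
      · rw [image_insert, Function.extend_comp h.inj]
        exact h4

theorem Presents.solvable_iff (h : Presents S' S φ e) : S'.Solvable (β ∘ φ) ↔ S.Solvable β := by
  constructor
  · rintro ⟨α, hα⟩
    refine ⟨α ∘ e, fun u hu => ?_⟩
    obtain ⟨u', hu', rfl⟩ := h.surj u hu
    exact (h.sum_vars hu' α).symm.trans (hα u' hu')
  · rintro ⟨α, hα⟩
    refine ⟨Function.extend e α 0, fun u hu => ?_⟩
    rw [h.sum_vars hu]
    simpa only [h.inj.extend_apply, Function.comp_apply] using hα _ (h.mem u hu)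

/-- A `2`-consistent right-hand side agrees on tiles with the same image. -/
theorem Presents.factor (h : Presents S' S φ e) {γ : τ' → ZMod 2} (hK : 2 ≤ K) (hγ : S'.Cons K γ) :
    ∃ β : τ → ZMod 2, ∀ u ∈ S'.T, γ u = β (φ u) := by
  classical
  obtain ⟨W, hW⟩ := hγ
  obtain ⟨α, hα⟩ := hW.nonempty
  refine ⟨fun v => if hv : ∃ u ∈ S'.T, φ u = v then γ hv.choose else 0, fun u hu => ?_⟩
  have hv : ∃ u' ∈ S'.T, φ u' = φ u := ⟨u, hu, rfl⟩
  obtain ⟨h1, h2⟩ := hv.choose_spec
  beta_reduce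
  rw [dif_pos hv]
  obtain ⟨α', -, h3⟩ := hW.extend hα (empty_subset {u, hv.choose})
    (insert_subset hu (singleton_subset_iff.2 h1)) (card_le_two.trans hK)
  rw [← hW.par h3 (mem_insert_self _ _), ← hW.par h3 (mem_insert_of_mem (mem_singleton_self _)),
    h.vars _ hu, h.vars _ h1, h2]

end Presents

end Sys

end Crest.Agent.R290
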