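import Crest.Agent.R290.Game
import Crest.Agent.R290.Xor

/-!
# Row 290: parity lifts of a base graph

A base has classes `c ∈ Cl`, each with a set `S c` of variables and possibly a parity constraint
(`con c = some u`, then `S c = vars u`). A lift for the right-hand side `β` has, in class `c`, one vertex
for every assignment on `S c` meeting the constraint; two vertices are adjacent when their classes
are adjacent and their assignments agree on the common variables.
-/

set_option autoImplicit false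
set_option linter.unusedSectionVars false

namespace Crest.Agent.R290

open Finset

/-- A base graph over a system with tiles `τ` and variables `ν`. -/
structure Base (τ ν C : Type) where
  /-- the valid classes -/
  Cl : Finset C
  /-- the variables of a class -/
  S : C → Finset ν
  /-- the constraint of a class -/
  con : C → Option τ
  /-- adjacency of classes -/
  adj : C → C → Bool

variable {τ ν C : Type} [DecidableEq τ] [DecidableEq ν] [DecidableEq C]

/-- Every class is covered by a tile (its constraint, if it has one). -/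
structure Base.WF (B : Base τ ν C) (X : Sys τ ν) : Prop where
  con : ∀ c ∈ B.Cl, ∀ u, B.con c = some u → u ∈ X.T ∧ B.S c = X.vars u
  cov : ∀ c ∈ B.Cl, B.S c = ∅ ∨ ∃ u ∈ X.T, B.S c ⊆ X.vars u

/-- `G` is a lift of the base `B` for the right-hand side `β`. -/
structure Lift (B : Base τ ν C) (β : τ → ZMod 2) {V : Type} (G : V → V → Bool) where
  /-- the class of a vertex -/
  cls : V → C
  /-- the assignment of a vertex (only the values on `B.S (cls v)` matter) -/
  val : V → ν → ZMod 2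
  mem : ∀ v, cls v ∈ B.Cl
  par : ∀ v u, B.con (cls v) = some u → ∑ y ∈ B.S (cls v), val v y = β u
  inj : ∀ v w, cls v = cls w → (∀ y ∈ B.S (cls v), val v y = val w y) → v = w
  surj : ∀ c ∈ B.Cl, ∀ a : ν → ZMod 2, (∀ u, B.con c = some u → ∑ y ∈ B.S c, a y = β u) →
    ∃ v, cls v = c ∧ ∀ y ∈ B.S c, val v y = a y
  adj : ∀ v w, G v w = true ↔
    B.adj (cls v) (cls w) = true ∧ ∀ y ∈ B.S (cls v) ∩ B.S (cls w), val v y = val w y

/-- One step of a walk along classes containing the variable `y`, never entering a new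
constraint. -/
def Base.Step (B : Base τ ν C) (Good : C → Prop) (y : ν) (c c' : C) : Prop :=
  c' ∈ B.Cl ∧ Good c' ∧ B.adj c c' = true ∧ y ∈ B.S c' ∧ (B.con c' = none ∨ B.con c' = B.con c)

/-- Every tile has a representative class, from which every variable `y` of the tile can be carried
to the root class of `y`, whose only variable is `y`. -/
structure Base.Paths (B : Base τ ν C) (X : Sys τ ν) (Good : C → Prop) (rep : τ → C)
    (root : ν → C) : Prop where
  rep_mem : ∀ u ∈ X.T, rep u ∈ B.Cl ∧ Good (rep u) ∧ B.con (rep u) = some u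
  ne : ∀ u ∈ X.T, (X.vars u).Nonempty
  root_S : ∀ u ∈ X.T, ∀ y ∈ X.vars u, B.S (root y) = {y}
  path : ∀ u ∈ X.T, ∀ y ∈ X.vars u, Relation.ReflTransGen (B.Step Good y) (rep u) (root y)

variable {B : Base τ ν C} {X : Sys τ ν} {β β' : τ → ZMod 2} {V W : Type} [DecidableEq V]
  [DecidableEq W] {G : V → V → Bool} {H : W → W → Bool} {K : ℕ}

/-- Relabel the vertices of a lift. -/
def Lift.map {V' : Type} (L : Lift B β G) (e : V' ≃ V) : Lift B β fun a b => G (e a) (e b) where
  cls v := L.cls (e v)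
  val v := L.val (e v)
  mem v := L.mem _
  par v := L.par _
  inj v w h h' := e.injective (L.inj _ _ h h')
  surj c hc a ha := by
    obtain ⟨v, h₁, h₂⟩ := L.surj c hc a ha
    exact ⟨e.symm v, by simpa using h₁, by simpa using h₂⟩
  adj v w := L.adj _ _

/-- Shifting by one assignment per class: if `α c` solves the constraint of `c` for `β + β'`, the
map `v ↦` the vertex of `H` in class `cls v` with values `val v + α (cls v)` is a bijection. -/
theorem Lift.exists_shift (L : Lift B β G) (L' : Lift B β' H) (α : C → ν → ZMod 2)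
    (hα : ∀ c ∈ B.Cl, ∀ u, B.con c = some u → ∑ y ∈ B.S c, α c y = β u + β' u) :
    ∃ f : V ≃ W, ∀ v, L'.cls (f v) = L.cls v ∧
      ∀ y ∈ B.S (L.cls v), L'.val (f v) y = L.val v y + α (L.cls v) y := by
  have h1 : ∀ v, ∃ w, L'.cls w = L.cls v ∧
      ∀ y ∈ B.S (L.cls v), L'.val w y = L.val v y + α (L.cls v) y := fun v =>
    L'.surj _ (L.mem v) (fun y => L.val v y + α (L.cls v) y) fun u hu => by
      rw [sum_add_distrib, L.par v u hu, hα _ (L.mem v) u hu, ← add_assoc, CharTwo.add_self_eq_zero,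
        zero_add]
  have h2 : ∀ w, ∃ v, L.cls v = L'.cls w ∧
      ∀ y ∈ B.S (L'.cls w), L.val v y = L'.val w y + α (L'.cls w) y := fun w =>
    L.surj _ (L'.mem w) (fun y => L'.val w y + α (L'.cls w) y) fun u hu => by
      rw [sum_add_distrib, L'.par w u hu, hα _ (L'.mem w) u hu, add_comm (β u), ← add_assoc,
        CharTwo.add_self_eq_zero, zero_add]
  choose f hf hf' using h1
  choose g hg hg' using h2
  refine ⟨⟨f, g, fun v => L.inj _ _ ((hg _).trans (hf v)) fun y hy => ?_,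
    fun w => L'.inj _ _ ((hf _).trans (hg w)) fun y hy => ?_⟩, fun v => ⟨hf v, hf' v⟩⟩
  · rw [hg] at hy
    rw [hg' _ y hy]
    rw [hf] at hy ⊢
    rw [hf' _ y hy, add_assoc, CharTwo.add_self_eq_zero, add_zero]
  · rw [hf] at hy
    rw [hf' _ y hy]
    rw [hg] at hy ⊢
    rw [hg' _ y hy, add_assoc, CharTwo.add_self_eq_zero, add_zero]

/-- two pairs shifted by the same assignment have the same adjacency -/
theorem Lift.adj_shift (L : Lift B β G) (L' : Lift B β' H) {α : ν → ZMod 2} {v v' : V} {w w' : W}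
    (h1 : L'.cls w = L.cls v) (h2 : L'.cls w' = L.cls v')
    (h3 : ∀ y ∈ B.S (L.cls v), L'.val w y = L.val v y + α y)
    (h4 : ∀ y ∈ B.S (L.cls v'), L'.val w' y = L.val v' y + α y) : G v v' = H w w' := by
  rw [Bool.eq_iff_iff, L.adj, L'.adj, h1, h2]
  refine and_congr_right fun _ => forall₂_congr fun y hy => ?_
  rw [h3 y (mem_inter.1 hy).1, h4 y (mem_inter.1 hy).2, add_left_inj]

/-- Duplicator's side. Sketch: choose `cov : C → Option τ` (the constraint if there is one, else a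
covering tile, else `none` when `S c = ∅`). `F p` iff all pairs of `p` have equal classes and some
`α` with `W (P p) α`, `P p` the set of covering tiles of the classes in `p`, has
`val' w y = val v y + α y` on `S (cls v)` for all `(v, w) ∈ p`. For `ext`, extend `α` to `α c` on
`insert (cov c) (P p)` for every class `c` and use `exists_shift`. The last clause records that the
family preserves classes. -/
theorem Lift.isBP (hB : B.WF X) (L : Lift B β G) (L' : Lift B β' H) (h : X.Cons K (β + β')) :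
    ∃ F, IsBP K G H F ∧ ∀ p, F p → ∀ a ∈ p, L'.cls a.2 = L.cls a.1 := by
  obtain ⟨Ws, hW⟩ := h
  have hcov : ∀ c, ∃ o : Option τ, c ∈ B.Cl → (∀ u, B.con c = some u → o = some u) ∧
      (∀ u, o = some u → u ∈ X.T ∧ B.S c ⊆ X.vars u) ∧ (o = none → B.S c = ∅) := by
    intro c
    by_cases hc : c ∈ B.Cl
    swap
    · exact ⟨none, fun h => absurd h hc⟩
    cases hu : B.con c with
    | some u =>
      refine ⟨some u, fun _ => ⟨fun _ h => h, ?_, fun h => by cases h⟩⟩
      rintro _ ⟨⟩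
      exact ⟨(hB.con c hc u hu).1, (hB.con c hc u hu).2.subset⟩
    | none =>
      rcases hB.cov c hc with h | ⟨u, h1, h2⟩
      · exact ⟨none, fun _ => ⟨fun _ h => (by cases h), fun _ h => (by cases h), fun _ => h⟩⟩
      · refine ⟨some u, fun _ => ⟨fun _ h => (by cases h), ?_, fun h => by cases h⟩⟩
        rintro _ ⟨⟩
        exact ⟨h1, h2⟩
  choose cov hcov using hcov
  let P : Finset (V × W) → Finset τ := fun p => p.biUnion fun a => (cov (L.cls a.1)).toFinset
  have hP : ∀ p u, u ∈ P p ↔ ∃ a ∈ p, cov (L.cls a.1) = some u := fun p u => by simp [P]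
  have hPT : ∀ p, P p ⊆ X.T := fun p u hu => by
    obtain ⟨a, -, h⟩ := (hP p u).1 hu
    exact ((hcov _ (L.mem _)).2.1 u h).1
  have hPc : ∀ p, (P p).card ≤ p.card := fun p => by
    refine (card_biUnion_le_card_mul _ _ 1 fun a _ => ?_).trans (mul_one _).le
    cases cov (L.cls a.1) <;> simp
  have hPY : ∀ p, ∀ a ∈ p, ∀ y ∈ B.S (L.cls a.1), y ∈ X.Y (P p) := fun p a ha y hy => by
    cases hu : cov (L.cls a.1) with
    | none => rw [(hcov _ (L.mem _)).2.2 hu] at hy; simp at hy
    | some u => exact Sys.mem_Y.2 ⟨u, (hP p u).2 ⟨a, ha, hu⟩, ((hcov _ (L.mem _)).2.1 u hu).2 hy⟩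
  refine ⟨fun p => (∀ a ∈ p, L'.cls a.2 = L.cls a.1) ∧ ∃ α, Ws (P p) α ∧
    ∀ a ∈ p, ∀ y ∈ B.S (L.cls a.1), L'.val a.2 y = L.val a.1 y + α y,
    ⟨?_, ?_, ?_, ?_, ?_⟩, fun p hp => hp.1⟩
  · obtain ⟨α, hα⟩ := hW.nonempty
    exact ⟨by simp, α, hα, by simp⟩
  · rintro p q ⟨h1, α, h2, h3⟩ hq
    exact ⟨fun a ha => h1 a (hq ha), α, hW.sub h2 (biUnion_subset_biUnion_of_subset_left _ hq),
      fun a ha => h3 a (hq ha)⟩
  · rintro p a b ⟨h1, α, -, h3⟩ ha hb
    refine ⟨fun h => L'.inj _ _ (by rw [h1 a ha, h1 b hb, h]) fun y hy => ?_,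
      fun h => L.inj _ _ (by rw [← h1 a ha, ← h1 b hb, h]) fun y hy => ?_⟩
    · rw [h1 a ha] at hy
      rw [h3 a ha y hy, h3 b hb y (h ▸ hy), h]
    · have h4 := h3 a ha y hy
      rw [← h1 a ha, h, h1 b hb] at hy
      rw [h, h3 b hb y hy] at h4
      exact (add_right_cancel h4).symm
  · rintro p a b ⟨h1, α, -, h3⟩ ha hb
    exact L.adj_shift L' (h1 a ha) (h1 b hb) (h3 a ha) (h3 b hb)
  · rintro p ⟨h1, α, h2, h3⟩ hK
    have hx : ∀ c, ∃ α', c ∈ B.Cl → (∀ y ∈ X.Y (P p), α' y = α y) ∧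
        Ws ((cov c).toFinset ∪ P p) α' := by
      intro c
      by_cases hc : c ∈ B.Cl
      swap
      · exact ⟨α, fun h => absurd h hc⟩
      cases hu : cov c with
      | none => exact ⟨α, fun _ => ⟨fun _ _ => rfl, by simpa using h2⟩⟩
      | some u =>
        obtain ⟨α', h4, h5⟩ := hW.ext h2 (hPT p) ((hPc p).trans_lt hK) ((hcov c hc).2.1 u hu).1
        exact ⟨α', fun _ => ⟨h4, by simpa using h5⟩⟩
    choose α' hα' using hx
    obtain ⟨f, hf⟩ := L.exists_shift L' α' fun c hc u hu => by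
      rw [(hB.con c hc u hu).2]
      exact hW.par (hα' c hc).2 (by simp [(hcov c hc).1 u hu])
    refine ⟨f, fun v => ⟨?_, α' (L.cls v), ?_, ?_⟩⟩
    · rw [forall_mem_insert]; exact ⟨(hf v).1, h1⟩
    · simp only [P, biUnion_insert]; exact (hα' _ (L.mem v)).2
    · rw [forall_mem_insert]
      refine ⟨(hf v).2, fun a ha y hy => ?_⟩
      rw [h3 a ha y hy, (hα' _ (L.mem v)).1 y (hPY p a ha y hy)]

theorem Lift.bp (hB : B.WF X) (L : Lift B β G) (L' : Lift B β' H) (h : X.Cons K (β + β')) :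
    BP K G H :=
  let ⟨F, hF, _⟩ := L.isBP hB L' h
  ⟨F, hF⟩

/-- Shift by a global solution. -/
theorem Lift.iso (hB : B.WF X) (L : Lift B β G) (L' : Lift B β' H) (h : X.Solvable (β + β')) :
    ∃ e : V ≃ W, ∀ a b, H (e a) (e b) = G a b := by
  obtain ⟨α, hα⟩ := h
  obtain ⟨f, hf⟩ := L.exists_shift L' (fun _ => α) fun c hc u hu => by
    rw [(hB.con c hc u hu).2]; exact hα u (hB.con c hc u hu).1
  exact ⟨f, fun a b => (L.adj_shift L' (hf a).1 (hf b).1 (hf a).2 (hf b).2).symm⟩

theorem Lift.walk (hB : B.WF X) {Good : C → Prop} (L : Lift B β G) (L' : Lift B β' H) (hK : 3 ≤ K)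
    {F : Finset (V × W) → Prop} (hF : IsBP K G H F)
    (hsep : ∀ p, F p → ∀ a ∈ p, Good (L.cls a.1) → L'.cls a.2 = L.cls a.1) {y : ν} {c c' : C}
    (h : Relation.ReflTransGen (B.Step Good y) c c') {a b : V × W} (hab : F {a, b})
    (h1 : L.cls a.1 = c) (h2 : L'.cls a.2 = c) (hy : y ∈ B.S c) :
    ∃ a' : V × W, F {a', b} ∧ L.cls a'.1 = c' ∧ L'.cls a'.2 = c' ∧ y ∈ B.S c' ∧
      L.val a'.1 y + L'.val a'.2 y = L.val a.1 y + L'.val a.2 y := by
  induction h with
  | refl => exact ⟨a, hab, h1, h2, hy, rfl⟩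
  | @tail c₁ c₂ _ hs ih =>
    obtain ⟨a₁, hF1, rfl, h4, h5, h6⟩ := ih
    obtain ⟨hc, hg, hadj, hy2, hcon⟩ := hs
    obtain ⟨v, rfl, hv⟩ := L.surj c₂ hc (L.val a₁.1) fun u hu => by
      have hu' : B.con (L.cls a₁.1) = some u := by
        rcases hcon with h | h
        · rw [h] at hu; cases hu
        · rw [← h, hu]
      rw [(hB.con _ hc u hu).2, ← (hB.con _ (L.mem _) u hu').2]
      exact L.par _ u hu'
    obtain ⟨f, hf⟩ := hF.ext hF1 (card_le_two.trans_lt hK)
    have h7 := hsep _ (hf v) _ (mem_insert_self _ _) hg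
    have h8 : G a₁.1 v = true := (L.adj _ _).2 ⟨hadj, fun z hz => (hv z (mem_inter.1 hz).2).symm⟩
    have h9 := hF.adj (a := a₁) (b := (v, f v)) (hf v) (by simp) (mem_insert_self _ _)
    have h10 := ((L'.adj _ _).1 (h9.symm.trans h8)).2 y (by
      rw [h4, h7]; exact mem_inter.2 ⟨h5, hy2⟩)
    refine ⟨(v, f v), hF.sub (hf v) (insert_subset_insert _ (subset_insert _ _)), rfl, h7, hy2, ?_⟩
    rw [← h6, h10, hv y hy2]

/-- Spoiler's side. Write `sh a y = L.val a.1 y + L'.val a.2 y` for a pair `a`.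
Key claim: if `F p`, `a, b ∈ p`, `cls a.1 = rep u`, `cls b.1 = rep u'`, `y ∈ vars u ∩ vars u'`, then
`sh a y = sh b y`. Proof: restrict to `{a, b}`; keep `b` and walk `a` along the path of `y`: given
`F {a, b}` with `y ∈ S (cls a.1)`, `cls a.2 = cls a.1` and a `Step` to `c'`, pick (`surj`, with the
assignment `val a.1`; the constraint holds because it is absent or the same, with the same `S` by `WF`)
a neighbour `v'` of `a.1` in class `c'`, take `f` from `ext` (`K ≥ 3`), then `f v'` is adjacent to `a.2`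
and in class `c'` (`hsep`), so `sh (v', f v') y = sh a y`, and `F {(v', f v'), b}`. Then walk `b`. At the
root both pairs are in the class `root y` with `S = {y}`, and `eq` + `inj` give equal shifts in `ZMod 2`.
Strategy: `W P α` iff `P ⊆ T` and for some choice `a : τ → V × W` (or a position `p` with
`p.card ≤ P.card`) with `F (P.image a)`: for all `u ∈ P`, `cls (a u).1 = rep u` and
`α y = sh (a u) y` on `vars u`. For `ext` pick any vertex of class `rep u` (the class is nonempty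
because `vars u` is nonempty). -/
theorem Lift.cons (hB : B.WF X) {Good : C → Prop} {rep : τ → C} {root : ν → C}
    (hP : B.Paths X Good rep root) (L : Lift B β G) (L' : Lift B β' H) (hK : 3 ≤ K)
    {F : Finset (V × W) → Prop} (hF : IsBP K G H F)
    (hsep : ∀ p, F p → ∀ a ∈ p, Good (L.cls a.1) → L'.cls a.2 = L.cls a.1) :
    X.Cons K (β + β') := by
  have hS : ∀ u ∈ X.T, B.S (rep u) = X.vars u := fun u hu =>
    (hB.con _ (hP.rep_mem u hu).1 u (hP.rep_mem u hu).2.2).2
  have hc' : ∀ p, F p → ∀ a ∈ p, ∀ u ∈ X.T, L.cls a.1 = rep u → L'.cls a.2 = rep u :=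
    fun p hp a ha u hu h => (hsep p hp a ha (h ▸ (hP.rep_mem u hu).2.1)).trans h
  have key : ∀ p, F p → ∀ a ∈ p, ∀ b ∈ p, ∀ u ∈ X.T, ∀ u' ∈ X.T, L.cls a.1 = rep u →
      L.cls b.1 = rep u' → ∀ y ∈ X.vars u, y ∈ X.vars u' →
      L.val a.1 y + L'.val a.2 y = L.val b.1 y + L'.val b.2 y := by
    intro p hp a ha b hb u hu u' hu' h1 h2 y hy hy'
    obtain ⟨a', h3, h4, h5, -, h6⟩ := L.walk hB L' hK hF hsep (hP.path u hu y hy) (a := a) (b := b)
      (hF.sub hp (by simp [insert_subset_iff, ha, hb])) h1 (hc' p hp a ha u hu h1) (hS u hu ▸ hy)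
    obtain ⟨b', h7, h8, h9, -, h10⟩ := L.walk hB L' hK hF hsep (hP.path u' hu' y hy') (a := b)
      (b := a') (pair_comm a' b ▸ h3) h2 (hc' p hp b hb u' hu' h2) (hS u' hu' ▸ hy')
    have hr := hP.root_S u hu y hy
    have e := hF.eq (a := a') (b := b') h7 (by simp) (by simp)
    have e1 : a'.1 = b'.1 ↔ L.val a'.1 y = L.val b'.1 y :=
      ⟨fun h => by rw [h], fun h => L.inj _ _ (h4.trans h8.symm) (by simpa [h4, hr] using h)⟩
    have e2 : a'.2 = b'.2 ↔ L'.val a'.2 y = L'.val b'.2 y :=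
      ⟨fun h => by rw [h], fun h => L'.inj _ _ (h5.trans h9.symm) (by simpa [h5, hr] using h)⟩
    rw [← h6, ← h10]
    exact (by decide : ∀ x x' z z' : ZMod 2, (x = x' ↔ z = z') → x + z = x' + z') _ _ _ _
      (e1.symm.trans (e.trans e2))
  refine ⟨fun P α => P ⊆ X.T ∧ ∃ p, F p ∧ p.card ≤ P.card ∧ ∀ u ∈ P, ∃ a ∈ p,
    L.cls a.1 = rep u ∧ ∀ y ∈ X.vars u, α y = L.val a.1 y + L'.val a.2 y, ?_, ?_, ?_, ?_, ?_⟩
  · exact ⟨0, empty_subset _, ∅, hF.empty, le_rfl, by simp⟩
  · rintro P α α' ⟨h1, p, h2, h3, h4⟩ h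
    refine ⟨h1, p, h2, h3, fun u hu => ?_⟩
    obtain ⟨a, ha, h5, h6⟩ := h4 u hu
    exact ⟨a, ha, h5, fun y hy => (h y (Sys.mem_Y.2 ⟨u, hu, hy⟩)).trans (h6 y hy)⟩
  · rintro P α u ⟨h1, p, h2, -, h4⟩ hu
    obtain ⟨a, ha, h5, h6⟩ := h4 u hu
    have h7 := hc' p h2 a ha u (h1 hu) h5
    have h8 := L.par a.1 u (h5 ▸ (hP.rep_mem u (h1 hu)).2.2)
    have h9 := L'.par a.2 u (h7 ▸ (hP.rep_mem u (h1 hu)).2.2)
    rw [h5, hS u (h1 hu)] at h8
    rw [h7, hS u (h1 hu)] at h9
    rw [sum_congr rfl h6, sum_add_distrib, h8, h9, Pi.add_apply]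
  · rintro P Q α ⟨h1, p, h2, -, h4⟩ hQ
    choose a ha h5 using h4
    refine ⟨hQ.trans h1, Q.attach.image fun u => a u.1 (hQ u.2), hF.sub h2 fun b hb => ?_,
      card_image_le.trans card_attach.le, fun u hu =>
        ⟨a u (hQ hu), mem_image.2 ⟨⟨u, hu⟩, mem_attach _ _, rfl⟩, h5 u _⟩⟩
    obtain ⟨u, -, rfl⟩ := mem_image.1 hb
    exact ha _ _
  · rintro P α u ⟨h1, p, h2, h3, h4⟩ - hPK hu
    by_cases huP : u ∈ P
    · rw [insert_eq_of_mem huP]
      exact ⟨α, fun _ _ => rfl, h1, p, h2, h3, h4⟩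
    obtain ⟨f, hf⟩ := hF.ext h2 (h3.trans_lt hPK)
    obtain ⟨y₀, hy₀⟩ := hP.ne u hu
    obtain ⟨v, hv, -⟩ := L.surj (rep u) (hP.rep_mem u hu).1 (Pi.single y₀ (β u)) fun u' hu' => by
      rw [(hP.rep_mem u hu).2.2] at hu'
      cases hu'
      rw [hS u hu, sum_pi_single', if_pos hy₀]
    have hag : ∀ y ∈ X.Y P,
        (if y ∈ X.vars u then L.val v y + L'.val (f v) y else α y) = α y := by
      intro y hy
      split_ifs with hyu
      · obtain ⟨u', hu', hy'⟩ := Sys.mem_Y.1 hy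
        obtain ⟨a, ha, h5, h6⟩ := h4 u' hu'
        rw [h6 y hy']
        exact key _ (hf v) _ (mem_insert_self _ _) a (mem_insert_of_mem ha) u hu u' (h1 hu') hv h5
          y hyu hy'
      · rfl
    refine ⟨fun y => if y ∈ X.vars u then L.val v y + L'.val (f v) y else α y, hag,
      insert_subset hu h1, _, hf v, ?_, ?_⟩
    · rw [card_insert_of_notMem huP]
      exact (card_insert_le _ _).trans (Nat.succ_le_succ h3)
    · rw [forall_mem_insert]
      refine ⟨⟨_, mem_insert_self _ _, hv, fun y hy => if_pos hy⟩, fun u' hu' => ?_⟩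
      obtain ⟨a, ha, h5, h6⟩ := h4 u' hu'
      exact ⟨a, mem_insert_of_mem ha, h5, fun y hy =>
        (hag y (Sys.mem_Y.2 ⟨u', hu', hy⟩)).trans (h6 y hy)⟩

end Crest.Agent.R290
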