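import Crest.Agent.R290.BPAlg
import Crest.Prelude.Def_WL

/-! Row 290: parsing and elementary tests for the EXPTIME memberships. -/

set_option autoImplicit false

namespace Crest.Agent.R290

open Crest.Agent.Lib.PolyTime Crest.WLRefine Crest.Enc

section PTs

variable {α : Type} [Enc α]

@[fun_prop] theorem mb_listEq {l l' : α → List Bool} (hl : PT l) (hl' : PT l') :
    PT fun a => decide (l a = l' a) :=
  (show PT fun a => decide ((l a).length = (l' a).length) &&
      (List.range (l a).length).all fun i => decide ((l a).getD i false = (l' a).getD i false)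
    by fun_prop).of_eq fun a => by
    rw [Bool.eq_iff_iff]
    simp only [Bool.and_eq_true, decide_eq_true_eq, List.all_eq_true, List.mem_range]
    refine ⟨fun ⟨h1, h2⟩ => List.ext_getElem h1 fun i h3 h4 => ?_, fun h => ⟨by rw [h], by
      intro i _; rw [h]⟩⟩
    have := h2 i h3
    rwa [List.getD_eq_getElem _ _ h3, List.getD_eq_getElem _ _ h4] at this

@[fun_prop] theorem mb_testBit {s i : α → ℕ} (hs : PT s) (hi : PT i) :
    PT fun a => (s a).testBit (i a) :=
  (show PT fun a => decide (((s a : ℕ) : ℤ) / 2 ^ i a % 2 = 1) by fun_prop).of_eq fun a => by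
    rw [Nat.testBit_eq_decide_div_mod_eq]
    congr 1
    norm_cast

end PTs

/-- The row-major bit list of a matrix. -/
def mbBits {n : ℕ} (G : Fin n → Fin n → Bool) : List Bool :=
  (List.finRange n).flatMap fun v => (List.finRange n).map fun w => G v w

theorem mb_length_flatMap {β : Type} (n : ℕ) (l : List β) (f : β → List Bool)
    (hf : ∀ b, (f b).length = n) : (l.flatMap f).length = l.length * n := by
  induction l with
  | nil => simp
  | cons b l ih => rw [List.flatMap_cons, List.length_append, ih, hf, List.length_cons]; ring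

theorem mb_getD_flatMap {β : Type} (n : ℕ) (l : List β) (f : β → List Bool)
    (hf : ∀ b, (f b).length = n) (r : List Bool) (i j : ℕ) (hi : i < l.length) (hj : j < n) :
    (l.flatMap f ++ r).getD (i * n + j) false = (f l[i]).getD j false := by
  induction l generalizing i with
  | nil => simp at hi
  | cons b l ih =>
    rw [List.flatMap_cons, List.append_assoc]
    cases i with
    | zero =>
      rw [Nat.zero_mul, Nat.zero_add, List.getD_append _ _ _ _ (by rw [hf]; exact hj)]
      rfl
    | succ i =>
      rw [List.getD_append_right _ _ _ _ (by rw [hf]; nlinarith), hf,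
        show (i + 1) * n + j - n = i * n + j by rw [Nat.succ_mul]; omega,
        ih i (by simpa using hi)]
      rfl

theorem mbBits_length {n : ℕ} (G : Fin n → Fin n → Bool) : (mbBits G).length = n * n := by
  rw [mbBits, mb_length_flatMap n _ _ (by simp), List.length_finRange]

theorem mat_mbBits {n : ℕ} (G : Fin n → Fin n → Bool) (r : List Bool) :
    mat n (mbBits G ++ r) = G := by
  funext i j
  rw [mat, mbBits, mb_getD_flatMap n _ _ (by simp) r i j (by simp) j.2]
  simp

/-- The code of `mat n g`. -/
def mbCode (n : ℕ) (g : List Bool) : List Bool :=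
  natCode n ++ (List.range n).flatMap fun v => (List.range n).map fun w => g.getD (v * n + w) false

theorem mb_range_eq (n : ℕ) : List.range n = (List.finRange n).map Fin.val := by simp

theorem mbCode_eq (n : ℕ) (g : List Bool) : mbCode n g = adjMatrixCode (mat n g) := by
  rw [mbCode, adjMatrixCode, mb_range_eq, List.flatMap_map]
  simp only [List.map_map]
  rfl

@[fun_prop] theorem PT_mbCode {α : Type} [Enc α] {n : α → ℕ} {g : α → List Bool} (hn : PT n)
    (hg : PT g) : PT fun a => mbCode (n a) (g a) :=
  PT.append hn.natCode (by fun_prop)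

/-- The order read from a graph code. -/
def mbN (y : List Bool) : ℕ := min (readNat y).1.toNat y.length

@[fun_prop] theorem PT_mbN {α : Type} [Enc α] {y : α → List Bool} (hy : PT y) :
    PT fun a => mbN (y a) := PT.toNat_min (by fun_prop) (by fun_prop)

/-- Read a graph code: the order, the bits from the matrix on, the bits after the matrix. -/
def mbRead (y : List Bool) : ℕ × List Bool × List Bool :=
  (mbN y, (readNat y).2, (readNat y).2.drop (mbN y * mbN y))

@[fun_prop] theorem PT_mbRead {α : Type} [Enc α] {y : α → List Bool} (hy : PT y) :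
    PT fun a => mbRead (y a) := by
  unfold mbRead; fun_prop

theorem mbRead_code {n : ℕ} (G : Fin n → Fin n → Bool) (r : List Bool) :
    mbRead (adjMatrixCode G ++ r) = (n, mbBits G ++ r, r) := by
  have h1 : readNat (adjMatrixCode G ++ r) = ((n : ℤ), mbBits G ++ r) := by
    rw [← readNat_natCode, ← List.append_assoc]; rfl
  have h2 : n ≤ (adjMatrixCode G ++ r).length := by
    have : (adjMatrixCode G).length = (natCode n).length + n * n := by
      rw [← mbBits_length G, ← List.length_append]; rfl
    rw [List.length_append, this]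
    nlinarith [Nat.le_mul_self n]
  rw [mbRead, mbN, h1, Int.toNat_natCast, min_eq_left h2, List.drop_left' (mbBits_length G)]

theorem mb_all_range (n : ℕ) (f : ℕ → Bool) :
    (List.range n).all f = true ↔ ∀ i : Fin n, f i = true := by
  simp only [List.all_eq_true, List.mem_range]
  exact ⟨fun h i => h i i.2, fun h i hi => h ⟨i, hi⟩⟩

/-- Test for `IsSimple`. -/
def mbSimple (n : ℕ) (g : List Bool) : Bool :=
  ((List.range n).all fun v => (List.range n).all fun w =>
    decide (g.getD (v * n + w) false = g.getD (w * n + v) false)) &&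
  (List.range n).all fun v => decide (g.getD (v * n + v) false = false)

@[fun_prop] theorem PT_mbSimple {α : Type} [Enc α] {n : α → ℕ} {g : α → List Bool} (hn : PT n)
    (hg : PT g) : PT fun a => mbSimple (n a) (g a) := by
  unfold mbSimple; fun_prop

theorem mbSimple_iff (n : ℕ) (g : List Bool) : mbSimple n g = true ↔ IsSimple (mat n g) := by
  simp only [mbSimple, Bool.and_eq_true, mb_all_range, decide_eq_true_eq]
  rfl

/-- Test for `MaxDegLeThree`. -/
def mbDeg (n : ℕ) (g : List Bool) : Bool :=
  (List.range n).all fun v =>
    decide (((List.range n).filter fun w => g.getD (v * n + w) false).length ≤ 3)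

@[fun_prop] theorem PT_mbDeg {α : Type} [Enc α] {n : α → ℕ} {g : α → List Bool} (hn : PT n)
    (hg : PT g) : PT fun a => mbDeg (n a) (g a) := by
  unfold mbDeg; fun_prop

theorem mbDeg_iff (n : ℕ) (g : List Bool) : mbDeg n g = true ↔ MaxDegLeThree (mat n g) := by
  simp only [mbDeg, mb_all_range, decide_eq_true_eq]
  refine forall_congr' fun v => ?_
  rw [mb_range_eq, List.filter_map, List.length_map, Fin.univ_def, Finset.card_def,
    Finset.filter_val]
  simp only [Multiset.filter_coe, Multiset.coe_card, Bool.decide_eq_true]
  rfl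

/-- Test for connectedness, valid if `2 ^ n ≤ pad`. -/
def mbConn (pad n : ℕ) (g : List Bool) : Bool :=
  decide (0 < n) && (List.range pad).all fun s =>
    !((List.range n).all fun v => (List.range n).all fun w =>
      !g.getD (v * n + w) false || decide (s.testBit v = s.testBit w)) ||
    (List.range n).all fun v => (List.range n).all fun w => decide (s.testBit v = s.testBit w)

@[fun_prop] theorem PT_mbConn {α : Type} [Enc α] {p n : α → ℕ} {g : α → List Bool} (hp : PT p)
    (hn : PT n) (hg : PT g) : PT fun a => mbConn (p a) (n a) (g a) := by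
  unfold mbConn; fun_prop

theorem mb_connected_iff {n : ℕ} (G : Fin n → Fin n → Bool) : (adjGraph G).Connected ↔
    0 < n ∧ ∀ S : Fin n → Bool, (∀ v w, G v w = true → S v = S w) → ∀ v w, S v = S w := by
  classical
  rw [SimpleGraph.connected_iff, Fin.pos_iff_nonempty, and_comm]
  refine and_congr Iff.rfl ⟨fun h S hS v w => ?_, fun h v w => ?_⟩
  · obtain ⟨p⟩ := h v w
    induction p with
    | nil => rfl
    | cons ha _ ih =>
      rw [← ih]
      rcases ((SimpleGraph.fromRel_adj _ _ _).1 ha).2 with e | e
      · exact hS _ _ e
      · exact (hS _ _ e).symm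
  · have := h (fun z => decide ((adjGraph G).Reachable v z)) (fun a b hab => by
      by_cases e : a = b
      · rw [e]
      · have ha : (adjGraph G).Adj a b := (SimpleGraph.fromRel_adj _ _ _).2 ⟨e, Or.inl hab⟩
        exact decide_eq_decide.2 ⟨fun h => h.trans ha.reachable, fun h => h.trans ha.symm.reachable⟩)
      v w
    simpa using this

theorem mbConn_iff {pad n : ℕ} (hp : 2 ^ n ≤ pad) (g : List Bool) :
    mbConn pad n g = true ↔ (adjGraph (mat n g)).Connected := by
  rw [mb_connected_iff]
  simp only [mbConn, Bool.and_eq_true, decide_eq_true_eq, Bool.or_eq_true, mb_all_range,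
    Bool.not_eq_true', ← Bool.not_eq_true, ← imp_iff_not_or]
  refine and_congr Iff.rfl ⟨fun h S hS => ?_, fun h s hs => h (fun v => (s : ℕ).testBit v) hs⟩
  simpa [mat] using h ⟨Nat.ofBits S, (Nat.ofBits_lt_two_pow S).trans_le hp⟩
    (by simpa [mat] using hS)

/-- The matrix bits of the number `s`. -/
def mbOf (n s : ℕ) : List Bool := (List.range (n * n)).map fun i => s.testBit i

@[fun_prop] theorem PT_mbOf {α : Type} [Enc α] {n s : α → ℕ} (hn : PT n) (hs : PT s) :
    PT fun a => mbOf (n a) (s a) := by
  unfold mbOf; fun_prop

theorem exists_mbOf {n : ℕ} (H : Fin n → Fin n → Bool) : ∃ s < 2 ^ (n * n), mat n (mbOf n s) = H := by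
  refine ⟨Nat.ofBits fun i : Fin (n * n) => (mbBits H).getD i false, Nat.ofBits_lt_two_pow _, ?_⟩
  conv_rhs => rw [← mat_mbBits H [], List.append_nil]
  funext i j
  have h : i * n + j < n * n := by
    have := i.2; have := j.2; nlinarith
  rw [mat, mat, mbOf, List.getD_eq_getElem _ _ (by simpa using h)]
  simp [h]

end Crest.Agent.R290
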