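import Crest.Agent.R290.PLHom

/-!
# Row 290 (S0438): early colours determine the homomorphism count

For a simple graph `G` and `v : Fin t → V` let
`ext G v = if (∀ i j, i ≠ j → G (v i) (v j)) then ∏ h : Helper t, #{z | G (v h₁) z ∧ G (v h₂) z ∧ G (v h₃) z} else 0`.
Then `homCount t G = ∑ v, ext G v` (split `TV t → V` by `Equiv.sumArrowEquivProdArrow`,
`Fintype.card_piFinset`).
* Separate, `t = k ≥ 4`: `ext G v = Φ (scolor G k 1 v)` for one function `Φ : SColor k 1 → ℕ`: the atomic type
  decides the clique condition, and for a helper `h` pick `m ∉ {h₁, h₂, h₃}`; the number of common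
  neighbours is the number of elements `c` of the `m`-th multiset with `c.2 h₁ m`, `c.2 h₂ m`, `c.2 h₃ m`.
* Joint, `t = k + 1`: `∑ z, ext G (Fin.snoc v z) = Φ (jcolor G k 2 v)`: the second component is the
  multiset over `z` of the vectors `i ↦ jcolor G k 1 (update v i z)`, and `ext G (snoc v z)` is a function of
  this vector and of `jcolor G k 1 v`: every triple of entries of `snoc v z` lies in `v` or in some
  `update v m z`, and a round-1 colour of a `k`-tuple gives the number of common neighbours of any three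
  of its entries (through a fourth coordinate). A convenient way to avoid writing `Φ`: show
  `jcolor G k 1 v = jcolor H k 1 w ∧ (∀ i, jcolor G k 1 (update v i z) = jcolor H k 1 (update w i z')) →
  ext G (snoc v z) = ext H (snoc w z')` and use bijections extracted from equal multisets.
* Pure versions: apply the tuple-level statements with both graphs equal to `U = asMatrix (unionAdj G H)`;
  for a tuple `v` inside `G`, `ext U (inl ∘ v) = ext G v` (common neighbours of vertices of `G` lie in `G`),
  and `ext U (snoc (inl ∘ v) (inr _)) = 0`.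
-/

set_option autoImplicit false

namespace Crest.Agent.R290

open Finset Crest.WLRefine Crest.WLRefine.ParityLift

namespace PLC

section Ext

variable {V W : Type} [Fintype V] [Fintype W] {t : ℕ}

lemma sum_eq_of_map_eq {γ : Type} {f : V → γ} {g : W → γ}
    (h : univ.val.map f = univ.val.map g) {φ : V → ℕ} {ψ : W → ℕ}
    (H : ∀ a b, f a = g b → φ a = ψ b) : ∑ a, φ a = ∑ b, ψ b := by
  rw [← Multiset.rel_eq, Multiset.rel_map] at h
  have h2 : univ.val.map φ = univ.val.map ψ := by
    rw [← Multiset.rel_eq, Multiset.rel_map]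
    exact h.mono fun a _ b _ => H a b
  rw [Finset.sum_eq_multiset_sum, Finset.sum_eq_multiset_sum, h2]

/-- Number of common neighbours. -/
def cn (G : V → V → Bool) (a b c : V) : ℕ :=
  (univ.filter fun z => G a z = true ∧ G b z = true ∧ G c z = true).card

/-- Number of extensions of `v` to a homomorphism from the template. -/
def ext (G : V → V → Bool) (v : Fin t → V) : ℕ :=
  if ∀ i j, i ≠ j → G (v i) (v j) = true then
    ∏ h : Helper t, cn G (v h.1.1) (v h.1.2.1) (v h.1.2.2) else 0

lemma homCount_eq_sum [DecidableEq V] {G : V → V → Bool} (hG : ∀ a b, G a b = G b a) :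
    homCount t G = ∑ v : Fin t → V, ext G v := by
  rw [homCount, Finset.card_filter, ← (Equiv.sumArrowEquivProdArrow _ _ _).symm.sum_comp,
    Fintype.sum_prod_type]
  refine Finset.sum_congr rfl fun v _ => ?_
  have key : ∀ u : Helper t → V, (∀ a b, tAdj a b = true →
      G ((Equiv.sumArrowEquivProdArrow _ _ _).symm (v, u) a)
        ((Equiv.sumArrowEquivProdArrow _ _ _).symm (v, u) b) = true) ↔
      (∀ i j, i ≠ j → G (v i) (v j) = true) ∧ u ∈ Fintype.piFinset fun h : Helper t =>
        univ.filter fun z => G (v h.1.1) z = true ∧ G (v h.1.2.1) z = true ∧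
          G (v h.1.2.2) z = true := by
    intro u
    simp only [Fintype.mem_piFinset, mem_filter, mem_univ, true_and]
    constructor
    · intro h
      exact ⟨fun i j hij => h (.inl i) (.inl j) (by simpa [tAdj] using hij), fun x =>
        ⟨h (.inl _) (.inr x) (by simp [tAdj]), h (.inl _) (.inr x) (by simp [tAdj]),
          h (.inl _) (.inr x) (by simp [tAdj])⟩⟩
    · rintro ⟨h1, h2⟩
      have h3 : ∀ i x, tAdj (.inl i) (.inr x) = true → G (v i) (u x) = true := by
        intro i x h
        simp only [tAdj, decide_eq_true_eq] at h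
        rcases h with rfl | rfl | rfl
        exacts [(h2 x).1, (h2 x).2.1, (h2 x).2.2]
      rintro (i | x) (j | y) h
      · exact h1 i j (by simpa [tAdj] using h)
      · exact h3 i y h
      · rw [hG]; exact h3 j x h
      · simp [tAdj] at h
  rw [← Finset.card_filter, Finset.filter_congr fun u _ => key u, ext]
  split_ifs with hc
  · rw [Finset.filter_congr fun u _ => and_iff_right hc, Finset.filter_mem_eq_inter,
      Finset.univ_inter, Fintype.card_piFinset]
    rfl
  · rw [Finset.card_eq_zero, Finset.filter_eq_empty_iff]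
    exact fun u _ h => hc h.1

/-- Same adjacencies and same numbers of common neighbours. -/
def Tri (G : V → V → Bool) (H : W → W → Bool) (v : Fin t → V) (w : Fin t → W) : Prop :=
  (∀ i j, G (v i) (v j) = H (w i) (w j)) ∧
    ∀ i j l, cn G (v i) (v j) (v l) = cn H (w i) (w j) (w l)

lemma Tri.ext_eq {G : V → V → Bool} {H : W → W → Bool} {v : Fin t → V} {w : Fin t → W}
    (h : Tri G H v w) : ext G v = ext H w := by
  simp only [ext, h.1, h.2]

lemma exists_fourth {α : Type} (ht : 4 ≤ t) {f : Fin t → α} (hf : Function.Injective f)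
    (a b c : α) : ∃ x, a ≠ f x ∧ b ≠ f x ∧ c ≠ f x := by
  classical
  by_contra hc
  have h1 : univ.image f ⊆ {a, b, c} := by
    intro y hy
    obtain ⟨x, -, rfl⟩ := Finset.mem_image.1 hy
    by_contra h
    simp only [mem_insert, mem_singleton, not_or] at h
    exact hc ⟨x, Ne.symm h.1, Ne.symm h.2.1, Ne.symm h.2.2⟩
  have h2 := Finset.card_le_card h1
  rw [Finset.card_image_of_injective _ hf, card_univ, Fintype.card_fin] at h2
  have h3 := Finset.card_le_three (a := a) (b := b) (c := c)
  omega

lemma tri_snoc (ht : 4 ≤ t) {G : V → V → Bool} {H : W → W → Bool} {v : Fin t → V} {w : Fin t → W}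
    {z : V} {z' : W} (h : ∀ x, Tri G H (Function.update v x z) (Function.update w x z')) :
    Tri G H (Fin.snoc v z : Fin (t + 1) → V) (Fin.snoc w z' : Fin (t + 1) → W) := by
  have key : ∀ (x : Fin t) (a : Fin (t + 1)), a ≠ x.castSucc → ∃ a',
      (Fin.snoc v z : Fin (t + 1) → V) a = Function.update v x z a' ∧
      (Fin.snoc w z' : Fin (t + 1) → W) a = Function.update w x z' a' := by
    intro x a ha
    induction a using Fin.lastCases with
    | last => exact ⟨x, by simp, by simp⟩
    | cast a =>
      have : a ≠ x := fun h => ha (h ▸ rfl)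
      exact ⟨a, by simp [this], by simp [this]⟩
  refine ⟨fun i j => ?_, fun i j l => ?_⟩
  · obtain ⟨x, h1, h2, -⟩ := exists_fourth ht (Fin.castSucc_injective t) i j j
    obtain ⟨i', a1, a2⟩ := key x i h1
    obtain ⟨j', b1, b2⟩ := key x j h2
    rw [a1, a2, b1, b2, (h x).1]
  · obtain ⟨x, h1, h2, h3⟩ := exists_fourth ht (Fin.castSucc_injective t) i j l
    obtain ⟨i', a1, a2⟩ := key x i h1
    obtain ⟨j', b1, b2⟩ := key x j h2
    obtain ⟨l', c1, c2⟩ := key x l h3
    rw [a1, a2, b1, b2, c1, c2, (h x).2]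

lemma sum_ext_succ (G : V → V → Bool) : ∑ u : Fin (t + 1) → V, ext G u =
    ∑ v : Fin t → V, ∑ z, ext G (Fin.snoc v z : Fin (t + 1) → V) := by
  rw [← (Fin.snocEquiv fun _ => V).sum_comp, Fintype.sum_prod_type_right]
  rfl

/-- `ι` embeds `G` as a union of components of `U`. -/
structure Comp (U : W → W → Bool) (G : V → V → Bool) (ι : V → W) : Prop where
  inj : Function.Injective ι
  adj : ∀ a b, U (ι a) (ι b) = G a b
  cl : ∀ a x, U (ι a) x = true → ∃ b, ι b = x

lemma Comp.ext_eq {U : W → W → Bool} {G : V → V → Bool} {ι : V → W} (h : Comp U G ι)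
    (v : Fin t → V) : ext U (ι ∘ v) = ext G v := by
  refine Tri.ext_eq ⟨fun i j => h.adj _ _, fun i j l => ?_⟩
  refine (Finset.card_bij (fun z _ => ι z) (fun z hz => ?_) (fun _ _ _ _ e => h.inj e)
    fun x hx => ?_).symm
  · simpa [h.adj] using hz
  · simp only [mem_filter, mem_univ, true_and, Function.comp_apply] at hx
    obtain ⟨b, rfl⟩ := h.cl _ _ hx.1
    exact ⟨b, by simpa [h.adj] using hx, rfl⟩

lemma Comp.sum_snoc {U : W → W → Bool} {G : V → V → Bool} {ι : V → W} (h : Comp U G ι)
    (ht : 0 < t) (v : Fin t → V) :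
    ∑ x, ext U (Fin.snoc (ι ∘ v) x : Fin (t + 1) → W) =
      ∑ z, ext G (Fin.snoc v z : Fin (t + 1) → V) := by
  symm
  refine Finset.sum_of_injOn ι (h.inj.injOn) (fun _ _ => mem_univ _) (fun x _ hx => ?_)
    fun z _ => ?_
  · rw [ext, if_neg]
    intro hc
    have h1 := hc (Fin.castSucc ⟨0, ht⟩) (Fin.last t) (Fin.castSucc_ne_last _)
    simp only [Fin.snoc_castSucc, Fin.snoc_last, Function.comp_apply] at h1
    obtain ⟨b, rfl⟩ := h.cl _ _ h1
    exact hx ⟨b, by simp, rfl⟩
  · rw [← h.ext_eq, Fin.comp_snoc]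

end Ext

variable {n m k : ℕ} {G : Fin n → Fin n → Bool} {H : Fin m → Fin m → Bool}

lemma tri_of_s (hk : 4 ≤ k) {v : Fin k → Fin n} {w : Fin k → Fin m}
    (h : scolor G k 1 v = scolor H k 1 w) : Tri G H v w := by
  refine ⟨fun i j => congrFun (congrFun (congrArg (·.1.2) h) i) j, fun i j l => ?_⟩
  obtain ⟨x, h1, h2, h3⟩ := exists_fourth hk Function.injective_id i j l
  simp only [id] at h1 h2 h3
  rw [cn, cn, Finset.card_filter, Finset.card_filter]
  refine sum_eq_of_map_eq (congrFun (congrArg (·.2) h) x) fun a b hab => ?_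
  have key : ∀ y, y ≠ x → G (v y) a = H (w y) b := fun y hy => by
    have := congrFun (congrFun (congrArg (·.2) hab) y) x
    simpa [scolor, atomicType, hy] using this
  rw [key i h1, key j h2, key l h3]

lemma tri_of_j (hk : 4 ≤ k) {v : Fin k → Fin n} {w : Fin k → Fin m}
    (h : jcolor G k 1 v = jcolor H k 1 w) : Tri G H v w := by
  refine tri_of_s hk (Prod.ext (congrArg (·.1) h) (funext fun x => ?_))
  have := congrArg (fun c => c.2.map fun f => f x) h
  simpa only [jcolor, scolor, Multiset.map_map, Function.comp_def] using this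

lemma sum_snoc_of_j (hk : 4 ≤ k) {v : Fin k → Fin n} {w : Fin k → Fin m}
    (h : jcolor G k 2 v = jcolor H k 2 w) :
    ∑ z, ext G (Fin.snoc v z : Fin (k + 1) → Fin n) =
      ∑ z, ext H (Fin.snoc w z : Fin (k + 1) → Fin m) :=
  sum_eq_of_map_eq (congrArg (·.2) h) fun _ _ hab =>
    (tri_snoc hk fun x => tri_of_j hk (congrFun hab x)).ext_eq

lemma comp_inl : Comp (asMatrix (unionAdj G H)) G (Fintype.equivFin _ ∘ Sum.inl) where
  inj := (Equiv.injective _).comp Sum.inl_injective
  adj a b := by simp [asMatrix, unionAdj]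
  cl a x h := by
    obtain ⟨y | y, rfl⟩ := (Fintype.equivFin (Fin n ⊕ Fin m)).surjective x
    · exact ⟨y, rfl⟩
    · simp [asMatrix, unionAdj] at h

lemma comp_inr : Comp (asMatrix (unionAdj G H)) H (Fintype.equivFin _ ∘ Sum.inr) where
  inj := (Equiv.injective _).comp Sum.inr_injective
  adj a b := by simp [asMatrix, unionAdj]
  cl a x h := by
    obtain ⟨y | y, rfl⟩ := (Fintype.equivFin (Fin n ⊕ Fin m)).surjective x
    · simp [asMatrix, unionAdj] at h
    · exact ⟨y, rfl⟩

end PLC

open PLC

variable {n m k : ℕ} {G : Fin n → Fin n → Bool} {H : Fin m → Fin m → Bool}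

theorem homCount_eq_of_s (hk : 4 ≤ k) (hG : IsSimple G) (hH : IsSimple H)
    (h : univ.val.map (scolor G k 1) = univ.val.map (scolor H k 1)) :
    homCount k G = homCount k H := by
  rw [homCount_eq_sum hG.1, homCount_eq_sum hH.1]
  exact sum_eq_of_map_eq h fun _ _ hab => (tri_of_s hk hab).ext_eq

theorem homCount_eq_of_j (hk : 4 ≤ k) (hG : IsSimple G) (hH : IsSimple H)
    (h : univ.val.map (jcolor G k 2) = univ.val.map (jcolor H k 2)) :
    homCount (k + 1) G = homCount (k + 1) H := by
  rw [homCount_eq_sum hG.1, homCount_eq_sum hH.1, sum_ext_succ, sum_ext_succ]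
  exact sum_eq_of_map_eq h fun _ _ hab => sum_snoc_of_j hk hab

theorem homCount_eq_of_pureS (hk : 4 ≤ k) (hG : IsSimple G) (hH : IsSimple H)
    (h : PureSHistEq k 1 G H) : homCount k G = homCount k H := by
  rw [homCount_eq_sum hG.1, homCount_eq_sum hH.1]
  refine sum_eq_of_map_eq h fun v w hab => ?_
  rw [← (comp_inl (G := G) (H := H)).ext_eq, ← (comp_inr (G := G) (H := H)).ext_eq]
  exact (tri_of_s hk hab).ext_eq

theorem homCount_eq_of_pureJ (hk : 4 ≤ k) (hG : IsSimple G) (hH : IsSimple H)
    (h : PureJHistEq k 2 G H) : homCount (k + 1) G = homCount (k + 1) H := by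
  rw [homCount_eq_sum hG.1, homCount_eq_sum hH.1, sum_ext_succ, sum_ext_succ]
  refine sum_eq_of_map_eq h fun v w hab => ?_
  rw [← (comp_inl (G := G) (H := H)).sum_snoc (by omega),
    ← (comp_inr (G := G) (H := H)).sum_snoc (by omega)]
  exact sum_snoc_of_j hk hab

end Crest.Agent.R290
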