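import Crest.Agent.R290.Lift

/-!
# Row 290 (S0438): without a successful choice Duplicator wins on the two parity lifts

Plan. System `X`: tiles = base vertices `BV C` (all valid), variables `Sym2 (TV t) × ℕ`: the base vertex
`u` of type `a` has, for every template neighbour `a'` of `a`, the variable `pv u a' = (s(a, a'), label)`,
the label being: for `u = (i, d)`, `a' = inl j`: `lamL i j d` if `i < j`, else `lamR j i d`;
for `u = (i, d)`, `a' = inr h`, `h = (h₁, h₂, h₃)`: `lamL h₁ h₂ d` if `i = h₁`, `lamR h₁ h₂ d` if `i = h₂`,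
`0` if `i = h₃`; for `u = (h, q)`, `a' = inl i`: `q` if `i ∈ {h₁, h₂}`, else `0`.
Then `pv u` is injective on neighbours, `bAdj u v ↔ tAdj a b ∧ pv u b = pv v a` (`a`, `b` the types) and
for adjacent types a common variable of `u`, `v` is `pv u b = pv v a`. Base: classes `BV C`, `S = vars`,
`con = some`, `adj = bAdj`. `LiftV C b` is a `Lift` for `β u = if b (typeOf u) then 1 else 0`, with
`val x y =` the tag of `x` at the neighbour `a'` with `pv u a' = y` (as an element of `ZMod 2`), `0` if none.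

Dual certificate for `K = t`, `β* = [typeOf u = inl 0]`: write `Fb a = ∑ u of type a, F u`; `D P F` iff
`bd F` vanishes off `Y P`, `Fb (inl i) = 0` for every main type `i` without a pebble of `P`, and, if every
main type carries a pebble (then `P` is exactly one element `(i, d i)` per main type), `Fb (inr h) = 0` for
every helper `h = (i, j, l)` of a *mismatched* pair (`(i, d), (j, e) ∈ P`, `lamL i j d ≠ lamR i j e`).
* Conservation: summing `bd F (s(a, b), q)` over all labels `q`: if the template-adjacent types `a`, `b`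
  carry no pebble then `Fb a = Fb b`.
* `mono` (`P ⊆ P'`, all mains pebbled in `P'`, `P ≠ P'`, so `P` misses a main `i₀`, `h = (i, j, l)`
  mismatched in `P'`): if one of `i, j, l` is unpebbled in `P`, conservation. Otherwise compare with
  `h' = (i, j, i₀)`, `Fb h' = 0`: label by label `F (h, q) = A q := ∑ d' with lamL d' = q, F (i, d')` for
  `q ≠ q₁ := lamL d`, and `F (h, q) = B q := ∑ e' with lamR e' = q, F (j, e')` for `q ≠ q₂ := lamR e`;
  as `q₁ ≠ q₂`, `F (h, q) = F (h', q)` for all `q`.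
* `res` (`P' = insert u P`, `P.card < t`, so not all mains are pebbled in `P`): let `i` be unpebbled in `P`
  and pebbled by `u`. If another main `j` is unpebbled in `P`, `Fb i = Fb j = 0`. Otherwise `P'` is a choice
  `d`, not successful, so some pair `a < b` is mismatched; take a helper `h` of `(a, b)` adjacent to `i`
  (third vertex `i`, or any third vertex if `i ∈ {a, b}`; `t ≥ 3`): `Fb i = Fb h = 0`.
* `ev β* F = Fb (inl 0) = 0` for `P = ∅`.
-/

set_option autoImplicit false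

namespace Crest.Agent.R290

open Finset Crest.WLRefine Crest.WLRefine.ParityLift

namespace PLG

variable {t : ℕ} (C : ChoiceSystem t)

theorem tAdj_symm (a b : TV t) : tAdj a b = tAdj b a := by
  rcases a with i | h <;> rcases b with j | h' <;> simp [tAdj, eq_comm]

theorem tAdj_ne {a b : TV t} (h : tAdj a b = true) : a ≠ b := by
  rintro rfl
  rcases a with i | h' <;> simp [tAdj] at h

/-- The label of the variable of a base vertex at a template vertex. -/
def lb : BV C → TV t → ℕ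
  | Sum.inl p, Sum.inl j => if p.1 < j then (C.lamL p.1 j p.2 : ℕ) else (C.lamR j p.1 p.2 : ℕ)
  | Sum.inl p, Sum.inr h =>
      if p.1 = h.1.1 then (C.lamL p.1 h.1.2.1 p.2 : ℕ)
      else if p.1 = h.1.2.1 then (C.lamR h.1.1 p.1 p.2 : ℕ) else 0
  | Sum.inr p, Sum.inl i => if i = p.1.1.1 ∨ i = p.1.1.2.1 then (p.2 : ℕ) else 0
  | Sum.inr _, Sum.inr _ => 0

/-- The variable of a base vertex at a template vertex. -/
def pv (u : BV C) (a : TV t) : Sym2 (TV t) × ℕ := (s(typeOf C u, a), lb C u a)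

theorem pv_inj (u : BV C) : Function.Injective (pv C u) := fun _ _ h =>
  Sym2.congr_right.1 (congrArg Prod.fst h)

/-- The system of parity constraints. -/
def X : Sys (BV C) (Sym2 (TV t) × ℕ) where
  T := univ
  vars u := univ.image fun a : Nbr (typeOf C u) => pv C u a.1

theorem mem_vars {u : BV C} {y : Sym2 (TV t) × ℕ} :
    y ∈ (X C).vars u ↔ ∃ a : Nbr (typeOf C u), pv C u a.1 = y := by
  simp only [X, mem_image, mem_univ, true_and]

theorem mem_vars_adj {u : BV C} {a b : TV t} (h : tAdj a b = true) (q : ℕ) :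
    (s(a, b), q) ∈ (X C).vars u ↔
      (typeOf C u = a ∧ lb C u b = q) ∨ (typeOf C u = b ∧ lb C u a = q) := by
  rw [mem_vars]
  constructor
  · rintro ⟨⟨c, hc⟩, h1⟩
    simp only [pv, Prod.mk.injEq, Sym2.eq_iff] at h1
    rcases h1 with ⟨⟨h1, h2⟩ | ⟨h1, h2⟩, h3⟩
    · subst h2; exact Or.inl ⟨h1, h3⟩
    · subst h2; exact Or.inr ⟨h1, h3⟩
  · rintro (⟨h1, h2⟩ | ⟨h1, h2⟩)
    · exact ⟨⟨b, by rw [h1]; exact h⟩, by simp only [pv, h1, h2]⟩
    · exact ⟨⟨a, by rw [h1, tAdj_symm]; exact h⟩, by simp only [pv, h1, h2, Sym2.eq_swap]⟩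

theorem helperAgree_iff (p : Σ i : Fin t, Fin (C.dom i))
    (hq : Σ h : Helper t, Fin (C.lab h.1.1 h.1.2.1)) :
    helperAgree C p hq = true ↔ tAdj (Sum.inl p.1) (Sum.inr hq.1) = true ∧
      lb C (Sum.inl p) (Sum.inr hq.1) = lb C (Sum.inr hq) (Sum.inl p.1) := by
  obtain ⟨i, d⟩ := p
  obtain ⟨⟨⟨h1, h2, h3⟩, h12, h31, h32⟩, q⟩ := hq
  simp only at h12 h31 h32 q
  simp only [helperAgree, tAdj, lb, decide_eq_true_eq]
  by_cases e1 : i = h1
  · subst e1
    simp [h12.ne, h31.symm, Fin.ext_iff, eq_comm]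
  · by_cases e2 : i = h2
    · subst e2
      simp [e1, h32.symm, Fin.ext_iff, eq_comm]
    · simp [e1, e2]

theorem bAdj_iff (u v : BV C) : bAdj C u v = true ↔ tAdj (typeOf C u) (typeOf C v) = true ∧
    lb C u (typeOf C v) = lb C v (typeOf C u) := by
  rcases u with p | p <;> rcases v with r | r
  · obtain ⟨i, d⟩ := p
    obtain ⟨j, e⟩ := r
    simp only [bAdj, mainAgree, typeOf, tAdj, lb, Bool.or_eq_true, decide_eq_true_eq, exists_prop]
    rcases lt_trichotomy i j with h | h | h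
    · simp [h, h.ne, h.not_gt, Fin.ext_iff]
    · subst h; simp
    · simp [h, h.ne', h.not_gt, Fin.ext_iff, eq_comm]
  · exact helperAgree_iff C p r
  · simp only [bAdj, typeOf]
    rw [helperAgree_iff, tAdj_symm, eq_comm (a := lb C _ _)]
  · simp [bAdj, typeOf, tAdj]

/-- The base of the parity lifts. -/
def B : Base (BV C) (Sym2 (TV t) × ℕ) (BV C) where
  Cl := univ
  S := (X C).vars
  con := some
  adj := bAdj C

theorem B_wf : (B C).WF (X C) where
  con c _ u h := by
    obtain rfl : c = u := Option.some.inj h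
    exact ⟨mem_univ _, rfl⟩
  cov c _ := Or.inr ⟨c, mem_univ _, subset_rfl⟩

/-- A bit as an element of `ZMod 2`. -/
def bz (b : Bool) : ZMod 2 := if b = true then 1 else 0

theorem bz_inj {b b' : Bool} (h : bz b = bz b') : b = b' := by
  revert b b'; decide

theorem bz_decide (x : ZMod 2) : bz (decide (x = 1)) = x := by
  revert x; decide

theorem sum_bz {ι : Type} [Fintype ι] (z : ι → Bool) (b : Bool) :
    ∑ a, bz (z a) = bz b ↔ (univ.filter fun a => z a = true).card % 2 = b.toNat := by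
  have h1 : ∑ a, bz (z a) = ((univ.filter fun a => z a = true).card : ZMod 2) := by
    simp only [bz, sum_boole]
  have h2 : bz b = ((b.toNat : ℕ) : ZMod 2) := by cases b <;> rfl
  rw [h1, h2, ZMod.natCast_eq_natCast_iff']
  cases b <;> rfl

/-- The assignment given by a tag. -/
def tagVal (u : BV C) (z : Nbr (typeOf C u) → Bool) (y : Sym2 (TV t) × ℕ) : ZMod 2 :=
  ∑ a : Nbr (typeOf C u), if pv C u a.1 = y then bz (z a) else 0

theorem tagVal_pv (u : BV C) (z : Nbr (typeOf C u) → Bool) (a : Nbr (typeOf C u)) :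
    tagVal C u z (pv C u a.1) = bz (z a) := by
  unfold tagVal
  rw [sum_eq_single a]
  · rw [if_pos rfl]
  · intro b _ hb
    exact if_neg fun h => hb (Subtype.ext (pv_inj C u h))
  · simp

theorem sum_vars (u : BV C) (f : Sym2 (TV t) × ℕ → ZMod 2) :
    ∑ y ∈ (X C).vars u, f y = ∑ a : Nbr (typeOf C u), f (pv C u a.1) :=
  sum_image fun _ _ _ _ h => Subtype.ext (pv_inj C u h)

/-- The right-hand side of a parity assignment. -/
def rhs (b : TV t → Bool) (u : BV C) : ZMod 2 := bz (b (typeOf C u))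

/-- The parity lift is a lift of the base. -/
def lift (b : TV t → Bool) : Lift (B C) (rhs C b) (liftAdj C b) where
  cls x := x.1.1
  val x := tagVal C x.1.1 x.1.2
  mem _ := mem_univ _
  par x u h := by
    obtain rfl : x.1.1 = u := Option.some.inj h
    change ∑ y ∈ (X C).vars x.1.1, _ = _
    rw [sum_vars]
    simp only [tagVal_pv]
    exact (sum_bz _ _).2 x.2
  inj x x' h h' := by
    obtain ⟨⟨u, z⟩, hz⟩ := x
    obtain ⟨⟨u', z'⟩, hz'⟩ := x'
    obtain rfl : u = u' := h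
    obtain rfl : z = z' := by
      funext a
      have := h' (pv C u a.1) ((mem_vars C).2 ⟨a, rfl⟩)
      simp only [tagVal_pv] at this
      exact bz_inj this
    rfl
  surj c _ a ha := by
    have h1 : ∑ y ∈ (X C).vars c, a y = rhs C b c := ha c rfl
    rw [sum_vars] at h1
    refine ⟨⟨⟨c, fun a' => decide (a (pv C c a'.1) = 1)⟩, (sum_bz _ _).1 ?_⟩, rfl, fun y hy => ?_⟩
    · simp only [bz_decide]
      exact h1
    · obtain ⟨a', rfl⟩ := (mem_vars C).1 hy
      simp only [tagVal_pv, bz_decide]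
  adj x x' := by
    obtain ⟨⟨u, z⟩, hz⟩ := x
    obtain ⟨⟨v, w⟩, hw⟩ := x'
    change _ ↔ bAdj C u v = true ∧
      ∀ y ∈ (X C).vars u ∩ (X C).vars v, tagVal C u z y = tagVal C v w y
    simp only [liftAdj, decide_eq_true_eq]
    constructor
    · rintro ⟨h, h', hb, hzw⟩
      refine ⟨hb, fun y hy => ?_⟩
      obtain ⟨a, ha⟩ := (mem_vars C).1 (mem_inter.1 hy).1
      obtain ⟨a', ha'⟩ := (mem_vars C).1 (mem_inter.1 hy).2
      have h1 := congrArg Prod.fst (ha.trans ha'.symm)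
      simp only [pv, Sym2.eq_iff] at h1
      rcases h1 with ⟨h1, _⟩ | ⟨h1, h2⟩
      · exact absurd h1 (tAdj_ne h)
      · have e1 : a = ⟨typeOf C v, h⟩ := Subtype.ext h2
        have e2 : a' = ⟨typeOf C u, h'⟩ := Subtype.ext h1.symm
        conv_lhs => rw [← ha, tagVal_pv, e1]
        rw [← ha', tagVal_pv, e2, hzw]
    · rintro ⟨hb, hy⟩
      obtain ⟨h, hl⟩ := (bAdj_iff C u v).1 hb
      have h' : tAdj (typeOf C v) (typeOf C u) = true := by rw [tAdj_symm]; exact h
      refine ⟨h, h', hb, bz_inj ?_⟩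
      have e : pv C u (typeOf C v) = pv C v (typeOf C u) := by
        simp only [pv, hl, Sym2.eq_swap]
      have h2 := hy (pv C u (typeOf C v)) (mem_inter.2 ⟨(mem_vars C).2 ⟨⟨_, h⟩, rfl⟩,
        (mem_vars C).2 ⟨⟨_, h'⟩, e.symm⟩⟩)
      rw [tagVal_pv C u z ⟨_, h⟩, e, tagVal_pv C v w ⟨_, h'⟩] at h2
      exact h2

/-! ### The dual certificate -/

/-- Total weight on a type. -/
def Fb (F : BV C → ZMod 2) (a : TV t) : ZMod 2 := ∑ u, if typeOf C u = a then F u else 0

/-- Weight on a type with a given label towards another type. -/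
def Gq (F : BV C → ZMod 2) (a b : TV t) (q : ℕ) : ZMod 2 :=
  ∑ u, if typeOf C u = a ∧ lb C u b = q then F u else 0

/-- The type carries a pebble. -/
def Peb (P : Finset (BV C)) (a : TV t) : Prop := ∃ u ∈ P, typeOf C u = a

variable {C}

theorem bd_adj (F : BV C → ZMod 2) {a b : TV t} (h : tAdj a b = true) (q : ℕ) :
    (X C).bd F (s(a, b), q) = Gq C F a b q + Gq C F b a q := by
  unfold Sys.bd Gq
  rw [← sum_add_distrib]
  refine sum_congr rfl fun u _ => ?_
  have hne := tAdj_ne h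
  simp only [mem_vars_adj C h]
  by_cases h1 : typeOf C u = a ∧ lb C u b = q
  · have h2 : ¬ (typeOf C u = b ∧ lb C u a = q) := fun h2 => hne (h1.1.symm.trans h2.1)
    rw [if_pos (Or.inl h1), if_pos h1, if_neg h2, add_zero]
  · by_cases h2 : typeOf C u = b ∧ lb C u a = q
    · rw [if_pos (Or.inr h2), if_neg h1, if_pos h2, zero_add]
    · rw [if_neg (not_or.2 ⟨h1, h2⟩), if_neg h1, if_neg h2, add_zero]

theorem Fb_eq (F : BV C → ZMod 2) (a b : TV t) {T : Finset ℕ} (hT : ∀ u, lb C u b ∈ T) :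
    Fb C F a = ∑ q ∈ T, Gq C F a b q := by
  unfold Fb Gq
  rw [sum_comm]
  refine sum_congr rfl fun u _ => ?_
  by_cases h : typeOf C u = a
  · simp only [h, true_and, if_true]
    rw [sum_ite_eq, if_pos (hT u)]
  · simp [h]

theorem Fb_eq_of_Gq (F : BV C → ZMod 2) {a b a' b' : TV t}
    (h : ∀ q, Gq C F a b q = Gq C F a' b' q) : Fb C F a = Fb C F a' := by
  rw [Fb_eq F a b (T := univ.image (lb C · b) ∪ univ.image (lb C · b'))
      fun u => mem_union_left _ (mem_image_of_mem _ (mem_univ u)),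
    Fb_eq F a' b' (T := univ.image (lb C · b) ∪ univ.image (lb C · b'))
      fun u => mem_union_right _ (mem_image_of_mem _ (mem_univ u))]
  exact sum_congr rfl fun q _ => h q

theorem Gq_eq {P : Finset (BV C)} {F : BV C → ZMod 2} (hF : ∀ y, y ∉ (X C).Y P → (X C).bd F y = 0)
    {a b : TV t} (h : tAdj a b = true) {q : ℕ} (ha : ∀ u ∈ P, typeOf C u = a → lb C u b ≠ q)
    (hb : ¬ Peb C P b) : Gq C F a b q = Gq C F b a q := by
  have h1 : (s(a, b), q) ∉ (X C).Y P := by
    rw [Sys.mem_Y]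
    rintro ⟨u, hu, h2⟩
    rcases (mem_vars_adj C h q).1 h2 with h3 | h3
    · exact ha u hu h3.1 h3.2
    · exact hb ⟨u, hu, h3.1⟩
  have h2 := hF _ h1
  rw [bd_adj F h] at h2
  generalize Gq C F a b q = x at *
  generalize Gq C F b a q = y at *
  revert x y; decide

/-- Conservation along a template edge without pebbles. -/
theorem conserve {P : Finset (BV C)} {F : BV C → ZMod 2}
    (hF : ∀ y, y ∉ (X C).Y P → (X C).bd F y = 0) {a b : TV t} (h : tAdj a b = true)
    (ha : ¬ Peb C P a) (hb : ¬ Peb C P b) : Fb C F a = Fb C F b :=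
  Fb_eq_of_Gq F fun _ => Gq_eq hF h (fun u hu h1 => absurd ⟨u, hu, h1⟩ ha) hb

theorem Gq_helper (F : BV C → ZMod 2) (h : Helper t) (q : ℕ) :
    Gq C F (Sum.inr h) (Sum.inl h.1.2.1) q = Gq C F (Sum.inr h) (Sum.inl h.1.1) q := by
  unfold Gq
  refine sum_congr rfl fun u _ => ?_
  rcases u with p | p
  · simp [typeOf]
  · by_cases e : p.1 = h
    · subst e; simp [typeOf, lb]
    · simp [typeOf, e]

theorem Gq_main (F : BV C → ZMod 2) (i : Fin t) {h h' : Helper t} (e1 : h.1.1 = h'.1.1)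
    (e2 : h.1.2.1 = h'.1.2.1) (q : ℕ) :
    Gq C F (Sum.inl i) (Sum.inr h) q = Gq C F (Sum.inl i) (Sum.inr h') q := by
  unfold Gq
  refine sum_congr rfl fun u _ => ?_
  obtain ⟨⟨h1, h2, h3⟩, hh⟩ := h
  obtain ⟨⟨h1', h2', h3'⟩, hh'⟩ := h'
  obtain rfl : h1 = h1' := e1
  obtain rfl : h2 = h2' := e2
  rcases u with p | p <;> rfl

theorem card_ge {P : Finset (BV C)} (h : ∀ i, Peb C P (Sum.inl i)) :
    univ.image (Sum.inl : Fin t → TV t) ⊆ P.image (typeOf C) ∧
      (univ.image (Sum.inl : Fin t → TV t)).card = t := by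
  refine ⟨fun a ha => ?_, by rw [card_image_of_injective _ Sum.inl_injective]; simp⟩
  obtain ⟨i, _, rfl⟩ := mem_image.1 ha
  exact mem_image.2 (h i)

theorem le_card {P : Finset (BV C)} (h : ∀ i, Peb C P (Sum.inl i)) : t ≤ P.card :=
  (card_ge h).2.symm.le.trans ((card_le_card (card_ge h).1).trans card_image_le)

theorem full_spec {P : Finset (BV C)} (h : ∀ i, Peb C P (Sum.inl i)) (hP : P.card ≤ t) :
    (∀ h' : Helper t, ¬ Peb C P (Sum.inr h')) ∧
      ∀ u ∈ P, ∀ v ∈ P, typeOf C u = typeOf C v → u = v := by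
  obtain ⟨h1, h2⟩ := card_ge h
  have h3 : (P.image (typeOf C)).card ≤ P.card := card_image_le
  have h4 := card_le_card h1
  constructor
  · rintro h' h5
    have h6 := eq_of_subset_of_card_le h1 (by omega)
    have h7 : Sum.inr h' ∈ P.image (typeOf C) := mem_image.2 h5
    rw [← h6] at h7
    simp at h7
  · exact fun u hu v hv => card_image_iff.1 (by omega : (P.image (typeOf C)).card = P.card) hu hv

variable (C) in
/-- The dual certificate. -/
def D (P : Finset (BV C)) (F : BV C → ZMod 2) : Prop :=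
  (∀ y, y ∉ (X C).Y P → (X C).bd F y = 0) ∧
  (∀ i, ¬ Peb C P (Sum.inl i) → Fb C F (Sum.inl i) = 0) ∧
  ((∀ i, Peb C P (Sum.inl i)) → ∀ (h : Helper t) d e, Sum.inl ⟨h.1.1, d⟩ ∈ P →
    Sum.inl ⟨h.1.2.1, e⟩ ∈ P → C.lamL h.1.1 h.1.2.1 d ≠ C.lamR h.1.1 h.1.2.1 e →
    Fb C F (Sum.inr h) = 0)

theorem Fb_add (F F' : BV C → ZMod 2) (a : TV t) : Fb C (F + F') a = Fb C F a + Fb C F' a := by
  unfold Fb
  rw [← sum_add_distrib]
  refine sum_congr rfl fun u _ => ?_
  split_ifs <;> simp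

theorem Fb_single {u : BV C} {a : TV t} (h : typeOf C u ≠ a) : Fb C (Pi.single u 1) a = 0 := by
  refine sum_eq_zero fun v _ => ?_
  split_ifs with h1
  · exact Pi.single_eq_of_ne (fun e : v = u => h (e ▸ h1)) _
  · rfl

theorem Peb.mono {P P' : Finset (BV C)} {a : TV t} (h : Peb C P a) (hP : P ⊆ P') : Peb C P' a :=
  let ⟨u, hu, e⟩ := h
  ⟨u, hP hu, e⟩

theorem D_mono {P P' : Finset (BV C)} {F : BV C → ZMod 2} (hP : P ⊆ P') (hK : P'.card ≤ t)
    (h : D C P F) : D C P' F := by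
  obtain ⟨h1, h2, h3⟩ := h
  refine ⟨fun y hy => h1 y fun h' => hy (Sys.Y_mono hP h'),
    fun i hi => h2 i fun h' => hi (h'.mono hP), fun hall h d e hd he hne => ?_⟩
  by_cases hall' : ∀ i, Peb C P (Sum.inl i)
  · obtain rfl : P = P' := eq_of_subset_of_card_le hP (hK.trans (le_card hall'))
    exact h3 hall h d e hd he hne
  obtain ⟨hh, huniq⟩ := full_spec hall hK
  have hh' : ∀ h' : Helper t, ¬ Peb C P (Sum.inr h') := fun h' h4 => hh h' (h4.mono hP)
  have key : ∀ (h' : Helper t) (i : Fin t), ¬ Peb C P (Sum.inl i) →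
      (i = h'.1.1 ∨ i = h'.1.2.1 ∨ i = h'.1.2.2) → Fb C F (Sum.inr h') = 0 := by
    intro h' i hi hadj
    rw [← conserve h1 (a := Sum.inl i) (b := Sum.inr h') (by simpa [tAdj] using hadj) hi (hh' h')]
    exact h2 i hi
  obtain ⟨i₀, hi₀⟩ := not_forall.1 hall'
  by_cases hadj : i₀ = h.1.1 ∨ i₀ = h.1.2.1 ∨ i₀ = h.1.2.2
  · exact key h i₀ hi₀ hadj
  push Not at hadj
  let h' : Helper t := ⟨(h.1.1, h.1.2.1, i₀), h.2.1, hadj.1, hadj.2.1⟩
  rw [← key h' i₀ hi₀ (Or.inr (Or.inr rfl))]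
  have hlt : h.1.1 ≠ h.1.2.1 := h.2.1.ne
  have a1 : ∀ (k : Helper t), k.1.1 = h.1.1 → k.1.2.1 = h.1.2.1 → ∀ q : ℕ,
      q ≠ (C.lamL h.1.1 h.1.2.1 d : ℕ) →
      Gq C F (Sum.inl h.1.1) (Sum.inr k) q = Gq C F (Sum.inr k) (Sum.inl h.1.1) q := by
    intro k e1 e2 q hq
    refine Gq_eq h1 (by simp [tAdj, e1]) (fun u hu hu' => ?_) (hh' k)
    obtain rfl : u = Sum.inl ⟨h.1.1, d⟩ := huniq u (hP hu) _ hd hu'
    simp only [lb, e1, if_true]
    rw [e2]
    exact hq.symm
  have a2 : ∀ (k : Helper t), k.1.1 = h.1.1 → k.1.2.1 = h.1.2.1 → ∀ q : ℕ,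
      q ≠ (C.lamR h.1.1 h.1.2.1 e : ℕ) →
      Gq C F (Sum.inl h.1.2.1) (Sum.inr k) q = Gq C F (Sum.inr k) (Sum.inl h.1.2.1) q := by
    intro k e1 e2 q hq
    refine Gq_eq h1 (by simp [tAdj, e2]) (fun u hu hu' => ?_) (hh' k)
    obtain rfl : u = Sum.inl ⟨h.1.2.1, e⟩ := huniq u (hP hu) _ he hu'
    simp only [lb]
    rw [e1, e2, if_neg hlt.symm, if_pos rfl]
    exact hq.symm
  refine Fb_eq_of_Gq F (b := Sum.inl h.1.1) (b' := Sum.inl h.1.1) fun q => ?_
  by_cases hq : q = (C.lamL h.1.1 h.1.2.1 d : ℕ)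
  · have hq' : q ≠ (C.lamR h.1.1 h.1.2.1 e : ℕ) := fun h4 => hne (Fin.ext (hq.symm.trans h4))
    rw [← Gq_helper F h, ← a2 h rfl rfl q hq', Gq_main F _ (h := h) (h' := h') rfl rfl,
      a2 h' rfl rfl q hq']
    exact Gq_helper F h' q
  · rw [← a1 h rfl rfl q hq, Gq_main F _ (h := h) (h' := h') rfl rfl, a1 h' rfl rfl q hq]

theorem exists_helper (ht : 3 ≤ t) {a b : Fin t} (hab : a < b) (i : Fin t) :
    ∃ h : Helper t, h.1.1 = a ∧ h.1.2.1 = b ∧ (i = h.1.1 ∨ i = h.1.2.1 ∨ i = h.1.2.2) := by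
  by_cases hi : i = a ∨ i = b
  · obtain ⟨l, hl⟩ : ∃ l : Fin t, l ∉ ({a, b} : Finset (Fin t)) := by
      by_contra hcon
      push Not at hcon
      have h1 : (univ : Finset (Fin t)).card ≤ ({a, b} : Finset (Fin t)).card :=
        card_le_card fun x _ => hcon x
      have h2 : ({a, b} : Finset (Fin t)).card ≤ 2 := card_le_two
      rw [card_univ, Fintype.card_fin] at h1
      omega
    simp only [mem_insert, mem_singleton, not_or] at hl
    exact ⟨⟨(a, b, l), hab, hl.1, hl.2⟩, rfl, rfl, hi.imp id Or.inl⟩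
  · push Not at hi
    exact ⟨⟨(a, b, i), hab, hi.1, hi.2⟩, rfl, rfl, Or.inr (Or.inr rfl)⟩

theorem peb_main {P : Finset (BV C)} {i : Fin t} (h : Peb C P (Sum.inl i)) :
    ∃ d, Sum.inl ⟨i, d⟩ ∈ P := by
  obtain ⟨u, hu, e⟩ := h
  rcases u with ⟨j, d⟩ | p
  · obtain rfl : j = i := Sum.inl_injective e
    exact ⟨d, hu⟩
  · exact absurd e (by simp [typeOf])

theorem D_res (ht : 3 ≤ t) (hC : ¬ C.Successful) {P : Finset (BV C)} {u : BV C}
    {F : BV C → ZMod 2} (hK : P.card < t) (h : D C (insert u P) F)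
    (hb : ∀ y, y ∉ (X C).Y P → (X C).bd F y = 0) : D C P F := by
  obtain ⟨-, h2, h3⟩ := h
  refine ⟨hb, fun i hi => ?_, fun hall => absurd (le_card hall) (by omega)⟩
  by_cases hall : ∀ j, Peb C (insert u P) (Sum.inl j)
  · have hK' : (insert u P).card ≤ t := (card_insert_le _ _).trans hK
    choose d hd using fun j => peb_main (hall j)
    obtain ⟨a, b, hab, hne⟩ : ∃ a b : Fin t, a < b ∧ C.lamL a b (d a) ≠ C.lamR a b (d b) := by
      by_contra hcon
      push Not at hcon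
      exact hC ⟨d, hcon⟩
    obtain ⟨h, rfl, rfl, hadj⟩ := exists_helper ht hab i
    rw [conserve hb (a := Sum.inl i) (b := Sum.inr h) (by simpa [tAdj] using hadj) hi
      fun h4 => (full_spec hall hK').1 h (h4.mono (subset_insert _ _))]
    exact h3 hall h _ _ (hd _) (hd _) hne
  · obtain ⟨j, hj⟩ := not_forall.1 hall
    by_cases hij : i = j
    · subst hij; exact h2 i hj
    · rw [conserve hb (a := Sum.inl i) (b := Sum.inl j) (by simpa [tAdj] using hij) hi
        fun h4 => hj (h4.mono (subset_insert _ _))]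
      exact h2 j hj

theorem isDual (ht : 3 ≤ t) (hC : ¬ C.Successful) : (X C).IsDual t (D C) where
  zero P _ _ := ⟨fun y _ => by simp [Sys.bd], fun i _ => by simp [Fb],
    fun _ _ _ _ _ _ _ => by simp [Fb]⟩
  add _ _ h h' := ⟨fun y hy => by rw [Sys.bd_add, h.1 y hy, h'.1 y hy, add_zero],
    fun i hi => by rw [Fb_add, h.2.1 i hi, h'.2.1 i hi, add_zero],
    fun hall k d e hd he hne => by
      rw [Fb_add, h.2.2 hall k d e hd he hne, h'.2.2 hall k d e hd he hne, add_zero]⟩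
  single {P u} _ hK hu := ⟨fun y hy => by
      rw [Sys.bd_single (mem_univ u), if_neg fun h => hy (Sys.mem_Y.2 ⟨u, hu, h⟩)],
    fun i hi => Fb_single fun h => hi ⟨u, hu, h⟩,
    fun hall k _ _ _ _ _ => Fb_single fun h => (full_spec hall hK).1 k ⟨u, hu, h⟩⟩
  bd h hy := h.1 _ hy
  mono hP _ hK h := D_mono hP hK h
  res _ _ hK h hb := D_res ht hC hK h hb

end PLG

theorem pl_bp {t : ℕ} (ht : 3 ≤ t) (C : ChoiceSystem t) (h : ¬ C.Successful) :
    BP t (liftAdj C (lift0Parity t)) (liftAdj C (liftStarParity t)) := by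
  refine (PLG.lift C _).bp (PLG.B_wf C) (PLG.lift C _) ((PLG.isDual ht h).cons fun F hF => ?_)
  have h0 : 0 < t := by omega
  rw [← hF.2.1 ⟨0, h0⟩ (by rintro ⟨u, hu, -⟩; simp at hu)]
  refine sum_congr rfl fun u _ => ?_
  simp only [Pi.add_apply, PLG.rhs, PLG.bz, lift0Parity, liftStarParity, decide_eq_true_eq, h0,
    exists_true_left]
  split_ifs <;> simp_all

end Crest.Agent.R290
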