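import Crest.Agent.R290.PLGame
import Crest.Agent.R290.GameB

/-!
# Row 290 (S0438): homomorphism counts from the template, and the elementary facts on the lifts
-/

set_option autoImplicit false

namespace Crest.Agent.R290

open Finset Crest.WLRefine Crest.WLRefine.ParityLift

/-- Number of homomorphisms from the template on `t` mains. -/
def homCount (t : ℕ) {V : Type} [Fintype V] [DecidableEq V] (G : V → V → Bool) : ℕ :=
  (univ.filter fun ψ : TV t → V => ∀ a b, tAdj a b = true → G (ψ a) (ψ b) = true).card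

theorem homCount_asMatrix (t : ℕ) {V : Type} [Fintype V] [DecidableEq V] (G : V → V → Bool) :
    homCount t (asMatrix G) = homCount t G := by
  unfold homCount
  refine card_bij' (fun ψ _ => fun a => (Fintype.equivFin V).symm (ψ a))
    (fun ψ _ => fun a => Fintype.equivFin V (ψ a)) ?_ ?_ ?_ ?_
  · intro ψ hψ
    simpa [asMatrix] using hψ
  · intro ψ hψ
    simpa [asMatrix] using hψ
  · intro ψ _
    simp
  · intro ψ _
    simp

namespace PH

/-- A Boolean as an element of `ZMod 2`. -/
def bz (b : Bool) : ZMod 2 := if b = true then 1 else 0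

theorem bz_xor (a b : Bool) : bz (xor a b) = bz a + bz b := by
  cases a <;> cases b <;> decide

theorem bz_not (a : Bool) : bz (!a) = bz a + 1 := by
  cases a <;> decide

theorem par_iff {ι : Type} [Fintype ι] (z : ι → Bool) (b : Bool) :
    (univ.filter fun i => z i = true).card % 2 = b.toNat ↔ ∑ i, bz (z i) = bz b := by
  have h1 : ∑ i, bz (z i) = ((univ.filter fun i => z i = true).card : ZMod 2) := by
    simp [bz]
  have h2 : bz b = (b.toNat : ZMod 2) := by cases b <;> simp [bz]
  have h3 : b.toNat % 2 = b.toNat := by cases b <;> simp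
  rw [h1, h2, ZMod.natCast_eq_natCast_iff', h3]

theorem card_par {ι : Type} [Fintype ι] [DecidableEq ι] (i₀ : ι) (c : ZMod 2) :
    (univ.filter fun z : ι → Bool => ∑ i, bz (z i) = c).card = 2 ^ (Fintype.card ι - 1) := by
  have hf : ∀ z : ι → Bool,
      ∑ i, bz (Function.update z i₀ (!z i₀) i) = ∑ i, bz (z i) + 1 := fun z => by
    rw [← add_sum_erase _ _ (mem_univ i₀), ← add_sum_erase _ (fun i => bz (z i)) (mem_univ i₀),
      Function.update_self, bz_not,
      sum_congr rfl fun i hi => by rw [Function.update_of_ne (ne_of_mem_erase hi)]]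
    ring
  have h1 : (univ.filter fun z : ι → Bool => ∑ i, bz (z i) = c).card =
      (univ.filter fun z : ι → Bool => ¬ ∑ i, bz (z i) = c).card := by
    refine card_bij' (fun z _ => Function.update z i₀ (!z i₀))
      (fun z _ => Function.update z i₀ (!z i₀)) ?_ ?_ ?_ ?_
    · intro z hz
      simp only [mem_filter, mem_univ, true_and] at hz ⊢
      rw [hf, hz]
      simp
    · intro z hz
      simp only [mem_filter, mem_univ, true_and] at hz ⊢
      rw [hf]
      revert hz
      generalize ∑ i, bz (z i) = s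
      revert c s
      decide
    · intro z _
      simp
    · intro z _
      simp
  have h2 := card_filter_add_card_filter_not (s := (univ : Finset (ι → Bool)))
    fun z => ∑ i, bz (z i) = c
  rw [← h1, card_univ, Fintype.card_fun, Fintype.card_bool] at h2
  obtain ⟨k, hk⟩ : ∃ k, Fintype.card ι = k + 1 :=
    Nat.exists_eq_succ_of_ne_zero (Fintype.card_pos_iff.2 ⟨i₀⟩).ne'
  rw [hk, pow_succ] at h2
  rw [hk, Nat.add_sub_cancel]
  omega

theorem sum_symm {ι : Type} [Fintype ι] (f : ι → ι → ZMod 2) (hs : ∀ a b, f a b = f b a)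
    (hd : ∀ a, f a a = 0) : ∑ a, ∑ b, f a b = 0 := by
  rw [← Fintype.sum_prod_type']
  refine sum_involution (fun p _ => p.swap) (fun p _ => ?_) (fun p _ h1 h2 => h1 ?_)
    (fun p _ => mem_univ _) fun p _ => rfl
  · rw [Prod.fst_swap, Prod.snd_swap, hs p.2 p.1]
    generalize f p.1 p.2 = s
    revert s
    decide
  · have : p.2 = p.1 := congrArg Prod.fst h2
    rw [this, hd]

variable {t : ℕ} {C : ChoiceSystem t} {b : TV t → Bool}

theorem tAdj_comm (a a' : TV t) : tAdj a a' = tAdj a' a := by
  cases a <;> cases a' <;> simp [tAdj, eq_comm]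

theorem tAdj_self (a : TV t) : tAdj a a = false := by
  cases a <;> simp [tAdj]

theorem bAdj_comm (u v : BV C) : bAdj C u v = bAdj C v u := by
  cases u <;> cases v <;> simp [bAdj, Bool.or_comm]

/-- The tag as a function on all template vertices. -/
def tag (x : LiftV C b) (a : TV t) : Bool :=
  if h : tAdj (typeOf C x.1.1) a = true then x.1.2 ⟨a, h⟩ else false

theorem tag_nbr (x : LiftV C b) (a : Nbr (typeOf C x.1.1)) : tag x a.1 = x.1.2 a := by
  simp [tag, a.2]

theorem tag_not (x : LiftV C b) {a : TV t} (h : ¬ tAdj (typeOf C x.1.1) a = true) :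
    tag x a = false := by
  simp [tag, h]

theorem tag_ext {x y : LiftV C b} (h : x.1.1 = y.1.1) (h' : ∀ a, tag x a = tag y a) : x = y := by
  obtain ⟨⟨u, z⟩, hx⟩ := x
  obtain ⟨⟨v, w⟩, hy⟩ := y
  obtain rfl : u = v := h
  obtain rfl : z = w := funext fun a =>
    (tag_nbr ⟨⟨u, z⟩, hx⟩ a).symm.trans ((h' a.1).trans (tag_nbr ⟨⟨u, w⟩, hy⟩ a))
  rfl

theorem adj_iff (x y : LiftV C b) : liftAdj C b x y = true ↔
    tAdj (typeOf C x.1.1) (typeOf C y.1.1) = true ∧ bAdj C x.1.1 y.1.1 = true ∧
      tag x (typeOf C y.1.1) = tag y (typeOf C x.1.1) := by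
  rw [liftAdj, decide_eq_true_iff]
  constructor
  · rintro ⟨h, h', h1, h2⟩
    exact ⟨h, h1, by rw [tag, tag, dif_pos h, dif_pos h', h2]⟩
  · rintro ⟨h, h1, h2⟩
    have h' : tAdj (typeOf C y.1.1) (typeOf C x.1.1) = true := by rw [tAdj_comm, h]
    rw [tag, tag, dif_pos h, dif_pos h'] at h2
    exact ⟨h, h', h1, h2⟩

theorem tag_sum (x : LiftV C b) : ∑ a, bz (tag x a) = bz (b (typeOf C x.1.1)) := by
  rw [← (par_iff _ _).1 x.2,
    ← sum_filter_of_ne (p := fun a => tAdj (typeOf C x.1.1) a = true) fun a _ ha => ?_,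
    sum_subtype (p := fun a => tAdj (typeOf C x.1.1) a = true) _ (by simp)]
  · exact sum_congr rfl fun a _ => by rw [tag_nbr]
  · by_contra h
    exact ha (by rw [tag_not x h]; rfl)

theorem exists_xor {x y : LiftV C b} (h : x.1.1 = y.1.1) :
    ∃ w : LiftV C (lift0Parity t), w.1.1 = x.1.1 ∧ ∀ a, tag w a = xor (tag x a) (tag y a) := by
  obtain ⟨⟨u, z⟩, hx⟩ := x
  obtain ⟨⟨v, w⟩, hy⟩ := y
  obtain rfl : u = v := h
  refine ⟨⟨⟨u, fun a => xor (z a) (w a)⟩, (par_iff _ _).2 ?_⟩, rfl, fun a => ?_⟩
  · simp only [bz_xor, sum_add_distrib, (par_iff _ _).1 hx, (par_iff _ _).1 hy]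
    rw [← bz_xor, Bool.xor_self]
    rfl
  · unfold tag
    split_ifs <;> rfl

/-- The even lift vertex with zero tag. -/
def zeroV (u : BV C) : LiftV C (lift0Parity t) := ⟨⟨u, fun _ => false⟩, by simp [lift0Parity]⟩

theorem tag_zeroV (u : BV C) (a : TV t) : tag (zeroV u) a = false := by
  unfold tag
  split_ifs <;> rfl

/-- Homomorphisms over a base map. -/
def fib (C : ChoiceSystem t) (b : TV t → Bool) (φ : TV t → BV C) : Finset (TV t → LiftV C b) :=
  (univ.filter fun ψ : TV t → LiftV C b =>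
    ∀ a a', tAdj a a' = true → liftAdj C b (ψ a) (ψ a') = true).filter
      fun ψ => (fun a => (ψ a).1.1) = φ

theorem mem_fib {φ : TV t → BV C} {ψ : TV t → LiftV C b} : ψ ∈ fib C b φ ↔
    (∀ a a', tAdj a a' = true → liftAdj C b (ψ a) (ψ a') = true) ∧ ∀ a, (ψ a).1.1 = φ a := by
  simp [fib, funext_iff]

theorem homCount_eq (C : ChoiceSystem t) (b : TV t → Bool) :
    homCount t (liftAdj C b) = ∑ φ, (fib C b φ).card :=
  card_eq_sum_card_fiberwise fun _ _ => mem_univ _

theorem fib_le (b : TV t → Bool) (φ : TV t → BV C) :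
    (fib C b φ).card ≤ (fib C (lift0Parity t) φ).card := by
  rcases (fib C b φ).eq_empty_or_nonempty with h | ⟨ψ₀, h₀⟩
  · simp [h]
  obtain ⟨h₁, h₂⟩ := mem_fib.1 h₀
  refine card_le_card_of_forall_subsingleton
    (fun ψ χ => ∀ a a', tag (χ a) a' = xor (tag (ψ a) a') (tag (ψ₀ a) a')) ?_ ?_
  · intro ψ hψ
    obtain ⟨h3, h4⟩ := mem_fib.1 hψ
    choose χ h5 h6 using fun a => exists_xor ((h4 a).trans (h₂ a).symm)
    refine ⟨χ, mem_fib.2 ⟨fun a a' ha => ?_, fun a => (h5 a).trans (h4 a)⟩, h6⟩
    have h7 := (adj_iff _ _).1 (h3 a a' ha)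
    have h8 := (adj_iff _ _).1 (h₁ a a' ha)
    rw [h₂, h₂] at h8
    rw [h4, h4] at h7
    rw [adj_iff, h5, h5, h4, h4, h6, h6, h7.2.2, h8.2.2]
    exact ⟨h7.1, h7.2.1, rfl⟩
  · rintro χ - ψ ⟨hψ, h3⟩ ψ' ⟨hψ', h4⟩
    funext a
    refine tag_ext (((mem_fib.1 hψ).2 a).trans ((mem_fib.1 hψ').2 a).symm) fun a' => ?_
    exact Bool.xor_left_inj.1 ((h3 a a').symm.trans (h4 a a'))

/-- The base map of a choice. -/
def base (C : ChoiceSystem t) (d : (i : Fin t) → Fin (C.dom i)) : TV t → BV C
  | Sum.inl i => Sum.inl ⟨i, d i⟩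
  | Sum.inr h => Sum.inr ⟨h, C.lamL _ _ (d _)⟩

theorem typeOf_base (d : (i : Fin t) → Fin (C.dom i)) (a : TV t) : typeOf C (base C d a) = a := by
  cases a <;> rfl

theorem helperAgree_base {d : (i : Fin t) → Fin (C.dom i)}
    (hd : ∀ i j : Fin t, i < j → C.lamL i j (d i) = C.lamR i j (d j)) (i : Fin t) (h : Helper t)
    (hi : i = h.1.1 ∨ i = h.1.2.1 ∨ i = h.1.2.2) :
    helperAgree C ⟨i, d i⟩ ⟨h, C.lamL _ _ (d _)⟩ = true := by
  rw [helperAgree, decide_eq_true_iff]
  rcases hi with rfl | rfl | rfl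
  · exact Or.inl ⟨rfl, rfl⟩
  · exact Or.inr (Or.inl ⟨rfl, hd _ _ h.2.1⟩)
  · exact Or.inr (Or.inr rfl)

theorem bAdj_base {d : (i : Fin t) → Fin (C.dom i)}
    (hd : ∀ i j : Fin t, i < j → C.lamL i j (d i) = C.lamR i j (d j)) {a a' : TV t}
    (h : tAdj a a' = true) : bAdj C (base C d a) (base C d a') = true := by
  rcases a with i | i <;> rcases a' with j | j
  · simp only [tAdj, decide_eq_true_iff] at h
    simp only [base, bAdj, mainAgree, Bool.or_eq_true, decide_eq_true_iff]
    rcases lt_or_gt_of_ne h with h1 | h1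
    · exact Or.inl ⟨h1, hd _ _ h1⟩
    · exact Or.inr ⟨h1, hd _ _ h1⟩
  · exact helperAgree_base hd i j (by simpa [tAdj] using h)
  · exact helperAgree_base hd j i (by simpa [tAdj] using h)
  · simp [tAdj] at h

theorem fib_star (ht : 0 < t) (d : (i : Fin t) → Fin (C.dom i)) :
    fib C (liftStarParity t) (base C d) = ∅ := by
  refine eq_empty_of_forall_notMem fun ψ hψ => ?_
  obtain ⟨h1, h2⟩ := mem_fib.1 hψ
  have h3 : ∀ a, typeOf C (ψ a).1.1 = a := fun a => by rw [h2, typeOf_base]
  have h4 := sum_symm (fun a a' => bz (tag (ψ a) a')) (fun a a' => ?_) fun a => ?_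
  · simp only [tag_sum, h3] at h4
    rw [sum_eq_single (Sum.inl ⟨0, ht⟩)] at h4
    · simp [bz, liftStarParity, ht] at h4
    · intro a _ ha
      simp [bz, liftStarParity, ht, ha]
    · simp
  · by_cases h : tAdj a a' = true
    · have h5 := ((adj_iff _ _).1 (h1 a a' h)).2.2
      rw [h3, h3] at h5
      simp only [h5]
    · rw [tag_not _ (by rwa [h3]), tag_not _ (by rwa [h3, tAdj_comm])]
  · rw [tag_not _ (by rw [h3, tAdj_self]; simp)]
    rfl

theorem card_liftV (C : ChoiceSystem t) (b : TV t → Bool) : Fintype.card (LiftV C b) =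
    ∑ u : BV C, (univ.filter fun z : Nbr (typeOf C u) → Bool =>
      ∑ i, bz (z i) = bz (b (typeOf C u))).card := by
  let e : LiftV C b ≃ Σ u : BV C, {z : Nbr (typeOf C u) → Bool //
      ∑ i, bz (z i) = bz (b (typeOf C u))} :=
    { toFun := fun x => ⟨x.1.1, x.1.2, (par_iff _ _).1 x.2⟩
      invFun := fun p => ⟨⟨p.1, p.2.1⟩, (par_iff _ _).2 p.2.2⟩
      left_inv := fun _ => rfl
      right_inv := fun _ => rfl }
  rw [Fintype.card_congr e, Fintype.card_sigma]
  exact sum_congr rfl fun u _ => Fintype.card_subtype _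

theorem nbr_nonempty (ht : 2 ≤ t) (a : TV t) : Nonempty (Nbr a) := by
  rcases a with i | h
  · have : Nontrivial (Fin t) := Fin.nontrivial_iff_two_le.2 ht
    obtain ⟨j, hj⟩ := exists_ne i
    exact ⟨⟨Sum.inl j, by simp [tAdj, hj.symm]⟩⟩
  · exact ⟨⟨Sum.inl h.1.1, by simp [tAdj]⟩⟩

theorem card_liftV' (ht : 2 ≤ t) (C : ChoiceSystem t) (b : TV t → Bool) :
    Fintype.card (LiftV C b) = ∑ u : BV C, 2 ^ (Fintype.card (Nbr (typeOf C u)) - 1) := by
  rw [card_liftV]
  refine sum_congr rfl fun u _ => ?_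
  obtain ⟨i₀⟩ := nbr_nonempty ht (typeOf C u)
  convert card_par i₀ (bz (b (typeOf C u)))

/-- The three mains of a helper. -/
def tri (h : Helper t) : Finset (Fin t) := {h.1.1, h.1.2.1, h.1.2.2}

theorem card_tri (h : Helper t) : (tri h).card = 3 :=
  card_eq_three.2 ⟨_, _, _, h.2.1.ne, h.2.2.1.symm, h.2.2.2.symm, rfl⟩

theorem tri_inj {h h' : Helper t} (h1 : tri h = tri h') (h2 : h.1.2.2 = h'.1.2.2) : h = h' := by
  obtain ⟨⟨i, j, l⟩, hij, hli, hlj⟩ := h
  obtain ⟨⟨i', j', l'⟩, hij', hli', hlj'⟩ := h'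
  obtain rfl : l = l' := h2
  dsimp only at hij hli hlj hij' hli' hlj'
  simp only [tri, Finset.ext_iff, mem_insert, mem_singleton] at h1
  have e1 := (h1 i).1 (by simp)
  have e2 := (h1 j).1 (by simp)
  refine Subtype.ext ?_
  simp only [Prod.mk.injEq, and_true]
  omega

theorem card_helper : Fintype.card (Helper t) ≤ 3 * t.choose 3 := by
  calc Fintype.card (Helper t)
      ≤ ((powersetCard 3 (univ : Finset (Fin t))).sigma fun s => s).card := by
        refine card_le_card_of_injOn (fun h => ⟨tri h, h.1.2.2⟩) (fun h _ => ?_) fun h _ h' _ e => ?_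
        · simp only [coe_sigma, Set.mem_sigma_iff, mem_coe, mem_powersetCard, subset_univ, true_and]
          exact ⟨card_tri h, by simp [tri]⟩
        · simp only [Sigma.mk.injEq, heq_eq_eq] at e
          exact tri_inj e.1 e.2
    _ = 3 * t.choose 3 := by
        rw [card_sigma, sum_congr rfl fun s hs => (mem_powersetCard.1 hs).2]
        simp [mul_comm]

theorem card_helper_at (i : Fin t) :
    (univ.filter fun h : Helper t => i ∈ tri h).card ≤ 3 * (t - 1).choose 2 := by
  calc (univ.filter fun h : Helper t => i ∈ tri h).card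
      ≤ ((powersetCard 2 ((univ : Finset (Fin t)).erase i)).sigma fun s => insert i s).card := by
        refine card_le_card_of_injOn (fun h => ⟨(tri h).erase i, h.1.2.2⟩) (fun h hh => ?_)
          fun h hh h' hh' e => ?_
        · have hi : i ∈ tri h := by simpa using hh
          simp only [coe_sigma, Set.mem_sigma_iff, mem_coe, mem_powersetCard]
          refine ⟨⟨erase_subset_erase _ (subset_univ _), ?_⟩, ?_⟩
          · rw [card_erase_of_mem hi, card_tri]
          · rw [insert_erase hi]
            simp [tri]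
        · have hi : i ∈ tri h := by simpa using hh
          have hi' : i ∈ tri h' := by simpa using hh'
          simp only [Sigma.mk.injEq, heq_eq_eq] at e
          exact tri_inj (by rw [← insert_erase hi, e.1, insert_erase hi']) e.2
    _ ≤ 3 * (t - 1).choose 2 := by
        rw [card_sigma]
        refine (sum_le_card_nsmul _ _ 3 fun s hs => ?_).trans ?_
        · exact (card_insert_le _ _).trans (by rw [(mem_powersetCard.1 hs).2])
        · simp [mul_comm]

theorem card_nbr (a : TV t) : Fintype.card (Nbr a) =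
    (univ.filter fun j : Fin t => tAdj a (Sum.inl j) = true).card +
      (univ.filter fun h : Helper t => tAdj a (Sum.inr h) = true).card := by
  rw [Fintype.card_subtype, card_filter, card_filter, card_filter, Fintype.sum_sum_type]

theorem card_nbr_inl (i : Fin t) :
    Fintype.card (Nbr (Sum.inl i : TV t)) ≤ t - 1 + 3 * (t - 1).choose 2 := by
  rw [card_nbr]
  refine add_le_add ?_ ?_
  · refine (card_le_card (t := univ.erase i) fun j hj => ?_).trans (by simp)
    have h : i ≠ j := by simpa [tAdj] using hj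
    exact mem_erase.2 ⟨h.symm, mem_univ _⟩
  · refine le_trans (le_of_eq ?_) (card_helper_at i)
    simp [tAdj, tri]

theorem card_nbr_inr (h : Helper t) : Fintype.card (Nbr (Sum.inr h : TV t)) ≤ 3 := by
  rw [card_nbr, ← card_tri h]
  simp only [tAdj, Bool.false_eq_true, filter_false, card_empty, add_zero]
  refine card_le_card fun j hj => ?_
  simpa [tri] using hj

end PH

open PH

/-- Sketch: sort the homomorphisms `ψ` by their base map `φ a = (ψ a).1.1`. For fixed `φ` the fibre for
`b` is the set of tag families `z : (a : TV t) → Nbr (typeOf C (φ a)) → Bool` with parities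
`b (typeOf (φ a))` and the agreement conditions (and `φ` must respect adjacency). If the fibre for
`liftStarParity` has an element `z₀`, `z ↦ z xor z₀` injects it into the fibre for `lift0Parity`; so fibrewise
`≤`. For the map `φ` given by a successful choice `d` (`inl i ↦ inl ⟨i, d i⟩`,
`inr h ↦ inr ⟨h, lamL _ _ (d _)⟩`, so `typeOf (φ a) = a`) the even fibre contains the zero tags, while
the star fibre is empty: `∑ a, ∑ a' : Nbr a, z a a'` is even (the terms `(a, a')`, `(a', a)` agree;
`Finset.sum_involution` in `ZMod 2`) but equals `∑ a, b a = 1`. -/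
theorem homCount_lt {t : ℕ} (ht : 0 < t) (C : ChoiceSystem t) (h : C.Successful) :
    homCount t (liftAdj C (liftStarParity t)) < homCount t (liftAdj C (lift0Parity t)) := by
  obtain ⟨d, hd⟩ := h
  rw [homCount_eq, homCount_eq]
  refine sum_lt_sum (fun φ _ => fib_le _ φ) ⟨base C d, mem_univ _, ?_⟩
  rw [fib_star ht, card_empty, card_pos]
  refine ⟨fun a => zeroV (base C d a), mem_fib.2 ⟨fun a a' ha => ?_, fun a => rfl⟩⟩
  rw [adj_iff, tag_zeroV, tag_zeroV]
  refine ⟨?_, bAdj_base hd ha, rfl⟩
  change tAdj (typeOf C (base C d a)) (typeOf C (base C d a')) = true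
  rwa [typeOf_base, typeOf_base]

theorem pl_simple {t : ℕ} (C : ChoiceSystem t) (b : TV t → Bool) :
    IsSimple (asMatrix (liftAdj C b)) := by
  refine ⟨fun v w => ?_, fun v => ?_⟩
  · unfold asMatrix
    rw [Bool.eq_iff_iff, adj_iff, adj_iff, tAdj_comm, bAdj_comm, eq_comm (a := tag _ _)]
  · unfold asMatrix
    rw [← Bool.not_eq_true, adj_iff, tAdj_self]
    simp

/-- Sketch: `card (LiftV C b) = ∑ u, 2 ^ (card (Nbr (typeOf u)) - 1)` whenever every template vertex has a
neighbour (flip one coordinate: the even and the odd tags are equinumerous). -/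
theorem pl_card_eq {t : ℕ} (ht : 2 ≤ t) (C : ChoiceSystem t) (b b' : TV t → Bool) :
    Fintype.card (LiftV C b) = Fintype.card (LiftV C b') := by
  rw [card_liftV' ht, card_liftV' ht]

/-- Sketch: a helper has `3` template neighbours; there are `3 * C(t, 3)` helpers
(`C(t, 2) * (t - 2)`); a main has `t - 1` main neighbours and `3 * C(t-1, 2)` helper neighbours
(as first or second index: `(t-1)(t-2)` in total; as third index: `C(t-1, 2)`). Upper bounds suffice. -/
theorem pl_card_le {t : ℕ} (ht : 4 ≤ t) (C : ChoiceSystem t) (A : ℕ) (hA : C.SizeAtMost A) :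
    Fintype.card (LiftV C (lift0Parity t)) ≤ A * orderFactor t := by
  rw [card_liftV' (by omega), Fintype.sum_sum_type, orderFactor, mul_add]
  refine add_le_add ?_ ?_
  · refine (sum_le_card_nsmul _ _ (2 ^ (t - 2 + 3 * (t - 1).choose 2)) fun p _ => ?_).trans ?_
    · refine Nat.pow_le_pow_right (by norm_num) ?_
      have := card_nbr_inl p.1
      change Fintype.card (Nbr (Sum.inl p.1 : TV t)) - 1 ≤ _
      omega
    · rw [smul_eq_mul, ← mul_assoc]
      refine Nat.mul_le_mul_right _ ?_
      rw [card_univ, Fintype.card_sigma]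
      refine (sum_le_card_nsmul _ _ A fun i _ => by simpa using hA.1 i).trans ?_
      simp [mul_comm]
  · refine (sum_le_card_nsmul _ _ 4 fun p _ => ?_).trans ?_
    · refine (Nat.pow_le_pow_right (by norm_num) (?_ : _ ≤ 2)).trans (by norm_num)
      have := card_nbr_inr p.1
      change Fintype.card (Nbr (Sum.inr p.1 : TV t)) - 1 ≤ _
      omega
    · rw [smul_eq_mul, card_univ, Fintype.card_sigma]
      have h1 : ∑ h : Helper t, Fintype.card (Fin (C.lab h.1.1 h.1.2.1)) ≤
          3 * t.choose 3 * A := by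
        refine (sum_le_card_nsmul _ _ A fun h _ => by simpa using hA.2 _ _ h.2.1).trans ?_
        rw [smul_eq_mul, card_univ]
        exact Nat.mul_le_mul_right _ card_helper
      nlinarith

end Crest.Agent.R290
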