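import Crest.Agent.R290.SM

/-!
# Row 290: a stack machine is simulated by a sweep machine

Plan. *Micro-steps*: a control is `(Option Stmt × σ)`; a micro-step executes one constructor of the
statement (`push`, `peek`, `pop`, `load`, `branch` pass to the substatement, `goto f` passes to
`some (M.m (f v))`, `halt` to `none`; `none` does nothing). One `TM2.step` is at most `D` micro-steps, `D`
the maximal depth of the statements `M.m l` (induction on the statement: `stepAux q v S` is reached after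
at most `depth q` micro-steps). So if the run halts within `τ` steps then after any `t ≥ D * τ` micro-steps
the control is `none` and the stacks are those of `haltList`. A micro-step changes every stack length by
at most one.

*Cells*: `Q = Option (Ctl × Ctl × (∀ k, Option (Γ k)) × (∀ k, Option (Γ k)))`, `none` the wall; a cell holds
`cur` (the control executed in the sweep that wrote it), `nxt` (the control after it; meaningful at position
`1` only), `old` (contents of this position before that sweep) and `new` (after). Position `p ≥ 1` holds the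
`(p-1)`-th symbol from the top of every stack. `δ l c r = none` if `c = none`; otherwise
`cur := if l = none then c.nxt else l.cur`, `old := c.new`, `nxt :=` the control after the micro-step of `cur`
with tops `c.new`, and `new k :=` for `push k f`: `if l = none then some (f v) else l.old k`; for `pop k`:
`r.new k` (`none` if `r` is the wall); else `c.new k`. Initial cells: `nxt = (some (M.m M.main), initialState)`,
`new = ` the bit on track `k₀`. Invariant for row `t` (with `w.length + t + 2 ≤ S`): position `0` is the wall,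
`(cell 1).nxt` is the control after `t` micro-steps, `(cell p).new k = (stack k)[p-1]?` for `1 ≤ p < S`
(inner induction on `p`, `TSM.cell_row`). `acc` = the track `k₁` of `new` is `some (eb.symm true)`.
The finite closed set `R`: controls among the substatements of the `M.m l` (a finite set, e.g.
`Turing.TM2.stmts M.m Finset.univ` or a direct recursive `List`), tracks among the symbols `f v` of the
`push k f` substatements and, for `k₀`, all of `Γ k₀` (`Set.Finite.pi`, `Set.Finite.prod`).
-/

set_option autoImplicit false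

namespace Crest.Agent.R290

open Turing Crest.Agent.Lib.PolyTime

namespace TM2SM

set_option linter.unusedSectionVars false
set_option linter.unnecessarySeqFocus false

open Turing.TM2 Turing.TM2.Stmt Function

variable {K : Type} [DecidableEq K] {Γ : K → Type} {Λ σ : Type}

/-- controls -/
abbrev Ctl (Γ : K → Type) (Λ σ : Type) : Type := Option (Stmt Γ Λ σ) × σ

/-- one symbol (or none) for every stack -/
abbrev Tr (Γ : K → Type) : Type := ∀ k, Option (Γ k)

/-- the control after a micro-step -/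
def nx (m : Λ → Stmt Γ Λ σ) : Ctl Γ Λ σ → Tr Γ → Ctl Γ Λ σ
  | (none, v), _ => (none, v)
  | (some (push _ _ q), v), _ => (some q, v)
  | (some (peek k f q), v), t => (some q, f v (t k))
  | (some (pop k f q), v), t => (some q, f v (t k))
  | (some (load a q), v), _ => (some q, a v)
  | (some (branch f q₁ q₂), v), _ => (some (cond (f v) q₁ q₂), v)
  | (some (goto f), v), _ => (some (m (f v)), v)
  | (some halt, v), _ => (none, v)

/-- the stacks after a micro-step -/
def ns : Ctl Γ Λ σ → (∀ k, List (Γ k)) → ∀ k, List (Γ k)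
  | (some (push k f _), v), S => update S k (f v :: S k)
  | (some (pop k _ _), _), S => update S k (S k).tail
  | _, S => S

/-- the contents of a cell after a micro-step -/
def nw : Ctl Γ Λ σ → Option (Tr Γ) → Tr Γ → Tr Γ → Tr Γ
  | (some (push k f _), v), l, c, _ => update c k (l.elim (some (f v)) fun l => l k)
  | (some (pop k _ _), _), _, c, r => update c k (r k)
  | _, _, c, _ => c

/-- the `p`-th symbols from the top -/
def tr (S : ∀ k, List (Γ k)) (p : ℕ) : Tr Γ := fun k => (S k)[p]?

/-- a micro-step -/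
def micro (m : Λ → Stmt Γ Λ σ) (c : Ctl Γ Λ σ × ∀ k, List (Γ k)) : Ctl Γ Λ σ × ∀ k, List (Γ k) :=
  (nx m c.1 (tr c.2 0), ns c.1 c.2)

theorem tr_update (S : ∀ k, List (Γ k)) (k : K) (L : List (Γ k)) (p : ℕ) :
    tr (update S k L) p = update (tr S p) k L[p]? := by
  funext k'
  by_cases h : k' = k
  · subst h; simp [tr]
  · simp [tr, update_of_ne h]

theorem nw_zero (c : Ctl Γ Λ σ) (S : ∀ k, List (Γ k)) :
    nw c none (tr S 0) (tr S 1) = tr (ns c S) 0 := by
  obtain ⟨_ | q, v⟩ := c
  · rfl
  · cases q <;> simp [nw, ns, tr_update] <;> simp [tr]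

theorem nw_succ (c : Ctl Γ Λ σ) (S : ∀ k, List (Γ k)) (p : ℕ) :
    nw c (some (tr S p)) (tr S (p + 1)) (tr S (p + 2)) = tr (ns c S) (p + 1) := by
  obtain ⟨_ | q, v⟩ := c
  · rfl
  · cases q <;> simp [nw, ns, tr_update] <;> simp [tr]

theorem length_ns (c : Ctl Γ Λ σ) (S : ∀ k, List (Γ k)) (k : K) :
    (ns c S k).length ≤ (S k).length + 1 := by
  obtain ⟨_ | q, v⟩ := c
  · simp [ns]
  · cases q with
    | push k' f q =>
      by_cases h : k = k'
      · subst h; simp [ns]
      · simp [ns, update_of_ne h]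
    | pop k' f q =>
      by_cases h : k = k'
      · subst h; simp [ns]; omega
      · simp [ns, update_of_ne h]
    | _ => simp [ns]

theorem length_micro (m : Λ → Stmt Γ Λ σ) (c : Ctl Γ Λ σ × ∀ k, List (Γ k)) (t : ℕ) (k : K) :
    (((micro m)^[t] c).2 k).length ≤ (c.2 k).length + t := by
  induction t with
  | zero => simp
  | succ t ih =>
    rw [iterate_succ_apply']
    exact (length_ns _ _ k).trans (by omega)

/-- configurations as micro-configurations -/
def up (m : Λ → Stmt Γ Λ σ) (c : Cfg Γ Λ σ) : Ctl Γ Λ σ × ∀ k, List (Γ k) :=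
  ((c.l.map m, c.var), c.stk)

theorem sim_stmt (m : Λ → Stmt Γ Λ σ) (q : Stmt Γ Λ σ) :
    ∃ D, ∀ v S, ∃ n ≤ D, (micro m)^[n] ((some q, v), S) = up m (stepAux q v S) := by
  induction q with
  | push k f q ih =>
    obtain ⟨D, h⟩ := ih
    refine ⟨D + 1, fun v S => ?_⟩
    obtain ⟨n, hn, h⟩ := h v (update S k (f v :: S k))
    exact ⟨n + 1, by omega, by rw [iterate_succ_apply]; exact h⟩
  | peek k f q ih =>
    obtain ⟨D, h⟩ := ih
    refine ⟨D + 1, fun v S => ?_⟩
    obtain ⟨n, hn, h⟩ := h (f v (S k).head?) S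
    refine ⟨n + 1, by omega, ?_⟩
    rw [iterate_succ_apply, stepAux, ← h, List.head?_eq_getElem?]; rfl
  | pop k f q ih =>
    obtain ⟨D, h⟩ := ih
    refine ⟨D + 1, fun v S => ?_⟩
    obtain ⟨n, hn, h⟩ := h (f v (S k).head?) (update S k (S k).tail)
    refine ⟨n + 1, by omega, ?_⟩
    rw [iterate_succ_apply, stepAux, ← h, List.head?_eq_getElem?]; rfl
  | load a q ih =>
    obtain ⟨D, h⟩ := ih
    refine ⟨D + 1, fun v S => ?_⟩
    obtain ⟨n, hn, h⟩ := h (a v) S
    exact ⟨n + 1, by omega, by rw [iterate_succ_apply]; exact h⟩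
  | branch f q₁ q₂ ih₁ ih₂ =>
    obtain ⟨D₁, h₁⟩ := ih₁
    obtain ⟨D₂, h₂⟩ := ih₂
    refine ⟨D₁ + D₂ + 1, fun v S => ?_⟩
    obtain ⟨n₁, hn₁, h₁⟩ := h₁ v S
    obtain ⟨n₂, hn₂, h₂⟩ := h₂ v S
    cases hf : f v
    · refine ⟨n₂ + 1, by omega, ?_⟩
      rw [iterate_succ_apply, stepAux, hf, cond_false, ← h₂]
      simp [micro, nx, ns, hf]
    · refine ⟨n₁ + 1, by omega, ?_⟩
      rw [iterate_succ_apply, stepAux, hf, cond_true, ← h₁]
      simp [micro, nx, ns, hf]
  | goto f => exact ⟨1, fun v S => ⟨1, le_rfl, rfl⟩⟩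
  | halt => exact ⟨1, fun v S => ⟨1, le_rfl, rfl⟩⟩

theorem iterate_none {α : Type} (f : α → Option α) (n : ℕ) : (flip bind f)^[n] none = none := by
  induction n with
  | zero => rfl
  | succ n ih => rw [iterate_succ_apply]; exact ih

theorem sim_run [Finite Λ] (m : Λ → Stmt Γ Λ σ) :
    ∃ D, ∀ (n : ℕ) (c c' : Cfg Γ Λ σ), (flip bind (step m))^[n] (some c) = some c' →
      ∃ N ≤ D * n, (micro m)^[N] (up m c) = up m c' := by
  choose D hD using fun l => sim_stmt m (m l)
  obtain ⟨B, hB⟩ := (Set.finite_range D).bddAbove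
  refine ⟨B, fun n => ?_⟩
  induction n with
  | zero =>
    intro c c' h
    obtain rfl : c = c' := Option.some.inj h
    exact ⟨0, Nat.zero_le _, rfl⟩
  | succ n ih =>
    rintro ⟨_ | l, v, S⟩ c' h
    · rw [iterate_succ_apply] at h
      exact absurd ((iterate_none (step m) n).symm.trans h) (by simp)
    · rw [iterate_succ_apply] at h
      obtain ⟨N, hN, h'⟩ := ih (stepAux (m l) v S) c' h
      obtain ⟨n', hn', h''⟩ := hD l v S
      have := hB ⟨l, rfl⟩
      refine ⟨N + n', by rw [Nat.mul_succ]; omega, ?_⟩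
      rw [iterate_add_apply, ← h', ← h'']; rfl

/-- cells: `none` is the wall, otherwise `(cur, nxt, old, new)` -/
abbrev Q (Γ : K → Type) (Λ σ : Type) : Type := Option (Ctl Γ Λ σ × Ctl Γ Λ σ × Tr Γ × Tr Γ)

/-- the simulating machine -/
def mach (m : Λ → Stmt Γ Λ σ) (c₀ : Ctl Γ Λ σ) (k₀ k₁ : K) (ia : Bool → Γ k₀) (ob : Γ k₁ → Bool) :
    TSM (Q Γ Λ σ) where
  δ l c r := c.map fun c =>
    (l.elim c.2.1 (·.1), nx m (l.elim c.2.1 (·.1)) c.2.2.2, c.2.2.2,
      nw (l.elim c.2.1 (·.1)) (l.map (·.2.2.1)) c.2.2.2 (r.elim (fun _ => none) (·.2.2.2)))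
  wall := none
  blank := some (c₀, c₀, fun _ => none, fun _ => none)
  bit b := some (c₀, c₀, fun _ => none, update (fun _ => none) k₀ (some (ia b)))
  acc c := c.elim false fun c => (c.2.2.2 k₁).elim false ob

theorem row_inv (m : Λ → Stmt Γ Λ σ) (c₀ : Ctl Γ Λ σ) (k₀ k₁ : K) (ia : Bool → Γ k₀)
    (ob : Γ k₁ → Bool) (w : List Bool) {S : ℕ} (t : ℕ) (ht : w.length + t + 2 ≤ S) :
    (mach m c₀ k₀ k₁ ia ob).cell w S (t * S + 0) = none ∧ ∀ p, p + 1 < S → ∃ cur nxt old,
      (mach m c₀ k₀ k₁ ia ob).cell w S (t * S + (p + 1)) =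
        some (cur, nxt, old, tr ((micro m)^[t] (c₀, update (fun _ => []) k₀ (w.map ia))).2 p) ∧
      (p = 0 → nxt = ((micro m)^[t] (c₀, update (fun _ => []) k₀ (w.map ia))).1) := by
  induction t with
  | zero =>
    refine ⟨by rw [TSM.cell_zero _ _ (by omega)]; rfl, fun p hp => ⟨c₀, c₀, fun _ => none, ?_,
      fun _ => rfl⟩⟩
    rw [TSM.cell_zero _ _ hp, TSM.init, if_neg (Nat.succ_ne_zero p), iterate_zero_apply, tr_update]
    have h0 : tr (fun k => ([] : List (Γ k))) p = fun _ => none := by funext k; simp [tr]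
    rw [h0]
    split_ifs with h
    · have h' : p < w.length := h
      simp [mach, h']
    · have h' : w.length ≤ p := by omega
      simp [mach, h']
  | succ t ih =>
    obtain ⟨h0, h1⟩ := ih (by omega)
    have hlen := length_micro m (c₀, update (fun _ => []) k₀ (w.map ia)) t
    rw [iterate_succ_apply']
    generalize (micro m)^[t] (c₀, update (fun _ => []) k₀ (w.map ia)) = c at h1 hlen
    have hS : 2 ≤ S := by omega
    have h2 : (mach m c₀ k₀ k₁ ia ob).cell w S ((t + 1) * S + 0) = none := by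
      rw [TSM.cell_row _ _ hS t 0 (by omega), h0]; rfl
    have hr : ∀ p, p + 1 < S →
        ((if p + 1 + 1 < S then (mach m c₀ k₀ k₁ ia ob).cell w S (t * S + (p + 1 + 1))
          else (mach m c₀ k₀ k₁ ia ob).cell w S ((t + 1) * S + 0)).elim (fun _ => none)
            (·.2.2.2) : Tr Γ) = tr c.2 (p + 1) := by
      intro p hp
      split_ifs with h
      · obtain ⟨_, _, _, h3, -⟩ := h1 (p + 1) h
        rw [h3]; rfl
      · rw [h2]
        funext k
        have h4 := hlen k
        have h5 : (update (fun k => ([] : List (Γ k))) k₀ (w.map ia) k).length ≤ w.length := by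
          by_cases hk : k = k₀
          · subst hk; simp
          · simp [update_of_ne hk]
        simp only [Option.elim_none, tr]
        rw [List.getElem?_eq_none (by simp only at h4; omega)]
    have h3 : ∀ p, p + 1 < S → (mach m c₀ k₀ k₁ ia ob).cell w S ((t + 1) * S + (p + 1)) =
        some (c.1, nx m c.1 (tr c.2 p), tr c.2 p, tr (ns c.1 c.2) p) := by
      intro p
      induction p with
      | zero =>
        intro hp
        obtain ⟨cur, nxt, old, h4, h5⟩ := h1 0 hp
        have h6 := hr 0 hp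
        rw [TSM.cell_row _ _ hS t _ hp, if_neg (Nat.succ_ne_zero _), Nat.add_sub_cancel, h2, h4,
          h5 rfl, ← nw_zero, ← h6, h2]
        rfl
      | succ p ihp =>
        intro hp
        obtain ⟨cur, nxt, old, h4, -⟩ := h1 (p + 1) hp
        have h6 := hr (p + 1) hp
        rw [TSM.cell_row _ _ hS t _ hp, if_neg (Nat.succ_ne_zero _), Nat.add_sub_cancel,
          ihp (by omega), h4, ← nw_succ, ← h6]
        rfl
    refine ⟨h2, fun p hp => ⟨_, _, _, h3 p hp, ?_⟩⟩
    rintro rfl
    rfl

/-- the substatements of the program -/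
def St (m : Λ → Stmt Γ Λ σ) : Set (Stmt Γ Λ σ) := ⋃ l, (stmts₁ (m l) : Set (Stmt Γ Λ σ))

theorem St_finite [Finite Λ] (m : Λ → Stmt Γ Λ σ) : (St m).Finite :=
  Set.finite_iUnion fun _ => Finset.finite_toSet _

theorem mem_St_self (m : Λ → Stmt Γ Λ σ) (l : Λ) : m l ∈ St m :=
  Set.mem_iUnion.2 ⟨l, stmts₁_self⟩

theorem mem_St_of {m : Λ → Stmt Γ Λ σ} {q q' : Stmt Γ Λ σ} (h : q ∈ St m) (h' : q' ∈ stmts₁ q) :
    q' ∈ St m := by
  obtain ⟨l, hl⟩ := Set.mem_iUnion.1 h
  exact Set.mem_iUnion.2 ⟨l, stmts₁_trans hl h'⟩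

/-- the reachable controls -/
def CS (m : Λ → Stmt Γ Λ σ) : Set (Ctl Γ Λ σ) := {c | ∀ q, c.1 = some q → q ∈ St m}

theorem CS_finite [Finite Λ] [Finite σ] (m : Λ → Stmt Γ Λ σ) : (CS m).Finite := by
  refine ((((St_finite m).image some).insert none).prod (Set.finite_univ (α := σ))).subset ?_
  rintro ⟨_ | q, v⟩ h
  · simp
  · simpa using h q rfl

theorem nx_mem {m : Λ → Stmt Γ Λ σ} {c : Ctl Γ Λ σ} (h : c ∈ CS m) (t : Tr Γ) :
    nx m c t ∈ CS m := by
  obtain ⟨_ | q, v⟩ := c
  · exact h
  · have hq := h q rfl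
    intro q' h'
    cases q with
    | goto f => obtain rfl := Option.some.inj h'; exact mem_St_self m _
    | halt => simp [nx] at h'
    | branch f q₁ q₂ =>
      obtain rfl := Option.some.inj h'
      refine mem_St_of hq ?_
      cases f v <;> simp [stmts₁, stmts₁_self]
    | _ =>
      obtain rfl := Option.some.inj h'
      exact mem_St_of hq (by simp [stmts₁, stmts₁_self])

/-- the reachable symbols -/
def GS (m : Λ → Stmt Γ Λ σ) (k₀ k : K) : Set (Γ k) :=
  {a | k = k₀ ∨ ∃ s ∈ St m, ∃ f q v, s = push k f q ∧ a = f v}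

theorem GS_finite [Finite Λ] [Finite σ] (m : Λ → Stmt Γ Λ σ) (k₀ k : K) [Finite (Γ k₀)] :
    (GS m k₀ k).Finite := by
  by_cases h : k = k₀
  · subst h; exact Set.toFinite _
  · have h1 : ∀ s : Stmt Γ Λ σ, {a : Γ k | ∃ f q v, s = push k f q ∧ a = f v}.Finite := by
      intro s
      by_cases hs : ∃ f q, s = push k f q
      · obtain ⟨f, q, rfl⟩ := hs
        refine (Set.finite_range f).subset ?_
        rintro _ ⟨f', q', v, h', rfl⟩
        simp only [push.injEq, heq_eq_eq, true_and] at h'
        exact ⟨v, by rw [h'.1]⟩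
      · refine Set.finite_empty.subset ?_
        rintro _ ⟨f', q', v, h', rfl⟩
        exact hs ⟨f', q', h'⟩
    refine ((St_finite m).biUnion fun s _ => h1 s).subset ?_
    rintro a (h' | ⟨s, hs, h'⟩)
    · exact absurd h' h
    · exact Set.mem_biUnion hs h'

/-- the reachable tracks -/
def TS (m : Λ → Stmt Γ Λ σ) (k₀ : K) : Set (Tr Γ) := {t | ∀ k a, t k = some a → a ∈ GS m k₀ k}

theorem TS_finite [Finite K] [Finite Λ] [Finite σ] (m : Λ → Stmt Γ Λ σ) (k₀ : K) [Finite (Γ k₀)] :
    (TS m k₀).Finite := by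
  refine (Set.Finite.pi' fun k => ((GS_finite m k₀ k).image some).insert none).subset ?_
  intro t h k
  cases hk : t k with
  | none => simp
  | some a => simpa using h k a hk

theorem update_mem {m : Λ → Stmt Γ Λ σ} {k₀ : K} {t : Tr Γ} (ht : t ∈ TS m k₀) (k : K)
    (o : Option (Γ k)) (ho : ∀ a, o = some a → a ∈ GS m k₀ k) : update t k o ∈ TS m k₀ := by
  intro k' a h
  by_cases hk : k' = k
  · subst hk; rw [update_self] at h; exact ho a h
  · rw [update_of_ne hk] at h; exact ht k' a h

theorem none_mem (m : Λ → Stmt Γ Λ σ) (k₀ : K) : (fun _ => none : Tr Γ) ∈ TS m k₀ :=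
  fun _ _ h => by simp at h

theorem nw_mem {m : Λ → Stmt Γ Λ σ} {k₀ : K} {c : Ctl Γ Λ σ} (h : c ∈ CS m) {l : Option (Tr Γ)}
    (hl : ∀ l', l = some l' → l' ∈ TS m k₀) {t r : Tr Γ} (ht : t ∈ TS m k₀) (hr : r ∈ TS m k₀) :
    nw c l t r ∈ TS m k₀ := by
  obtain ⟨_ | q, v⟩ := c
  · exact ht
  · cases q with
    | push k f q =>
      refine update_mem ht k _ fun a ha => ?_
      cases l with
      | none => exact Or.inr ⟨_, h _ rfl, f, q, v, rfl, (Option.some.inj ha).symm⟩
      | some l => exact hl l rfl k a ha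
    | pop k f q => exact update_mem ht k _ (hr k)
    | _ => exact ht

theorem mach_code [Finite K] [Finite Λ] [Finite σ] (m : Λ → Stmt Γ Λ σ) (l₀ : Λ) (v₀ : σ)
    (k₀ k₁ : K) [Finite (Γ k₀)] (ia : Bool → Γ k₀) (ob : Γ k₁ → Bool) :
    ∃ M : SM, M.WF ∧ ∀ w S A, M.acc (M.cell w S A) =
      (mach m (some (m l₀), v₀) k₀ k₁ ia ob).acc
        ((mach m (some (m l₀), v₀) k₀ k₁ ia ob).cell w S A) := by
  have hc : ((some (m l₀), v₀) : Ctl Γ Λ σ) ∈ CS m := fun q h => by
    obtain rfl := Option.some.inj h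
    exact mem_St_self m l₀
  refine TSM.code _ {c | ∀ z, c = some z → z ∈ CS m ×ˢ CS m ×ˢ TS m k₀ ×ˢ TS m k₀} ?_ ?_ ?_ ?_ ?_
  · refine ((((CS_finite m).prod ((CS_finite m).prod ((TS_finite m k₀).prod
      (TS_finite m k₀)))).image some).insert none).subset ?_
    rintro (_ | z) h
    · simp
    · exact Or.inr ⟨z, h z rfl, rfl⟩
  · rintro l hl (_ | c) hc' r hr z hz
    · simp [mach] at hz
    · obtain rfl := Option.some.inj hz
      obtain ⟨-, h2, -, h4⟩ := hc' c rfl
      have h5 : l.elim c.2.1 (·.1) ∈ CS m := by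
        cases l with
        | none => exact h2
        | some l => exact (hl l rfl).1
      refine ⟨h5, nx_mem h5 _, h4, nw_mem h5 ?_ h4 ?_⟩
      · cases l with
        | none => intro l' h; simp at h
        | some l =>
          intro l' h
          obtain rfl := Option.some.inj h
          exact (hl l rfl).2.2.1
      · cases r with
        | none => exact none_mem m k₀
        | some r => exact (hr r rfl).2.2.2
  · intro z hz; simp [mach] at hz
  · intro z hz
    obtain rfl := Option.some.inj hz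
    exact ⟨hc, hc, none_mem m k₀, none_mem m k₀⟩
  · intro b z hz
    obtain rfl := Option.some.inj hz
    exact ⟨hc, hc, none_mem m k₀, update_mem (none_mem m k₀) k₀ _ fun _ _ => Or.inl rfl⟩

end TM2SM

theorem tm2_to_sm (M : FinTM2) (ea : M.Γ M.k₀ ≃ Bool) (eb : M.Γ M.k₁ ≃ Bool) :
    ∃ (T : SM) (C : ℕ), T.WF ∧ ∀ (w : List Bool) (b : Bool) (τ : ℕ),
      Nonempty (TM2OutputsInTime M (w.map ea.symm) (some [eb.symm b]) τ) →
      ∀ t S, C * τ + C ≤ t → w.length + t + 2 ≤ S → T.acc (T.cell w S (t * S + 1)) = b := by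
  have := M.kFin
  have := M.ΛFin
  have := M.σFin
  have := M.Γk₀Fin
  obtain ⟨T, hT, hc⟩ := TM2SM.mach_code M.m M.main M.initialState M.k₀ M.k₁ ea.symm eb
  obtain ⟨D, hD⟩ := TM2SM.sim_run M.m
  refine ⟨T, D, hT, ?_⟩
  rintro w b τ ⟨h⟩ t S ht hS
  obtain ⟨N, hN, h1⟩ := hD h.steps _ _ h.evals_in_steps
  have hN' : N ≤ t := by
    have := Nat.mul_le_mul_left D h.steps_le_m
    omega
  have h2 : (TM2SM.micro M.m)^[t] (TM2SM.up M.m (initList M (w.map ea.symm))) =
      TM2SM.up M.m (haltList M [eb.symm b]) := by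
    rw [← Nat.sub_add_cancel hN', Function.iterate_add_apply, h1]
    exact Function.iterate_fixed rfl _
  have h3 : TM2SM.up M.m (initList M (w.map ea.symm)) =
      ((some (M.m M.main), M.initialState),
        Function.update (fun _ => []) M.k₀ (w.map ea.symm)) := by
    refine Prod.ext rfl (funext fun k => ?_)
    by_cases hk : k = M.k₀
    · subst hk; simp [TM2SM.up, initList]
    · simp [TM2SM.up, initList, hk]
  obtain ⟨cur, nxt, old, h4, -⟩ := (TM2SM.row_inv M.m (some (M.m M.main), M.initialState) M.k₀ M.k₁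
    ea.symm eb w t hS).2 0 (by omega)
  rw [hc, h4, ← h3, h2]
  simp [TM2SM.mach, TM2SM.tr, TM2SM.up, haltList]

end Crest.Agent.R290
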