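import Crest.Agent.R290.RulesSem
import Crest.Agent.R290.TM2SM

/-!
# Row 290: from sweep machines to coded parity systems
-/

set_option autoImplicit false

namespace Crest.Agent.R290

open Crest.Agent.Lib.PolyTime Rules Turing

theorem exists_csys : ∃ Cs : Inp → CSys, PT Cs ∧ ∀ (M : SM) (w : List Bool) (k N : ℕ), M.WF → 3 ≤ k →
    2 ≤ N → w.length + 1 ≤ N → (Cs (M, w, k, N)).WF ∧
      ¬ (Cs (M, w, k, N)).sys.Solvable ((Cs (M, w, k, N)).β true) ∧
      (M.final w k N = false → (Cs (M, w, k, N)).sys.Cons (k + 1) ((Cs (M, w, k, N)).β true)) ∧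
      (M.final w k N = true → ∀ β, (Cs (M, w, k, N)).sys.Cons (k + 1) β →
        (Cs (M, w, k, N)).sys.Solvable β) := by
  obtain ⟨Cs, hPT, h⟩ := exists_csys_of_crs ((0, 0, 0, 0) : Desc) crsI
    (by unfold crsI crs; fun_prop) (by unfold crsI crs; fun_prop) pt_rules pt_hub pt_π pt_val
    (PT.const 5)
  refine ⟨Cs, hPT, fun M w k N hM hk hN hw => ?_⟩
  haveI : NeZero k := ⟨by omega⟩
  haveI : NeZero N := ⟨by omega⟩
  haveI : NeZero (crsI (M, w, k, N)).k := ⟨by show k ≠ 0; omega⟩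
  haveI : NeZero (crsI (M, w, k, N)).nR := ⟨by show 2 * N ≠ 0; omega⟩
  have hk2 : 2 ≤ (crs M w k N).k := by show 2 ≤ k; omega
  obtain ⟨hW, hm⟩ := h (M, w, k, N) (rules_pos M w k N) hk2
  refine ⟨hW, fun hs => RS.xsys_not_solvable hk2 (hm.solvable_iff.1 hs), fun hf => ?_,
    fun hf => ?_⟩
  · refine hm.cons_iff.2 (RS.xsys_cons rs_wf hk2 rs_out fun a ha => ?_)
    have := (tr_out_iff hM hk hN hw).1 ⟨a, ha⟩
    simp [hf] at this
  · obtain ⟨a, ha⟩ := (tr_out_iff hM hk hN hw).2 hf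
    exact hm.all (by omega) fun β hβ => RS.xsys_solvable rs_wf hk2 rs_out ha hβ

/-- The simulation of a stack machine, read at the final address. -/
theorem tm2_final (M : FinTM2) (ea : M.Γ M.k₀ ≃ Bool) (eb : M.Γ M.k₁ ≃ Bool) :
    ∃ (T : SM) (C : ℕ), T.WF ∧ ∀ (w : List Bool) (b : Bool) (τ : ℕ),
      Nonempty (TM2OutputsInTime M (w.map ea.symm) (some [eb.symm b]) τ) →
      ∀ k N, 3 ≤ k → 2 ≤ N → w.length + 1 ≤ N → C * τ + C + 1 ≤ N ^ ((k - 1) / 2) →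
        T.final w k N = b := by
  obtain ⟨T, C, hT, h⟩ := tm2_to_sm M ea eb
  refine ⟨T, C, hT, fun w b τ hτ k N hk hN hw hC => h w b τ hτ _ _ (by omega) ?_⟩
  have h1 : N ^ ((k - 1) / 2 + 1) ≤ N ^ (k - (k - 1) / 2) :=
    Nat.pow_le_pow_right (by omega) (by omega)
  have h2 : N ^ 1 ≤ N ^ ((k - 1) / 2) := Nat.pow_le_pow_right (by omega) (by omega)
  rw [pow_succ] at h1
  rw [pow_one] at h2
  have h3 : N ^ ((k - 1) / 2) * 2 ≤ N ^ ((k - 1) / 2) * N := Nat.mul_le_mul_left _ hN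
  omega

end Crest.Agent.R290
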