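import Crest.Agent.Lib.PolyTime.Bridge

/-!
# Row 290: sweep machines

A sweep machine of width `S ≥ 2` produces the sequence `x A`: `x A = init A` for `A < S` (a wall at
`0`, then the input bits, then blanks) and `x A = δ (x (A-1)) (x (A-S)) (x (A-S+1))` for `A ≥ S`.
Reading `A = t * S + p`, row `t + 1` is computed from left to right from the new left neighbour, the old
cell and the old right neighbour.
-/

set_option autoImplicit false

namespace Crest.Agent.R290

open Crest.Agent.Lib.PolyTime

/-- A table-coded sweep machine: `(q, table of δ, wall, blank, bit 0, bit 1, accepting symbols)`. -/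
abbrev SM : Type := ℕ × List ℕ × ℕ × ℕ × ℕ × ℕ × List Bool

namespace SM

/-- number of symbols -/
def q (M : SM) : ℕ := M.1
/-- the transition function -/
def δ (M : SM) (a b c : ℕ) : ℕ := M.2.1.getD ((a * M.1 + b) * M.1 + c) 0
/-- the wall symbol -/
def wall (M : SM) : ℕ := M.2.2.1
/-- the blank symbol -/
def blank (M : SM) : ℕ := M.2.2.2.1
/-- the symbol of an input bit -/
def bit (M : SM) (b : Bool) : ℕ := bif b then M.2.2.2.2.2.1 else M.2.2.2.2.1
/-- accepting symbols -/
def acc (M : SM) (a : ℕ) : Bool := M.2.2.2.2.2.2.getD a false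

/-- All symbols in the table are below `q`. -/
def WF (M : SM) : Prop :=
  (∀ a b c, M.δ a b c < M.q) ∧ M.wall < M.q ∧ M.blank < M.q ∧ ∀ b, M.bit b < M.q

/-- The first row. -/
def init (M : SM) (w : List Bool) (p : ℕ) : ℕ :=
  if p = 0 then M.wall else if p ≤ w.length then M.bit (w.getD (p - 1) false) else M.blank

/-- The sweep sequence. -/
def cell (M : SM) (w : List Bool) (S : ℕ) (A : ℕ) : ℕ :=
  if _h : 2 ≤ S ∧ S ≤ A then M.δ (cell M w S (A - 1)) (cell M w S (A - S)) (cell M w S (A - S + 1))
  else M.init w A
termination_by A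
decreasing_by all_goals omega

theorem cell_of_lt (M : SM) (w : List Bool) {S A : ℕ} (h : A < S) : M.cell w S A = M.init w A := by
  rw [cell, dif_neg (by omega)]

theorem cell_of_le (M : SM) (w : List Bool) {S A : ℕ} (hS : 2 ≤ S) (h : S ≤ A) :
    M.cell w S A = M.δ (M.cell w S (A - 1)) (M.cell w S (A - S)) (M.cell w S (A - S + 1)) := by
  rw [cell, dif_pos ⟨hS, h⟩]

theorem init_lt {M : SM} (h : M.WF) (w : List Bool) (p : ℕ) : M.init w p < M.q := by
  unfold init
  split_ifs
  exacts [h.2.1, h.2.2.2 _, h.2.2.1]

theorem cell_lt {M : SM} (h : M.WF) (w : List Bool) (S A : ℕ) : M.cell w S A < M.q := by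
  rw [cell]
  split_ifs
  exacts [h.1 _ _ _, init_lt h _ _]

/-- Appending the next cell to the list of the previous ones. -/
def step (M : SM) (w : List Bool) (S : ℕ) (l : List ℕ) : List ℕ :=
  l ++ [if 2 ≤ S ∧ S ≤ l.length then
    M.δ (l.getD (l.length - 1) 0) (l.getD (l.length - S) 0) (l.getD (l.length - S + 1) 0)
    else M.init w l.length]

theorem step_iterate (M : SM) (w : List Bool) (S i : ℕ) :
    (M.step w S)^[i] [] = (List.range i).map (M.cell w S) := by
  induction i with
  | zero => rfl
  | succ i ih =>
    have h : ∀ j, j < i → ((List.range i).map (M.cell w S)).getD j 0 = M.cell w S j := by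
      intro j hj
      simp [List.getD_eq_getElem?_getD, hj]
    rw [Function.iterate_succ_apply', ih, step, List.range_succ, List.map_append,
      List.length_map, List.length_range, List.map_singleton, cell]
    by_cases hc : 2 ≤ S ∧ S ≤ i
    · rw [if_pos hc, dif_pos hc, h _ (by omega), h _ (by omega), h _ (by omega)]
    · rw [if_neg hc, dif_neg hc]

theorem cell_le_size (M : SM) (w : List Bool) (S A : ℕ) : M.cell w S A ≤ size M := by
  obtain ⟨q, tb, wl, bl, b0, b1, ac⟩ := M
  rw [cell]
  split_ifs
  · simp only [δ, List.getD_eq_getElem?_getD]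
    cases h : tb[(_ : ℕ)]? with
    | none => simp
    | some x =>
      have := size_le_of_mem (List.mem_of_getElem? h)
      simp only [size_prod, size_nat, Option.getD_some] at this ⊢
      omega
  · simp only [init, wall, blank, bit, size_prod, size_nat]
    split_ifs
    · omega
    · cases w.getD (A - 1) false <;> simp only [cond_true, cond_false] <;> omega
    · omega

section PT

variable {α : Type} [Enc α] {M : α → SM}

@[fun_prop] theorem pt_q (hM : PT M) : PT fun a => (M a).q := by unfold q; fun_prop
@[fun_prop] theorem pt_δ {x y z : α → ℕ} (hM : PT M) (hx : PT x) (hy : PT y) (hz : PT z) :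
    PT fun a => (M a).δ (x a) (y a) (z a) := by unfold δ; fun_prop
@[fun_prop] theorem pt_wall (hM : PT M) : PT fun a => (M a).wall := by unfold wall; fun_prop
@[fun_prop] theorem pt_blank (hM : PT M) : PT fun a => (M a).blank := by unfold blank; fun_prop
@[fun_prop] theorem pt_bit {b : α → Bool} (hM : PT M) (hb : PT b) : PT fun a => (M a).bit (b a) := by
  unfold bit; fun_prop
@[fun_prop] theorem pt_acc {x : α → ℕ} (hM : PT M) (hx : PT x) : PT fun a => (M a).acc (x a) := by
  unfold acc; fun_prop
@[fun_prop] theorem pt_init {w : α → List Bool} {p : α → ℕ} (hM : PT M) (hw : PT w) (hp : PT p) :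
    PT fun a => (M a).init (w a) (p a) := by unfold init; fun_prop

/-- Sketch: iterate `l ↦ l ++ [next]` (or keep the reversed list of all cells so far): after `i` steps the
list is `(List.range i).map (cell M w S)`; every cell is an entry of the table, `0`, or one of the four
distinguished symbols, so has size at most `size M`. -/
theorem pt_cell {w : α → List Bool} {S A : α → ℕ} (hM : PT M) (hw : PT w) (hS : PT S) (hA : PT A) :
    PT fun a => (M a).cell (w a) (S a) (A a) := by
  have hs : PT fun p : α × List ℕ => (fun a => (M a).step (w a) (S a)) p.1 p.2 := by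
    unfold step; fun_prop
  have h := PT.iterate hs (PT.add_one hA) (PT.const [])
    (B := fun a => (A a + 1) * (2 * size (M a) + 1))
    (((PB.of_PT hA).add (PB.const 1)).mul (((PB.const 2).mul (PB.size hM)).add (PB.const 1))) (by
      intro a i hi
      rw [step_iterate]
      have := size_list_le (l := (List.range i).map ((M a).cell (w a) (S a))) (m := size (M a)) (by
        intro x hx
        obtain ⟨j, -, rfl⟩ := List.mem_map.1 hx
        simpa using cell_le_size _ _ _ _)
      simp only [List.length_map, List.length_range] at this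
      exact this.trans (Nat.mul_le_mul_right _ hi))
  refine (PT.getD h hA (PT.const 0)).of_eq fun a => ?_
  rw [step_iterate]
  simp [List.getD_eq_getElem?_getD]

end PT

end SM

/-- A sweep machine over an arbitrary type of symbols. -/
structure TSM (Q : Type) where
  /-- transition function -/
  δ : Q → Q → Q → Q
  /-- wall symbol -/
  wall : Q
  /-- blank symbol -/
  blank : Q
  /-- symbols of the input bits -/
  bit : Bool → Q
  /-- accepting symbols -/
  acc : Q → Bool

namespace TSM

variable {Q : Type}

/-- The first row. -/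
def init (M : TSM Q) (w : List Bool) (p : ℕ) : Q :=
  if p = 0 then M.wall else if p ≤ w.length then M.bit (w.getD (p - 1) false) else M.blank

/-- The sweep sequence. -/
def cell (M : TSM Q) (w : List Bool) (S : ℕ) (A : ℕ) : Q :=
  if _h : 2 ≤ S ∧ S ≤ A then M.δ (cell M w S (A - 1)) (cell M w S (A - S)) (cell M w S (A - S + 1))
  else M.init w A
termination_by A
decreasing_by all_goals omega

/-- Coding by a table: only a finite set `R` of symbols closed under `δ` matters. Sketch: enumerate
`R` by `e : Fin q ≃ R` (`hR.toFinset.equivFin`), table entry at `(a * q + b) * q + c` the index of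
`δ (e a) (e b) (e c)` (`List.ofFn`/`List.range (q^3)` with `/`, `%`); by strong induction on `A`,
`M.cell w S A` is the index of `T.cell w S A ∈ R`. (`q > 0` because `wall ∈ R`, so the default `0` is `< q`.) -/
theorem code (T : TSM Q) (R : Set Q) (hR : R.Finite)
    (hδ : ∀ a ∈ R, ∀ b ∈ R, ∀ c ∈ R, T.δ a b c ∈ R) (hw : T.wall ∈ R) (hb : T.blank ∈ R)
    (hbit : ∀ b, T.bit b ∈ R) :
    ∃ M : SM, M.WF ∧ ∀ w S A, M.acc (M.cell w S A) = T.acc (T.cell w S A) := by
  classical
  obtain ⟨q, dec, idx, hq, hidx, hdec⟩ : ∃ (q : ℕ) (dec : ℕ → Q) (idx : Q → ℕ), 0 < q ∧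
      (∀ x, idx x < q) ∧ ∀ x ∈ R, dec (idx x) = x := by
    set l := hR.toFinset.toList with hl
    have hm : ∀ x ∈ R, x ∈ l := fun x hx => by simpa [hl] using hx
    have hq : 0 < l.length := List.length_pos_of_mem (hm _ hw)
    refine ⟨l.length, fun i => l.getD i T.wall, fun x => if x ∈ l then l.idxOf x else 0, hq,
      fun x => ?_, fun x hx => ?_⟩
    · beta_reduce
      split_ifs with h
      exacts [List.idxOf_lt_length_of_mem h, hq]
    · beta_reduce
      rw [if_pos (hm x hx), List.getD_eq_getElem _ _ (List.idxOf_lt_length_of_mem (hm x hx))]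
      exact List.getElem_idxOf _
  set M : SM := (q, (List.range (q * q * q)).map fun i =>
    idx (T.δ (dec (i / q / q)) (dec (i / q % q)) (dec (i % q))), idx T.wall, idx T.blank,
    idx (T.bit false), idx (T.bit true), (List.range q).map fun i => T.acc (dec i)) with hM
  have hδ' : ∀ a b c, a < q → b < q → c < q →
      M.δ a b c = idx (T.δ (dec a) (dec b) (dec c)) := by
    intro a b c ha hb hc
    have h1 : a * q + b < q * q := by nlinarith
    have h2 : (a * q + b) * q + c < q * q * q := by nlinarith
    have h3 : ((a * q + b) * q + c) / q = a * q + b := by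
      rw [add_comm, Nat.add_mul_div_right _ _ hq, Nat.div_eq_of_lt hc, zero_add]
    have h4 : (a * q + b) / q = a := by
      rw [add_comm, Nat.add_mul_div_right _ _ hq, Nat.div_eq_of_lt hb, zero_add]
    have h5 : ((a * q + b) * q + c) % q = c := by
      rw [add_comm, Nat.add_mul_mod_self_right, Nat.mod_eq_of_lt hc]
    have h6 : (a * q + b) % q = b := by
      rw [add_comm, Nat.add_mul_mod_self_right, Nat.mod_eq_of_lt hb]
    simp [SM.δ, hM, List.getD_eq_getElem?_getD, h2, h3, h4, h5, h6]
  have hbit' : ∀ b, M.bit b = idx (T.bit b) := fun b => by cases b <;> rfl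
  have key : ∀ w S A, T.cell w S A ∈ R ∧ M.cell w S A = idx (T.cell w S A) := by
    intro w S A
    induction A using Nat.strong_induction_on with | _ A ih => ?_
    rw [cell, SM.cell]
    by_cases hc : 2 ≤ S ∧ S ≤ A
    · obtain ⟨a1, a2⟩ := ih (A - 1) (by omega)
      obtain ⟨b1, b2⟩ := ih (A - S) (by omega)
      obtain ⟨c1, c2⟩ := ih (A - S + 1) (by omega)
      rw [dif_pos hc, dif_pos hc, a2, b2, c2, hδ' _ _ _ (hidx _) (hidx _) (hidx _), hdec _ a1,
        hdec _ b1, hdec _ c1]
      exact ⟨hδ _ a1 _ b1 _ c1, rfl⟩
    · rw [dif_neg hc, dif_neg hc, init, SM.init]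
      split_ifs
      exacts [⟨hw, rfl⟩, ⟨hbit _, hbit' _⟩, ⟨hb, rfl⟩]
  refine ⟨M, ⟨fun a b c => ?_, hidx _, hidx _, fun b => hbit' b ▸ hidx _⟩, fun w S A => ?_⟩
  · change _ < q
    simp only [SM.δ, hM, List.getD_eq_getElem?_getD, List.getElem?_map]
    cases (List.range (q * q * q))[(a * q + b) * q + c]? with
    | none => exact hq
    | some i => exact hidx _
  · rw [(key w S A).2]
    simp [SM.acc, hM, List.getD_eq_getElem?_getD, hidx, hdec _ (key w S A).1]

/-- Row form of the recursion. -/
theorem cell_row (T : TSM Q) (w : List Bool) {S : ℕ} (hS : 2 ≤ S) (t p : ℕ) (hp : p < S) :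
    T.cell w S ((t + 1) * S + p) =
      T.δ (if p = 0 then T.cell w S (t * S + (S - 1)) else T.cell w S ((t + 1) * S + (p - 1)))
        (T.cell w S (t * S + p))
        (if p + 1 < S then T.cell w S (t * S + (p + 1)) else T.cell w S ((t + 1) * S + 0)) := by
  have e : (t + 1) * S = t * S + S := by ring
  rw [cell, dif_pos ⟨hS, by omega⟩]
  congr 1
  · split_ifs <;> congr 1 <;> omega
  · congr 1; omega
  · split_ifs <;> congr 1 <;> omega

theorem cell_zero (T : TSM Q) (w : List Bool) {S p : ℕ} (hp : p < S) :
    T.cell w S (0 * S + p) = T.init w p := by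
  rw [zero_mul, zero_add, cell, dif_neg (by omega)]

end TSM

end Crest.Agent.R290
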