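import Crest.Agent.R290.Code
import Crest.Agent.R290.SM

/-!
# Row 290: the rule system simulating a sweep machine (definitions)

`k` rows, `k₂ = (k - 1) / 2`, `k₁ = k - k₂`, width `S = N ^ k₁`. A symbol `r < 2 N` is a digit `r / 2` and a carry bit
`r % 2`. The number `A < N ^ k` has the address `i ↦ 2 * (A / N ^ i % N)`. Hubs: `6 v` ("cell `A` is `v`"),
`6 v + 1` ("cell `A - 1` is `v`"), `6 v + 2` ("cell `A - S` is `v`"), `6 v + 3` ("cell `A + 1 - S` is `v`"), `4`, `5`
(acceptance). Rules `(tag, a, b, c)`: `0` input position `a`; `1` blank positions whose digit `a` witnesses that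
they lie beyond the input; `2` add `1`; `3` add `S`; `4` subtract `1`; `5` transition on `a, b, c`;
`6` the accepting symbol `a` at the final address; `7` output.
-/

set_option autoImplicit false

namespace Crest.Agent.R290

open Crest.Agent.Lib.PolyTime

/-- The verdict of the machine at the final address for `k` rows and base `N`. -/
def SM.final (M : SM) (w : List Bool) (k N : ℕ) : Bool :=
  M.acc (M.cell w (N ^ (k - (k - 1) / 2)) ((N ^ ((k - 1) / 2) - 1) * N ^ (k - (k - 1) / 2) + 1))

namespace Rules

variable (M : SM) (w : List Bool) (k N : ℕ)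

/-- Rule descriptors. -/
abbrev Desc : Type := ℕ × ℕ × ℕ × ℕ

/-- Number of low digits (position in a row of the sweep). -/
def k₁ : ℕ := k - (k - 1) / 2

/-- The carry chain for adding `N ^ j` without overflow, row `i`, symbols `s` (row `i`) and `s'` (row `i + 1`). -/
def incV (j i s s' : ℕ) : Bool :=
  if i + 1 < k then
    decide (s' % 2 = if i + 1 = j then 1 else if s % 2 = 1 ∧ s / 2 + 1 = N then 1 else 0)
  else decide (s' % 2 = if j = 0 then 1 else 0) && !(decide (s % 2 = 1) && decide (s / 2 + 1 = N))

/-- The digit before the addition. -/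
def old (r : ℕ) : ℕ := 2 * (r / 2)

/-- The digit after the addition. -/
def new (r : ℕ) : ℕ := 2 * ((r / 2 + r % 2) % N)

/-- The symbols of the final address. -/
def fin (i : ℕ) : ℕ := if i = 0 then 2 else if i < k₁ k then 0 else 2 * (N - 1)

/-- The list of rules. -/
def rules : List Desc :=
  [(7, 0, 0, 0)] ++ (List.range (w.length + 1)).map (fun p => (0, p, 0, 0)) ++
    (List.range (k₁ k)).map (fun j => (1, j, 0, 0)) ++
    (List.range M.q).flatMap (fun v => [(2, v, 0, 0), (3, v, 0, 0), (4, v, 0, 0)]) ++
    (List.range M.q).flatMap (fun a => (List.range M.q).flatMap fun b =>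
      (List.range M.q).map fun c => (5, a, b, c)) ++
    ((List.range M.q).filter M.acc).map fun v => (6, v, 0, 0)

/-- The hub of the conclusion. -/
def out (d : Desc) : ℕ :=
  if d.1 = 0 then 6 * M.init w d.2.1 else if d.1 = 1 then 6 * M.blank
  else if d.1 = 2 then 6 * d.2.1 + 1 else if d.1 = 3 then 6 * d.2.1 + 2
  else if d.1 = 4 then 6 * d.2.1 + 3 else if d.1 = 5 then 6 * M.δ d.2.1 d.2.2.1 d.2.2.2
  else if d.1 = 6 then 4 else 5

/-- The hub of the first premise, plus one. -/
def prem (d : Desc) : ℕ :=
  if d.1 < 2 then 0 else if d.1 = 4 then 6 * d.2.1 + 2 + 1 else if d.1 = 5 then 6 * d.2.1 + 1 + 1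
  else if d.1 = 7 then 4 + 1 else 6 * d.2.1 + 1

/-- Hubs of the ports, plus one. -/
def hub (d : Desc) (p : ℕ) : ℕ :=
  if p = 0 then out M w d + 1 else if p < 3 then 0 else if p < 5 then prem d
  else if d.1 = 5 then (if p < 7 then 6 * d.2.2.1 + 2 + 1 else 6 * d.2.2.2 + 3 + 1) else 0

/-- Projections. -/
def proj (d : Desc) (p r : ℕ) : ℕ :=
  if hub M w d p = 0 then r
  else if d.1 = 2 ∨ d.1 = 3 then (if p = 0 then new N r else old r)
  else if d.1 = 4 then (if p = 0 then old r else new N r)
  else if d.1 = 7 ∧ p = 0 then 0 else r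

/-- Valid labels. -/
def val (d : Desc) (i s s' : ℕ) : Bool :=
  if d.1 = 0 then decide (s = if i = 0 then 2 * d.2.1 else 0)
  else if d.1 = 1 then decide (s % 2 = 0) && (decide (i < k₁ k) || decide (s = 0)) &&
    (decide (i ≠ d.2.1) || decide ((if i = 0 then w.length else 0) < s / 2))
  else if d.1 = 2 ∨ d.1 = 4 then incV k N 0 i s s'
  else if d.1 = 3 then incV k N (k₁ k) i s s'
  else if d.1 = 5 then decide (s % 2 = 0)
  else decide (s = fin k N i)

/-- The coded rule system. -/
def crs : CRS Desc where
  k := k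
  nR := 2 * N
  rules := rules M w k
  hub := hub M w
  π d p _ r := proj M w N d p r
  val := val w k N
  go := 5

theorem rules_pos : 0 < (crs M w k N).rules.length := by simp [crs, rules]

instance [h : NeZero k] : NeZero (crs M w k N).k := h
instance [h : NeZero N] : NeZero (crs M w k N).nR := ⟨by have := h.out; simp only [crs]; omega⟩

/-- The address of a number. -/
def addr [NeZero N] (A : ℕ) : Fin k → Fin (2 * N) := fun i =>
  ⟨2 * (A / N ^ (i : ℕ) % N), by have := Nat.mod_lt (A / N ^ (i : ℕ)) (NeZero.pos N); omega⟩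

end Rules

end Crest.Agent.R290
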