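import Crest.Agent.R290.RulesDefs

/-!
# Row 290: digits and carry chains
-/

set_option autoImplicit false
set_option linter.unusedSectionVars false

namespace Crest.Agent.R290

namespace Rules

variable {k N : ℕ} [NeZero k] [NeZero N]

private theorem dig_low {N i m : ℕ} (hN : 0 < N) (h : i < m) (X Y : ℕ) :
    (X * N ^ m + Y) / N ^ i % N = Y / N ^ i % N := by
  obtain ⟨r, rfl⟩ := Nat.exists_eq_add_of_lt h
  have e : X * N ^ (i + r + 1) + Y = Y + N ^ i * (N * (X * N ^ r)) := by ring
  rw [e, Nat.add_mul_div_left _ _ (by positivity), Nat.add_mul_mod_self_left]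

private theorem dig_high {N m Y : ℕ} (hN : 0 < N) (h : Y < N ^ m) (X e : ℕ) :
    (X * N ^ m + Y) / N ^ (m + e) = X / N ^ e := by
  rw [pow_add, ← Nat.div_div_eq_div_mul, add_comm, Nat.add_mul_div_right _ _ (by positivity),
    Nat.div_eq_of_lt h, zero_add]

private theorem eq_of_dig {N m A B : ℕ} (hA : A < N ^ m) (hB : B < N ^ m)
    (h : ∀ i < m, A / N ^ i % N = B / N ^ i % N) : A = B := by
  have key : ∀ n ≤ m, A % N ^ n = B % N ^ n := fun n hn => by
    induction n with
    | zero => simp [Nat.mod_one]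
    | succ n ih => rw [Nat.mod_pow_succ, Nat.mod_pow_succ, ih (by omega), h n (by omega)]
  have := key m le_rfl
  rwa [Nat.mod_eq_of_lt hA, Nat.mod_eq_of_lt hB] at this

private theorem dig_mod {N i m : ℕ} (hN : 0 < N) (A : ℕ) :
    A % N ^ m / N ^ i % N = if i < m then A / N ^ i % N else 0 := by
  split_ifs with h
  · conv_rhs => rw [← Nat.div_add_mod' A (N ^ m), dig_low hN h]
  · have : A % N ^ m < N ^ i :=
      (Nat.mod_lt _ (by positivity)).trans_le (Nat.pow_le_pow_right hN (by omega))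
    rw [Nat.div_eq_of_lt this, Nat.zero_mod]

private theorem dig_sum {N : ℕ} (hN : 0 < N) {d : ℕ → ℕ} (hd : ∀ i, d i < N) (m : ℕ) :
    ∑ i ∈ Finset.range m, d i * N ^ i < N ^ m ∧
      ∀ i < m, (∑ i ∈ Finset.range m, d i * N ^ i) / N ^ i % N = d i := by
  induction m with
  | zero => simp
  | succ m ih =>
    rw [Finset.sum_range_succ, add_comm]
    refine ⟨?_, fun i hi => ?_⟩
    · have h1 : (d m + 1) * N ^ m ≤ N * N ^ m := Nat.mul_le_mul_right _ (hd m)
      rw [pow_succ']
      nlinarith [ih.1]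
    · rcases Nat.lt_succ_iff_lt_or_eq.1 hi with h | rfl
      · rw [dig_low hN h, ih.2 i h]
      · have := dig_high hN ih.1 (d i) 0
        rw [add_zero, pow_zero, Nat.div_one] at this
        rw [this, Nat.mod_eq_of_lt (hd i)]

private theorem sum_dig (N A m : ℕ) :
    ∑ i ∈ Finset.range m, A / N ^ i % N * N ^ i = A % N ^ m := by
  induction m with
  | zero => simp [Nat.mod_one]
  | succ m ih => rw [Finset.sum_range_succ, ih, Nat.mod_pow_succ, mul_comm]

private theorem carry_sum {N j m : ℕ} {d b : ℕ → ℕ} (hd : ∀ i, d i < N)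
    (h0 : b 0 = if j = 0 then 1 else 0)
    (hs : ∀ i < m, b (i + 1) = if i + 1 = j then 1 else if b i = 1 ∧ d i + 1 = N then 1 else 0) :
    (m < j → b m = 0) ∧ b m ≤ 1 ∧
      ∑ i ∈ Finset.range m, (d i + b i) % N * N ^ i + b m * N ^ m =
        ∑ i ∈ Finset.range m, d i * N ^ i + if j ≤ m then N ^ j else 0 := by
  induction m with
  | zero =>
    rw [h0]
    by_cases hj : j = 0 <;> simp [hj]
  | succ m ih =>
    obtain ⟨h1, h2, h3⟩ := ih fun i hi => hs i (by omega)
    have h4 := hs m (by omega)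
    have h5 := hd m
    rw [Finset.sum_range_succ, Finset.sum_range_succ]
    by_cases hj : m + 1 = j
    · have h6 := h1 (by omega)
      rw [if_pos hj] at h4
      rw [h6, if_neg (by omega)] at h3
      rw [h4, h6, if_pos (by omega), add_zero, Nat.mod_eq_of_lt h5, ← hj]
      exact ⟨by omega, le_rfl, by omega⟩
    · rw [if_neg hj] at h4
      have e : (if j ≤ m + 1 then N ^ j else 0) = if j ≤ m then N ^ j else 0 :=
        if_congr (by omega) rfl rfl
      rw [e]
      by_cases hc : b m = 1 ∧ d m + 1 = N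
      · rw [if_pos hc] at h4
        refine ⟨fun h => by have := h1 (by omega); omega, by omega, ?_⟩
        rw [h4, hc.1, hc.2, Nat.mod_self, pow_succ]
        rw [hc.1] at h3
        have : N ^ m * N = d m * N ^ m + N ^ m := by rw [← hc.2]; ring
        omega
      · rw [if_neg hc] at h4
        refine ⟨fun _ => h4, by omega, ?_⟩
        rw [h4, Nat.mod_eq_of_lt (by omega), add_mul]
        omega

private theorem succ_lt {i : Fin k} (h : (i : ℕ) + 1 < k) : i + 1 = ⟨i + 1, h⟩ := by
  ext
  rw [Fin.val_add, Fin.val_one', Nat.add_mod_mod, Nat.mod_eq_of_lt h]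

private theorem succ_last {i : Fin k} (h : ¬ (i : ℕ) + 1 < k) : i + 1 = 0 := by
  ext
  have : (i : ℕ) + 1 = k := by have := i.is_lt; omega
  rw [Fin.val_add, Fin.val_one', Nat.add_mod_mod, this, Nat.mod_self, Fin.val_zero]

private theorem inc_zero {j : ℕ} {c : Fin k → Fin (2 * N)}
    (hc : ∀ i : Fin k, incV k N j i (c i) (c (i + 1)) = true) :
    (c 0 : ℕ) % 2 = if j = 0 then 1 else 0 := by
  have hk := NeZero.pos k
  have h := hc ⟨k - 1, by omega⟩
  have hl : ¬ (k - 1) + 1 < k := by omega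
  rw [succ_last hl, incV, if_neg hl] at h
  simp only [Bool.and_eq_true, decide_eq_true_eq] at h
  exact h.1

private theorem inc_step {j : ℕ} {c : Fin k → Fin (2 * N)}
    (hc : ∀ i : Fin k, incV k N j i (c i) (c (i + 1)) = true) {i : ℕ} (hi : i + 1 < k) :
    (c ⟨i + 1, hi⟩ : ℕ) % 2 = if i + 1 = j then 1 else
      if (c ⟨i, by omega⟩ : ℕ) % 2 = 1 ∧ (c ⟨i, by omega⟩ : ℕ) / 2 + 1 = N then 1 else 0 := by
  have h := hc ⟨i, by omega⟩
  rw [succ_lt hi, incV, if_pos hi] at h
  exact of_decide_eq_true h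

private theorem inc_inj {j : ℕ} {c c' : Fin k → Fin (2 * N)}
    (hc : ∀ i : Fin k, incV k N j i (c i) (c (i + 1)) = true)
    (hc' : ∀ i : Fin k, incV k N j i (c' i) (c' (i + 1)) = true)
    (h : ∀ i, (c i : ℕ) % 2 = c' i % 2 → (c i : ℕ) / 2 = c' i / 2) : c = c' := by
  have key : ∀ n (hn : n < k), (c ⟨n, hn⟩ : ℕ) % 2 = c' ⟨n, hn⟩ % 2 := fun n hn => by
    induction n with
    | zero => exact (inc_zero hc).trans (inc_zero hc').symm
    | succ n ih =>
      have h1 := ih (by omega)
      rw [inc_step hc hn, inc_step hc' hn, h1, h _ h1]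
  funext i
  have h1 := key i i.is_lt
  have h2 := h _ h1
  ext
  simp only [Fin.eta] at h1 h2
  omega

/-- Numbers below `N ^ k` are determined by their addresses. -/
theorem addr_inj {A B : ℕ} (hA : A < N ^ k) (hB : B < N ^ k) (h : addr k N A = addr k N B) : A = B := by
  refine eq_of_dig hA hB fun i hi => ?_
  have := congrArg Fin.val (congrFun h ⟨i, hi⟩)
  simp only [addr] at this
  omega

/-- An address with even symbols is the address of `∑ i, (c i / 2) * N ^ i`. -/
theorem exists_addr (c : Fin k → Fin (2 * N)) :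
    ∃ A < N ^ k, ∀ i, (addr k N A i : ℕ) = old (c i) := by
  have hN := NeZero.pos N
  have := dig_sum hN (d := fun i => if h : i < k then (c ⟨i, h⟩ : ℕ) / 2 else 0) (fun i => by
    split_ifs with h
    · have := (c ⟨i, h⟩).is_lt; omega
    · exact hN) k
  refine ⟨_, this.1, fun i => ?_⟩
  have h2 := this.2 i i.is_lt
  simp only [addr, old]
  rw [h2, dif_pos i.is_lt]

/-- A carry chain adds `N ^ j`. Sketch: with digits `d i = c i / 2`, carries `b i = c i % 2` (and `b k = 0`),
`d i + b i = d' i + N * (carry out of i)`; by induction on `m ≤ k`,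
`∑ i < m, d' i N^i + (carry out of m - 1) N^m = ∑ i < m, d i N^i + [j < m] N^j`. -/
theorem inc_sound {j : ℕ} (hj : j < k) {c : Fin k → Fin (2 * N)}
    (hc : ∀ i : Fin k, incV k N j i (c i) (c (i + 1)) = true) :
    ∃ A, A + N ^ j < N ^ k ∧ (∀ i, (addr k N A i : ℕ) = old (c i)) ∧
      ∀ i, (addr k N (A + N ^ j) i : ℕ) = new N (c i) := by
  have hN := NeZero.pos N
  have hk := NeZero.pos k
  set d : ℕ → ℕ := fun i => if h : i < k then (c ⟨i, h⟩ : ℕ) / 2 else 0 with hd
  set b : ℕ → ℕ := fun i => if h : i < k then (c ⟨i, h⟩ : ℕ) % 2 else 0 with hb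
  have hdl : ∀ i, d i < N := fun i => by
    simp only [hd]
    split_ifs with h
    · have := (c ⟨i, h⟩).is_lt; omega
    · exact hN
  have h1 := (carry_sum (j := j) (m := k) (b := b) hdl (by
    simp only [hb, dif_pos hk]; exact inc_zero hc) fun i hi => by
      by_cases h : i + 1 < k
      · simp only [hb, hd, dif_pos h, dif_pos hi]
        exact inc_step hc h
      · have h2 := hc ⟨i, hi⟩
        rw [incV, if_neg h] at h2
        simp only [Bool.and_eq_true, decide_eq_true_eq, Bool.not_eq_true', Bool.and_eq_false_iff,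
          decide_eq_false_iff_not] at h2
        simp only [hb, hd, dif_neg h, dif_pos hi]
        rw [if_neg (by omega), if_neg (by tauto)]).2.2
  have hbk : b k = 0 := by simp [hb]
  rw [hbk, if_pos hj.le, zero_mul, add_zero] at h1
  have h2 := dig_sum hN hdl k
  have h3 := dig_sum hN (d := fun i => (d i + b i) % N) (fun i => Nat.mod_lt _ hN) k
  rw [h1] at h3
  refine ⟨_, h3.1, fun i => ?_, fun i => ?_⟩
  · simp only [addr, old]
    rw [h2.2 i i.is_lt]
    simp only [hd, dif_pos i.is_lt]
  · simp only [addr, new]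
    rw [h3.2 i i.is_lt]
    simp only [hd, hb, dif_pos i.is_lt]

/-- The carry into row `i` is `1` iff `j ≤ i` and the digits `j, …, i - 1` of `A` are all `N - 1`. -/
theorem inc_complete {j A : ℕ} (hj : j < k) (hA : A + N ^ j < N ^ k) :
    ∃ c : Fin k → Fin (2 * N), (∀ i : Fin k, incV k N j i (c i) (c (i + 1)) = true) ∧
      (∀ i, (addr k N A i : ℕ) = old (c i)) ∧ ∀ i, (addr k N (A + N ^ j) i : ℕ) = new N (c i) := by
  have hN := NeZero.pos N
  have hk := NeZero.pos k
  set d : ℕ → ℕ := fun i => A / N ^ i % N with hd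
  have hdl : ∀ i, d i < N := fun i => Nat.mod_lt _ hN
  obtain ⟨b, b0, bs⟩ : ∃ b : ℕ → ℕ, (b 0 = if j = 0 then 1 else 0) ∧
      ∀ i : ℕ, b (i + 1) = if i + 1 = j then 1 else if b i = 1 ∧ d i + 1 = N then 1 else 0 :=
    ⟨fun n => Nat.rec (motive := fun _ => ℕ) (if j = 0 then 1 else 0)
      (fun i x => if i + 1 = j then 1 else if x = 1 ∧ d i + 1 = N then 1 else 0) n, rfl, fun _ => rfl⟩
  have bl : ∀ i, b i ≤ 1 := fun i => (carry_sum (m := i) hdl b0 fun i _ => bs i).2.1
  have h1 := (carry_sum (m := k) hdl b0 fun i _ => bs i).2.2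
  have h2 : ∑ i ∈ Finset.range k, d i * N ^ i = A := by
    rw [hd, sum_dig, Nat.mod_eq_of_lt (by omega)]
  rw [h2, if_pos hj.le] at h1
  have hbk : b k = 0 := by
    by_contra h
    have : b k = 1 := by have := bl k; omega
    rw [this] at h1
    omega
  rw [hbk, zero_mul, add_zero] at h1
  have h3 := dig_sum hN (d := fun i => (d i + b i) % N) (fun i => Nat.mod_lt _ hN) k
  rw [h1] at h3
  have e1 : ∀ i, (2 * d i + b i) / 2 = d i := fun i => by have := bl i; omega
  have e2 : ∀ i, (2 * d i + b i) % 2 = b i := fun i => by have := bl i; omega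
  refine ⟨fun i => ⟨2 * d i + b i, by have := bl i; have := hdl i; omega⟩, fun i => ?_,
    fun i => ?_, fun i => ?_⟩
  · by_cases h : (i : ℕ) + 1 < k
    · rw [incV, if_pos h, succ_lt h]
      simp only [e1, e2]
      exact decide_eq_true (bs i)
    · rw [incV, if_neg h, succ_last h]
      simp only [e1, e2, Fin.val_zero]
      have hi : (i : ℕ) + 1 = k := by have := i.is_lt; omega
      have h4 := bs i
      rw [hi, hbk, if_neg (by omega)] at h4
      simp only [Bool.and_eq_true, decide_eq_true_eq, Bool.not_eq_true', Bool.and_eq_false_iff,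
        decide_eq_false_iff_not]
      refine ⟨b0, ?_⟩
      by_contra hn
      rw [if_pos (by tauto)] at h4
      omega
  · simp only [addr, old, e1]
    rfl
  · simp only [addr, new, e1, e2]
    rw [h3.2 i i.is_lt]

/-- The digits determine the carries (induction on the row, starting from row `0`, which is constrained by the
last row). -/
theorem inc_inj_old {j : ℕ} {c c' : Fin k → Fin (2 * N)}
    (hc : ∀ i : Fin k, incV k N j i (c i) (c (i + 1)) = true)
    (hc' : ∀ i : Fin k, incV k N j i (c' i) (c' (i + 1)) = true)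
    (h : ∀ i, old (c i) = old (c' i)) : c = c' := by
  refine inc_inj hc hc' fun i _ => ?_
  have := h i
  simp only [old] at this
  omega

theorem inc_inj_new {j : ℕ} {c c' : Fin k → Fin (2 * N)}
    (hc : ∀ i : Fin k, incV k N j i (c i) (c (i + 1)) = true)
    (hc' : ∀ i : Fin k, incV k N j i (c' i) (c' (i + 1)) = true)
    (h : ∀ i, new N (c i) = new N (c' i)) : c = c' := by
  refine inc_inj hc hc' fun i hi => ?_
  have h1 := h i
  simp only [new] at h1
  rw [hi] at h1
  have h2 : (c i : ℕ) / 2 + c' i % 2 ≡ c' i / 2 + c' i % 2 [MOD N] := by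
    unfold Nat.ModEq; omega
  have h3 := (c i).is_lt
  have h4 := (c' i).is_lt
  exact (Nat.ModEq.add_right_cancel' _ h2).eq_of_lt_of_lt (by omega) (by omega)

/-- The final address. -/
theorem addr_fin (hk : 3 ≤ k) (hN : 2 ≤ N) (i : Fin k) :
    (addr k N ((N ^ ((k - 1) / 2) - 1) * N ^ k₁ k + 1) i : ℕ) = fin k N i := by
  have hN0 : 0 < N := by omega
  have hk1 : 2 ≤ k₁ k := by unfold k₁; omega
  simp only [addr, fin]
  by_cases h : (i : ℕ) < k₁ k
  · rw [dig_low hN0 h, if_pos h]
    split_ifs with h0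
    · rw [h0, pow_zero, Nat.div_one, Nat.mod_eq_of_lt (by omega)]
    · rw [Nat.div_eq_of_lt (Nat.one_lt_pow h0 (by omega)), Nat.zero_mod]
  · rw [if_neg (by omega), if_neg h]
    obtain ⟨e, he⟩ := Nat.exists_eq_add_of_le (not_lt.1 h)
    rw [he, dig_high hN0 (Nat.one_lt_pow (by omega) (by omega))]
    have h2 : e < (k - 1) / 2 := by have := i.is_lt; unfold k₁ at he; omega
    obtain ⟨r, hr⟩ := Nat.exists_eq_add_of_lt h2
    have p1 : 0 < N ^ e := by positivity
    have p2 : 0 < N ^ r := by positivity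
    have h3 : N ^ ((k - 1) / 2) - 1 = ((N ^ r - 1) * N + (N - 1)) * N ^ e + (N ^ e - 1) := by
      rw [hr, pow_succ, pow_add]
      zify [p1, p2, hN0, Nat.mul_pos (Nat.mul_pos p1 p2) hN0]
      ring
    have h4 := dig_high hN0 (Y := N ^ e - 1) (m := e) (by omega) ((N ^ r - 1) * N + (N - 1)) 0
    rw [add_zero, pow_zero, Nat.div_one] at h4
    rw [h3, h4, Nat.mul_add_mod_of_lt (by omega)]

theorem fin_lt (hk : 3 ≤ k) (hN : 2 ≤ N) : (N ^ ((k - 1) / 2) - 1) * N ^ k₁ k + 1 + 1 < N ^ k := by
  have hk1 : 2 ≤ k₁ k := by unfold k₁; omega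
  have h1 : N ^ k = N ^ ((k - 1) / 2) * N ^ k₁ k := by
    rw [← pow_add]; congr 1; unfold k₁; omega
  have h2 : N ^ 2 ≤ N ^ k₁ k := Nat.pow_le_pow_right (by omega) hk1
  have h3 : 2 ^ 2 ≤ N ^ 2 := Nat.pow_le_pow_left hN 2
  obtain ⟨X, hX⟩ : ∃ X, N ^ ((k - 1) / 2) = X + 1 :=
    Nat.exists_eq_succ_of_ne_zero (by positivity)
  rw [h1, hX, Nat.add_sub_cancel, add_mul]
  omega

/-- Input positions. -/
theorem addr_small {p : ℕ} (hp : p < N) (i : Fin k) :
    (addr k N p i : ℕ) = if (i : ℕ) = 0 then 2 * p else 0 := by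
  simp only [addr]
  split_ifs with h
  · rw [h, pow_zero, Nat.div_one, Nat.mod_eq_of_lt hp]
  · rw [Nat.div_eq_of_lt (hp.trans_le (Nat.le_self_pow h N)), Nat.zero_mod]

/-- Blank positions of the first row. -/
theorem blank_iff {l A : ℕ} (hl : l < N) (hA : A < N ^ k) :
    (l < A ∧ A < N ^ k₁ k) ↔ (∀ i : Fin k, (i : ℕ) < k₁ k ∨ (addr k N A i : ℕ) = 0) ∧
      ∃ j : Fin k, (j : ℕ) < k₁ k ∧ (if (j : ℕ) = 0 then l else 0) < (addr k N A j : ℕ) / 2 := by
  have hN := NeZero.pos N
  have hk := NeZero.pos k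
  have hk1 : 1 ≤ k₁ k := by unfold k₁; omega
  have hk2 : k₁ k ≤ k := by unfold k₁; omega
  have e : ∀ x : ℕ, 2 * x / 2 = x := fun x => by omega
  simp only [addr, e]
  constructor
  · rintro ⟨h1, h2⟩
    have h3 : ∀ i, k₁ k ≤ i → A / N ^ i % N = 0 := fun i hi => by
      rw [Nat.div_eq_of_lt (h2.trans_le (Nat.pow_le_pow_right hN hi)), Nat.zero_mod]
    refine ⟨fun i => ?_, ?_⟩
    · by_cases h : (i : ℕ) < k₁ k
      · exact .inl h
      · exact .inr (by rw [h3 i (by omega)])
    · by_contra hn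
      push Not at hn
      have h4 : A = A % N ^ 1 := by
        refine eq_of_dig hA ((Nat.mod_le _ _).trans_lt hA) fun i hi => ?_
        rw [dig_mod hN]
        split_ifs with h
        · rfl
        · by_cases h' : i < k₁ k
          · have := hn ⟨i, hi⟩ h'
            rw [if_neg (by simp only; omega)] at this
            exact Nat.le_zero.1 this
          · exact h3 i (by omega)
      have h5 := hn ⟨0, hk⟩ hk1
      simp only [if_true, pow_zero, Nat.div_one] at h5
      rw [pow_one] at h4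
      omega
  · rintro ⟨h1, j, hj, h2⟩
    constructor
    · split_ifs at h2 with h0
      · rw [h0, pow_zero, Nat.div_one] at h2
        exact h2.trans_le (Nat.mod_le _ _)
      · by_contra hn
        rw [Nat.div_eq_of_lt (((not_lt.1 hn).trans_lt hl).trans_le (Nat.le_self_pow h0 N)),
          Nat.zero_mod] at h2
        omega
    · have h4 : A = A % N ^ k₁ k := by
        refine eq_of_dig hA ((Nat.mod_le _ _).trans_lt hA) fun i hi => ?_
        rw [dig_mod hN]
        split_ifs with h
        · rfl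
        · have := (h1 ⟨i, hi⟩).resolve_left h
          simp only at this
          omega
      rw [h4]
      exact Nat.mod_lt _ (by positivity)

end Rules

end Crest.Agent.R290
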