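import Crest.Agent.R290.RulesWF

/-!
# Row 290: the output hub has a true address iff the machine accepts
-/

set_option autoImplicit false

namespace Crest.Agent.R290

namespace Rules

variable {M : SM} {w : List Bool} {k N : ℕ} [NeZero k] [NeZero N]

/-- The meaning of a hub at an address (`x = M.cell w S`, `S = N ^ k₁ k`). -/
def Sem (M : SM) (w : List Bool) (k N : ℕ) [NeZero N] (g : ℕ) (a : Fin k → Fin (2 * N)) : Prop :=
  (g % 6 = 0 → ∃ A < N ^ k, a = addr k N A ∧ M.cell w (N ^ k₁ k) A = g / 6) ∧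
  (g % 6 = 1 → ∃ A < N ^ k, a = addr k N A ∧ 1 ≤ A ∧ M.cell w (N ^ k₁ k) (A - 1) = g / 6) ∧
  (g % 6 = 2 → ∃ A < N ^ k, a = addr k N A ∧ N ^ k₁ k ≤ A ∧
    M.cell w (N ^ k₁ k) (A - N ^ k₁ k) = g / 6) ∧
  (g % 6 = 3 → ∃ A < N ^ k, a = addr k N A ∧ N ^ k₁ k ≤ A + 1 ∧
    M.cell w (N ^ k₁ k) (A + 1 - N ^ k₁ k) = g / 6) ∧
  (4 ≤ g % 6 → M.final w k N = true)

omit [NeZero k] in
theorem addr_ext {A : ℕ} {a : Fin k → Fin (2 * N)} (h : ∀ i, (addr k N A i : ℕ) = a i) :
    a = addr k N A := funext fun i => Fin.ext (h i).symm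

omit [NeZero k] in
theorem adr_val (ρ : Fin (rules M w k).length) (p : Fin 9) (c : Fin k → Fin (2 * N)) (i : Fin k) :
    ((RR M w k N).adr ρ p c i : ℕ) = proj M w N (dsc ρ) p (c i) := RR_π ρ p i (c i)

theorem old_even {r : ℕ} (h : r % 2 = 0) : old r = r := by unfold old; omega

omit [NeZero k] [NeZero N] in
theorem k₁_facts (hk : 3 ≤ k) (hN : 2 ≤ N) :
    k₁ k < k ∧ 2 ≤ k₁ k ∧ N ≤ N ^ k₁ k ∧ N ^ k₁ k ≤ N ^ k := by
  have h1 : k₁ k < k := by unfold k₁; omega
  have h2 : 2 ≤ k₁ k := by unfold k₁; omega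
  exact ⟨h1, h2, (pow_one N).ge.trans (Nat.pow_le_pow_right (by omega) (by omega)),
    Nat.pow_le_pow_right (by omega) h1.le⟩

theorem sem_of_RR (hk : 3 ≤ k) (hN : 2 ≤ N) (hw : w.length + 1 ≤ N) {g : ℕ}
    {a : Fin k → Fin (2 * N)} (h : (RR M w k N).Tr g a) : Sem M w k N g a := by
  obtain ⟨f1, f2, f3, f4⟩ := k₁_facts hk hN
  induction h with
  | rule ρ c g hc hg _ ih =>
    have hv : ∀ i : Fin k, val w k N (dsc ρ) i (c i) (c (i + 1)) = true := hc
    have hg' : g = out M w (dsc ρ) := by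
      have := RR_hub_some.1 hg
      simp only [hub, Fin.val_zero, if_true] at this
      omega
    have h0 := adr_val (M := M) (w := w) ρ 0 c
    have h3 := adr_val (M := M) (w := w) ρ 3 c
    have h5 := adr_val (M := M) (w := w) ρ 5 c
    have h7 := adr_val (M := M) (w := w) ρ 7 c
    have i3 := fun g' (h : hub M w (dsc ρ) 3 = g' + 1) => ih 3 g' (by decide) (RR_hub_some.2 h)
    have i5 := fun g' (h : hub M w (dsc ρ) 5 = g' + 1) => ih 5 g' (by decide) (RR_hub_some.2 h)
    have i7 := fun g' (h : hub M w (dsc ρ) 7 = g' + 1) => ih 7 g' (by decide) (RR_hub_some.2 h)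
    have hm := mem_rules.1 (dsc_mem ρ)
    generalize (RR M w k N).adr ρ 0 c = a0 at *
    generalize (RR M w k N).adr ρ 3 c = a3 at *
    generalize (RR M w k N).adr ρ 5 c = a5 at *
    generalize (RR M w k N).adr ρ 7 c = a7 at *
    generalize dsc ρ = d at *
    clear ih hc hg
    subst hg'
    rcases hm with rfl | ⟨p, hp, rfl⟩ | ⟨j, hj, rfl⟩ | ⟨v, -, rfl | rfl | rfl⟩ |
      ⟨x, -, y, -, z, -, rfl⟩ | ⟨v, -, hacc, rfl⟩
    · have := (i3 4 rfl).2.2.2.2 (by norm_num)
      change Sem M w k N 5 a0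
      exact ⟨by omega, by omega, by omega, by omega, fun _ => this⟩
    · change Sem M w k N (6 * M.init w p) a0
      refine ⟨fun _ => ⟨p, by omega, addr_ext fun i => ?_, ?_⟩, by omega, by omega, by omega, by omega⟩
      · rw [addr_small (by omega), h0]
        have := hv i
        simp only [val, if_true, decide_eq_true_eq] at this
        simp [proj, hub, this]
      · rw [SM.cell_of_lt _ _ (by omega)]; omega
    · change Sem M w k N (6 * M.blank) a0
      obtain ⟨A, hA, e⟩ := exists_addr c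
      have hv' : ∀ i : Fin k, (c i : ℕ) % 2 = 0 ∧ ((i : ℕ) < k₁ k ∨ (c i : ℕ) = 0) ∧
          ((i : ℕ) ≠ j ∨ (if (i : ℕ) = 0 then w.length else 0) < (c i : ℕ) / 2) := fun i => by
        simpa [val, and_assoc] using hv i
      have e' : ∀ i, (addr k N A i : ℕ) = c i := fun i => by rw [e, old_even (hv' i).1]
      have hb := (blank_iff (l := w.length) (by omega) hA).2 ⟨fun i => by rw [e']; exact (hv' i).2.1,
        ⟨j, by omega⟩, hj, by rw [e']; simpa using (hv' ⟨j, by omega⟩).2.2⟩
      refine ⟨fun _ => ⟨A, hA, addr_ext fun i => ?_, ?_⟩, by omega, by omega, by omega, by omega⟩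
      · rw [e', h0]; simp [proj, hub]
      · rw [SM.cell_of_lt _ _ hb.2, SM.init, if_neg (by omega), if_neg (by omega)]; omega
    · change Sem M w k N (6 * v + 1) a0
      obtain ⟨A, hA, e1, e2⟩ := inc_sound (j := 0) (by omega) (c := c) fun i => by simpa [val] using hv i
      obtain ⟨B, hB, e3, e4⟩ := (i3 (6 * v) rfl).1 (by omega)
      have : A = B := addr_inj (by omega) hB ((addr_ext fun i => by
        rw [e1, h3]; simp [proj, hub, prem]).symm.trans e3)
      subst this
      refine ⟨by omega, fun _ => ⟨A + N ^ 0, hA, addr_ext fun i => ?_, by simp, ?_⟩, by omega, by omega,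
        by omega⟩
      · rw [e2, h0]; simp [proj, hub]
      · simp only [pow_zero, Nat.add_sub_cancel]; omega
    · change Sem M w k N (6 * v + 2) a0
      obtain ⟨A, hA, e1, e2⟩ := inc_sound (j := k₁ k) f1 (c := c) fun i => by simpa [val] using hv i
      obtain ⟨B, hB, e3, e4⟩ := (i3 (6 * v) rfl).1 (by omega)
      have : A = B := addr_inj (by omega) hB ((addr_ext fun i => by
        rw [e1, h3]; simp [proj, hub, prem]).symm.trans e3)
      subst this
      refine ⟨by omega, by omega, fun _ => ⟨A + N ^ k₁ k, hA, addr_ext fun i => ?_, by omega, ?_⟩,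
        by omega, by omega⟩
      · rw [e2, h0]; simp [proj, hub]
      · simp only [Nat.add_sub_cancel]; omega
    · change Sem M w k N (6 * v + 3) a0
      obtain ⟨A, hA, e1, e2⟩ := inc_sound (j := 0) (by omega) (c := c) fun i => by simpa [val] using hv i
      obtain ⟨B, hB, e3, e4, e5⟩ := (i3 (6 * v + 2) rfl).2.2.1 (by omega)
      have : A + N ^ 0 = B := addr_inj hA hB ((addr_ext fun i => by
        rw [e2, h3]; simp [proj, hub, prem]).symm.trans e3)
      rw [pow_zero] at this
      subst this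
      refine ⟨by omega, by omega, by omega, fun _ => ⟨A, by omega, addr_ext fun i => ?_, e4, ?_⟩,
        by omega⟩
      · rw [e1, h0]; simp [proj, hub]
      · omega
    · change Sem M w k N (6 * M.δ x y z) a0
      obtain ⟨A, hA, e1, e2, e3⟩ := (i3 (6 * x + 1) rfl).2.1 (by omega)
      obtain ⟨B, hB, e4, e5, e6⟩ := (i5 (6 * y + 2) rfl).2.2.1 (by omega)
      obtain ⟨C, hC, e7, e8, e9⟩ := (i7 (6 * z + 3) rfl).2.2.2.1 (by omega)
      have q0 : a0 = c := funext fun i => Fin.ext (by rw [h0]; simp [proj])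
      have q3 : a3 = c := funext fun i => Fin.ext (by rw [h3]; simp [proj])
      have q5 : a5 = c := funext fun i => Fin.ext (by rw [h5]; simp [proj])
      have q7 : a7 = c := funext fun i => Fin.ext (by rw [h7]; simp [proj])
      have r1 : B = A := addr_inj hB hA (by rw [← e4, ← e1, q3, q5])
      have r2 : C = A := addr_inj hC hA (by rw [← e7, ← e1, q3, q7])
      subst r1 r2
      refine ⟨fun _ => ⟨C, hA, by rw [q0, ← q3, e1], ?_⟩, by omega, by omega, by omega, by omega⟩
      rw [SM.cell_of_le _ _ (by omega) e5, e3, e6, show C - N ^ k₁ k + 1 = C + 1 - N ^ k₁ k by omega, e9,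
        show (6 * x + 1) / 6 = x by omega, show (6 * y + 2) / 6 = y by omega,
        show (6 * z + 3) / 6 = z by omega]
      omega
    · change Sem M w k N 4 a0
      obtain ⟨A, hA, e1, e2⟩ := (i3 (6 * v) rfl).1 (by omega)
      have hl := fin_lt hk hN
      have : (N ^ ((k - 1) / 2) - 1) * N ^ k₁ k + 1 = A := addr_inj (by omega) hA ((addr_ext fun i => by
        rw [addr_fin hk hN, h3]
        have := hv i
        simp only [val] at this
        simp [proj, hub, prem, ← (by simpa using this : (c i : ℕ) = fin k N i)]).symm.trans e1)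
      refine ⟨by omega, by omega, by omega, by omega, fun _ => ?_⟩
      change M.acc (M.cell w (N ^ k₁ k) ((N ^ ((k - 1) / 2) - 1) * N ^ k₁ k + 1)) = true
      rw [this, e2, show 6 * v / 6 = v by omega, hacc]

theorem sem_of_tr (hk : 3 ≤ k) (hN : 2 ≤ N) (hw : w.length + 1 ≤ N) {g : ℕ}
    {a : Fin k → Fin (2 * N)} (h : (crs M w k N).rs.Tr g a) : Sem M w k N g a :=
  sem_of_RR hk hN hw h

/-- Applying a rule. -/
theorem tr_rule {d : Desc} (hd : d ∈ rules M w k) (c a : Fin k → Fin (2 * N))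
    (hc : ∀ i : Fin k, val w k N d i (c i) (c (i + 1)) = true)
    (ha : ∀ i, (a i : ℕ) = proj M w N d 0 (c i))
    (hp : ∀ p g, p = 3 ∨ p = 5 ∨ p = 7 → hub M w d p = g + 1 → ∀ a' : Fin k → Fin (2 * N),
      (∀ i, (a' i : ℕ) = proj M w N d p (c i)) → (RR M w k N).Tr g a') :
    (RR M w k N).Tr (out M w d) a := by
  obtain ⟨ρ, rfl⟩ := exists_dsc hd
  have e : a = (RR M w k N).adr ρ 0 c := funext fun i => Fin.ext (by rw [ha, adr_val]; rfl)
  rw [e]
  refine RS.Tr.rule ρ c _ hc (RR_hub_some.2 rfl) fun p g' h0 h => ?_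
  have h1 := RR_hub_some.1 h
  have h2 := adr_val (M := M) (w := w) ρ p c
  fin_cases p
  · exact absurd rfl h0
  · simp [hub] at h1
  · simp [hub] at h1
  · exact hp 3 g' (by simp) h1 _ h2
  · exact hp 3 g' (by simp) h1 _ fun i => (h2 i).trans (by simp [proj, hub])
  · exact hp 5 g' (by simp) h1 _ h2
  · exact hp 5 g' (by simp) h1 _ fun i => (h2 i).trans (by simp [proj, hub])
  · exact hp 7 g' (by simp) h1 _ h2
  · exact hp 7 g' (by simp) h1 _ fun i => (h2 i).trans (by simp [proj, hub])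

theorem tr_inc {t j v A : ℕ} (ht : t = 2 ∧ j = 0 ∨ t = 3 ∧ j = k₁ k) (hj : j < k) (hv : v < M.q)
    (hA : A + N ^ j < N ^ k) (h : (RR M w k N).Tr (6 * v) (addr k N A)) :
    (RR M w k N).Tr (6 * v + t - 1) (addr k N (A + N ^ j)) := by
  obtain ⟨c, h1, h2, h3⟩ := inc_complete hj hA
  have := tr_rule (M := M) (w := w) (d := (t, v, 0, 0))
    (mem_rules.2 (by rcases ht with ⟨rfl, -⟩ | ⟨rfl, -⟩ <;> simp [hv])) c (addr k N (A + N ^ j))
    (fun i => by rcases ht with ⟨rfl, rfl⟩ | ⟨rfl, rfl⟩ <;> simpa [val] using h1 i)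
    (fun i => by rw [h3]; rcases ht with ⟨rfl, -⟩ | ⟨rfl, -⟩ <;> simp [proj, hub])
    (fun p g hp hg a' ha' => by
      rcases ht with ⟨rfl, -⟩ | ⟨rfl, -⟩ <;> rcases hp with rfl | rfl | rfl <;>
        simp [hub, prem] at hg <;> subst hg <;>
        rwa [addr_ext (A := A) (a := a') fun i => by rw [h2, ha']; simp [proj, hub, prem]])
  rcases ht with ⟨rfl, -⟩ | ⟨rfl, -⟩ <;> exact this

theorem tr_dec {v A : ℕ} (hv : v < M.q) (hA : A + N ^ 0 < N ^ k)
    (h : (RR M w k N).Tr (6 * v + 2) (addr k N (A + N ^ 0))) :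
    (RR M w k N).Tr (6 * v + 3) (addr k N A) := by
  obtain ⟨c, h1, h2, h3⟩ := inc_complete (NeZero.pos k) hA
  exact tr_rule (M := M) (w := w) (d := (4, v, 0, 0)) (mem_rules.2 (by simp [hv])) c (addr k N A)
    (fun i => by simpa [val] using h1 i) (fun i => by rw [h2]; simp [proj, hub])
    (fun p g hp hg a' ha' => by
      rcases hp with rfl | rfl | rfl <;> simp [hub, prem] at hg
      subst hg
      rwa [addr_ext (A := A + N ^ 0) (a := a') fun i => by rw [h3, ha']; simp [proj, hub, prem]])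

omit [NeZero k] in
theorem addr_even (A : ℕ) (i : Fin k) : (addr k N A i : ℕ) % 2 = 0 := by simp [addr]

theorem RR_cell (hM : M.WF) (hk : 3 ≤ k) (hN : 2 ≤ N) (hw : w.length + 1 ≤ N) {A : ℕ}
    (hA : A + 1 < N ^ k) : (RR M w k N).Tr (6 * M.cell w (N ^ k₁ k) A) (addr k N A) := by
  obtain ⟨f1, f2, f3, f4⟩ := k₁_facts hk hN
  induction A using Nat.strong_induction_on with
  | _ A ih =>
    rcases lt_or_ge A (N ^ k₁ k) with h | h
    · rw [SM.cell_of_lt _ _ h]
      rcases le_or_gt A w.length with h' | h'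
      · exact tr_rule (M := M) (w := w) (d := (0, A, 0, 0)) (mem_rules.2 (by simp [h'])) (addr k N A) _
          (fun i => by simp [val, addr_small (show A < N by omega)]) (fun i => by simp [proj])
          (fun p g hp hg => by rcases hp with rfl | rfl | rfl <;> simp [hub, prem] at hg)
      · obtain ⟨b1, j, b2, b3⟩ := (blank_iff (k := k) (l := w.length) (by omega) (by omega)).1 ⟨h', h⟩
        rw [SM.init, if_neg (by omega), if_neg (by omega)]
        exact tr_rule (M := M) (w := w) (d := (1, j, 0, 0)) (mem_rules.2 (by simp [b2])) (addr k N A) _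
          (fun i => by
            simp only [val, one_ne_zero, if_false, if_true, Bool.and_eq_true, Bool.or_eq_true,
              decide_eq_true_eq]
            refine ⟨⟨addr_even _ _, b1 i⟩, ?_⟩
            by_cases hi : i = j
            · subst hi; exact .inr b3
            · exact .inl fun e => hi (Fin.ext e))
          (fun i => by simp [proj])
          (fun p g hp hg => by rcases hp with rfl | rfl | rfl <;> simp [hub, prem] at hg)
    · rw [SM.cell_of_le _ _ (by omega) h]
      have t1 := tr_inc (t := 2) (j := 0) (by simp) (by omega) (SM.cell_lt hM _ _ _)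
        (by rw [pow_zero]; omega) (ih (A - 1) (by omega) (by omega))
      have t2 := tr_inc (t := 3) (j := k₁ k) (by simp) f1 (SM.cell_lt hM _ _ _)
        (by omega) (ih (A - N ^ k₁ k) (by omega) (by omega))
      have t3 := tr_inc (t := 3) (j := k₁ k) (by simp) f1 (SM.cell_lt hM _ _ _)
        (by omega) (ih (A - N ^ k₁ k + 1) (by omega) (by omega))
      rw [show A - 1 + N ^ 0 = A by rw [pow_zero]; omega] at t1
      rw [show A - N ^ k₁ k + N ^ k₁ k = A by omega] at t2
      rw [show A - N ^ k₁ k + 1 + N ^ k₁ k = A + N ^ 0 by rw [pow_zero]; omega] at t3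
      have t4 := tr_dec (SM.cell_lt hM _ _ _) (by rwa [pow_zero]) t3
      exact tr_rule (M := M) (w := w) (d := (5, _, _, _))
        (mem_rules.2 (by simp [SM.cell_lt hM])) (addr k N A) _
        (fun i => by simp [val, addr_even]) (fun i => by simp [proj])
        (fun p g hp hg a' ha' => by
          rw [addr_ext (A := A) (a := a') fun i => by rw [ha']; simp [proj]]
          rcases hp with rfl | rfl | rfl <;> simp [hub, prem] at hg <;> subst hg
          exacts [t1, t2, t4])

theorem tr_cell (hM : M.WF) (hk : 3 ≤ k) (hN : 2 ≤ N) (hw : w.length + 1 ≤ N) {A : ℕ}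
    (hA : A + 1 < N ^ k) : (crs M w k N).rs.Tr (6 * M.cell w (N ^ k₁ k) A) (addr k N A) :=
  RR_cell hM hk hN hw hA

theorem tr_out_iff (hM : M.WF) (hk : 3 ≤ k) (hN : 2 ≤ N) (hw : w.length + 1 ≤ N) :
    (∃ a, (crs M w k N).rs.Tr 5 a) ↔ M.final w k N = true := by
  refine ⟨fun ⟨a, ha⟩ => (sem_of_tr hk hN hw ha).2.2.2.2 (by norm_num), fun h => ?_⟩
  have t0 := RR_cell hM hk hN hw (fin_lt hk hN)
  change M.acc (M.cell w (N ^ k₁ k) ((N ^ ((k - 1) / 2) - 1) * N ^ k₁ k + 1)) = true at h
  have hf := addr_fin (k := k) hk hN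
  generalize (N ^ ((k - 1) / 2) - 1) * N ^ k₁ k + 1 = A at *
  have t1 : (RR M w k N).Tr 4 (addr k N A) :=
    tr_rule (M := M) (w := w) (d := (6, M.cell w (N ^ k₁ k) A, 0, 0))
      (mem_rules.2 (by simp [SM.cell_lt hM, h])) (addr k N A) _
      (fun i => by simp [val, hf]) (fun i => by simp [proj])
      (fun p g hp hg a' ha' => by
        rw [addr_ext (A := A) (a := a') fun i => by rw [ha']; simp [proj]]
        rcases hp with rfl | rfl | rfl <;> simp [hub, prem] at hg
        subst hg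
        exact t0)
  exact ⟨fun _ => 0, tr_rule (M := M) (w := w) (d := (7, 0, 0, 0)) (mem_rules.2 (by simp)) (addr k N A) _
    (fun i => by simp [val, hf]) (fun i => by simp [proj, hub])
    (fun p g hp hg a' ha' => by
      rcases hp with rfl | rfl | rfl <;> simp [hub, prem] at hg
      subst hg
      rwa [addr_ext (A := A) (a := a') fun i => by rw [ha']; simp [proj]])⟩

end Rules

end Crest.Agent.R290
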