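import Crest.Agent.R290.RulesInc

/-!
# Row 290: the simulating rule system is well formed and polynomial-time
-/

set_option autoImplicit false

namespace Crest.Agent.R290

open Crest.Agent.Lib.PolyTime

namespace Rules

variable {M : SM} {w : List Bool} {k N : ℕ}

theorem mem_rules {d : Desc} : d ∈ rules M w k ↔
    d = (7, 0, 0, 0) ∨ (∃ p ≤ w.length, d = (0, p, 0, 0)) ∨ (∃ j < k₁ k, d = (1, j, 0, 0)) ∨
      (∃ v < M.q, d = (2, v, 0, 0) ∨ d = (3, v, 0, 0) ∨ d = (4, v, 0, 0)) ∨
      (∃ a < M.q, ∃ b < M.q, ∃ c < M.q, d = (5, a, b, c)) ∨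
      ∃ v < M.q, M.acc v = true ∧ d = (6, v, 0, 0) := by
  simp only [rules, List.mem_append, List.mem_map, List.mem_range,
    List.mem_flatMap, List.mem_filter, List.mem_cons, List.not_mem_nil, or_false, or_assoc,
    Nat.lt_succ_iff, eq_comm (a := d), and_assoc]

theorem proj_lt [NeZero N] (d : Desc) (p : ℕ) {r : ℕ} (hr : r < 2 * N) : proj M w N d p r < 2 * N := by
  have := Nat.mod_lt (r / 2 + r % 2) (NeZero.pos N)
  unfold proj new old
  split_ifs <;> omega

/-- The typed rule system, with transparent types. -/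
def RR (M : SM) (w : List Bool) (k N : ℕ) [NeZero N] :
    RS k (Fin (2 * N)) (Fin (rules M w k).length) ℕ := (crs M w k N).rs

/-- The descriptor of a rule. -/
def dsc (ρ : Fin (rules M w k).length) : Desc := (rules M w k)[ρ]

theorem dsc_mem (ρ : Fin (rules M w k).length) : dsc ρ ∈ rules M w k := List.getElem_mem ρ.2

theorem exists_dsc {d : Desc} (h : d ∈ rules M w k) : ∃ ρ : Fin (rules M w k).length, dsc ρ = d := by
  obtain ⟨i, hi, e⟩ := List.mem_iff_getElem.1 h
  exact ⟨⟨i, hi⟩, e⟩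

theorem RR_hub [NeZero N] (ρ : Fin (rules M w k).length) (p : Fin 9) :
    (RR M w k N).hub ρ p = if hub M w (dsc ρ) p = 0 then none else some (hub M w (dsc ρ) p - 1) := rfl

theorem RR_hub_none [NeZero N] {ρ : Fin (rules M w k).length} {p : Fin 9} :
    (RR M w k N).hub ρ p = none ↔ hub M w (dsc ρ) p = 0 := by
  rw [RR_hub]
  split_ifs with h <;> simp [h]

theorem RR_hub_some [NeZero N] {ρ : Fin (rules M w k).length} {p : Fin 9} {g : ℕ} :
    (RR M w k N).hub ρ p = some g ↔ hub M w (dsc ρ) p = g + 1 := by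
  rw [RR_hub]
  split_ifs with h
  · simp [h]
  · simp only [Option.some.injEq]; omega

theorem RR_val [NeZero N] (ρ : Fin (rules M w k).length) (i : Fin k) (r r' : Fin (2 * N)) :
    (RR M w k N).val ρ i r r' = val w k N (dsc ρ) i r r' := rfl

/-- Projections stay below `2 N`, so the typed projection is the coded one. -/
theorem RR_π [NeZero N] (ρ : Fin (rules M w k).length) (p : Fin 9) (i : Fin k) (r : Fin (2 * N)) :
    ((RR M w k N).π ρ p i r : ℕ) = proj M w N (dsc ρ) p r :=
  Nat.mod_eq_of_lt (proj_lt _ _ r.2)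

theorem RR_wf [NeZero k] [NeZero N] : (RR M w k N).WF := by
  refine ⟨fun ρ h => ?_, fun ρ => RR_hub_none.2 rfl, fun ρ => RR_hub_none.2 rfl, fun ρ p h i r => ?_,
    fun ρ p h0 h => ?_, fun ρ p c c' hc hc' h => ?_⟩
  · have := RR_hub_none.1 h
    simp [hub] at this
  · apply Fin.ext
    rw [RR_π, proj, if_pos (RR_hub_none.1 h)]
  · have key : ∀ p' : Fin 9, p' ≠ p → p' ≠ 0 → (∀ d, hub M w d p' = hub M w d p) →
        ∃ p', p' ≠ p ∧ p' ≠ 0 ∧ (RR M w k N).hub ρ p' = (RR M w k N).hub ρ p ∧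
          (RR M w k N).π ρ p' = (RR M w k N).π ρ p := by
      intro p' h1 h2 h3
      refine ⟨p', h1, h2, by rw [RR_hub, RR_hub, h3], ?_⟩
      funext i r
      apply Fin.ext
      have e1 : (p' : ℕ) ≠ 0 := fun e => h2 (Fin.ext e)
      have e2 : (p : ℕ) ≠ 0 := fun e => h0 (Fin.ext e)
      rw [RR_π, RR_π]
      simp only [proj, h3, e1, e2]
    fin_cases p
    · exact absurd rfl h0
    · exact absurd (RR_hub_none.2 rfl) h
    · exact absurd (RR_hub_none.2 rfl) h
    · exact key 4 (by decide) (by decide) fun _ => rfl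
    · exact key 3 (by decide) (by decide) fun _ => rfl
    · exact key 6 (by decide) (by decide) fun _ => rfl
    · exact key 5 (by decide) (by decide) fun _ => rfl
    · exact key 8 (by decide) (by decide) fun _ => rfl
    · exact key 7 (by decide) (by decide) fun _ => rfl
  · have h1 : ∀ i : Fin k, proj M w N (dsc ρ) p (c i) = proj M w N (dsc ρ) p (c' i) := fun i => by
      rw [← RR_π ρ p i, ← RR_π ρ p i]; exact congrArg Fin.val (congrFun h i)
    have h2 : ∀ i : Fin k, val w k N (dsc ρ) i (c i) (c (i + 1)) = true := hc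
    have h3 : ∀ i : Fin k, val w k N (dsc ρ) i (c' i) (c' (i + 1)) = true := hc'
    generalize dsc ρ = d at h1 h2 h3
    unfold proj at h1
    unfold val at h2 h3
    split_ifs at h1 with a1 a2 a3 a4 a5 a6
    · exact funext fun i => Fin.ext (h1 i)
    · rcases a2 with a2 | a2 <;> simp only [a2] at h2 h3 <;> exact inc_inj_new h2 h3 h1
    · rcases a2 with a2 | a2 <;> simp only [a2] at h2 h3 <;> exact inc_inj_old h2 h3 h1
    · simp only [a4] at h2 h3; exact inc_inj_old h2 h3 h1
    · simp only [a4] at h2 h3; exact inc_inj_new h2 h3 h1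
    · simp only [a6.1] at h2 h3
      refine funext fun i => Fin.ext ?_
      have e1 : (c i : ℕ) = fin k N i := by simpa using h2 i
      have e2 : (c' i : ℕ) = fin k N i := by simpa using h3 i
      rw [e1, e2]
    · exact funext fun i => Fin.ext (h1 i)

theorem rs_wf [NeZero k] [NeZero N] : (crs M w k N).rs.WF := RR_wf

theorem dsc_seven {ρ : Fin (rules M w k).length} (h : (dsc ρ).1 = 7) : (ρ : ℕ) = 0 := by
  obtain ⟨ρ, hρ⟩ := ρ
  rcases ρ with _ | ρ
  · rfl
  · exfalso
    have hm : dsc ⟨ρ + 1, hρ⟩ ∈ (rules M w k).tail := by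
      have : ρ < (rules M w k).tail.length := by rw [List.length_tail]; omega
      have e : dsc ⟨ρ + 1, hρ⟩ = (rules M w k).tail[ρ] := by rw [List.getElem_tail]; rfl
      rw [e]; exact List.getElem_mem _
    generalize dsc ⟨ρ + 1, hρ⟩ = d at h hm
    simp only [rules, List.append_assoc, List.cons_append, List.nil_append, List.tail_cons,
      List.mem_append, List.mem_map, List.mem_flatMap, List.mem_cons, List.not_mem_nil,
      or_false] at hm
    rcases hm with ⟨_, -, rfl⟩ | ⟨_, -, rfl⟩ | ⟨_, -, rfl | rfl | rfl⟩ | ⟨_, -, _, -, _, -, rfl⟩ |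
      ⟨_, -, rfl⟩ <;> simp at h

theorem RR_out [NeZero N] : (RR M w k N).Out ⟨0, rules_pos M w k N⟩ 5 0 := by
  refine ⟨RR_hub_some.2 rfl, fun ρ p h => ?_, fun i r => Fin.ext (by rw [RR_π]; rfl)⟩
  have h1 := RR_hub_some.1 h
  have h2 : (dsc ρ).1 = 7 ∧ (p : ℕ) = 0 := by
    have hm := mem_rules.1 (dsc_mem ρ)
    generalize dsc ρ = d at h1 hm
    unfold hub out prem at h1
    rcases hm with rfl | ⟨_, -, rfl⟩ | ⟨_, -, rfl⟩ | ⟨_, -, rfl | rfl | rfl⟩ | ⟨_, -, _, -, _, -, rfl⟩ |
      ⟨_, -, -, rfl⟩ <;> simp only at h1 ⊢ <;> split_ifs at h1 <;> first | omega | simp_all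
  exact ⟨Fin.ext (dsc_seven h2.1), Fin.ext h2.2⟩

/-- Only the rule at index `0` has tag `7`, and no other hub number is `5` modulo `6`. -/
theorem rs_out [NeZero N] : (crs M w k N).rs.Out ⟨0, rules_pos M w k N⟩ 5 0 := RR_out

/-- Inputs of the reduction: machine, word, rows, base. -/
abbrev Inp : Type := SM × List Bool × ℕ × ℕ

/-- The coded rule system of an input. -/
def crsI (a : Inp) : CRS Desc := crs a.1 a.2.1 a.2.2.1 a.2.2.2

theorem pt_rules : PT fun a : Inp => (crsI a).rules := by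
  unfold crsI crs rules k₁
  fun_prop

theorem pt_hub : PT fun p : Inp × Desc × ℕ => (crsI p.1).hub p.2.1 p.2.2 := by
  unfold crsI crs hub out prem
  fun_prop

theorem pt_π :
    PT fun p : Inp × Desc × ℕ × ℕ × ℕ => (crsI p.1).π p.2.1 p.2.2.1 p.2.2.2.1 p.2.2.2.2 := by
  unfold crsI crs proj hub out prem new old
  fun_prop

theorem pt_val :
    PT fun p : Inp × Desc × ℕ × ℕ × ℕ => (crsI p.1).val p.2.1 p.2.2.1 p.2.2.2.1 p.2.2.2.2 := by
  unfold crsI crs val incV fin k₁
  fun_prop

end Rules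

end Crest.Agent.R290
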