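import Crest.Agent.R290.SubGen

/-!
# Row 290: the subcubic reduction from coded systems to pairs of graphs
-/

set_option autoImplicit false

namespace Crest.Agent.R290

open Finset Crest.Agent.Lib.PolyTime Crest.WLRefine

theorem mem_quads {B : ℕ} {x : N4} :
    x ∈ quads B ↔ x.1 < B ∧ x.2.1 < B ∧ x.2.2.1 < B ∧ x.2.2.2 < B := by
  obtain ⟨t, a, b, c⟩ := x
  simp [quads]

theorem quads_nodup (B : ℕ) : (quads B).Nodup := by
  have : quads B = List.range B ×ˢ (List.range B ×ˢ (List.range B ×ˢ List.range B)) := by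
    simp [quads, SProd.sprod, List.product, List.map_flatMap, List.map_map, Function.comp_def]
  rw [this]
  exact List.nodup_range.product (List.nodup_range.product (List.nodup_range.product List.nodup_range))

namespace CSys

variable {L : CSys}

theorem vCls_iff {t a b c : ℕ} : L.vCls (t, a, b, c) = true ↔
    (t < 2 ∧ a < L.V ∧ b = 0 ∧ c = 0) ∨ (t = 2 ∧ a < L.V ∧ b ≤ L.length ∧ c = 0) ∨
      (t = 3 ∧ a < L.length ∧ b < (L.vs a).length ∧ c ≤ (L.vs a).length) := by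
  simp only [vCls, Bool.or_eq_true, Bool.and_eq_true, decide_eq_true_eq, and_assoc, or_assoc]

theorem vEdge_iff {t a b c : ℕ} : L.vEdge (t, a, b, c) = true ↔
    (t = 0 ∧ a + 1 < L.V ∧ b = 0 ∧ c = 0) ∨ (1 ≤ t ∧ L.vCls (t, a, b, c) = true) ∨
      (t = 4 ∧ a < L.length ∧ b + 1 < (L.vs a).length ∧ c = 0) := by
  simp only [vEdge, Bool.or_eq_true, Bool.and_eq_true, decide_eq_true_eq, and_assoc, or_assoc]

theorem mem_eb_cls (hL : L.WF) {x : N4} : x ∈ L.eb.cls ↔ L.vCls x = true := by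
  obtain ⟨t, a, b, c⟩ := x
  simp only [eb, List.mem_filter, mem_quads, and_iff_right_iff_imp, vCls_iff]
  rintro (h | h | h)
  · omega
  · omega
  · have := (hL a h.2.1).2.2
    omega

theorem mem_eb_edges (hL : L.WF) {x : N4} : x ∈ L.eb.edges ↔ L.vEdge x = true := by
  obtain ⟨t, a, b, c⟩ := x
  simp only [eb, List.mem_filter, mem_quads, and_iff_right_iff_imp, vEdge_iff, vCls_iff]
  rintro (h | ⟨-, h | h | h⟩ | h)
  · omega
  · omega
  · omega
  · have := (hL a h.2.1).2.2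
    omega
  · have := (hL a h.2.1).2.2
    omega

theorem sc_cls_cases (hL : L.WF) {x : N4} (hx : x ∈ L.eb.cls) :
    (∃ y < L.V, x = (0, y, 0, 0)) ∨ (∃ y < L.V, x = (1, y, 0, 0)) ∨
      (∃ y < L.V, ∃ u ≤ L.length, x = (2, y, u, 0)) ∨
      (∃ u < L.length, ∃ j < (L.vs u).length, ∃ t ≤ (L.vs u).length, x = (3, u, j, t)) := by
  obtain ⟨t, a, b, c⟩ := x
  rw [mem_eb_cls hL, vCls_iff] at hx
  rcases hx with ⟨h1, h2, rfl, rfl⟩ | ⟨rfl, h2, h3, rfl⟩ | ⟨rfl, h2, h3, h4⟩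
  · obtain rfl | rfl : t = 0 ∨ t = 1 := by omega
    · exact .inl ⟨a, h2, rfl⟩
    · exact .inr (.inl ⟨a, h2, rfl⟩)
  · exact .inr (.inr (.inl ⟨a, h2, b, h3, rfl⟩))
  · exact .inr (.inr (.inr ⟨a, h2, b, h3, c, h4, rfl⟩))

theorem sc_edge_cases (hL : L.WF) {x : N4} (hx : x ∈ L.eb.edges) :
    (∃ y, y + 1 < L.V ∧ x = (0, y, 0, 0)) ∨ (∃ y < L.V, x = (1, y, 0, 0)) ∨
      (∃ y < L.V, x = (2, y, 0, 0)) ∨ (∃ y < L.V, ∃ u < L.length, x = (2, y, u + 1, 0)) ∨
      (∃ u < L.length, ∃ j < (L.vs u).length, x = (3, u, j, 0)) ∨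
      (∃ u < L.length, ∃ j < (L.vs u).length, ∃ t < (L.vs u).length, x = (3, u, j, t + 1)) ∨
      (∃ u < L.length, ∃ j, j + 1 < (L.vs u).length ∧ x = (4, u, j, 0)) := by
  obtain ⟨t, a, b, c⟩ := x
  rw [mem_eb_edges hL, vEdge_iff, vCls_iff] at hx
  rcases hx with ⟨rfl, h2, rfl, rfl⟩ | ⟨h0, ⟨h1, h2, rfl, rfl⟩ | ⟨rfl, h2, h3, rfl⟩ |
    ⟨rfl, h2, h3, h4⟩⟩ | ⟨rfl, h2, h3, rfl⟩
  · exact .inl ⟨a, h2, rfl⟩
  · obtain rfl : t = 1 := by omega
    exact .inr (.inl ⟨a, h2, rfl⟩)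
  · cases b with
    | zero => exact .inr (.inr (.inl ⟨a, h2, rfl⟩))
    | succ b => exact .inr (.inr (.inr (.inl ⟨a, h2, b, h3, rfl⟩)))
  · cases c with
    | zero => exact .inr (.inr (.inr (.inr (.inl ⟨a, h2, b, h3, rfl⟩))))
    | succ c => exact .inr (.inr (.inr (.inr (.inr (.inl ⟨a, h2, b, h3, c, h4, rfl⟩)))))
  · exact .inr (.inr (.inr (.inr (.inr (.inr ⟨a, h2, b, h3, rfl⟩)))))

theorem sc_cls0 (hL : L.WF) {y : ℕ} (hy : y < L.V) : (0, y, 0, 0) ∈ L.eb.cls := by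
  rw [mem_eb_cls hL, vCls_iff]; omega
theorem sc_cls1 (hL : L.WF) {y : ℕ} (hy : y < L.V) : (1, y, 0, 0) ∈ L.eb.cls := by
  rw [mem_eb_cls hL, vCls_iff]; omega
theorem sc_cls2 (hL : L.WF) {y u : ℕ} (hy : y < L.V) (hu : u ≤ L.length) :
    (2, y, u, 0) ∈ L.eb.cls := by
  rw [mem_eb_cls hL, vCls_iff]; omega
theorem sc_cls3 (hL : L.WF) {u j t : ℕ} (hu : u < L.length) (hj : j < (L.vs u).length)
    (ht : t ≤ (L.vs u).length) : (3, u, j, t) ∈ L.eb.cls := by
  rw [mem_eb_cls hL, vCls_iff]; omega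

theorem sc_edge0 (hL : L.WF) {y : ℕ} (hy : y + 1 < L.V) : (0, y, 0, 0) ∈ L.eb.edges := by
  rw [mem_eb_edges hL, vEdge_iff]; omega
theorem sc_edge_of_cls (hL : L.WF) {t a b c : ℕ} (ht : 1 ≤ t) (h : (t, a, b, c) ∈ L.eb.cls) :
    (t, a, b, c) ∈ L.eb.edges := by
  rw [mem_eb_edges hL, vEdge_iff]
  exact .inr (.inl ⟨ht, (mem_eb_cls hL).1 h⟩)
theorem sc_edge4 (hL : L.WF) {u j : ℕ} (hu : u < L.length) (hj : j + 1 < (L.vs u).length) :
    (4, u, j, 0) ∈ L.eb.edges := by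
  rw [mem_eb_edges hL, vEdge_iff]; omega

theorem sc_small0 (y b c : ℕ) : L.eb.small (0, y, b, c) = (0, y, 0, 0) := rfl
theorem sc_small1 (y b c : ℕ) : L.eb.small (1, y, b, c) = (0, y, 0, 0) := rfl
theorem sc_small20 (y c : ℕ) : L.eb.small (2, y, 0, c) = (1, y, 0, 0) := rfl
theorem sc_small2 (y u c : ℕ) : L.eb.small (2, y, u + 1, c) = (2, y, u, 0) := rfl
theorem sc_small30 (u j : ℕ) : L.eb.small (3, u, j, 0) = (2, (L.vs u).getD j 0, u, 0) := rfl
theorem sc_small3 (u j t : ℕ) : L.eb.small (3, u, j, t + 1) = (3, u, j, t) := rfl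
theorem sc_small4 (u j c : ℕ) : L.eb.small (4, u, j, c) = (3, u, j, (L.vs u).length) := rfl
theorem sc_big0 (y b c : ℕ) : L.eb.big (0, y, b, c) = (0, y + 1, 0, 0) := rfl
theorem sc_big1 (y b c : ℕ) : L.eb.big (1, y, b, c) = (1, y, b, c) := rfl
theorem sc_big2 (y b c : ℕ) : L.eb.big (2, y, b, c) = (2, y, b, c) := rfl
theorem sc_big3 (y b c : ℕ) : L.eb.big (3, y, b, c) = (3, y, b, c) := rfl
theorem sc_big4 (u j c : ℕ) : L.eb.big (4, u, j, c) = (3, u, j + 1, (L.vs u).length) := rfl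
theorem sc_S0 (y b c : ℕ) : L.eb.S (0, y, b, c) = [] := rfl
theorem sc_S1 (y b c : ℕ) : L.eb.S (1, y, b, c) = [] := rfl
theorem sc_S2 (y b c : ℕ) : L.eb.S (2, y, b, c) = L.sv y := rfl
theorem sc_S3 (u j t : ℕ) : L.eb.S (3, u, j, t) =
    (L.vs u).filter fun y => decide (y = (L.vs u).getD j 0) ||
      ((L.vs u).take t).any fun y' => decide (y' = y) := rfl
theorem sc_con0 (y b c : ℕ) : L.eb.con (0, y, b, c) = 0 := by simp [eb]
theorem sc_con1 (y b c : ℕ) : L.eb.con (1, y, b, c) = 0 := by simp [eb]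
theorem sc_con2 (y b c : ℕ) : L.eb.con (2, y, b, c) = 0 := by simp [eb]
theorem sc_con3 (u j t : ℕ) : L.eb.con (3, u, j, t) = if t = (L.vs u).length then u + 1 else 0 := by
  simp [eb]

theorem sc_mem3 {u j t y : ℕ} : y ∈ L.eb.S (3, u, j, t) ↔
    y ∈ L.vs u ∧ (y = (L.vs u).getD j 0 ∨ y ∈ (L.vs u).take t) := by
  simp only [sc_S3, List.mem_filter, Bool.or_eq_true, decide_eq_true_eq, List.any_eq_true,
    exists_eq_right]

theorem sc_mem3_full {u j y : ℕ} : y ∈ L.eb.S (3, u, j, (L.vs u).length) ↔ y ∈ L.vs u := by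
  rw [sc_mem3, List.take_length]
  exact ⟨fun h => h.1, fun h => ⟨h, .inr h⟩⟩

theorem sc_getD_mem {u j : ℕ} (hj : j < (L.vs u).length) : (L.vs u).getD j 0 ∈ L.vs u := by
  rw [List.getD_eq_getElem _ _ hj]; exact List.getElem_mem hj

theorem sc_deg_le (c : N4) (A B : Finset N4) (m : ℕ) (hA : ∀ e ∈ L.eb.edges, L.eb.big e = c → e ∈ A)
    (hB : ∀ e ∈ L.eb.edges, L.eb.small e = c →
      e ∈ B ∧ ((L.eb.S (L.eb.big e)).toFinset \ (L.eb.S c).toFinset).card ≤ m)
    (h3 : A.card + B.card * 2 ^ m ≤ 3) :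
    (L.eb.edges.toFinset.filter fun e => L.eb.big e = c).card +
      ∑ e ∈ L.eb.edges.toFinset with L.eb.small e = c,
        2 ^ ((L.eb.S (L.eb.big e)).toFinset \ (L.eb.S c).toFinset).card ≤ 3 := by
  refine le_trans (add_le_add (card_le_card fun e he => ?_) ((sum_le_card_nsmul _ _ (2 ^ m)
    fun e he => ?_).trans (Nat.mul_le_mul_right _ (card_le_card fun e he => ?_)))) h3
  · exact hA e (List.mem_toFinset.1 (mem_filter.1 he).1) (mem_filter.1 he).2
  · exact Nat.pow_le_pow_right (by norm_num)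
      (hB e (List.mem_toFinset.1 (mem_filter.1 he).1) (mem_filter.1 he).2).2
  · exact (hB e (List.mem_toFinset.1 (mem_filter.1 he).1) (mem_filter.1 he).2).1

theorem sc_card_zero {l l' : List ℕ} (h : l ⊆ l') : (l.toFinset \ l'.toFinset).card ≤ 0 := by
  rw [sdiff_eq_empty_iff_subset.2 fun z hz => List.mem_toFinset.2 (h (List.mem_toFinset.1 hz))]
  simp

theorem sc_sv_sub (y : ℕ) : L.sv y ⊆ [y] := by
  rcases L.sv_cases y with h | ⟨h, -⟩ <;> simp [h]

/-- Degrees (`d = (vs u).length ≥ 1`): `(0, y, 0, 0)`: big end of `(0, y-1, 0, 0)`, small end of `(0, y, 0, 0)` and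
`(1, y, 0, 0)`, weights `1`. `(1, y, 0, 0)`: big end of itself, small end of `(2, y, 0, 0)` (weight `≤ 2`).
`(2, y, u, 0)`: big end of itself, small end of `(2, y, u+1, 0)` and of `(3, u, j, 0)` for the at most one `j` with
`(vs u)[j] = y`, weights `1`. `(3, u, j, t)`: big end of itself; for `t < d` small end of `(3, u, j, t+1)` (weight `≤ 2`);
for `t = d` big end of `(4, u, j-1, 0)` and small end of `(4, u, j, 0)` (weight `1`). Bound the filtered finsets by
explicit one- or two-element sets. -/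
theorem eb_ok (hL : L.WF) : L.eb.OK (0, 0, 0, 0) L.ebRank := by
  have hV : 0 < L.V := Nat.succ_pos _
  refine ⟨(quads_nodup _).filter _, (quads_nodup _).filter _, fun c hc => ?_, fun e he => ?_,
    fun e he => ?_, fun e he => ?_, fun e _ e' _ h => ?_,
    ⟨sc_cls0 hL hV, rfl, (1, 0, 0, 0), sc_edge_of_cls hL le_rfl (sc_cls1 hL hV), rfl,
      sc_con1 _ _ _⟩, fun c hc hne => ?_, fun c hc => ?_⟩
  · rcases sc_cls_cases hL hc with ⟨y, -, rfl⟩ | ⟨y, -, rfl⟩ | ⟨y, -, u, -, rfl⟩ |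
      ⟨u, hu, j, hj, t, -, rfl⟩
    · simp [sc_S0, sc_con0]
    · simp [sc_S1, sc_con1]
    · rw [sc_S2, sc_con2]
      rcases L.sv_cases y with h | ⟨h, -⟩ <;> simp [h]
    · refine ⟨(hL u hu).1.filter _, (List.length_filter_le _ _).trans (hL u hu).2.2, fun _ => ?_⟩
      exact List.ne_nil_of_mem (sc_mem3.2 ⟨sc_getD_mem hj, .inl rfl⟩)
  · rcases sc_edge_cases hL he with ⟨y, hy, rfl⟩ | ⟨y, hy, rfl⟩ | ⟨y, hy, rfl⟩ |
      ⟨y, hy, u, hu, rfl⟩ | ⟨u, hu, j, hj, rfl⟩ | ⟨u, hu, j, hj, t, ht, rfl⟩ | ⟨u, hu, j, hj, rfl⟩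
    · exact ⟨sc_cls0 hL (Nat.lt_of_succ_lt hy), sc_cls0 hL hy⟩
    · exact ⟨sc_cls0 hL hy, sc_cls1 hL hy⟩
    · exact ⟨sc_cls1 hL hy, sc_cls2 hL hy (Nat.zero_le _)⟩
    · exact ⟨sc_cls2 hL hy hu.le, sc_cls2 hL hy hu⟩
    · exact ⟨sc_cls2 hL (L.lt_V (sc_getD_mem hj)) hu.le, sc_cls3 hL hu hj (Nat.zero_le _)⟩
    · exact ⟨sc_cls3 hL hu hj ht.le, sc_cls3 hL hu hj ht⟩
    · exact ⟨sc_cls3 hL hu (Nat.lt_of_succ_lt hj) le_rfl, sc_cls3 hL hu hj le_rfl⟩
  · rcases sc_edge_cases hL he with ⟨y, hy, rfl⟩ | ⟨y, hy, rfl⟩ | ⟨y, hy, rfl⟩ |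
      ⟨y, hy, u, hu, rfl⟩ | ⟨u, hu, j, hj, rfl⟩ | ⟨u, hu, j, hj, t, ht, rfl⟩ | ⟨u, hu, j, hj, rfl⟩
    · exact List.nil_subset _
    · exact List.nil_subset _
    · exact List.nil_subset _
    · exact List.Subset.refl _
    · intro z hz
      rw [sc_small30, sc_S2] at hz
      obtain rfl : z = (L.vs u).getD j 0 := by simpa using sc_sv_sub _ hz
      exact sc_mem3.2 ⟨sc_getD_mem hj, .inl rfl⟩
    · intro z hz
      rw [sc_small3, sc_mem3] at hz
      exact sc_mem3.2 ⟨hz.1, hz.2.imp_right fun h => List.take_subset_take_left _ (Nat.le_succ t) h⟩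
    · intro z hz
      exact sc_mem3_full.2 (sc_mem3_full.1 hz)
  · rcases sc_edge_cases hL he with ⟨y, hy, rfl⟩ | ⟨y, hy, rfl⟩ | ⟨y, hy, rfl⟩ |
      ⟨y, hy, u, hu, rfl⟩ | ⟨u, hu, j, hj, rfl⟩ | ⟨u, hu, j, hj, t, ht, rfl⟩ | ⟨u, hu, j, hj, rfl⟩
    · exact .inl (sc_con0 _ _ _)
    · exact .inl (sc_con0 _ _ _)
    · exact .inl (sc_con1 _ _ _)
    · exact .inl (sc_con2 _ _ _)
    · exact .inl (sc_con2 _ _ _)
    · exact .inl (by rw [sc_small3, sc_con3, if_neg ht.ne])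
    · refine .inr ⟨by rw [sc_small4, sc_big4, sc_con3, sc_con3], fun z hz => ?_⟩
      exact sc_mem3_full.2 (sc_mem3_full.1 hz)
  · obtain ⟨t, a, b, c⟩ := e
    obtain ⟨t', a', b', c'⟩ := e'
    simp only [eb, Nat.pair_eq_pair] at h
    obtain ⟨⟨rfl, rfl⟩, rfl, rfl⟩ := h
    rfl
  · rcases sc_cls_cases hL hc with ⟨y, hy, rfl⟩ | ⟨y, hy, rfl⟩ | ⟨y, hy, u, hu, rfl⟩ |
      ⟨u, hu, j, hj, t, ht, rfl⟩
    · cases y with
      | zero => exact absurd rfl hne
      | succ y => exact ⟨(0, y, 0, 0), sc_edge0 hL hy, rfl, by simp [sc_small0, ebRank]⟩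
    · exact ⟨_, sc_edge_of_cls hL le_rfl hc, rfl, by simpa [sc_small1, ebRank] using hy⟩
    · refine ⟨_, sc_edge_of_cls hL (by norm_num) hc, rfl, ?_⟩
      cases u <;> simp [sc_small20, sc_small2, ebRank]
    · refine ⟨_, sc_edge_of_cls hL (by norm_num) hc, rfl, ?_⟩
      cases t
      · simp only [sc_small30, ebRank]; simp; omega
      · simp [sc_small3, ebRank]
  · rcases sc_cls_cases hL hc with ⟨y, hy, rfl⟩ | ⟨y, hy, rfl⟩ | ⟨y, hy, u, hu, rfl⟩ |
      ⟨u, hu, j, hj, t, ht, rfl⟩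
    · refine sc_deg_le _ {(0, y - 1, 0, 0)} {(0, y, 0, 0), (1, y, 0, 0)} 0 (fun e he h => ?_)
        (fun e he h => ?_) (by have := card_le_two (a := ((0, y, 0, 0) : N4)) (b := (1, y, 0, 0))
                               simp only [card_singleton]; omega) <;>
      rcases sc_edge_cases hL he with ⟨y', hy', rfl⟩ | ⟨y', hy', rfl⟩ | ⟨y', hy', rfl⟩ |
        ⟨y', hy', u', hu', rfl⟩ | ⟨u', hu', j', hj', rfl⟩ | ⟨u', hu', j', hj', t', ht', rfl⟩ |
        ⟨u', hu', j', hj', rfl⟩ <;>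
      simp only [sc_small0, sc_small1, sc_small20, sc_small2, sc_small30, sc_small3, sc_small4,
        sc_big0, sc_big1, sc_big2, sc_big3, sc_big4, Prod.mk.injEq] at h ⊢ <;>
      first
        | omega
        | (obtain ⟨-, rfl, -⟩ := h; simp [sc_S0, sc_S1])
    · refine sc_deg_le _ {(1, y, 0, 0)} {(2, y, 0, 0)} 1 (fun e he h => ?_)
        (fun e he h => ?_) (by simp) <;>
      rcases sc_edge_cases hL he with ⟨y', hy', rfl⟩ | ⟨y', hy', rfl⟩ | ⟨y', hy', rfl⟩ |
        ⟨y', hy', u', hu', rfl⟩ | ⟨u', hu', j', hj', rfl⟩ | ⟨u', hu', j', hj', t', ht', rfl⟩ |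
        ⟨u', hu', j', hj', rfl⟩ <;>
      simp only [sc_small0, sc_small1, sc_small20, sc_small2, sc_small30, sc_small3, sc_small4,
        sc_big0, sc_big1, sc_big2, sc_big3, sc_big4, Prod.mk.injEq] at h ⊢ <;>
      first
        | omega
        | (obtain ⟨-, rfl, -⟩ := h
           first
            | exact mem_singleton_self _
            | (refine ⟨mem_singleton_self _, ?_⟩
               rw [sc_S2, sc_S1]
               rcases L.sv_cases y' with h | ⟨h, -⟩ <;> simp [h]))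
    · refine sc_deg_le _ {(2, y, u, 0)} {(2, y, u + 1, 0), (3, u, (L.vs u).idxOf y, 0)} 0
        (fun e he h => ?_) (fun e he h => ?_)
        (by have := card_le_two (a := ((2, y, u + 1, 0) : N4)) (b := (3, u, (L.vs u).idxOf y, 0))
            simp only [card_singleton]; omega) <;>
      rcases sc_edge_cases hL he with ⟨y', hy', rfl⟩ | ⟨y', hy', rfl⟩ | ⟨y', hy', rfl⟩ |
        ⟨y', hy', u', hu', rfl⟩ | ⟨u', hu', j', hj', rfl⟩ | ⟨u', hu', j', hj', t', ht', rfl⟩ |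
        ⟨u', hu', j', hj', rfl⟩ <;>
      simp only [sc_small0, sc_small1, sc_small20, sc_small2, sc_small30, sc_small3, sc_small4,
        sc_big0, sc_big1, sc_big2, sc_big3, sc_big4, Prod.mk.injEq] at h ⊢
      any_goals omega
      · obtain ⟨-, rfl, rfl, -⟩ := h; exact mem_singleton_self _
      · obtain ⟨-, rfl, rfl, -⟩ := h; exact mem_singleton_self _
      · obtain ⟨-, rfl, rfl, -⟩ := h
        exact ⟨mem_insert_self _ _, sc_card_zero (List.Subset.refl _)⟩
      · obtain ⟨-, rfl, rfl, -⟩ := h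
        refine ⟨?_, sc_card_zero fun z hz => ?_⟩
        · rw [List.getD_eq_getElem _ _ hj', (hL u' hu').1.idxOf_getElem]
          simp
        · rw [sc_S2, L.sv_of_mem hu' (sc_getD_mem hj')]
          simpa using (sc_mem3.1 hz).2
    · by_cases htd : t = (L.vs u).length
      · subst htd
        refine sc_deg_le _ {(3, u, j, (L.vs u).length), (4, u, j - 1, 0)} {(4, u, j, 0)} 0
          (fun e he h => ?_) (fun e he h => ?_)
          (by have := card_le_two (a := ((3, u, j, (L.vs u).length) : N4)) (b := (4, u, j - 1, 0))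
              simp only [card_singleton]; omega) <;>
        rcases sc_edge_cases hL he with ⟨y', hy', rfl⟩ | ⟨y', hy', rfl⟩ | ⟨y', hy', rfl⟩ |
          ⟨y', hy', u', hu', rfl⟩ | ⟨u', hu', j', hj', rfl⟩ | ⟨u', hu', j', hj', t', ht', rfl⟩ |
          ⟨u', hu', j', hj', rfl⟩ <;>
        simp only [sc_small0, sc_small1, sc_small20, sc_small2, sc_small30, sc_small3, sc_small4,
          sc_big0, sc_big1, sc_big2, sc_big3, sc_big4, Prod.mk.injEq] at h ⊢
        any_goals omega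
        · obtain ⟨-, rfl, rfl, h⟩ := h; rw [← h]; exact mem_insert_self _ _
        · obtain ⟨-, rfl, rfl, -⟩ := h; simp
        · obtain ⟨-, rfl, rfl, h⟩ := h; omega
        · obtain ⟨-, rfl, rfl, -⟩ := h
          exact ⟨mem_singleton_self _, sc_card_zero fun z hz => sc_mem3_full.2 (sc_mem3_full.1 hz)⟩
      · refine sc_deg_le _ {(3, u, j, t)} {(3, u, j, t + 1)} 1
          (fun e he h => ?_) (fun e he h => ?_) (by simp) <;>
        rcases sc_edge_cases hL he with ⟨y', hy', rfl⟩ | ⟨y', hy', rfl⟩ | ⟨y', hy', rfl⟩ |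
          ⟨y', hy', u', hu', rfl⟩ | ⟨u', hu', j', hj', rfl⟩ | ⟨u', hu', j', hj', t', ht', rfl⟩ |
          ⟨u', hu', j', hj', rfl⟩ <;>
        simp only [sc_small0, sc_small1, sc_small20, sc_small2, sc_small30, sc_small3, sc_small4,
          sc_big0, sc_big1, sc_big2, sc_big3, sc_big4, Prod.mk.injEq] at h ⊢
        any_goals omega
        · obtain ⟨-, rfl, rfl, rfl⟩ := h; exact mem_singleton_self _
        · obtain ⟨-, rfl, rfl, rfl⟩ := h; exact mem_singleton_self _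
        · obtain ⟨-, rfl, -, rfl⟩ := h; exact absurd rfl htd
        · obtain ⟨-, rfl, rfl, rfl⟩ := h
          refine ⟨mem_singleton_self _, (card_le_card (t := {(L.vs u')[t']}) fun z hz => ?_).trans
            (card_singleton _).le⟩
          simp only [mem_sdiff, List.mem_toFinset, sc_mem3] at hz
          obtain ⟨⟨h1, h2⟩, h3⟩ := hz
          rw [List.take_succ_eq_append_getElem ht', List.mem_append] at h2
          rcases h2 with h2 | h2 | h2
          · exact absurd ⟨h1, .inl h2⟩ h3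
          · exact absurd ⟨h1, .inr h2⟩ h3
          · simpa using h2
        · obtain ⟨-, rfl, -, rfl⟩ := h; exact absurd rfl htd

theorem eb_wf (hL : L.WF) : L.eb.sub.base.WF L.sys := by
  have hsrc : ∀ x ∈ L.eb.sub.base.Cl, L.eb.src x ∈ L.eb.cls := by
    rintro ⟨c, s, z⟩ hx
    by_cases hs : s = 0
    · subst hs
      exact (EB.sg_of_mem0 hx).2
    · rw [EB.sg_src hs]
      exact ((eb_ok hL).ends c (EB.sg_of_mem hx hs).2.1).2
  refine ⟨fun x hx u hu => ?_, fun x hx => ?_⟩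
  · rw [EB.sg_con] at hu
    rw [EB.sg_S]
    rcases sc_cls_cases hL (hsrc x hx) with ⟨y, -, h⟩ | ⟨y, -, h⟩ | ⟨y, -, u', -, h⟩ |
      ⟨u', hu', j, hj, t, -, h⟩ <;> rw [h] at hu ⊢
    · simp [sc_con0] at hu
    · simp [sc_con1] at hu
    · simp [sc_con2] at hu
    · rw [sc_con3] at hu
      by_cases ht : t = (L.vs u').length
      · subst ht
        obtain rfl : u' = u := by simpa using hu
        refine ⟨mem_range.2 hu', ?_⟩
        ext z
        simp only [sys, List.mem_toFinset, sc_mem3_full]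
      · simp [ht] at hu
  · rw [EB.sg_S]
    rcases sc_cls_cases hL (hsrc x hx) with ⟨y, -, h⟩ | ⟨y, -, h⟩ | ⟨y, -, u', -, h⟩ |
      ⟨u', hu', j, hj, t, -, h⟩ <;> rw [h]
    · exact .inl rfl
    · exact .inl rfl
    · rw [sc_S2]
      rcases L.sv_cases y with h | ⟨h, u, hu, hy⟩
      · exact .inl (by simp [h])
      · exact .inr ⟨u, mem_range.2 hu, by simpa [h, sys] using hy⟩
    · exact .inr ⟨u', mem_range.2 hu', fun z hz =>
        List.mem_toFinset.2 (sc_mem3.1 (List.mem_toFinset.1 hz)).1⟩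

/-- From `(3, u, 0, d)` up the chain edges `(4, u, ·, 0)` to `(3, u, j, d)` (`step_up`), down the tree to
`(3, u, j, 0)`, to `(2, y, u, 0)` and down the path to `(2, y, 0, 0)` (`step_down`). -/
theorem eb_paths (hL : L.WF) : L.eb.sub.base.Paths L.sys (fun x => x.2.2 = 0)
    (fun u => ((3, u, 0, (L.vs u).length), 0, 0)) fun y => ((2, y, 0, 0), 0, 0) := by
  have hO := eb_ok hL
  refine ⟨fun u hu => ?_, fun u hu => ?_, fun u hu y hy => ?_, fun u hu y hy => ?_⟩
  · have hu' : u < L.length := mem_range.1 hu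
    refine ⟨EB.sg_mem0 (sc_cls3 hL hu' (List.length_pos_iff.2 (hL u hu').2.1) le_rfl), rfl, ?_⟩
    rw [EB.sg_con, EB.sg_src0, sc_con3]
    simp
  · obtain ⟨y, hy⟩ := List.exists_mem_of_ne_nil _ (hL u (mem_range.1 hu)).2.1
    exact ⟨y, List.mem_toFinset.2 hy⟩
  · rw [EB.sg_S, EB.sg_src0, sc_S2, L.sv_of_mem (mem_range.1 hu) (List.mem_toFinset.1 hy)]
    simp
  · have hu' : u < L.length := mem_range.1 hu
    have hy' : y ∈ L.vs u := List.mem_toFinset.1 hy
    have hsv : y ∈ L.sv y := by rw [L.sv_of_mem hu' hy']; simp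
    obtain ⟨j, hj, hjy⟩ := List.getElem_of_mem hy'
    rw [← List.getD_eq_getElem _ 0 hj] at hjy
    have h1 : ∀ i < (L.vs u).length, Relation.ReflTransGen
        (L.eb.sub.base.Step (fun x => x.2.2 = 0) y) ((3, u, 0, (L.vs u).length), 0, 0)
        ((3, u, i, (L.vs u).length), 0, 0) := by
      intro i
      induction i with
      | zero => exact fun _ => .refl
      | succ i ih =>
        intro hi
        exact (ih (by omega)).trans (EB.step_up hO (sc_edge4 hL hu' hi) (sc_mem3_full.2 hy')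
          (by rw [sc_small4, sc_big4, sc_con3, sc_con3]))
    have h2 : ∀ t ≤ (L.vs u).length, Relation.ReflTransGen
        (L.eb.sub.base.Step (fun x => x.2.2 = 0) y) ((3, u, j, t), 0, 0) ((3, u, j, 0), 0, 0) := by
      intro t
      induction t with
      | zero => exact fun _ => .refl
      | succ t ih =>
        intro ht
        exact (EB.step_down hO (sc_edge_of_cls hL (by norm_num) (sc_cls3 hL hu' hj ht))
          (sc_mem3.2 ⟨hy', .inl hjy.symm⟩)).trans (ih (by omega))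
    have h3 : Relation.ReflTransGen
        (L.eb.sub.base.Step (fun x => x.2.2 = 0) y) ((3, u, j, 0), 0, 0) ((2, y, u, 0), 0, 0) := by
      have := EB.step_down hO (sc_edge_of_cls hL (by norm_num) (sc_cls3 hL hu' hj (Nat.zero_le _)))
        (y := y) (by rw [sc_small30, hjy]; exact hsv)
      rwa [sc_small30, hjy] at this
    have h4 : ∀ i ≤ L.length, Relation.ReflTransGen
        (L.eb.sub.base.Step (fun x => x.2.2 = 0) y) ((2, y, i, 0), 0, 0) ((2, y, 0, 0), 0, 0) := by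
      intro i
      induction i with
      | zero => exact fun _ => .refl
      | succ i ih =>
        intro hi
        exact (EB.step_down hO (sc_edge_of_cls hL (by norm_num) (sc_cls2 hL (L.lt_V hy') hi))
          hsv).trans (ih (by omega))
    exact (h1 j hj).trans ((h2 _ le_rfl).trans (h3.trans (h4 u hu'.le)))

section PTs

variable {α : Type} [Enc α] {L : α → CSys}

@[fun_prop] theorem sc_pt_eq {f g : α → N4} (hf : PT f) (hg : PT g) :
    PT fun a => decide (f a = g a) :=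
  (show PT fun a => decide ((f a).1 = (g a).1) && decide ((f a).2.1 = (g a).2.1) &&
      decide ((f a).2.2.1 = (g a).2.2.1) && decide ((f a).2.2.2 = (g a).2.2.2) by fun_prop).of_eq
    fun a => by
      rw [Bool.eq_iff_iff]
      simp only [Bool.and_eq_true, decide_eq_true_eq, Prod.ext_iff, and_assoc]

@[fun_prop] theorem sc_pt_quads {n : α → ℕ} (hn : PT n) : PT fun a => quads (n a) := by
  unfold quads; fun_prop

@[fun_prop] theorem sc_pt_vCls {x : α → N4} (hL : PT L) (hx : PT x) :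
    PT fun a => (L a).vCls (x a) := by
  unfold vCls; fun_prop

@[fun_prop] theorem sc_pt_vEdge {x : α → N4} (hL : PT L) (hx : PT x) :
    PT fun a => (L a).vEdge (x a) := by
  unfold vEdge; fun_prop

@[fun_prop] theorem sc_pt_cls (hL : PT L) : PT fun a => (L a).eb.cls := by
  simp only [eb]; fun_prop

@[fun_prop] theorem sc_pt_edges (hL : PT L) : PT fun a => (L a).eb.edges := by
  simp only [eb]; fun_prop

@[fun_prop] theorem sc_pt_S {x : α → N4} (hL : PT L) (hx : PT x) :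
    PT fun a => (L a).eb.S (x a) := by
  simp only [eb]; fun_prop

@[fun_prop] theorem sc_pt_con {x : α → N4} (hL : PT L) (hx : PT x) :
    PT fun a => (L a).eb.con (x a) := by
  simp only [eb]; fun_prop

@[fun_prop] theorem sc_pt_small {x : α → N4} (hL : PT L) (hx : PT x) :
    PT fun a => (L a).eb.small (x a) := by
  simp only [eb]; fun_prop

@[fun_prop] theorem sc_pt_big {x : α → N4} (hL : PT L) (hx : PT x) :
    PT fun a => (L a).eb.big (x a) := by
  simp only [eb]; fun_prop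

@[fun_prop] theorem sc_pt_num {x : α → N4} (hx : PT x) :
    PT fun a => (L a).eb.num (x a) := by
  simp only [eb]; fun_prop

@[fun_prop] theorem sc_pt_src {x : α → N4 × ℕ × ℕ} (hL : PT L) (hx : PT x) :
    PT fun a => (L a).eb.src (x a) := by
  unfold EB.src; fun_prop

@[fun_prop] theorem sc_pt_sadj {x y : α → N4 × ℕ × ℕ} (hL : PT L) (hx : PT x) (hy : PT y) :
    PT fun a => (L a).eb.sadj (x a) (y a) := by
  unfold EB.sadj; fun_prop

end PTs

/-- Equality of quadruples is `PT` through `Prod.ext_iff` (state it as a `fun_prop` lemma). -/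
theorem pt_eb_code {α : Type} [Enc α] {L : α → CSys} {b : α → Bool} (hL : PT L) (hb : PT b) :
    PT fun a => (L a).eb.sub.code ((L a).par (b a)) := by
  refine CBase.pt_code ?_ ?_ ?_ ?_ (by fun_prop)
  · simp only [EB.sub, EB.len]
    fun_prop
  · simp only [EB.sub]
    fun_prop
  · simp only [EB.sub]
    fun_prop
  · simp only [EB.sub]
    fun_prop

end CSys

open CSys in
theorem exists_sub : ∃ Rs : CSys × Bool → List Bool, PT Rs ∧
    ∀ L : CSys, L.WF → ∃ (n : ℕ) (G H : Fin n → Fin n → Bool), 0 < n ∧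
      SimpleConnSubcubic G ∧ SimpleConnSubcubic H ∧ Rs (L, false) = adjMatrixCode G ∧
      Rs (L, true) = adjMatrixCode H ∧ ∀ K, 3 ≤ K → (BP K G H ↔ L.sys.Cons K (L.β true)) := by
  refine ⟨fun p => p.1.eb.sub.code (p.1.par p.2), pt_eb_code (by fun_prop) (by fun_prop),
    fun L hL => ?_⟩
  have hO := EB.sub_ok (eb_ok hL)
  obtain ⟨G, hG, ⟨X⟩⟩ := CBase.exists_lift hO (L.par false) rfl
  obtain ⟨H, hH, ⟨X'⟩⟩ := CBase.exists_lift hO (L.par true) (CBase.length_verts hO _ (L.par false))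
  have e0 : ∀ β' : ℕ → ZMod 2, (fun u => if L.par false u then (1 : ZMod 2) else 0) + β' = β' := by
    intro β'; funext u; simp [par]
  refine ⟨_, G, H, (EB.sub_subcubic (eb_ok hL) X).1, (EB.sub_subcubic (eb_ok hL) X).2,
    (EB.sub_subcubic (eb_ok hL) X').2, hG.symm, hH.symm, fun K hK => ⟨fun ⟨F, hF⟩ => ?_,
    fun h => X.bp (eb_wf hL) X' (by rw [e0]; exact h)⟩⟩
  have := X.cons (eb_wf hL) (eb_paths hL) X' hK hF (EB.sub_sep (eb_ok hL) X X' (by omega) hF)
  rwa [e0] at this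

end Crest.Agent.R290
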