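import Crest.Agent.R290.Dense

/-!
# Row 290: double subdivision with tails, and the subcubic base (definitions)

An edge base has classes and named edges `e` from `small e` to `big e` with `S (small e) ⊆ S (big e)`. Its
subdivision has the classes `(c, 0, 0)` (originals), `(e, 1, 0)` (next to `small e`), `(e, 2, 0)` (next to `big e`)
and the tails `(e, s, z)`, `1 ≤ z ≤ len e s`; all classes of the edge `e` copy the variables and the constraint
of `big e`. The tail lengths are distinct and at least two, so colour refinement recognises the classes.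
-/

set_option autoImplicit false

namespace Crest.Agent.R290

open Finset Crest.Agent.Lib.PolyTime

/-- A coded edge base. -/
structure EB (N : Type) where
  /-- classes -/
  cls : List N
  /-- edge names -/
  edges : List N
  /-- variables of a class -/
  S : N → List ℕ
  /-- constraint of a class -/
  con : N → ℕ
  /-- the end of an edge with fewer variables -/
  small : N → N
  /-- the end of an edge with more variables -/
  big : N → N
  /-- an injective number for edge names -/
  num : N → ℕ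

namespace EB

variable {N : Type} [DecidableEq N] (E : EB N)

/-- Tail lengths. -/
def len (e : N) (s : ℕ) : ℕ := 2 * E.num e + s + 1

/-- The original class whose variables a class of the subdivision copies. -/
def src (x : N × ℕ × ℕ) : N := if x.2.1 = 0 then x.1 else E.big x.1

/-- Oriented adjacency of the subdivision. -/
def sadj (x y : N × ℕ × ℕ) : Bool :=
  (decide (x.2.1 = 0) && decide (y.2.1 = 1) && decide (y.2.2 = 0) && decide (x.1 = E.small y.1)) ||
  (decide (x.2.1 = 0) && decide (y.2.1 = 2) && decide (y.2.2 = 0) && decide (x.1 = E.big y.1)) ||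
  (decide (x.2.1 = 1) && decide (y.2.1 = 2) && decide (x.2.2 = 0) && decide (y.2.2 = 0) &&
    decide (x.1 = y.1)) ||
  (decide (x.2.1 ≠ 0) && decide (x.2.1 = y.2.1) && decide (x.2.2 + 1 = y.2.2) && decide (x.1 = y.1))

/-- The subdivision. -/
def sub : CBase (N × ℕ × ℕ) where
  names := E.cls.map (fun c => (c, 0, 0)) ++
    E.edges.flatMap fun e => [1, 2].flatMap fun s => (List.range (E.len e s + 1)).map fun z => (e, s, z)
  S x := E.S (E.src x)
  con x := E.con (E.src x)
  adj x y := E.sadj x y || E.sadj y x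

/-- Well-formed edge bases. `rk` decreases along a spanning tree towards the class `c₀`. -/
structure OK (c₀ : N) (rk : N → ℕ) : Prop where
  cls_nodup : E.cls.Nodup
  edges_nodup : E.edges.Nodup
  S_ok : ∀ c ∈ E.cls, (E.S c).Nodup ∧ (E.S c).length ≤ 9 ∧ (E.con c ≠ 0 → E.S c ≠ [])
  ends : ∀ e ∈ E.edges, E.small e ∈ E.cls ∧ E.big e ∈ E.cls
  sub : ∀ e ∈ E.edges, E.S (E.small e) ⊆ E.S (E.big e)
  con : ∀ e ∈ E.edges, E.con (E.small e) = 0 ∨
    (E.con (E.small e) = E.con (E.big e) ∧ E.S (E.big e) ⊆ E.S (E.small e))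
  num : ∀ e ∈ E.edges, ∀ e' ∈ E.edges, E.num e = E.num e' → e = e'
  root : c₀ ∈ E.cls ∧ E.S c₀ = [] ∧ ∃ e ∈ E.edges, E.small e = c₀ ∧ E.con (E.big e) = 0
  tree : ∀ c ∈ E.cls, c ≠ c₀ → ∃ e ∈ E.edges, E.big e = c ∧ rk (E.small e) < rk c
  deg : ∀ c ∈ E.cls, (E.edges.toFinset.filter fun e => E.big e = c).card +
    ∑ e ∈ E.edges.toFinset with E.small e = c,
      2 ^ ((E.S (E.big e)).toFinset \ (E.S c).toFinset).card ≤ 3

theorem mem_sub {x : N × ℕ × ℕ} : x ∈ E.sub.base.Cl ↔
    (x.2.1 = 0 ∧ x.2.2 = 0 ∧ x.1 ∈ E.cls) ∨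
      ((x.2.1 = 1 ∨ x.2.1 = 2) ∧ x.1 ∈ E.edges ∧ x.2.2 ≤ E.len x.1 x.2.1) := by
  obtain ⟨c, s, z⟩ := x
  simp only [CBase.base, sub, List.mem_toFinset, List.mem_append, List.mem_map, List.mem_flatMap,
    List.mem_range, Prod.mk.injEq, List.mem_cons, List.not_mem_nil, or_false]
  constructor
  · rintro (⟨a, ha, rfl, rfl, rfl⟩ | ⟨e, he, s', hs, z', hz, rfl, rfl, rfl⟩)
    · exact .inl ⟨rfl, rfl, ha⟩
    · exact .inr ⟨hs, he, by omega⟩
  · rintro (⟨rfl, rfl, h⟩ | ⟨hs, he, hz⟩)
    · exact .inl ⟨c, h, rfl, rfl, rfl⟩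
    · exact .inr ⟨c, he, s, hs, z, by omega, rfl, rfl, rfl⟩

end EB

/-- Names of classes and edges of the subcubic base. -/
abbrev N4 : Type := ℕ × ℕ × ℕ × ℕ

/-- All quadruples below `B`. -/
def quads (B : ℕ) : List N4 :=
  (List.range B).flatMap fun t => (List.range B).flatMap fun a => (List.range B).flatMap fun b =>
    (List.range B).map fun c => (t, a, b, c)

namespace CSys

variable (L : CSys)

/-- Classes: `(0, y, 0, 0)` and `(1, y, 0, 0)` (spine), `(2, y, u, 0)` (the path of the variable `y`),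
`(3, u, j, t)` (the tree of the tile `u` over its `j`-th variable, level `t`). -/
def vCls (x : N4) : Bool :=
  (decide (x.1 < 2) && decide (x.2.1 < L.V) && decide (x.2.2.1 = 0) && decide (x.2.2.2 = 0)) ||
  (decide (x.1 = 2) && decide (x.2.1 < L.V) && decide (x.2.2.1 ≤ L.length) && decide (x.2.2.2 = 0)) ||
  (decide (x.1 = 3) && decide (x.2.1 < L.length) && decide (x.2.2.1 < (L.vs x.2.1).length) &&
    decide (x.2.2.2 ≤ (L.vs x.2.1).length))

/-- Edges: `(0, y, 0, 0)` along the spine, `(t, a, b, c)` for `t = 1, 2, 3` from the class of that name to its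
parent, `(4, u, j, 0)` between the full classes of the trees `j`, `j + 1` of the tile `u`. -/
def vEdge (x : N4) : Bool :=
  (decide (x.1 = 0) && decide (x.2.1 + 1 < L.V) && decide (x.2.2.1 = 0) && decide (x.2.2.2 = 0)) ||
  (decide (1 ≤ x.1) && L.vCls x) ||
  (decide (x.1 = 4) && decide (x.2.1 < L.length) && decide (x.2.2.1 + 1 < (L.vs x.2.1).length) &&
    decide (x.2.2.2 = 0))

/-- The subcubic edge base. -/
def eb : EB N4 where
  cls := (quads (L.V + L.length + 11)).filter L.vCls
  edges := (quads (L.V + L.length + 11)).filter L.vEdge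
  S x := if x.1 < 2 then [] else if x.1 = 2 then L.sv x.2.1 else
    (L.vs x.2.1).filter fun y => decide (y = (L.vs x.2.1).getD x.2.2.1 0) ||
      ((L.vs x.2.1).take x.2.2.2).any fun y' => decide (y' = y)
  con x := if x.1 = 3 ∧ x.2.2.2 = (L.vs x.2.1).length then x.2.1 + 1 else 0
  small x :=
    if x.1 < 2 then (0, x.2.1, 0, 0)
    else if x.1 = 2 then (if x.2.2.1 = 0 then (1, x.2.1, 0, 0) else (2, x.2.1, x.2.2.1 - 1, 0))
    else if x.1 = 3 then (if x.2.2.2 = 0 then (2, (L.vs x.2.1).getD x.2.2.1 0, x.2.1, 0)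
      else (3, x.2.1, x.2.2.1, x.2.2.2 - 1))
    else (3, x.2.1, x.2.2.1, (L.vs x.2.1).length)
  big x :=
    if x.1 = 0 then (0, x.2.1 + 1, 0, 0)
    else if x.1 = 4 then (3, x.2.1, x.2.2.1 + 1, (L.vs x.2.1).length) else x
  num x := Nat.pair (Nat.pair x.1 x.2.1) (Nat.pair x.2.2.1 x.2.2.2)

/-- Distance-like rank towards the first spine class. -/
def ebRank (x : N4) : ℕ :=
  if x.1 = 0 then x.2.1 else if x.1 = 1 then L.V else if x.1 = 2 then L.V + 1 + x.2.2.1
  else L.V + L.length + 2 + x.2.2.2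

end CSys

end Crest.Agent.R290
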