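import Crest.Agent.R290.SubDefs

/-!
# Row 290: lifts of a subdivided edge base are connected, subcubic, and reveal their classes

Neighbours in a lift `X` (use `X.adj`, `X.surj`, `X.inj`): if two adjacent classes have the same `src`, every vertex
of one has exactly one neighbour in the other (same variables, same constraint). A vertex of `(e, 1, 0)` has exactly
one neighbour in `(small e, 0, 0)` (`OK.sub`, `OK.con`), and a vertex of `(c, 0, 0)`, `c = small e`, has at most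
`2 ^ (S (big e) \ S c).card` neighbours in `(e, 1, 0)` (`Lift.card_le`), at least one if `con (big e) = 0`.
So the vertices of `(e, s, 0)` have degree exactly `3`, those of `(e, s, z)` degree `2` for `1 ≤ z < len` and `1` for
`z = len`.
-/

set_option autoImplicit false
set_option linter.unusedSectionVars false

namespace Crest.Agent.R290

open Finset Crest.WLRefine

namespace EB

variable {N : Type} [DecidableEq N] {E : EB N} {c₀ : N} {rk : N → ℕ} {β β' : ℕ → ZMod 2}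

theorem sg_adj {x y : N × ℕ × ℕ} : E.sub.base.adj x y = true ↔
    ((x.2.1 = 0 ∧ y.2.1 = 1 ∧ y.2.2 = 0 ∧ x.1 = E.small y.1) ∨
      (x.2.1 = 0 ∧ y.2.1 = 2 ∧ y.2.2 = 0 ∧ x.1 = E.big y.1) ∨
      (x.2.1 = 1 ∧ y.2.1 = 2 ∧ x.2.2 = 0 ∧ y.2.2 = 0 ∧ x.1 = y.1) ∨
      (x.2.1 ≠ 0 ∧ x.2.1 = y.2.1 ∧ x.2.2 + 1 = y.2.2 ∧ x.1 = y.1)) ∨
    ((y.2.1 = 0 ∧ x.2.1 = 1 ∧ x.2.2 = 0 ∧ y.1 = E.small x.1) ∨
      (y.2.1 = 0 ∧ x.2.1 = 2 ∧ x.2.2 = 0 ∧ y.1 = E.big x.1) ∨
      (y.2.1 = 1 ∧ x.2.1 = 2 ∧ y.2.2 = 0 ∧ x.2.2 = 0 ∧ y.1 = x.1) ∨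
      (y.2.1 ≠ 0 ∧ y.2.1 = x.2.1 ∧ y.2.2 + 1 = x.2.2 ∧ y.1 = x.1)) := by
  simp only [CBase.base, sub, sadj, Bool.or_eq_true, Bool.and_eq_true, decide_eq_true_eq, and_assoc,
    or_assoc]

theorem sg_symm (x y : N × ℕ × ℕ) : E.sub.base.adj x y = E.sub.base.adj y x := by
  simp only [CBase.base, sub, Bool.or_comm]

theorem sg_irrefl (x : N × ℕ × ℕ) : E.sub.base.adj x x = false := by
  rw [Bool.eq_false_iff, Ne, sg_adj]
  omega

theorem sg_S (x : N × ℕ × ℕ) : E.sub.base.S x = (E.S (E.src x)).toFinset := rfl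

theorem sg_con (x : N × ℕ × ℕ) : E.sub.base.con x =
    if E.con (E.src x) = 0 then none else some (E.con (E.src x) - 1) := rfl

theorem sg_src0 (c : N) (z : ℕ) : E.src (c, 0, z) = c := rfl

theorem sg_src {e : N} {s : ℕ} (hs : s ≠ 0) (z : ℕ) : E.src (e, s, z) = E.big e := if_neg hs

theorem sg_mem0 {c : N} (hc : c ∈ E.cls) : (c, 0, 0) ∈ E.sub.base.Cl :=
  E.mem_sub.2 (.inl ⟨rfl, rfl, hc⟩)

theorem sg_mem {e : N} (he : e ∈ E.edges) {s z : ℕ} (hs : s = 1 ∨ s = 2) (hz : z ≤ E.len e s) :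
    (e, s, z) ∈ E.sub.base.Cl :=
  E.mem_sub.2 (.inr ⟨hs, he, hz⟩)

theorem sg_of_mem {e : N} {s z : ℕ} (h : (e, s, z) ∈ E.sub.base.Cl) (hs : s ≠ 0) :
    (s = 1 ∨ s = 2) ∧ e ∈ E.edges ∧ z ≤ E.len e s := by
  rcases E.mem_sub.1 h with h | h
  · exact absurd h.1 hs
  · exact h

theorem sg_of_mem0 {c : N} {z : ℕ} (h : (c, 0, z) ∈ E.sub.base.Cl) : z = 0 ∧ c ∈ E.cls := by
  rcases E.mem_sub.1 h with h | h
  · exact h.2
  · simp at h

theorem sg_len (e : N) {s : ℕ} (hs : s ≠ 0) : 2 ≤ E.len e s := by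
  unfold len; omega

theorem sg_nb0 {c : N} {y : N × ℕ × ℕ} (hy : y ∈ E.sub.base.Cl)
    (h : E.sub.base.adj (c, 0, 0) y = true) :
    ∃ e ∈ E.edges, (y = (e, 2, 0) ∧ E.big e = c) ∨ (y = (e, 1, 0) ∧ E.small e = c) := by
  obtain ⟨e, s, z⟩ := y
  rw [sg_adj] at h
  simp only at h
  have hs : s ≠ 0 := by omega
  refine ⟨e, (sg_of_mem hy hs).2.1, ?_⟩
  rcases h with (⟨-, rfl, rfl, h⟩ | ⟨-, rfl, rfl, h⟩ | h | h) | h
  · exact .inr ⟨rfl, h.symm⟩
  · exact .inl ⟨rfl, h.symm⟩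
  all_goals omega

theorem sg_nb1 {e : N} {y : N × ℕ × ℕ} (hy : y ∈ E.sub.base.Cl)
    (h : E.sub.base.adj (e, 1, 0) y = true) :
    y = (E.small e, 0, 0) ∨ y = (e, 2, 0) ∨ y = (e, 1, 1) := by
  obtain ⟨e', s, z⟩ := y
  rw [sg_adj] at h
  simp only at h
  rcases h with (h | h | ⟨-, rfl, -, rfl, rfl⟩ | ⟨-, rfl, rfl, rfl⟩) | (⟨rfl, -, -, rfl⟩ | h | h | h)
  any_goals omega
  · simp
  · simp
  · simp [(sg_of_mem0 hy).1]

theorem sg_nb2 {e : N} {y : N × ℕ × ℕ} (hy : y ∈ E.sub.base.Cl)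
    (h : E.sub.base.adj (e, 2, 0) y = true) :
    y = (E.big e, 0, 0) ∨ y = (e, 1, 0) ∨ y = (e, 2, 1) := by
  obtain ⟨e', s, z⟩ := y
  rw [sg_adj] at h
  simp only at h
  rcases h with (h | h | h | ⟨-, rfl, rfl, rfl⟩) |
    (h | ⟨rfl, -, -, rfl⟩ | ⟨rfl, -, rfl, -, rfl⟩ | h)
  any_goals omega
  · simp
  · simp [(sg_of_mem0 hy).1]
  · simp

theorem sg_nbT {e : N} {s z : ℕ} (hs : s ≠ 0) {y : N × ℕ × ℕ}
    (h : E.sub.base.adj (e, s, z + 1) y = true) : y = (e, s, z) ∨ y = (e, s, z + 2) := by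
  obtain ⟨e', s', z'⟩ := y
  rw [sg_adj] at h
  simp only at h
  rcases h with (h | h | h | ⟨-, rfl, rfl, rfl⟩) | (h | h | h | ⟨-, rfl, h, rfl⟩)
  any_goals omega
  · simp
  · left
    obtain rfl : z' = z := by omega
    rfl

theorem sg_adjT (e : N) {s : ℕ} (hs : s ≠ 0) (z : ℕ) :
    E.sub.base.adj (e, s, z) (e, s, z + 1) = true := by
  rw [sg_adj]; simp [hs]

theorem sg_adj12 (e : N) : E.sub.base.adj (e, 1, 0) (e, 2, 0) = true := by
  rw [sg_adj]; simp

theorem sg_adjs (e : N) : E.sub.base.adj (E.small e, 0, 0) (e, 1, 0) = true := by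
  rw [sg_adj]; simp

theorem sg_adjb (e : N) : E.sub.base.adj (E.big e, 0, 0) (e, 2, 0) = true := by
  rw [sg_adj]; simp

section Vert

variable {V : Type} [Fintype V] [DecidableEq V] {G : V → V → Bool}

theorem sg_exists_nb (X : Lift E.sub.base β G) (v : V) {y : N × ℕ × ℕ} (hy : y ∈ E.sub.base.Cl)
    (ha : E.sub.base.adj (X.cls v) y = true)
    (hc : E.sub.base.con y = none ∨
      (E.sub.base.con y = E.sub.base.con (X.cls v) ∧ E.sub.base.S y = E.sub.base.S (X.cls v))) :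
    ∃ w, G v w = true ∧ X.cls w = y := by
  obtain ⟨w, rfl, hw⟩ := X.surj y hy (X.val v) fun u hu => by
    rcases hc with hc | hc
    · rw [hc] at hu; cases hu
    · rw [hc.2]; exact X.par v u (hc.1 ▸ hu)
  exact ⟨w, (X.adj _ _).2 ⟨ha, fun z hz => (hw z (mem_inter.1 hz).2).symm⟩, rfl⟩

theorem sg_card_le (X : Lift E.sub.base β G) (v : V) (y : N × ℕ × ℕ) :
    ((univ.filter fun w => G v w = true).filter fun w => X.cls w = y).card ≤
      2 ^ (E.sub.base.S y \ E.sub.base.S (X.cls v)).card := by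
  refine le_trans (card_le_card fun w hw => ?_) (X.card_le y (E.sub.base.S (X.cls v)) (X.val v))
  simp only [mem_filter, mem_univ, true_and] at hw ⊢
  obtain ⟨h1, rfl⟩ := hw
  exact ⟨rfl, fun z hz => (((X.adj _ _).1 h1).2 z hz).symm⟩

theorem sg_card_one (X : Lift E.sub.base β G) (v : V) {y : N × ℕ × ℕ}
    (hS : E.sub.base.S y ⊆ E.sub.base.S (X.cls v)) (h : ∃ w, G v w = true ∧ X.cls w = y) :
    ((univ.filter fun w => G v w = true).filter fun w => X.cls w = y).card = 1 := by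
  have h1 := sg_card_le X v y
  rw [sdiff_eq_empty_iff_subset.2 hS] at h1
  obtain ⟨w, h2, h3⟩ := h
  have : 0 < ((univ.filter fun w => G v w = true).filter fun w => X.cls w = y).card :=
    card_pos.2 ⟨w, by simp [h2, h3]⟩
  simp only [card_empty, pow_zero] at h1
  omega

theorem sg_nb_src (X : Lift E.sub.base β G) (v : V) {y : N × ℕ × ℕ} (hy : y ∈ E.sub.base.Cl)
    (ha : E.sub.base.adj (X.cls v) y = true) (hs : E.src y = E.src (X.cls v)) :
    ∃ w, G v w = true ∧ X.cls w = y :=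
  sg_exists_nb X v hy ha (.inr ⟨by rw [sg_con, sg_con, hs], by rw [sg_S, sg_S, hs]⟩)

theorem sg_one_src (X : Lift E.sub.base β G) (v : V) {y : N × ℕ × ℕ} (hy : y ∈ E.sub.base.Cl)
    (ha : E.sub.base.adj (X.cls v) y = true) (hs : E.src y = E.src (X.cls v)) :
    ((univ.filter fun w => G v w = true).filter fun w => X.cls w = y).card = 1 :=
  sg_card_one X v (by rw [sg_S, sg_S, hs]) (sg_nb_src X v hy ha hs)

theorem sg_nb_small (h : E.OK c₀ rk) (X : Lift E.sub.base β G) {v : V} {e : N}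
    (hv : X.cls v = (e, 1, 0)) : ∃ w, G v w = true ∧ X.cls w = (E.small e, 0, 0) := by
  have he := (sg_of_mem (hv ▸ X.mem v) one_ne_zero).2.1
  refine sg_exists_nb X v (sg_mem0 (h.ends e he).1) (by rw [hv, sg_symm]; exact sg_adjs e) ?_
  rw [hv, sg_con, sg_con, sg_S, sg_S, sg_src0, sg_src one_ne_zero]
  rcases h.con e he with h1 | ⟨h1, h2⟩
  · exact .inl (if_pos h1)
  · refine .inr ⟨by rw [h1], Subset.antisymm (fun z hz => ?_) fun z hz => ?_⟩
    · exact List.mem_toFinset.2 (h.sub e he (List.mem_toFinset.1 hz))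
    · exact List.mem_toFinset.2 (h2 (List.mem_toFinset.1 hz))

theorem sg_deg_sum (X : Lift E.sub.base β G) (v : V) (T : Finset (N × ℕ × ℕ))
    (hT : ∀ y ∈ E.sub.base.Cl, E.sub.base.adj (X.cls v) y = true → y ∈ T) :
    deg G v = ∑ y ∈ T, ((univ.filter fun w => G v w = true).filter fun w => X.cls w = y).card :=
  card_eq_sum_card_fiberwise fun w hw =>
    hT _ (X.mem w) ((X.adj _ _).1 (by simpa using hw)).1

theorem sg_deg_mid (h : E.OK c₀ rk) (X : Lift E.sub.base β G) {v : V} {e : N} {s : ℕ} (hs : s ≠ 0)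
    (hv : X.cls v = (e, s, 0)) : deg G v = 3 := by
  obtain ⟨hs', he, -⟩ := sg_of_mem (hv ▸ X.mem v) hs
  have hT := sg_one_src X v (sg_mem he hs' (z := 1) (by have := sg_len (E := E) e hs; omega))
    (by rw [hv]; exact sg_adjT e hs 0) (by rw [hv, sg_src hs, sg_src hs])
  rcases hs' with rfl | rfl
  · rw [sg_deg_sum X v {(E.small e, 0, 0), (e, 2, 0), (e, 1, 1)} fun y hy ha => by
      simpa using sg_nb1 hy (hv ▸ ha)]
    rw [sum_insert (by simp), sum_insert (by simp), sum_singleton, hT,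
      sg_one_src X v (sg_mem he (.inr rfl) (Nat.zero_le _)) (by rw [hv]; exact sg_adj12 e)
        (by rw [hv, sg_src hs, sg_src two_ne_zero]),
      sg_card_one X v (by
        rw [hv, sg_S, sg_S, sg_src0, sg_src hs]
        exact fun z hz => List.mem_toFinset.2 (h.sub e he (List.mem_toFinset.1 hz)))
        (sg_nb_small h X hv)]
    rfl
  · rw [sg_deg_sum X v {(E.big e, 0, 0), (e, 1, 0), (e, 2, 1)} fun y hy ha => by
      simpa using sg_nb2 hy (hv ▸ ha)]
    rw [sum_insert (by simp), sum_insert (by simp), sum_singleton, hT,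
      sg_one_src X v (sg_mem he (.inl rfl) (Nat.zero_le _))
        (by rw [hv, sg_symm]; exact sg_adj12 e) (by rw [hv, sg_src hs, sg_src one_ne_zero]),
      sg_one_src X v (sg_mem0 (h.ends e he).2) (by rw [hv, sg_symm]; exact sg_adjb e)
        (by rw [hv, sg_src hs, sg_src0])]
    rfl

theorem sg_deg_tail (X : Lift E.sub.base β G) {v : V} {e : N} {s z : ℕ} (hs : s ≠ 0)
    (hv : X.cls v = (e, s, z + 1)) : deg G v = if z + 1 < E.len e s then 2 else 1 := by
  obtain ⟨hs', he, hz⟩ := sg_of_mem (hv ▸ X.mem v) hs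
  have h1 := sg_one_src X v (sg_mem he hs' (z := z) (by omega))
    (by rw [hv, sg_symm]; exact sg_adjT e hs z) (by rw [hv, sg_src hs, sg_src hs])
  split_ifs with hl
  · rw [sg_deg_sum X v {(e, s, z), (e, s, z + 2)} fun y _ ha => by
      simpa using sg_nbT hs (hv ▸ ha)]
    rw [sum_insert (by simp), sum_singleton, h1,
      sg_one_src X v (sg_mem he hs' (z := z + 2) (by omega))
        (by rw [hv]; exact sg_adjT e hs (z + 1)) (by rw [hv, sg_src hs, sg_src hs])]
  · rw [sg_deg_sum X v {(e, s, z)} fun y hy ha => by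
      rcases sg_nbT hs (hv ▸ ha) with rfl | rfl
      · simp
      · have := (sg_of_mem hy hs).2.2
        omega]
    rw [sum_singleton, h1]

theorem sg_deg_orig (h : E.OK c₀ rk) (X : Lift E.sub.base β G) {v : V} {c : N}
    (hv : X.cls v = (c, 0, 0)) : deg G v ≤ 3 := by
  have hc := (sg_of_mem0 (hv ▸ X.mem v)).2
  refine le_trans ?_ (h.deg c hc)
  rw [sg_deg_sum X v (((E.edges.toFinset.filter fun e => E.big e = c).image fun e => (e, 2, 0)) ∪
      ((E.edges.toFinset.filter fun e => E.small e = c).image fun e => (e, 1, 0))) fun y hy ha => by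
    obtain ⟨e, he, ⟨rfl, h1⟩ | ⟨rfl, h1⟩⟩ := sg_nb0 hy (hv ▸ ha)
    · exact mem_union_left _ (mem_image_of_mem _ (by simp [he, h1]))
    · exact mem_union_right _ (mem_image_of_mem _ (by simp [he, h1]))]
  rw [sum_union (by
    rw [disjoint_left]
    intro y h1 h2
    obtain ⟨e, -, rfl⟩ := mem_image.1 h1
    obtain ⟨e', -, h3⟩ := mem_image.1 h2
    simp at h3), sum_image (fun _ _ _ _ h => (Prod.ext_iff.1 h).1),
    sum_image (fun _ _ _ _ h => (Prod.ext_iff.1 h).1)]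
  refine add_le_add ?_ (sum_le_sum fun e _ => ?_)
  · rw [card_eq_sum_ones]
    refine sum_le_sum fun e he => ?_
    have := sg_card_le X v (e, 2, 0)
    rw [hv, sg_S, sg_S, sg_src0, sg_src two_ne_zero, (mem_filter.1 he).2, sdiff_self] at this
    simpa using this
  · have := sg_card_le X v (e, 1, 0)
    rwa [hv, sg_S, sg_S, sg_src0, sg_src one_ne_zero] at this

/-- Ends of (not necessarily straight) walks through vertices of degree two. -/
def sgTail (G : V → V → Bool) : ℕ → V → Prop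
  | 0, v => deg G v = 1
  | z + 1, v => deg G v = 2 ∧ ∃ w, G v w = true ∧ sgTail G z w

/-- Depth in a tail. -/
def sgDep (G : V → V → Bool) (z : ℕ) (v : V) : Prop := sgTail G z v ∧ ∀ z' < z, ¬ sgTail G z' v

/-- Attachment points of tails. -/
def sgMid (G : V → V → Bool) (z : ℕ) (v : V) : Prop := deg G v = 3 ∧ ∃ w, G v w = true ∧ sgDep G z w

theorem sg_tail_of (X : Lift E.sub.base β G) {e : N} {s : ℕ} (hs : s ≠ 0) (d : ℕ) :
    ∀ (j : ℕ) (v : V), X.cls v = (e, s, j + 1) → E.len e s = j + 1 + d → sgTail G d v := by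
  induction d with
  | zero =>
    intro j v hv hl
    have := sg_deg_tail X hs hv
    rwa [if_neg (by omega)] at this
  | succ d ih =>
    intro j v hv hl
    have := sg_deg_tail X hs hv
    rw [if_pos (by omega)] at this
    obtain ⟨hs', he, -⟩ := sg_of_mem (hv ▸ X.mem v) hs
    obtain ⟨w, h1, h2⟩ := sg_nb_src X v (sg_mem he hs' (z := j + 2) (by omega))
      (by rw [hv]; exact sg_adjT e hs (j + 1)) (by rw [hv, sg_src hs, sg_src hs])
    exact ⟨this, w, h1, ih (j + 1) w h2 (by omega)⟩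

theorem sg_of_tail (h : E.OK c₀ rk) (X : Lift E.sub.base β G) (z : ℕ) :
    ∀ (v : V) (e : N) (s j : ℕ), X.cls v = (e, s, j) → sgTail G z v →
      (s = 0 ∧ z = 0) ∨ (s ≠ 0 ∧ 1 ≤ j ∧ E.len e s ≤ j + z) := by
  induction z with
  | zero =>
    intro v e s j hv ht
    by_cases hs : s = 0
    · exact .inl ⟨hs, rfl⟩
    right
    simp only [sgTail] at ht
    cases j with
    | zero => rw [sg_deg_mid h X hs hv] at ht; omega
    | succ j =>
      rw [sg_deg_tail X hs hv] at ht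
      split_ifs at ht
      · omega
      · exact ⟨hs, by omega, by omega⟩
  | succ z ih =>
    intro v e s j hv ⟨hd, w, hw, ht⟩
    have ha := ((X.adj _ _).1 hw).1
    rw [hv] at ha
    by_cases hs : s = 0
    · subst hs
      obtain rfl := (sg_of_mem0 (hv ▸ X.mem v)).1
      obtain ⟨e', -, ⟨h1, -⟩ | ⟨h1, -⟩⟩ := sg_nb0 (X.mem w) ha <;>
        have := ih w _ _ _ h1 ht <;> omega
    right
    cases j with
    | zero => rw [sg_deg_mid h X hs hv] at hd; omega
    | succ j =>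
      rcases sg_nbT hs ha with h1 | h1 <;> have := ih w _ _ _ h1 ht <;> omega

theorem sg_dep_iff (h : E.OK c₀ rk) (X : Lift E.sub.base β G) {z : ℕ} (hz : 1 ≤ z) {v : V} {e : N}
    {s j : ℕ} (hv : X.cls v = (e, s, j)) :
    sgDep G z v ↔ s ≠ 0 ∧ 1 ≤ j ∧ E.len e s = j + z := by
  constructor
  · rintro ⟨h1, h2⟩
    rcases sg_of_tail h X z v e s j hv h1 with h3 | ⟨hs, hj, hl⟩
    · omega
    refine ⟨hs, hj, ?_⟩
    obtain ⟨j, rfl⟩ : ∃ j', j = j' + 1 := ⟨j - 1, by omega⟩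
    have h4 := (sg_of_mem (hv ▸ X.mem v) hs).2.2
    by_contra hne
    exact h2 (E.len e s - (j + 1)) (by omega) (sg_tail_of X hs _ j v hv (by omega))
  · rintro ⟨hs, hj, hl⟩
    obtain ⟨j, rfl⟩ : ∃ j', j = j' + 1 := ⟨j - 1, by omega⟩
    refine ⟨sg_tail_of X hs _ j v hv hl, fun z' hz' ht => ?_⟩
    have := sg_of_tail h X z' v _ _ _ hv ht
    omega

theorem sg_mid_iff (h : E.OK c₀ rk) (X : Lift E.sub.base β G) {z : ℕ} (hz : 1 ≤ z) {v : V} {e : N}
    {s j : ℕ} (hv : X.cls v = (e, s, j)) :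
    sgMid G z v ↔ s ≠ 0 ∧ j = 0 ∧ E.len e s = z + 1 := by
  constructor
  · rintro ⟨hd, w, hw, ht⟩
    rcases hw' : X.cls w with ⟨e', s', j'⟩
    obtain ⟨hs, hj, hl⟩ := (sg_dep_iff h X hz hw').1 ht
    obtain ⟨j', rfl⟩ : ∃ j'', j' = j'' + 1 := ⟨j' - 1, by omega⟩
    have ha := ((X.adj _ _).1 hw).1
    rw [hw', sg_symm, hv] at ha
    have key : ∀ i, X.cls v = (e', s', i + 1) → False := by
      intro i hi
      rw [sg_deg_tail X hs hi] at hd
      split_ifs at hd <;> omega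
    rcases sg_nbT hs ha with h1 | h1
    · cases j' with
      | zero =>
        obtain ⟨rfl, rfl, rfl⟩ : e = e' ∧ s = s' ∧ j = 0 := by simpa using h1
        exact ⟨hs, rfl, by omega⟩
      | succ i => exact (key i (hv.trans h1)).elim
    · exact (key _ (hv.trans h1)).elim
  · rintro ⟨hs, rfl, hl⟩
    obtain ⟨hs', he, -⟩ := sg_of_mem (hv ▸ X.mem v) hs
    obtain ⟨w, h1, h2⟩ := sg_nb_src X v (sg_mem he hs' (z := 1) (by omega))
      (by rw [hv]; exact sg_adjT e hs 0) (by rw [hv, sg_src hs, sg_src hs])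
    exact ⟨sg_deg_mid h X hs hv, w, h1, (sg_dep_iff h X hz h2).2 ⟨hs, le_rfl, by omega⟩⟩

end Vert

section Game

variable {V W : Type} [Fintype V] [DecidableEq V] [Fintype W] [DecidableEq W]
  {G : V → V → Bool} {H : W → W → Bool} {K : ℕ} {F : Finset (V × W) → Prop}

omit [Fintype V] [Fintype W] in
theorem sg_ext (hK : 2 ≤ K) (hF : IsBP K G H F) {p : Finset (V × W)} (hp : F p) {a : V × W}
    (ha : a ∈ p) : ∃ f : V ≃ W, ∀ m, F {(m, f m), a} ∧ G a.1 m = H a.2 (f m) := by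
  obtain ⟨f, hf⟩ := hF.ext (hF.sub hp (singleton_subset_iff.2 ha)) (by simp; omega)
  exact ⟨f, fun m => ⟨hf m, hF.adj (a := a) (b := (m, f m)) (hf m) (by simp) (by simp)⟩⟩

omit [Fintype V] [Fintype W] in
theorem sg_transfer (hK : 2 ≤ K) (hF : IsBP K G H F) {P : V → Prop} {Q : W → Prop}
    (hPQ : ∀ p, F p → ∀ a ∈ p, P a.1 ↔ Q a.2) {p : Finset (V × W)} (hp : F p) {a : V × W}
    (ha : a ∈ p) : (∃ m, G a.1 m = true ∧ P m) ↔ ∃ m, H a.2 m = true ∧ Q m := by
  obtain ⟨f, hf⟩ := sg_ext hK hF hp ha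
  rw [← f.exists_congr_right]
  refine exists_congr fun m => and_congr (by rw [(hf m).2]) ?_
  exact hPQ _ (hf m).1 (m, f m) (by simp)

theorem sg_tail_iff (hK : 2 ≤ K) (hF : IsBP K G H F) (z : ℕ) :
    ∀ p, F p → ∀ a ∈ p, sgTail G z a.1 ↔ sgTail H z a.2 := by
  induction z with
  | zero => intro p hp a ha; simp only [sgTail, hF.deg_eq hK hp ha]
  | succ z ih =>
    intro p hp a ha
    simp only [sgTail, hF.deg_eq hK hp ha, sg_transfer hK hF ih hp ha]

theorem sg_dep_iff' (hK : 2 ≤ K) (hF : IsBP K G H F) (z : ℕ) :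
    ∀ p, F p → ∀ a ∈ p, sgDep G z a.1 ↔ sgDep H z a.2 := by
  intro p hp a ha
  simp only [sgDep, fun z => sg_tail_iff hK hF z p hp a ha]

theorem sg_mid_iff' (hK : 2 ≤ K) (hF : IsBP K G H F) (z : ℕ) :
    ∀ p, F p → ∀ a ∈ p, sgMid G z a.1 ↔ sgMid H z a.2 := by
  intro p hp a ha
  simp only [sgMid, hF.deg_eq hK hp ha, sg_transfer hK hF (sg_dep_iff' hK hF z) hp ha]

omit [DecidableEq N] in
theorem sg_len_inj (hnum : ∀ e ∈ E.edges, ∀ e' ∈ E.edges, E.num e = E.num e' → e = e') {e e' : N}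
    (he : e ∈ E.edges) (he' : e' ∈ E.edges) {s s' : ℕ} (hs : s = 1 ∨ s = 2) (hs' : s' = 1 ∨ s' = 2)
    (hl : E.len e s = E.len e' s') : e = e' ∧ s = s' := by
  unfold len at hl
  exact ⟨hnum e he e' he' (by omega), by omega⟩

theorem sg_mid_sep (h : E.OK c₀ rk) (X : Lift E.sub.base β G) (X' : Lift E.sub.base β' H)
    (hK : 2 ≤ K) (hF : IsBP K G H F) {p : Finset (V × W)} (hp : F p) {a : V × W} (ha : a ∈ p)
    {e : N} {s : ℕ} (hs : s ≠ 0) : X.cls a.1 = (e, s, 0) ↔ X'.cls a.2 = (e, s, 0) := by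
  have hl := sg_len (E := E) e hs
  have hm := sg_mid_iff' hK hF (E.len e s - 1) p hp a ha
  constructor
  · intro hv
    rcases hw : X'.cls a.2 with ⟨e', s', j'⟩
    obtain ⟨hs', rfl, hl'⟩ := (sg_mid_iff h X' (by omega) hw).1
      (hm.1 ((sg_mid_iff h X (by omega) hv).2 ⟨hs, rfl, by omega⟩))
    obtain ⟨h1, h2, -⟩ := sg_of_mem (hv ▸ X.mem a.1) hs
    obtain ⟨h3, h4, -⟩ := sg_of_mem (hw ▸ X'.mem a.2) hs'
    obtain ⟨rfl, rfl⟩ := sg_len_inj h.num h2 h4 h1 h3 (by omega)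
    rfl
  · intro hw
    rcases hv : X.cls a.1 with ⟨e', s', j'⟩
    obtain ⟨hs', rfl, hl'⟩ := (sg_mid_iff h X (by omega) hv).1
      (hm.2 ((sg_mid_iff h X' (by omega) hw).2 ⟨hs, rfl, by omega⟩))
    obtain ⟨h1, h2, -⟩ := sg_of_mem (hw ▸ X'.mem a.2) hs
    obtain ⟨h3, h4, -⟩ := sg_of_mem (hv ▸ X.mem a.1) hs'
    obtain ⟨rfl, rfl⟩ := sg_len_inj h.num h2 h4 h1 h3 (by omega)
    rfl

end Game

theorem sub_ok (h : E.OK c₀ rk) : E.sub.OK := by
  refine ⟨?_, fun x hx => ?_⟩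
  · simp only [sub]
    refine List.nodup_append.2 ⟨h.cls_nodup.map fun a b e => (Prod.ext_iff.1 e).1, ?_, ?_⟩
    · refine List.nodup_flatMap.2 ⟨fun e _ => List.nodup_flatMap.2 ⟨fun s _ => ?_, ?_⟩, ?_⟩
      · exact List.nodup_range.map fun a b e => by simpa using e
      · simp [List.disjoint_left]
      · refine h.edges_nodup.imp fun {a b} hab => ?_
        simp only [Function.onFun, List.disjoint_left, List.mem_flatMap, List.mem_map]
        rintro _ ⟨s, -, z, -, rfl⟩ ⟨s', -, z', -, e⟩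
        exact hab (Prod.ext_iff.1 e).1.symm
    · simp only [List.mem_map, List.mem_flatMap]
      rintro _ ⟨c, -, rfl⟩ _ ⟨e, -, s, hs, z, -, rfl⟩ h1
      simp only [Prod.mk.injEq] at h1
      simp only [List.mem_cons, List.not_mem_nil, or_false] at hs
      omega
  · have hx' : x ∈ E.sub.base.Cl := List.mem_toFinset.2 hx
    refine h.S_ok (E.src x) ?_
    obtain ⟨c, s, z⟩ := x
    by_cases hs : s = 0
    · subst hs
      exact (sg_of_mem0 hx').2
    · rw [sg_src hs]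
      exact (h.ends c (sg_of_mem hx' hs).2.1).2

/-- Connected: by induction on `rk` every vertex of an original class reaches the unique vertex of
`(c₀, 0, 0)` through `(e, 2, 0)`, `(e, 1, 0)`; the other vertices reach `(big e, 0, 0)`. -/
theorem sub_subcubic (h : E.OK c₀ rk) {n : ℕ} {G : Fin n → Fin n → Bool}
    (X : Lift E.sub.base β G) : 0 < n ∧ SimpleConnSubcubic G := by
  have hsimp : IsSimple G := X.isSimple sg_symm sg_irrefl
  obtain ⟨hc₀, hS₀, -⟩ := h.root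
  have hcon : E.con c₀ = 0 := by_contra fun h1 => (h.S_ok c₀ hc₀).2.2 h1 hS₀
  obtain ⟨r, hr, -⟩ := X.surj _ (sg_mem0 hc₀) 0 fun u hu => by
    rw [sg_con, sg_src0, if_pos hcon] at hu; cases hu
  have hadj : ∀ v w, G v w = true → (adjGraph G).Reachable v w := fun v w hw => by
    refine SimpleGraph.Adj.reachable ?_
    rw [adjGraph, SimpleGraph.fromRel_adj]
    refine ⟨?_, .inl hw⟩
    rintro rfl
    rw [hsimp.2] at hw
    cases hw
  have h0 : ∀ k c v, rk c = k → X.cls v = (c, 0, 0) → (adjGraph G).Reachable v r := by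
    intro k
    induction k using Nat.strong_induction_on with
    | _ k ih =>
      intro c v hk hv
      by_cases hc : c = c₀
      · subst hc
        rw [X.inj v r (hv.trans hr.symm) (by rw [hv, sg_S, sg_src0, hS₀]; simp)]
      obtain ⟨e, he, rfl, hlt⟩ := h.tree c (sg_of_mem0 (hv ▸ X.mem v)).2 hc
      obtain ⟨w₁, h1, h2⟩ := sg_nb_src X v (sg_mem he (.inr rfl) (Nat.zero_le _))
        (by rw [hv]; exact sg_adjb e) (by rw [hv, sg_src two_ne_zero, sg_src0])
      obtain ⟨w₂, h3, h4⟩ := sg_nb_src X w₁ (sg_mem he (.inl rfl) (Nat.zero_le _))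
        (by rw [h2, sg_symm]; exact sg_adj12 e) (by rw [h2, sg_src two_ne_zero, sg_src one_ne_zero])
      obtain ⟨w₃, h5, h6⟩ := sg_nb_small h X h4
      exact (hadj _ _ h1).trans ((hadj _ _ h3).trans ((hadj _ _ h5).trans
        (ih _ (hk ▸ hlt) _ w₃ rfl h6)))
  have h1 : ∀ z e s v, s ≠ 0 → X.cls v = (e, s, z) → (adjGraph G).Reachable v r := by
    intro z
    induction z with
    | zero =>
      intro e s v hs hv
      obtain ⟨rfl | rfl, he, -⟩ := sg_of_mem (hv ▸ X.mem v) hs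
      · obtain ⟨w, h5, h6⟩ := sg_nb_small h X hv
        exact (hadj _ _ h5).trans (h0 _ _ w rfl h6)
      · obtain ⟨w, h5, h6⟩ := sg_nb_src X v (sg_mem0 (h.ends e he).2)
          (by rw [hv, sg_symm]; exact sg_adjb e) (by rw [hv, sg_src hs, sg_src0])
        exact (hadj _ _ h5).trans (h0 _ _ w rfl h6)
    | succ z ih =>
      intro e s v hs hv
      obtain ⟨hs', he, hz⟩ := sg_of_mem (hv ▸ X.mem v) hs
      obtain ⟨w, h5, h6⟩ := sg_nb_src X v (sg_mem he hs' (z := z) (by omega))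
        (by rw [hv, sg_symm]; exact sg_adjT e hs z) (by rw [hv, sg_src hs, sg_src hs])
      exact (hadj _ _ h5).trans (ih e s w hs h6)
  have h2 : ∀ v, (adjGraph G).Reachable v r := by
    intro v
    rcases hv : X.cls v with ⟨e, s, z⟩
    by_cases hs : s = 0
    · subst hs
      obtain rfl := (sg_of_mem0 (hv ▸ X.mem v)).1
      exact h0 _ _ v rfl hv
    · exact h1 z e s v hs hv
  have : Nonempty (Fin n) := ⟨r⟩
  refine ⟨r.pos, hsimp, ⟨fun v w => (h2 v).trans (h2 w).symm⟩, fun v => ?_⟩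
  change deg G v ≤ 3
  rcases hv : X.cls v with ⟨e, s, z⟩
  by_cases hs : s = 0
  · subst hs
    obtain rfl := (sg_of_mem0 (hv ▸ X.mem v)).1
    exact sg_deg_orig h X hv
  · cases z with
    | zero => exact (sg_deg_mid h X hs hv).le
    | succ z => rw [sg_deg_tail X hs hv]; split_ifs <;> omega

/-- Walking down an edge keeps every variable of the small end. -/
theorem step_down (h : E.OK c₀ rk) {e : N} (he : e ∈ E.edges) {y : ℕ} (hy : y ∈ E.S (E.small e)) :
    Relation.ReflTransGen (E.sub.base.Step (fun x => x.2.2 = 0) y) (E.big e, 0, 0)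
      (E.small e, 0, 0) := by
  have hy' : y ∈ (E.S (E.big e)).toFinset := List.mem_toFinset.2 (h.sub e he hy)
  refine .tail (b := (e, 1, 0)) (.tail (b := (e, 2, 0)) (.single ?_) ?_) ?_
  · exact ⟨sg_mem he (.inr rfl) (Nat.zero_le _), rfl, sg_adjb e, hy', .inr rfl⟩
  · exact ⟨sg_mem he (.inl rfl) (Nat.zero_le _), rfl, (sg_symm _ _).trans (sg_adj12 e), hy', .inr rfl⟩
  · refine ⟨sg_mem0 (h.ends e he).1, rfl, (sg_symm _ _).trans (sg_adjs e), List.mem_toFinset.2 hy, ?_⟩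
    rw [sg_con, sg_con, sg_src0, sg_src one_ne_zero]
    rcases h.con e he with h1 | ⟨h1, -⟩
    · exact .inl (if_pos h1)
    · exact .inr (by rw [h1])

theorem step_up (h : E.OK c₀ rk) {e : N} (he : e ∈ E.edges) {y : ℕ} (hy : y ∈ E.S (E.small e))
    (hc : E.con (E.small e) = E.con (E.big e)) :
    Relation.ReflTransGen (E.sub.base.Step (fun x => x.2.2 = 0) y) (E.small e, 0, 0)
      (E.big e, 0, 0) := by
  have hy' : y ∈ (E.S (E.big e)).toFinset := List.mem_toFinset.2 (h.sub e he hy)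
  refine .tail (b := (e, 2, 0)) (.tail (b := (e, 1, 0)) (.single ?_) ?_) ?_
  · refine ⟨sg_mem he (.inl rfl) (Nat.zero_le _), rfl, sg_adjs e, hy', .inr ?_⟩
    rw [sg_con, sg_con, sg_src0, sg_src one_ne_zero, hc]
  · exact ⟨sg_mem he (.inr rfl) (Nat.zero_le _), rfl, sg_adj12 e, hy', .inr rfl⟩
  · exact ⟨sg_mem0 (h.ends e he).2, rfl, (sg_symm _ _).trans (sg_adjb e), hy', .inr rfl⟩

/-- Sketch. `Tail G 0 v := deg G v = 1`, `Tail G (z+1) v := deg G v = 2 ∧ ∃ w, G v w ∧ Tail G z w` (not exact: a walk may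
turn back), `Dep G z v := Tail G z v ∧ ∀ z' < z, ¬ Tail G z' v`. `Tail z` is preserved in both directions along pairs of
positions (`IsBP.deg_eq`, `ext` at a single pair, `IsBP.symm`), hence so is `Dep z`. In a lift: a vertex of class
`(e, s, j)`, `s ≠ 0`, `1 ≤ j`, has `Tail (len e s - j)`; conversely `Tail z v` implies that `v` is an original vertex and
`z = 0`, or `cls v = (e, s, j)` with `s ≠ 0`, `1 ≤ j`, `len e s - j ≤ z` (induction; all neighbours of an original vertex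
have degree `3`). So for `z ≥ 1`, `Dep z v` iff `cls v = (e, s, j)` with `j ≥ 1`, `len e s - j = z`. If `cls v = (e, s, 0)`,
`s ≠ 0`, then `v` has degree `3` and a neighbour with `Dep (len e s - 1)`; so has its partner `w`, which forces
`cls w = (e', s', 0)` with `len e' s' = len e s`, and `(e', s') = (e, s)` by `OK.num`. An original vertex `v` of class `c` has a
neighbour `m` in a class `(e, 2, 0)` with `big e = c` (`OK.tree`) or `(e, 1, 0)` with `small e = c` (`OK.root`); its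
partner `w` has a neighbour `m'` in the same class; `w` is not in a class `(e', s', 0)`, `s' ≠ 0` (the previous case for
the mirrored family) and has no `Dep z`, `z ≥ 1`; so among the three neighbours of `m'` it is the original one. -/
theorem sub_sep (h : E.OK c₀ rk) {V W : Type} [Fintype V] [DecidableEq V] [Fintype W]
    [DecidableEq W] {G : V → V → Bool} {H : W → W → Bool} (X : Lift E.sub.base β G)
    (X' : Lift E.sub.base β' H) {K : ℕ} (hK : 2 ≤ K) {F : Finset (V × W) → Prop} (hF : IsBP K G H F)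
    (p : Finset (V × W)) (hp : F p) (a : V × W) (ha : a ∈ p) (hg : (X.cls a.1).2.2 = 0) :
    X'.cls a.2 = X.cls a.1 := by
  rcases hv : X.cls a.1 with ⟨c, s, z⟩
  rw [hv] at hg
  obtain rfl : z = 0 := hg
  by_cases hs : s = 0
  swap
  · exact (sg_mid_sep h X X' hK hF hp ha hs).1 hv
  subst hs
  have hc := (sg_of_mem0 (hv ▸ X.mem a.1)).2
  obtain ⟨f, hf⟩ := sg_ext hK hF hp ha
  have hmid : ∀ e s, s ≠ 0 → X'.cls a.2 ≠ (e, s, 0) := fun e s hs h1 => by
    have := (sg_mid_sep h X X' hK hF hp ha hs).2 h1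
    rw [hv] at this
    exact hs (Prod.ext_iff.1 (Prod.ext_iff.1 this).2).1.symm
  have htail : ∀ e s, s ≠ 0 → X'.cls a.2 ≠ (e, s, 1) := fun e s hs h1 => by
    have hl := sg_len (E := E) e hs
    have h2 := (sg_dep_iff h X' (z := E.len e s - 1) (by omega) h1).2 ⟨hs, le_rfl, by omega⟩
    have h3 := (sg_dep_iff h X (by omega) hv).1 ((sg_dep_iff' hK hF _ p hp a ha).2 h2)
    exact h3.1 rfl
  have key : ∀ m e s, s ≠ 0 → G a.1 m = true → X.cls m = (e, s, 0) →
      E.sub.base.adj (e, s, 0) (X'.cls a.2) = true := fun m e s hs h1 h2 => by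
    have h3 := (sg_mid_sep h X X' hK hF (hf m).1 (a := (m, f m)) (by simp) hs).1 h2
    have h4 := ((X'.adj _ _).1 ((hf m).2.symm.trans h1)).1
    rwa [sg_symm, h3] at h4
  by_cases hc₀ : c = c₀
  · subst hc₀
    obtain ⟨-, -, e, he, h1, h2⟩ := h.root
    obtain ⟨m, h3, h4⟩ := sg_exists_nb X a.1 (sg_mem he (.inl rfl) (Nat.zero_le _))
      (by rw [hv, ← h1]; exact sg_adjs e) (.inl (by rw [sg_con, sg_src one_ne_zero, if_pos h2]))
    rcases sg_nb1 (X'.mem a.2) (key m e 1 one_ne_zero h3 h4) with h5 | h5 | h5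
    · rw [h5, h1]
    · exact absurd h5 (hmid _ _ two_ne_zero)
    · exact absurd h5 (htail _ _ one_ne_zero)
  · obtain ⟨e, he, rfl, -⟩ := h.tree c hc hc₀
    obtain ⟨m, h3, h4⟩ := sg_nb_src X a.1 (sg_mem he (.inr rfl) (Nat.zero_le _))
      (by rw [hv]; exact sg_adjb e) (by rw [hv, sg_src two_ne_zero, sg_src0])
    rcases sg_nb2 (X'.mem a.2) (key m e 2 two_ne_zero h3 h4) with h5 | h5 | h5
    · exact h5
    · exact absurd h5 (hmid _ _ one_ne_zero)
    · exact absurd h5 (htail _ _ two_ne_zero)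

end EB

end Crest.Agent.R290
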